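import Vale.Agent.P066.Calc

/-! Orthogonal sets. -/

set_option linter.unusedSectionVars false

noncomputable section
open scoped Classical
open Module

namespace Vale.Agent.P066

variable {L : Type} [AddCommGroup L] {ι : Type} [Fintype ι] {q : QT L} {e : Basis ι ℤ L}

/-- Orthogonal sets. -/
def exO (q : QT L) {V : Type} (w : V → L) (S : Finset V) : Prop :=
  ∀ a ∈ S, ∀ b ∈ S, q.B (w a) (w b) = 0

lemma Hs_eq {V : Type} (v : V → L) (W : Finset V) (k : ℕ) :
    Hs q e v W k = ∑ S ∈ (W.powersetCard k).filter (fun S => exO q v S),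
      mono q e (∑ a ∈ S, v a) 1 := by
  unfold Hs
  exact Finset.sum_congr (@Finset.filter_congr_decidable _ _ (fun S => exO q v S) _ _)
    fun _ _ => rfl

lemma exO_insert {V : Type} (w : V → L) (x : V) (T : Finset V) :
    exO q w (insert x T) ↔ exO q w T ∧ ∀ a ∈ T, q.B (w x) (w a) = 0 := by
  constructor
  · intro h
    exact ⟨fun a ha b hb => h a (Finset.mem_insert_of_mem ha) b (Finset.mem_insert_of_mem hb),
      fun a ha => h x (Finset.mem_insert_self _ _) a (Finset.mem_insert_of_mem ha)⟩
  · rintro ⟨h1, h2⟩ a ha b hb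
    rcases Finset.mem_insert.1 ha with ha' | ha' <;> rcases Finset.mem_insert.1 hb with hb' | hb'
    · rw [ha', hb']; exact q.alt _
    · rw [ha']; exact h2 b hb'
    · rw [hb', q.swap, h2 a ha', neg_zero]
    · exact h1 a ha' b hb'

end Vale.Agent.P066
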