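import Vale.Agent.P066.Conj
import Vale.Agent.P066.ExchAux

/-! The exchange identity for the generating series of orthogonal sets. -/

set_option linter.unusedSectionVars false

noncomputable section
open scoped Classical
open Module

namespace Vale.Agent.P066

variable {L : Type} [AddCommGroup L] {ι : Type} [Fintype ι] {q : QT L} {e : Basis ι ℤ L}

lemma sp_Hs (N : Set L) {M : AddSubmonoid L} {V : Type} {v : V → L} {W : Finset V}
    (h : ∀ a ∈ W, v a ∈ M) (k : ℕ) : Sp N (Hs q e v W k) M := by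
  rw [Hs_eq]
  refine Sp.sum _ fun S hS => sp_mono_ser N ?_ 1
  have h1 := (Finset.mem_powersetCard.1 (Finset.mem_filter.1 hS).1).1
  exact sum_mem fun a ha => h a (h1 ha)

lemma sp_HP (N : Set L) {M : AddSubmonoid L} {V : Type} {v : V → L} {W : Finset V}
    (h : ∀ a ∈ W, v a ∈ M) (ks : List ℕ) : Sp N (HP q e v W ks) M :=
  (Sp.list_prod low_univ ks fun k _ => sp_Hs Set.univ h k).mono (Set.subset_univ _)
    fun _ _ _ hn => hn

/-- Vertices of large degree do not matter. -/
lemma cong_HP {V : Type} {v v' : V → L} {W W' : Finset V} (hW : W ⊆ W') {D : ℕ}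
    (hv : ∀ a ∈ W', v' a ∈ cone e) (h : ∀ a ∈ W, v' a = v a)
    (h' : ∀ a ∈ W', a ∉ W → (D : ℤ) < deg e (v' a)) (ks : List ℕ) :
    Cong (ND e D) (HP q e v' W' ks) (HP q e v W ks) := by
  refine Cong.list_prod (low_ND D) ks fun k _ n hn => ?_
  have e1 : Hs q e v W k = Hs q e v' W k := by
    rw [Hs_eq, Hs_eq]
    refine Finset.sum_congr (Finset.filter_congr fun S hS => ?_) fun S hS => ?_
    · have h1 := (Finset.mem_powersetCard.1 hS).1
      refine forall₂_congr fun a ha => forall₂_congr fun b hb => ?_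
      rw [h a (h1 ha), h b (h1 hb)]
    · have h1 := (Finset.mem_powersetCard.1 (Finset.mem_filter.1 hS).1).1
      rw [Finset.sum_congr rfl fun a ha => h a (h1 ha)]
  rw [e1, Hs_eq, Hs_eq, Ser.sum_apply, Ser.sum_apply]
  symm
  refine Finset.sum_subset (Finset.filter_subset_filter _ (Finset.powersetCard_mono hW))
    fun S hS hS' => ?_
  obtain ⟨h1, h2⟩ := Finset.mem_filter.1 hS
  obtain ⟨h3, h4⟩ := Finset.mem_powersetCard.1 h1
  have h5 : ¬ S ⊆ W := fun h5 =>
    hS' (Finset.mem_filter.2 ⟨Finset.mem_powersetCard.2 ⟨h5, h4⟩, h2⟩)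
  obtain ⟨a, ha, haW⟩ := Finset.not_subset.1 h5
  rw [mono_apply (sum_mem fun a ha => hv a (h3 ha)), if_neg]
  rintro rfl
  have h6 : deg e (∑ a ∈ S, v' a) ≤ D := hn
  rw [map_sum] at h6
  have h7 := Finset.single_le_sum (f := fun a => deg e (v' a))
    (fun a ha => deg_nonneg (hv a (h3 ha))) ha
  have h8 := h' a (h3 ha) haW
  omega

/-- The kernel of the form against `X`. -/
def exK (q : QT L) (X : L) : AddSubmonoid L := AddMonoidHom.mker (q.B X)

lemma exK_mem {X n : L} : n ∈ exK q X ↔ q.B X n = 0 := Iff.rfl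

lemma ex_sp {X p : L} {a b : Ser q e} (ha : Sp Set.univ a (exK q X))
    (hb : Sp Set.univ b (exK q X)) {n : L} (hn : q.B X n ≠ q.B X p) :
    (a * mono q e p 1 * b) n = 0 := by
  have h1 : Sp Set.univ (mono q e p 1) {n | q.B X n = q.B X p} :=
    sp_mono_ser _ (show p ∈ {n | q.B X n = q.B X p} from rfl) 1
  have h2 : Sp Set.univ (a * mono q e p 1) {n | q.B X n = q.B X p} :=
    Sp.mul low_univ ha h1 fun x hx y hy _ _ => by
      have h3 : q.B X x = 0 := hx
      have h4 : q.B X y = q.B X p := hy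
      show q.B X (x + y) = q.B X p
      rw [map_add, h3, h4, zero_add]
  have h3 : Sp Set.univ (a * mono q e p 1 * b) {n | q.B X n = q.B X p} :=
    Sp.mul low_univ h2 hb fun x hx y hy _ _ => by
      have h3 : q.B X x = q.B X p := hx
      have h4 : q.B X y = 0 := hy
      show q.B X (x + y) = q.B X p
      rw [map_add, h3, h4, add_zero]
  by_contra h4
  exact hn (h3 n (Set.mem_univ n) h4)

lemma ex_two {X p n : L} (hm : X ∈ cone e) (hp : p ∈ cone e) :
    ∑ j ∈ Finset.range (1 + 1), gb 1 j * mono q e p 1 (n - j • X) =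
      (mono q e p 1 + mono q e (p + X) 1) n := by
  rw [Finset.sum_range_succ, Finset.sum_range_one, gb_zero, gb_one_one, Ser.add_apply,
    mono_apply (add_mem hp hm), zero_smul, sub_zero, one_smul, one_mul, one_mul,
    mono_apply hp 1 (n - X)]
  simp only [sub_eq_iff_eq_add]

lemma ex_two_zero {X p n : L} (hm : X ∈ cone e) (hp : p ∈ cone e) (hn : q.B X n ≠ q.B X p) :
    (mono q e p 1 + mono q e (p + X) 1) n = 0 := by
  rw [Ser.add_apply, mono_apply hp, mono_apply (add_mem hp hm), if_neg, if_neg, add_zero]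
  · rintro rfl; exact hn (by rw [map_add, q.alt, add_zero])
  · rintro rfl; exact hn rfl

lemma ex_zero {X p : L} (h : q.B X p = 0) :
    Ez q e X * mono q e p 1 = mono q e p 1 * Ez q e X := by
  refine comm_of_orth (M2 := {p}) (sp_Ez Set.univ (M := mulM X) (mem_mulM.2 ⟨1, one_smul _ _⟩))
    (sp_mono_ser _ (Set.mem_singleton p) 1) ?_
  rintro a ⟨k, rfl⟩ b rfl
  simp [h]

lemma ex_neg {X p : L} (hm : X ∈ cone e) (hp : p ∈ cone e) (h : q.B X p = -1) :
    Ez q e X * mono q e p 1 = (mono q e p 1 + mono q e (p + X) 1) * Ez q e X := by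
  have h0 : X ≠ 0 := by rintro rfl; simp at h
  have hE := Ez_zero (q := q) hm h0
  have hs : Sp Set.univ (Ez q e X) (exK q X) := sp_Ez _ (exK_mem.2 (q.alt X))
  have h1 : Ez q e X * mono q e p 1 * inv (Ez q e X) = mono q e p 1 + mono q e (p + X) 1 := by
    refine Ser.ext' fun n => ?_
    by_cases hn : q.B X n = q.B X p
    · rw [conjE_neg hm h0 _ (c := 1) (by rw [hn, h]; rfl), ex_two hm hp]
    · rw [ex_sp hs (hs.inv low_univ hE) hn, ex_two_zero hm hp hn]
  rw [← h1, mul_assoc, inv_mul hE, mul_one]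

lemma ex_pos {X p : L} (hm : X ∈ cone e) (hp : p ∈ cone e) (h : q.B X p = 1) :
    Ez q e X * (mono q e p 1 + mono q e (p + X) 1) = mono q e p 1 * Ez q e X := by
  have h0 : X ≠ 0 := by rintro rfl; simp at h
  have hE := Ez_zero (q := q) hm h0
  have hs : Sp Set.univ (Ez q e X) (exK q X) := sp_Ez _ (exK_mem.2 (q.alt X))
  have h1 : inv (Ez q e X) * mono q e p 1 * Ez q e X = mono q e p 1 + mono q e (p + X) 1 := by
    refine Ser.ext' fun n => ?_
    by_cases hn : q.B X n = q.B X p
    · rw [conjE_pos hm h0 _ (c := 1) (by rw [hn, h]; rfl), ex_two hm hp]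
    · rw [ex_sp (hs.inv low_univ hE) hs hn, ex_two_zero hm hp hn]
  rw [← h1, ← mul_assoc, ← mul_assoc, mul_inv hE, one_mul]

lemma ex_split {V : Type} [Fintype V] {w : V → L} {a0 b c : V} (h0b : a0 ≠ b) (hbc' : b ≠ c)
    {X : L} (hw : w a0 = w b + X) (hb : q.B X (w b) ≠ 0) (hc : q.B X (w c) ≠ 0)
    (hbc : q.B (w b) (w c) = 0) (h0 : ∀ a, a ≠ a0 → a ≠ b → a ≠ c → q.B X (w a) = 0) (k : ℕ) :
    Hs q e w Finset.univ k =
      ∑ S ∈ (Finset.univ.powersetCard k).filter (fun S => exO q w S ∧ a0 ∉ S),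
        (mono q e (∑ a ∈ S, w a) 1 +
          if b ∈ S ∧ c ∉ S then mono q e (∑ a ∈ S, w a + X) 1 else 0) := by
  have key : ∀ T : Finset V, a0 ∉ T → b ∉ T → c ∉ T →
      (exO q w (insert a0 T) ↔ exO q w (insert b T)) := by
    intro T h1 h2 h3
    rw [exO_insert, exO_insert]
    refine and_congr_right fun _ => forall₂_congr fun a ha => ?_
    rw [hw, map_add, AddMonoidHom.add_apply,
      h0 a (ne_of_mem_of_not_mem ha h1) (ne_of_mem_of_not_mem ha h2) (ne_of_mem_of_not_mem ha h3),
      add_zero]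
  have nb : ∀ S, exO q w S → a0 ∈ S → b ∉ S := fun S hS h1 h2 => hb (by
    have := hS a0 h1 b h2
    rwa [hw, map_add, AddMonoidHom.add_apply, q.alt, zero_add] at this)
  have nc : ∀ S, exO q w S → a0 ∈ S → c ∉ S := fun S hS h1 h2 => hc (by
    have := hS a0 h1 c h2
    rwa [hw, map_add, AddMonoidHom.add_apply, hbc, zero_add] at this)
  rw [Finset.sum_add_distrib, ← Finset.sum_filter, Hs_eq,
    ← Finset.sum_filter_add_sum_filter_not _ (fun S => a0 ∉ S), Finset.filter_filter,
    Finset.filter_filter, Finset.filter_filter]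
  refine congrArg₂ (· + ·) rfl ?_
  refine Finset.sum_nbij' (fun S => insert b (S.erase a0)) (fun S => insert a0 (S.erase b))
    ?_ ?_ ?_ ?_ ?_
  · intro S hS
    simp only [Finset.mem_filter, Finset.mem_powersetCard, Finset.subset_univ, true_and,
      not_not] at hS ⊢
    obtain ⟨h1, h2, h3⟩ := hS
    have h4 : b ∉ S.erase a0 := fun h => nb S h2 h3 (Finset.mem_of_mem_erase h)
    have h5 : c ∉ S.erase a0 := fun h => nc S h2 h3 (Finset.mem_of_mem_erase h)
    refine ⟨?_, ⟨?_, ?_⟩, Finset.mem_insert_self _ _, ?_⟩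
    · rw [Finset.card_insert_of_notMem h4, Finset.card_erase_add_one h3, h1]
    · rw [← key _ (Finset.notMem_erase _ _) h4 h5, Finset.insert_erase h3]; exact h2
    · simp [h0b]
    · rw [Finset.mem_insert, not_or]
      exact ⟨hbc'.symm, h5⟩
  · intro S hS
    simp only [Finset.mem_filter, Finset.mem_powersetCard, Finset.subset_univ, true_and,
      not_not] at hS ⊢
    obtain ⟨h1, ⟨h2, h3⟩, h4, h5⟩ := hS
    have h6 : a0 ∉ S.erase b := fun h => h3 (Finset.mem_of_mem_erase h)
    refine ⟨?_, ?_, Finset.mem_insert_self _ _⟩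
    · rw [Finset.card_insert_of_notMem h6, Finset.card_erase_add_one h4, h1]
    · have := (key _ h6 (Finset.notMem_erase _ _) fun h => h5 (Finset.mem_of_mem_erase h)).2
        (by rw [Finset.insert_erase h4]; exact h2)
      exact this
  · intro S hS
    simp only [Finset.mem_filter, not_not] at hS
    obtain ⟨-, h2, h3⟩ := hS
    have h4 : b ∉ S.erase a0 := fun h => nb S h2 h3 (Finset.mem_of_mem_erase h)
    rw [Finset.erase_insert h4, Finset.insert_erase h3]
  · intro S hS
    simp only [Finset.mem_filter] at hS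
    obtain ⟨-, ⟨-, h3⟩, h4, -⟩ := hS
    have h6 : a0 ∉ S.erase b := fun h => h3 (Finset.mem_of_mem_erase h)
    rw [Finset.erase_insert h6, Finset.insert_erase h4]
  · intro S hS
    simp only [Finset.mem_filter, not_not] at hS
    obtain ⟨-, h2, h3⟩ := hS
    have h4 : b ∉ S.erase a0 := fun h => nb S h2 h3 (Finset.mem_of_mem_erase h)
    rw [Finset.sum_insert h4, ← Finset.add_sum_erase _ _ h3, hw, add_right_comm]

theorem exch {V : Type} [Fintype V] {v v' : V → L} {a0 a1 a2 : V} (h01 : a0 ≠ a1) (h02 : a0 ≠ a2)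
    (h12 : a1 ≠ a2) {X : L} (hX : X = v a0 - v a1) (hm : X ∈ cone e) (hv : ∀ a, v a ∈ cone e)
    (h0 : v' a0 = v a2 + X) (hne : ∀ a, a ≠ a0 → v' a = v a) (b1 : q.B X (v a1) = -1)
    (b2 : q.B X (v a2) = 1) (b0 : ∀ a, a ≠ a0 → a ≠ a1 → a ≠ a2 → q.B X (v a) = 0)
    (b12 : q.B (v a1) (v a2) = 0) (ks : List ℕ) :
    Ez q e X * HP q e v' Finset.univ ks = HP q e v Finset.univ ks * Ez q e X := by
  have one : ∀ k, Ez q e X * Hs q e v' Finset.univ k = Hs q e v Finset.univ k * Ez q e X := by
    intro k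
    have e1 := hne a1 h01.symm
    have e2 := hne a2 h02.symm
    rw [ex_split (w := v) (X := X) h01 h12 (by rw [hX]; abel) (by rw [b1]; decide)
        (by rw [b2]; decide) b12 b0,
      ex_split (w := v') (X := X) h02 h12.symm (by rw [h0, e2]) (by rw [e2, b2]; decide)
        (by rw [e1, b1]; decide) (by rw [e1, e2, q.swap, b12, neg_zero])
        (fun a h1 h2 h3 => by rw [hne a h1]; exact b0 a h1 h3 h2),
      Finset.mul_sum, Finset.sum_mul]
    refine Finset.sum_congr (Finset.filter_congr fun S _ => and_congr_left fun hS => ?_)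
      fun S hS => ?_
    · refine forall₂_congr fun a ha => forall₂_congr fun b hb => ?_
      rw [hne a (ne_of_mem_of_not_mem ha hS), hne b (ne_of_mem_of_not_mem hb hS)]
    · have hS' := (Finset.mem_filter.1 hS).2.2
      rw [Finset.sum_congr rfl fun a ha => hne a (ne_of_mem_of_not_mem ha hS')]
      have hp : ∑ a ∈ S, v a ∈ cone e := sum_mem fun a _ => hv a
      have hB : q.B X (∑ a ∈ S, v a) =
          (if a2 ∈ S then 1 else 0) - (if a1 ∈ S then 1 else 0) := by
        rw [map_sum, ← Finset.sum_ite_eq' S a2 fun _ => (1 : ℤ),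
          ← Finset.sum_ite_eq' S a1 fun _ => (1 : ℤ), ← Finset.sum_sub_distrib]
        refine Finset.sum_congr rfl fun a ha => ?_
        by_cases h1 : a = a1
        · rw [h1, b1, if_neg h12, if_pos rfl]; rfl
        · by_cases h2 : a = a2
          · rw [h2, b2, if_neg h12.symm, if_pos rfl]; rfl
          · rw [b0 a (ne_of_mem_of_not_mem ha hS') h1 h2, if_neg h1, if_neg h2]; rfl
      by_cases h1 : a1 ∈ S <;> by_cases h2 : a2 ∈ S <;>
        simp only [h1, h2, if_true, if_false, not_true, not_false_iff, and_true, and_false,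
          add_zero] at hB ⊢
      · exact ex_zero hB
      · exact ex_neg hm hp hB
      · exact ex_pos hm hp hB
      · exact ex_zero hB
  unfold HP
  induction ks with
  | nil => simp
  | cons k ks ih =>
    rw [List.map_cons, List.prod_cons, List.map_cons, List.prod_cons, ← mul_assoc, one, mul_assoc,
      ih, mul_assoc]

end Vale.Agent.P066
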