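import Vale.Agent.P066.Defs

/-! Periodic mutation sequences. -/

noncomputable section
open scoped Classical
open Module

namespace Vale.Agent.P066

/-- An infinite mutation sequence together with vertex families and height functionals. -/
structure Grid {L : Type} [AddCommGroup L] (q : QT L) (ι V J : Type) [Fintype ι] [Fintype V]
    [Fintype J] where
  e : ℕ → Basis ι ℤ L
  k : ℕ → ι
  U : Finset ι
  kU : ∀ t, k t ∈ U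
  step : ∀ t, e (t + 1) = mutB q (e t) (k t)
  v : ℕ → V → L
  a0 : ℕ → V
  a1 : ℕ → V
  a2 : ℕ → V
  ne01 : ∀ t, a0 t ≠ a1 t
  ne02 : ∀ t, a0 t ≠ a2 t
  ne12 : ∀ t, a1 t ≠ a2 t
  hX : ∀ t, e t (k t) = v t (a0 t) - v t (a1 t)
  v0 : ∀ t, v (t + 1) (a0 t) = v t (a2 t) + e t (k t)
  vne : ∀ t a, a ≠ a0 t → v (t + 1) a = v t a
  b1 : ∀ t, q.B (e t (k t)) (v t (a1 t)) = -1
  b2 : ∀ t, q.B (e t (k t)) (v t (a2 t)) = 1
  b0 : ∀ t a, a ≠ a0 t → a ≠ a1 t → a ≠ a2 t → q.B (e t (k t)) (v t a) = 0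
  b12 : ∀ t, q.B (v t (a1 t)) (v t (a2 t)) = 0
  vmem : ∀ t s a, t ≤ s → v s a ∈ cone (e t)
  Xmem : ∀ t s, t ≤ s → e s (k s) ∈ cone (e t)
  nXmem : ∀ t s, s < t → - e s (k s) ∈ cone (e t)
  M : ℕ
  σ : J → L →+ ℤ
  η : ℕ → J → L →+ ℤ
  η0 : ∀ t j n, n ∈ cone (e t) → 0 ≤ η t j n
  η1 : ∀ t j n, n ∈ cone (e t) → η t j n ≤ deg (e t) n
  ηM : ∀ t j n, η (t + M) j n = η t j n - σ j n
  σX : ∀ s j, 0 ≤ σ j (e s (k s))
  σX1 : ∀ s, ∃ j, 0 < σ j (e s (k s))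
  conc : ∀ t p, (∀ s, t ≤ s → q.B (e s (k s)) p ≤ 0) → ∀ j, 0 ≤ σ j p
  W : Finset V
  vW : ∀ t a, a ∈ W → v t a = v 0 a
  σW : ∀ j a, a ∈ W → σ j (v 0 a) = 0
  BW : ∀ a n, a ∈ W → (∀ j, σ j n = 0) → q.B (v 0 a) n = 0
  far : ∀ t (N : ℕ) a, a ∉ W → (N : ℤ) ≤ deg (e t) (v (t + N * M) a)

/-- Vertices of the grid: backgrounds and (level, round) pairs. -/
abbrev GV (ρ m : ℕ) := Fin (ρ + 1) ⊕ (Fin ρ × Fin m)

end Vale.Agent.P066
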