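import Vale.Agent.P066.MI
import Vale.Agent.P066.Exch
import Vale.Agent.P066.GDefs

/-! Evaluation of the conjugated coefficients along a periodic mutation sequence. -/

set_option linter.unusedSectionVars false

noncomputable section
open scoped Classical
open Module

namespace Vale.Agent.P066

variable {L : Type} [AddCommGroup L] {ι V J : Type} [Fintype ι] [Fintype V] [Fintype J]
  {q : QT L}

namespace Grid

variable (G : Grid q ι V J)

/-- The mutation direction at time `t`. -/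
abbrev X (t : ℕ) : L := G.e t (G.k t)

/-- The series of the vertices at time `s`, in the cone of time `t`. -/
abbrev F (t s : ℕ) (ks : List ℕ) : Ser q (G.e t) := HP q (G.e t) (G.v s) Finset.univ ks

lemma X_ne (t : ℕ) : G.X t ≠ 0 := (G.e t).ne_zero _

lemma exch' {t s : ℕ} (h : t ≤ s) (ks : List ℕ) :
    Ez q (G.e t) (G.X s) * G.F t (s + 1) ks = G.F t s ks * Ez q (G.e t) (G.X s) :=
  exch (G.ne01 s) (G.ne02 s) (G.ne12 s) (G.hX s) (G.Xmem t s h) (fun a => G.vmem t s a h) (G.v0 s)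
    (G.vne s) (G.b1 s) (G.b2 s) (G.b0 s) (G.b12 s) ks

lemma shear_mem (t : ℕ) (a : V) : miSh q (G.X t) (G.v t a) ∈ cone (G.e (t + 1)) := by
  rw [miSh_apply]
  have h1 := G.vmem (t + 1) (t + 1) (G.a1 t) le_rfl
  rw [G.vne t _ (G.ne01 t).symm] at h1
  by_cases h0 : a = G.a0 t
  · have : G.v t a = G.X t + G.v t (G.a1 t) := by rw [h0, X, G.hX]; abel
    rw [this, map_add, q.alt, G.b1]
    simpa [add_comm, add_left_comm] using h1
  by_cases h2 : a = G.a1 t
  · rw [h2, G.b1, neg_one_zsmul]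
    exact add_mem h1 (G.nXmem (t + 1) t (Nat.lt_succ_self t))
  by_cases h3 : a = G.a2 t
  · rw [h3, G.b2, one_zsmul, ← G.v0]
    exact G.vmem _ _ _ le_rfl
  · rw [G.b0 t a h0 h2 h3, zero_zsmul, add_zero, ← G.vne t a h0]
    exact G.vmem _ _ _ le_rfl

lemma step_cl (t : ℕ) {g : Ser q (G.e t)} (hg : IsCl G.U g) :
    ∃ (h : Ser q (G.e t)) (h' : Ser q (G.e (t + 1))), (∀ n, h' n = h n) ∧ h 0 = 1 ∧
      g = Ez q (G.e t) (G.X t) * h ∧ IsCl G.U (h' * Ez q (G.e (t + 1)) (- G.X t)) ∧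
      ∀ ks p, alpha g (G.F t t ks) p = alpha (h' * Ez q (G.e (t + 1)) (- G.X t))
        (G.F (t + 1) (t + 1) ks) (p + max (q.B (G.X t) p) 0 • G.X t) := by
  have key : ∀ e' : Basis ι ℤ L, e' = mutB q (G.e t) (G.k t) → (∀ a, G.v (t + 1) a ∈ cone e') →
      (∀ a, miSh q (G.X t) (G.v t a) ∈ cone e') →
      ∃ (h : Ser q (G.e t)) (h' : Ser q e'), (∀ n, h' n = h n) ∧ h 0 = 1 ∧
        g = Ez q (G.e t) (G.X t) * h ∧ IsCl G.U (h' * Ez q e' (- G.X t)) ∧
        ∀ ks p, alpha g (G.F t t ks) p = alpha (h' * Ez q e' (- G.X t))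
          (HP q e' (G.v (t + 1)) Finset.univ ks) (p + max (q.B (G.X t) p) 0 • G.X t) := by
    rintro e' rfl hv hs
    obtain ⟨h, h', r, h0, h1, h2, h3⟩ := MI (G.kU t) hg
    refine ⟨h, h', r, h0, h1, h2, fun ks p => h3 _ (G.F t (t + 1) ks) _ ?_ (G.exch' le_rfl ks) ?_ p⟩
    · exact rel_HP (fun a _ => G.vmem t (t + 1) a (Nat.le_succ t)) (fun a _ => hv a) ks
    · intro n hn
      exact sp_HP Set.univ (M := (cone _).comap (miSh q (G.X t)).toAddMonoidHom)
        (fun a _ => hs a) ks n (Set.mem_univ n) hn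
  exact key _ (G.step t) (fun a => G.vmem _ _ a le_rfl) (G.shear_mem t)

/-- The tropical orbit of a point. -/
def pp (p : L) : ℕ → L
  | 0 => p
  | t + 1 => pp p t + max (q.B (G.X t) (pp p t)) 0 • G.X t

lemma seq {g : Ser q (G.e 0)} (hg : IsCl G.U g) (p : L) (t : ℕ) :
    ∃ gt : Ser q (G.e t), IsCl G.U gt ∧
      ∀ ks, alpha g (G.F 0 0 ks) p = alpha gt (G.F t t ks) (G.pp p t) := by
  induction t with
  | zero => exact ⟨g, hg, fun _ => rfl⟩
  | succ t ih =>
    obtain ⟨gt, h1, h2⟩ := ih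
    obtain ⟨h, h', -, -, -, h3, h4⟩ := G.step_cl t h1
    exact ⟨_, h3, fun ks => by rw [h2, h4]; rfl⟩

lemma eta_iter (t N : ℕ) (j : J) (n : L) : G.η (t + N * G.M) j n = G.η t j n - N * G.σ j n := by
  induction N with
  | zero => simp
  | succ N ih =>
    rw [Nat.succ_mul, ← add_assoc, G.ηM, ih]
    push_cast; ring

lemma pp_le (p : L) (δ : L →+ ℤ) {t s : ℕ} (hts : t ≤ s) (h : ∀ r, r < s → δ (G.X r) ≤ 0) :
    δ (G.pp p s) ≤ δ (G.pp p t) := by
  induction s, hts using Nat.le_induction with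
  | base => exact le_rfl
  | succ s hs ih =>
    have h1 := ih (fun r hr => h r (Nat.lt_succ_of_lt hr))
    have h2 := h s (Nat.lt_succ_self s)
    have h3 : 0 ≤ max (q.B (G.X s) (G.pp p s)) 0 := le_max_right _ _
    rw [pp, map_add, map_zsmul, smul_eq_mul]
    nlinarith

lemma sigma_nonpos {p : L} (h : ∀ t, G.pp p t ∈ cone (G.e t)) (t : ℕ) (j : J) :
    G.σ j (G.pp p t) ≤ 0 := by
  by_contra h0
  set N := (deg (G.e t) (G.pp p t)).toNat + 1 with hN
  have h1 := G.η0 _ j _ (h (t + N * G.M))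
  have h2 := G.pp_le p (G.η (t + N * G.M) j) (Nat.le_add_right t (N * G.M)) (fun r hr => by
    have := G.η0 _ j _ (G.nXmem _ r hr)
    rw [map_neg] at this
    exact neg_nonneg.1 this)
  rw [G.eta_iter t N j (G.pp p t)] at h2
  have h3 := G.η1 t j _ (h t)
  have h4 : deg (G.e t) (G.pp p t) < N := by
    have := Int.self_le_toNat (deg (G.e t) (G.pp p t))
    rw [hN]; push_cast; omega
  have h5 : (0 : ℤ) ≤ N := Nat.cast_nonneg N
  nlinarith

lemma exists_stable {p : L} (h : ∀ t, G.pp p t ∈ cone (G.e t)) :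
    ∃ t0, ∀ s, t0 ≤ s → q.B (G.X s) (G.pp p t0) ≤ 0 := by
  set S : L →+ ℤ := ∑ j, G.σ j with hS
  have hS' : ∀ n, S n = ∑ j, G.σ j n := fun n => by rw [hS, AddMonoidHom.finsetSum_apply]
  have hX : ∀ s, 0 < S (G.X s) := fun s => by
    obtain ⟨j, hj⟩ := G.σX1 s
    rw [hS']
    exact Finset.sum_pos' (fun j _ => G.σX s j) ⟨j, Finset.mem_univ j, hj⟩
  obtain ⟨z, ⟨t0, rfl⟩, hz⟩ := Int.exists_greatest_of_bdd (P := fun z => ∃ t, S (G.pp p t) = z)
    ⟨0, by
      rintro z ⟨t, rfl⟩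
      rw [hS']
      exact Finset.sum_nonpos fun j _ => G.sigma_nonpos h t j⟩ ⟨_, 0, rfl⟩
  have key : ∀ s, G.pp p s = G.pp p t0 → q.B (G.X s) (G.pp p t0) ≤ 0 := by
    intro s hs
    have h1 := hz _ ⟨s + 1, rfl⟩
    rw [pp, hs, map_add, map_zsmul, smul_eq_mul] at h1
    by_contra h2
    rw [max_eq_left (not_le.1 h2).le] at h1
    have := mul_pos (not_le.1 h2) (hX s)
    omega
  refine ⟨t0, fun s hs => key s ?_⟩
  induction s, hs using Nat.le_induction with
  | base => rfl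
  | succ s hs ih => rw [pp, ih, max_eq_right (key s ih), zero_zsmul, add_zero]

/-- Points lying in all cones from time `T` on. -/
def Yc (T : ℕ) : AddSubmonoid L where
  carrier := {n | ∀ s, T ≤ s → n ∈ cone (G.e s)}
  add_mem' := fun ha hb s hs => add_mem (ha s hs) (hb s hs)
  zero_mem' := fun _ _ => zero_mem _

lemma psi {t0 : ℕ} {g0 : Ser q (G.e t0)} (hg : IsCl G.U g0) {p : L}
    (hp : ∀ s, t0 ≤ s → q.B (G.X s) p ≤ 0) (T : ℕ) (hT : t0 ≤ T) :
    ∃ (b Ψ : Ser q (G.e t0)) (b' y : Ser q (G.e T)), IsCl G.U (b' * y) ∧ (∀ n, b' n = b n) ∧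
      b 0 = 1 ∧ y 0 = 1 ∧ Ψ 0 = 1 ∧ Sp Set.univ y (G.Yc T) ∧ Sp Set.univ Ψ (leM (th q p)) ∧
      g0 = Ψ * b ∧ ∀ ks, Ψ * G.F t0 T ks = G.F t0 t0 ks * Ψ := by
  induction T, hT using Nat.le_induction with
  | base =>
    exact ⟨g0, 1, g0, 1, by rwa [mul_one], fun _ => rfl, hg.1, one_zero_apply, one_zero_apply,
      sp_one _ (zero_mem _), sp_one _ (zero_mem _), (one_mul _).symm, fun ks => by simp⟩
  | succ T hT ih =>
    obtain ⟨b, Ψ, b', y, h1, r, b0, y0, Ψ0, sy, sΨ, hg0, hF⟩ := ih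
    obtain ⟨h, h', rh, h0, h2, h3, -⟩ := G.step_cl T h1
    have hX0 := G.Xmem t0 T hT
    have hXT := G.Xmem T T le_rfl
    have hE0 := Ez_zero (q := q) hX0 (G.X_ne T)
    have hET := Ez_zero (q := q) hXT (G.X_ne T)
    have hY := G.nXmem (T + 1) T (Nat.lt_succ_self T)
    have hEY := Ez_zero (q := q) hY (neg_ne_zero.2 (G.X_ne T))
    have e1 : h = inv (Ez q (G.e T) (G.X T)) * b' * y := by
      rw [mul_assoc, h2, ← mul_assoc, inv_mul hET, one_mul]
    have e2 : inv (Ez q (G.e T) (G.X T)) * b' = h * inv y := by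
      rw [e1, mul_assoc _ y, mul_inv y0, mul_one]
    have sy' : Sp Set.univ y (cone (G.e (T + 1))) :=
      sy.mono subset_rfl fun n _ _ hn => hn _ (Nat.le_succ T)
    have sc : Sp Set.univ (inv (Ez q (G.e T) (G.X T)) * b') (cone (G.e (T + 1))) := by
      rw [e2]
      exact Sp.mulM low_univ (fun n _ hn => h'.sp n (by rwa [rh])) (Sp.inv low_univ y0 sy')
    obtain ⟨c', rc⟩ := exists_rel (Φ := AddEquiv.refl L) q (G.e (T + 1))
      (fun n hn => sc n (Set.mem_univ n) hn)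
    obtain ⟨y', ry⟩ := exists_rel (Φ := AddEquiv.refl L) q (G.e (T + 1))
      (fun n hn => sy' n (Set.mem_univ n) hn)
    have e3 : h' = c' * y' := by
      refine Rel.unique (Φ := AddEquiv.refl L) (f := h) rh ?_
      rw [e1]
      exact rc.mul (iso_refl q) ry
    have rb : Rel (AddEquiv.refl L) (inv (Ez q (G.e t0) (G.X T)) * b)
        (inv (Ez q (G.e T) (G.X T)) * b') :=
      (Rel.inv (iso_refl q) hE0 (rel_Ez (Φ := AddEquiv.refl L) hX0 hXT)).mul (iso_refl q) r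
    refine ⟨inv (Ez q (G.e t0) (G.X T)) * b, Ψ * Ez q (G.e t0) (G.X T), c',
      y' * Ez q (G.e (T + 1)) (- G.X T), by rwa [← mul_assoc, ← e3], fun n => (rc n).trans (rb n),
      by rw [mul_zero_apply, inv_zero_apply hE0, b0, one_mul],
      by rw [mul_zero_apply, ry.zero_apply, y0, hEY, one_mul],
      by rw [mul_zero_apply, Ψ0, hE0, one_mul], ?_, ?_, ?_, fun ks => ?_⟩
    · refine Sp.mulM low_univ (fun n _ hn s hs => ?_) (sp_Ez _ fun s hs => G.nXmem s T hs)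
      exact sy n (Set.mem_univ n) (by rwa [← ry n]) s (Nat.le_of_succ_le hs)
    · refine Sp.mulM low_univ sΨ (sp_Ez _ ?_)
      change th q p (G.X T) ≤ 0
      rw [th_apply]; exact_mod_cast hp T hT
    · rw [mul_assoc, ← mul_assoc _ (inv _), mul_inv hE0, one_mul, hg0]
    · rw [mul_assoc, G.exch' hT, ← mul_assoc, hF, mul_assoc]

/-- Points where all level counts are nonpositive. -/
def Sg : AddSubmonoid L where
  carrier := {n | ∀ j, G.σ j n ≤ 0}
  add_mem' := fun {a b} ha hb j => by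
    rw [map_add]; exact add_nonpos (ha j) (hb j)
  zero_mem' := fun j => by simp

/-- Points where all level counts vanish. -/
def S0 : AddSubmonoid L where
  carrier := {n | ∀ j, G.σ j n = 0}
  add_mem' := fun {a b} ha hb j => by rw [map_add, ha j, hb j, add_zero]
  zero_mem' := fun j => by simp

/-- Points orthogonal to the face. -/
def S1 : AddSubmonoid L where
  carrier := {n | ∀ m ∈ G.S0, q.B n m = 0}
  add_mem' := fun {a b} ha hb m hm => by
    rw [map_add, AddMonoidHom.add_apply, ha m hm, hb m hm, add_zero]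
  zero_mem' := fun m _ => by simp

lemma face_eval {e : Basis ι ℤ L} {a : Ser q e} (a0 : a 0 = 1) (sa : Sp Set.univ a G.Sg)
    (ks : List ℕ) {p : L} (hp : p ∈ G.S0) :
    (inv a * HP q e (G.v 0) G.W ks * a) p = HP q e (G.v 0) G.W ks p := by
  have hF : ∀ x ∈ (G.Sg : Set L), ∀ y ∈ (G.Sg : Set L),
      (x + y ∈ (G.S0 : Set L) ↔ x ∈ (G.S0 : Set L) ∧ y ∈ (G.S0 : Set L)) := by
    intro x hx y hy
    refine ⟨fun h => ⟨fun j => ?_, fun j => ?_⟩, fun h => add_mem h.1 h.2⟩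
    · have h1 := h j; have h2 := hx j; have h3 := hy j
      rw [map_add] at h1; omega
    · have h1 := h j; have h2 := hx j; have h3 := hy j
      rw [map_add] at h1; omega
  have s0 : Sp Set.univ (HP q e (G.v 0) G.W ks) G.S0 :=
    sp_HP (M := G.S0) _ (fun a ha j => G.σW j a ha) ks
  have s1 : Sp Set.univ (HP q e (G.v 0) G.W ks) G.S1 :=
    sp_HP (M := G.S1) _ (fun a ha m hm => G.BW a m ha hm) ks
  have sg : Sp Set.univ (HP q e (G.v 0) G.W ks) G.Sg :=
    s0.mono subset_rfl fun n _ _ hn j => (hn j).le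
  have si := Sp.inv low_univ a0 sa
  have t0 : trunc (G.S0 : Set L) (HP q e (G.v 0) G.W ks) = HP q e (G.v 0) G.W ks :=
    (cong_univ.1 s0.cong_trunc).symm
  have t1 : trunc (G.S0 : Set L) (inv a) * trunc (G.S0 : Set L) a = 1 := by
    rw [← trunc_mul si sa hF, inv_mul a0]
    exact (cong_univ.1 (sp_one _ (zero_mem G.S0)).cong_trunc).symm
  have t2 : HP q e (G.v 0) G.W ks * trunc (G.S0 : Set L) a =
      trunc (G.S0 : Set L) a * HP q e (G.v 0) G.W ks :=
    comm_of_orth s1 (sp_trunc _ _ _) fun x hx y hy => hx y hy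
  have t3 := congrArg (fun f : Ser q e => f p) (trunc_mul (Sp.mulM low_univ si sg) sa hF)
  rw [trunc_apply, if_pos (SetLike.mem_coe.2 hp), trunc_mul si sg hF, t0,
    mul_assoc (trunc _ _), t2, ← mul_assoc (trunc _ _), t1, one_mul] at t3
  exact t3

lemma stable_eval {t0 : ℕ} {g0 : Ser q (G.e t0)} (hg : IsCl G.U g0) {p : L}
    (hp : ∀ s, t0 ≤ s → q.B (G.X s) p ≤ 0) (h0 : p ∈ G.S0) (ks : List ℕ) :
    alpha g0 (G.F t0 t0 ks) p = HP q (G.e t0) (G.v 0) G.W ks p := by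
  set D := (deg (G.e t0) p).toNat with hD
  have hpN : p ∈ ND (G.e t0) D := Int.self_le_toNat _
  obtain ⟨b, Ψ, b', y, -, r, b0, -, Ψ0, -, sΨ, hg0, hF⟩ :=
    G.psi hg hp (t0 + (D + 1) * G.M) (Nat.le_add_right _ _)
  have sb : Sp (ND (G.e t0) D) b G.Sg := by
    intro n hn hb j
    have h1 := G.η0 _ j n (b'.sp n (by rwa [r]))
    have h2 := G.η1 _ j n (b.sp n hb)
    rw [G.eta_iter] at h1
    have h3 : deg (G.e t0) n ≤ D := hn
    by_contra h4
    push_cast at h1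
    have h5 : (0 : ℤ) ≤ D := Nat.cast_nonneg D
    nlinarith
  set b1 := trunc (G.Sg : Set L) b with hb1
  have b10 : b1 0 = 1 := by rw [hb1, trunc_apply, if_pos (SetLike.mem_coe.2 (zero_mem _)), b0]
  have n0 := neg_zero_apply (th q p) b10
  have c1 : Cong (ND (G.e t0) D) g0
      (Ψ * neg (th q p) b1 * (zer (th q p) b1 * pos (th q p) b1)) := by
    rw [hg0, mul_assoc, ← mul_assoc (neg _ _), ← fac_eq _ b10]
    exact (Cong.refl _ _).mul (low_ND D) sb.cong_trunc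
  rw [alpha_eq (low_ND D) hpN hg.1 (by rw [mul_zero_apply, Ψ0, n0, one_mul])
    (by rw [mul_zero_apply, zer_zero_apply _ b10, pos_zero_apply _ b10, one_mul]) c1
    ((Sp.mulM low_univ sΨ (mi_neg_le _ b10)).mono (Set.subset_univ _) fun _ _ _ h => h)
    ((mi_zp_ge _ b10).mono (Set.subset_univ _) fun _ _ _ h => h), inv_mul_rev Ψ0 n0]
  have e1 : inv (neg (th q p) b1) * inv Ψ * G.F t0 t0 ks * (Ψ * neg (th q p) b1) =
      inv (neg (th q p) b1) * G.F t0 (t0 + (D + 1) * G.M) ks * neg (th q p) b1 := by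
    rw [← mul_assoc, mul_assoc _ _ Ψ, ← hF, mul_assoc _ (inv Ψ), ← mul_assoc (inv Ψ), inv_mul Ψ0,
      one_mul]
  rw [e1, ← G.face_eval n0 (fac_sp low_univ _ b10 (sp_trunc _ _ _)).1 ks h0]
  refine (((Cong.refl _ _).mul (low_ND D) ?_).mul (low_ND D) (Cong.refl _ _)) p hpN
  refine cong_HP (Finset.subset_univ _) (fun a _ => G.vmem _ _ a (Nat.le_add_right _ _))
    (fun a ha => G.vW _ a ha) (fun a _ ha => ?_) ks
  have := G.far t0 (D + 1) a ha
  push_cast at this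
  omega

end Grid

theorem ana (G : Grid q ι V J) {g : Ser q (G.e 0)} (hg : IsCl G.U g) (p : L) :
    (∀ ks, alpha g (HP q (G.e 0) (G.v 0) Finset.univ ks) p = 0) ∨
      ∃ p', ∀ ks, alpha g (HP q (G.e 0) (G.v 0) Finset.univ ks) p =
        HP q (G.e 0) (G.v 0) G.W ks p' := by
  by_cases h : ∀ t, G.pp p t ∈ cone (G.e t)
  · right
    obtain ⟨t0, h0⟩ := G.exists_stable h
    obtain ⟨g0, h1, h2⟩ := G.seq hg p t0
    refine ⟨G.pp p t0, fun ks => ?_⟩
    rw [h2, G.stable_eval h1 h0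
      (fun j => le_antisymm (G.sigma_nonpos h t0 j) (G.conc t0 _ h0 j))]
    refine rel_HP (fun a _ => G.vmem 0 0 a le_rfl) (fun a ha => ?_) ks _
    rw [← G.vW t0 a ha]
    exact G.vmem t0 t0 a le_rfl
  · left
    push Not at h
    obtain ⟨t, ht⟩ := h
    obtain ⟨gt, -, h2⟩ := G.seq hg p t
    intro ks
    rw [h2, alpha_of_not_mem _ _ ht]

end Vale.Agent.P066
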