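import Vale.Agent.P066.Kun

/-! The two step Harder-Narasimhan recursions. -/

set_option linter.unusedSectionVars false

noncomputable section
open scoped Classical
open MvPolynomial Equiv

namespace Vale.Agent.P066

variable {Λ I : Type} [Fintype Λ] [Fintype I]

lemma hn_mul_span {G : Set (Pl Λ)} {J : Ideal (Pl Λ)} {k f : Pl Λ} (h : ∀ g ∈ G, k * g ∈ J)
    (hf : f ∈ Ideal.span G) : k * f ∈ J := by
  induction hf using Submodule.span_induction with
  | mem g hg => exact h g hg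
  | zero => simp
  | add f g _ _ hf hg => rw [mul_add]; exact add_mem hf hg
  | smul r f _ hf => rw [smul_eq_mul, mul_left_comm]; exact J.mul_mem_left _ hf

lemma hn_ring (f p g q : Pl Λ) : f * g - p * q = (f - p) * g + p * (g - q) := by ring

namespace Dat

variable (D : Dat Λ I)

lemma hn_nzd {pr1 pr2 : Pr} {S T : Finset Λ} (hd : Disjoint S T) {f : Pl Λ}
    (hf : D.K S T * f ∈ D.Id pr1 S ⊔ D.Id pr2 T) : f ∈ D.Id pr1 S ⊔ D.Id pr2 T := by
  generalize hL : D.Id pr1 S ⊔ D.Id pr2 T = L at hf ⊢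
  let ψ : Pl Λ →ₐ[ℂ] Polynomial (Pl Λ ⧸ L) := aeval fun a =>
    Polynomial.C (Ideal.Quotient.mk L (X a)) + if a ∈ T then Polynomial.X else 0
  have h1 : ∀ U V : Finset Λ, (∀ a ∈ U, ∀ b ∈ V, a ∈ T ↔ b ∈ T) → D.K U V ∈ L →
      ψ (D.K U V) = 0 := fun U V h hK => by
    rw [← Polynomial.C_0, ← Ideal.Quotient.eq_zero_iff_mem.mpr hK]
    simp only [K, map_prod, map_pow, map_sub, ψ, aeval_X]
    exact Finset.prod_congr rfl fun a ha => Finset.prod_congr rfl fun b hb => by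
      simp only [h a ha b hb, add_sub_add_right_eq_sub]
  have h2 : L ≤ RingHom.ker ψ := by
    have hS : ∀ a ∈ S, a ∉ T := fun a ha => Finset.disjoint_left.mp hd ha
    refine hL.ge.trans (sup_le (Ideal.span_le.mpr ?_) (Ideal.span_le.mpr ?_))
    · rintro _ ⟨U, hU, h, rfl⟩
      exact h1 _ _ (fun a ha b hb => iff_of_false (hS a (hU ha)) (hS b (Finset.mem_sdiff.mp hb).1))
        (hL.le (Ideal.mem_sup_left (D.K_mem_Id hU h)))
    · rintro _ ⟨U, hU, h, rfl⟩
      exact h1 _ _ (fun a ha b hb => iff_of_true (hU ha) (Finset.mem_sdiff.mp hb).1)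
        (hL.le (Ideal.mem_sup_right (D.K_mem_Id hU h)))
  have h3 : (ψ (D.K S T)).Monic := by
    simp only [K, map_prod, map_pow]
    refine Polynomial.monic_prod_of_monic _ _ fun a ha => Polynomial.monic_prod_of_monic _ _
      fun b hb => Polynomial.Monic.pow ?_ _
    have := Polynomial.monic_X_add_C (Ideal.Quotient.mk L (X b - X a))
    simp only [map_sub, ψ, aeval_X, if_pos hb, if_neg (Finset.disjoint_left.mp hd ha)] at this ⊢
    rwa [add_zero, add_comm, add_sub_assoc]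
  have h4 : (Polynomial.evalRingHom 0).comp (ψ : Pl Λ →+* _) = Ideal.Quotient.mk L := by
    refine MvPolynomial.ringHom_ext (fun r => ?_) fun a => ?_
    · simp only [ψ, RingHom.comp_apply, RingHom.coe_coe, aeval_C, Polynomial.algebraMap_apply,
        Polynomial.coe_evalRingHom, Polynomial.eval_C]
      rfl
    · simp only [ψ, RingHom.comp_apply, RingHom.coe_coe, aeval_X]
      split_ifs <;> simp
  have h5 : ψ f = 0 := h3.mul_right_eq_zero_iff.mp ((map_mul ψ _ _).symm.trans (h2 hf))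
  rw [← Ideal.Quotient.eq_zero_iff_mem, ← h4, RingHom.comp_apply, RingHom.coe_coe, h5, map_zero]

/-- Graded bases modulo the ideal. -/
lemma exists_gb (pr : Pr) (S : Finset Λ) : ∃ b : ℕ → ℕ → Pl Λ,
    (∀ m, ∀ v < D.hdim (D.Id pr S) S m, b m v ∈ D.W S m) ∧
    (∀ m, ∀ f ∈ D.W S m, ∃ r : ℕ → ℂ,
      f - ∑ v ∈ Finset.range (D.hdim (D.Id pr S) S m), r v • b m v ∈ D.Id pr S) ∧
    ∀ m, ∀ v < D.hdim (D.Id pr S) S m, ∃ ℓ : Pl Λ →ₗ[ℂ] ℂ, (∀ f ∈ D.Id pr S, ℓ f = 0) ∧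
      ∀ m', ∀ w < D.hdim (D.Id pr S) S m', ℓ (b m' w) = if m' = m ∧ w = v then 1 else 0 := by
  choose b h1 h2 h3 using fun m => exists_HB (D.W S m) (D.Id pr S)
  refine ⟨fun m v => if h : v < D.hdim (D.Id pr S) S m then b m ⟨v, h⟩ else 0,
    fun m v hv => by simpa only [dif_pos hv] using h1 m _, fun m f hf => ?_, fun m v hv => ?_⟩
  · obtain ⟨r, hr⟩ := h2 m f hf
    refine ⟨fun v => if h : v < D.hdim (D.Id pr S) S m then r ⟨v, h⟩ else 0, ?_⟩
    rw [Finset.sum_range]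
    simp only [Fin.is_lt, dif_pos]
    exact hr
  · obtain ⟨ℓ, h4, h5⟩ := h3 m ⟨v, hv⟩
    refine ⟨ℓ ∘ₗ homogeneousComponent m, fun f hf => h4 _ (D.hc_mem_Id m hf), fun m' w hw => ?_⟩
    simp only [dif_pos hw, LinearMap.comp_apply, homogeneousComponent_of_mem (h1 m' _).2.1]
    by_cases hm : m = m'
    · subst hm
      rw [if_pos rfl, h5]
      exact if_congr (by simpa using Fin.mk.inj_iff) rfl rfl
    · simp [hm, Ne.symm hm]

lemma Id_mono {pr pr' : Pr} {A : Finset Λ}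
    (h : ∀ S ⊆ A, pr (D.sz S) (D.sz (A \ S)) → pr' (D.sz S) (D.sz (A \ S))) :
    D.Id pr A ≤ D.Id pr' A :=
  Ideal.span_mono fun _ ⟨S, h1, h2, h3⟩ => ⟨S, h1, h S h1 h2, h3⟩

lemma hn_fix {S T : Finset Λ} (hd : Disjoint S T) {σ : Perm Λ} (hσ : σ ∈ D.Gam S) :
    ∀ a ∈ T, σ a = a := fun a ha => (D.mem_Gam.mp hσ).2 a (Finset.disjoint_right.mp hd ha)

lemma hn_image {T : Finset Λ} {σ : Perm Λ} (h : ∀ a ∈ T, σ a = a) : T.image σ = T :=
  (Finset.image_congr h).trans Finset.image_id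

lemma hn_av {A S : Finset Λ} (hS : S ⊆ A) {f g : Pl Λ} (hf : f ∈ sup S) (hg : g ∈ sup (A \ S)) :
    D.av A (D.K S (A \ S) * (f * g)) = D.av A (D.K S (A \ S) * (D.av S f * D.av (A \ S) g)) := by
  have hd : Disjoint S (A \ S) := Finset.disjoint_sdiff
  rw [← D.av_av hS, mul_comm f, ← mul_assoc, D.av_mul fun σ hσ => by
    rw [map_mul, D.rename_K (D.Gam_GG hσ), D.Gam_image hσ, hn_image (D.hn_fix hd hσ),
      rename_of_fix (D.hn_fix hd hσ) hg], ← D.av_av (Finset.sdiff_subset (t := S)), mul_right_comm,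
    D.av_mul (A := A \ S) fun σ hσ => by
      rw [map_mul, D.rename_K (D.Gam_GG hσ), D.Gam_image hσ, hn_image (D.hn_fix hd.symm hσ),
        rename_of_fix (D.hn_fix hd.symm hσ) (D.av_mem_sup subset_rfl hf)], mul_assoc]

lemma hn_av_Id {pr : Pr} {A : Finset Λ} {f : Pl Λ} (hf : f ∈ D.Id pr A) : D.av A f ∈ D.Id pr A :=
  D.av_mem (U := (D.Id pr A).restrictScalars ℂ) (fun σ hσ g hg => by
    have := D.rename_mem_Id (D.Gam_GG hσ) hg
    rwa [D.Gam_image hσ] at this) hf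

/-- The hypotheses of the two step recursion. -/
structure HN2 (A : Finset Λ) (pr0 pr1 pr2 : Pr) (key : ℤ × ℕ → ℤ ×ₗ ℤ) : Prop where
  w1 : ∀ S1 S2 T, Disjoint S1 S2 → Disjoint S2 T → pr1 (D.sz S1) (D.sz S2) →
    key (D.sz (S1 ∪ S2)) < key (D.sz S1) ∨ pr0 (D.sz S1) (D.sz (S2 ∪ T))
  w2 : ∀ S T1 T2, Disjoint S T1 → pr2 (D.sz T1) (D.sz T2) →
    key (D.sz S) < key (D.sz (S ∪ T1)) ∨ pr0 (D.sz (S ∪ T1)) (D.sz T2)
  v : ∀ S0 ⊆ A, ∀ S' ⊆ A, pr0 (D.sz S') (D.sz (A \ S')) ∨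
    (S' ≠ S0 ∧ key (D.sz S0) ≤ key (D.sz S')) →
    pr1 (D.sz (S0 ∩ S')) (D.sz (S0 \ S')) ∨ pr2 (D.sz (S' \ S0)) (D.sz ((A \ S0) \ S'))

variable {D} {A : Finset Λ} {pr0 pr1 pr2 : Pr} {key : ℤ × ℕ → ℤ ×ₗ ℤ}

lemma HN2.K_mul_mem (h : D.HN2 A pr0 pr1 pr2 key) {S : Finset Λ} (hS : S ⊆ A) {f : Pl Λ}
    (hf : f ∈ D.Id pr1 S ⊔ D.Id pr2 (A \ S)) :
    D.K S (A \ S) * f ∈ D.Id (fun z w => pr0 z w ∨ key (D.sz S) < key z) A := by
  obtain ⟨p, hp, q, hq, rfl⟩ := Submodule.mem_sup.mp hf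
  rw [mul_add]
  refine add_mem (hn_mul_span ?_ hp) (hn_mul_span ?_ hq)
  · rintro _ ⟨U, hU, h1, rfl⟩
    have hd : Disjoint (S \ U) (A \ S) := Finset.disjoint_sdiff.mono_left Finset.sdiff_subset
    have e : S \ U ∪ A \ S = A \ U := by
      rw [Finset.union_comm]
      exact Finset.sdiff_union_sdiff_cancel hS hU
    have h2 := h.w1 U (S \ U) (A \ S) Finset.disjoint_sdiff hd h1
    rw [Finset.union_sdiff_of_subset hU, e] at h2
    refine Ideal.mem_of_dvd _ ?_ (D.K_mem_Id (hU.trans hS) h2.symm)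
    rw [← e, D.K_union_right _ hd, mul_comm]
    exact mul_dvd_mul_right (D.K_dvd hU subset_rfl) _
  · rintro _ ⟨U, hU, h1, rfl⟩
    have hd : Disjoint S U := Finset.disjoint_sdiff.mono_right hU
    have e : (A \ S) \ U = A \ (S ∪ U) := sdiff_sdiff_left
    have h2 := h.w2 S U _ hd h1
    rw [e] at h2
    refine Ideal.mem_of_dvd _ ?_ (D.K_mem_Id
      (Finset.union_subset hS (hU.trans Finset.sdiff_subset)) h2.symm)
    rw [← e, D.K_union_left hd]
    exact mul_dvd_mul_right (D.K_dvd subset_rfl Finset.sdiff_subset) _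

lemma HN2.K_mem (h : D.HN2 A pr0 pr1 pr2 key) {S0 S' : Finset Λ} (h0 : S0 ⊆ A) (h' : S' ⊆ A)
    (hv : pr0 (D.sz S') (D.sz (A \ S')) ∨ (S' ≠ S0 ∧ key (D.sz S0) ≤ key (D.sz S'))) :
    D.K S' (A \ S') ∈ D.Id pr1 S0 ⊔ D.Id pr2 (A \ S0) := by
  rcases h.v S0 h0 S' h' hv with h1 | h1
  · rw [← Finset.sdiff_inter_self_left S0 S'] at h1
    refine Ideal.mem_sup_left (Ideal.mem_of_dvd _ (D.K_dvd Finset.inter_subset_right ?_)
      (D.K_mem_Id Finset.inter_subset_left h1))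
    rw [Finset.sdiff_inter_self_left]
    exact Finset.sdiff_subset_sdiff h0 subset_rfl
  · have e : (A \ S0) \ S' = (A \ S0) \ (S' \ S0) := by
      ext a
      simp only [Finset.mem_sdiff]
      tauto
    rw [e] at h1
    refine Ideal.mem_sup_right (Ideal.mem_of_dvd _ (D.K_dvd Finset.sdiff_subset ?_)
      (D.K_mem_Id (Finset.sdiff_subset_sdiff h' subset_rfl) h1))
    rw [← e]
    exact Finset.sdiff_subset_sdiff Finset.sdiff_subset subset_rfl

/-- The abstract spanning step. -/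
lemma HN2.span (h : D.HN2 A pr0 pr1 pr2 key) {m : ℕ} {Y : Submodule ℂ (Pl Λ)} (hY : Y ≤ D.W A m)
    (hx : ∀ S ⊆ A, ∃ S0 ⊆ A, D.typ S = D.typ S0 ∧ ∀ m1 m2, m1 + m2 + D.kap S0 (A \ S0) = m →
      ∀ f ∈ D.W S0 m1, ∀ g ∈ D.W (A \ S0) m2, ∃ p, D.av A (D.K S0 (A \ S0) * p) ∈ Y ∧
        f * g - p ∈ D.Id pr1 S0 ⊔ D.Id pr2 (A \ S0))
    {f : Pl Λ} (hf : f ∈ D.W A m) : ∃ y ∈ Y, f - y ∈ D.Id pr0 A := by
  let rk : ℤ × ℕ → ℕ := fun z => (A.powerset.filter fun S => key z < key (D.sz S)).card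
  have hrk : ∀ z, ∀ S ⊆ A, key z < key (D.sz S) → rk (D.sz S) < rk z := fun z S hS hz =>
    Finset.card_lt_card ⟨fun U hU => Finset.mem_filter.mpr ⟨(Finset.mem_filter.mp hU).1,
      hz.trans (Finset.mem_filter.mp hU).2⟩, fun hU => lt_irrefl _ (Finset.mem_filter.mp
        (hU (Finset.mem_filter.mpr ⟨Finset.mem_powerset.mpr hS, hz⟩))).2⟩
  have key1 : ∀ n, ∀ f ∈ D.W A m, f ∈ D.Id (fun z w => pr0 z w ∨ rk z < n) A →
      ∃ y ∈ Y, f - y ∈ D.Id pr0 A := by
    intro n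
    induction n with
    | zero => exact fun f _ hf => ⟨0, zero_mem _, by simpa using hf⟩
    | succ n ih =>
      intro f hf hJ
      let U := Y ⊔ (D.Id (fun z w => pr0 z w ∨ rk z < n) A).restrictScalars ℂ
      have k1 : ∀ p, D.av A (homogeneousComponent m (res A (f * p))) ∈ U := by
        clear hf
        induction hJ using Submodule.span_induction with
        | zero => simp
        | add f g _ _ hf hg => intro p; simp only [add_mul, map_add]; exact add_mem (hf p) (hg p)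
        | smul r f _ hf => intro p; rw [smul_eq_mul, mul_comm r, mul_assoc]; exact hf _
        | mem g hg =>
          obtain ⟨S, hS, h1, rfl⟩ := hg
          intro p
          by_cases h2 : pr0 (D.sz S) (D.sz (A \ S)) ∨ rk (D.sz S) < n
          · have h3 := D.K_mem_Id (pr := fun z w => pr0 z w ∨ rk z < n) hS h2
            have h4 := D.hn_av_Id (D.hc_mem_Id m ((D.genIn_Id _ A).res subset_rfl
              (Ideal.mul_mem_right p _ h3)))
            exact Submodule.mem_sup_right h4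
          rw [map_mul, res_of_mem (D.K_mem_sup hS Finset.sdiff_subset), hc_mul_homog (D.K_homog _ _)]
          split_ifs with h3
          swap
          · simp
          obtain ⟨S0, h4, h5, h6⟩ := hx S hS
          obtain ⟨σ, hσ, rfl⟩ := D.exists_perm hS h4 h5
          have h0 := D.Gam_GG hσ
          have e : A \ S.image σ = (A \ S).image σ := by
            rw [Finset.image_sdiff _ _ σ.injective, D.Gam_image hσ]
          have h7 : D.kap (S.image σ) (A \ S.image σ) = D.kap S (A \ S) := by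
            rw [e, kap_eq, kap_eq, D.typ_image h0, D.typ_image h0]
          have h8 := rename_mem_sup σ (hc_mem_sup (m - D.kap S (A \ S)) (res_mem_sup A p))
          rw [D.Gam_image hσ] at h8
          rw [← one_smul ℂ (D.av A _), ← D.eta_mul_self h0, mul_smul, ← D.av_rename hσ, map_mul,
            D.rename_K h0, ← e]
          refine U.smul_mem _ (sup_cut_homog (S.image σ)
            (p := fun p => D.av A (D.K (S.image σ) (A \ S.image σ) * p) ∈ U) (by simp)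
            (fun p q hp hq => by rw [mul_add, map_add]; exact add_mem hp hq)
            (fun m1 m2 hm f hf g hg f1 g1 => ?_) h8
            (homogeneousComponent_isHomogeneous _ _).rename_isHomogeneous)
          have hf' := sup_mono Finset.inter_subset_right hf
          obtain ⟨q, q1, q2⟩ := h6 m1 m2 (by omega) _ (D.av_mem_W hf' f1) _ (D.av_mem_W hg g1)
          rw [D.hn_av h4 hf' hg, ← add_sub_cancel q (D.av _ f * _), mul_add, map_add]
          refine Submodule.add_mem_sup q1 (Submodule.restrictScalars_mem ℂ _ _ |>.mpr <|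
            D.hn_av_Id (D.Id_mono (fun S' h' h9 => h9.imp_right fun h9 => ?_)
              (h.K_mul_mem h4 q2)))
          have := hrk _ S' h' h9
          rw [← D.sz_congr h5] at this
          rcases h1 with h1 | h1
          · exact absurd (.inl h1) h2
          · omega
      have k2 := k1 1
      rw [mul_one, res_of_mem hf.1, homogeneousComponent_eq_self hf.2.1, D.av_of_inv hf.2.2] at k2
      obtain ⟨y, hy, j, hj, rfl⟩ := Submodule.mem_sup.mp k2
      obtain ⟨y', hy', h1⟩ := ih j (by simpa using sub_mem hf (hY hy)) hj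
      exact ⟨y + y', add_mem hy hy', by simpa using h1⟩
  refine key1 (rk (0, 0) + 1) f hf ?_
  rw [D.Id_eq_top_right (.inr (Nat.lt_succ_self _))]
  trivial

/-- The averaged products modulo the ideal of a fixed cut. -/
lemma HN2.av_mod (h : D.HN2 A pr0 pr1 pr2 key) {S0 S : Finset Λ} (h0 : S0 ⊆ A) (hS : S ⊆ A)
    (hk : key (D.sz S0) ≤ key (D.sz S)) (ht : D.typ S = D.typ S0 → S = S0) {f g : Pl Λ}
    {m1 m2 : ℕ} (hf : f ∈ D.W S m1) (hg : g ∈ D.W (A \ S) m2) :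
    D.av A (D.K S (A \ S) * (f * g)) - (if S = S0 then ((D.Gam A).card : ℂ)⁻¹ *
      ((D.Gam A).filter fun σ : Perm Λ => S0.image σ = S0).card else 0) • (D.K S0 (A \ S0) * (f * g)) ∈
      D.Id pr1 S0 ⊔ D.Id pr2 (A \ S0) := by
  have k1 : ∀ σ ∈ D.Gam A, S.image σ ≠ S0 → D.eta σ • rename σ (D.K S (A \ S) * (f * g)) ∈
      D.Id pr1 S0 ⊔ D.Id pr2 (A \ S0) := fun σ hσ hne => by
    have h1 := D.Gam_GG hσ
    rw [map_mul, D.rename_K h1, Finset.image_sdiff _ _ σ.injective, D.Gam_image hσ]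
    refine Submodule.smul_of_tower_mem _ _ (Ideal.mul_mem_right _ _ (h.K_mem h0
      (D.Gam_image hσ ▸ Finset.image_subset_image hS) (.inr ⟨hne, ?_⟩)))
    rwa [D.sz_congr (D.typ_image h1 S)]
  rw [av_apply]
  split_ifs with hs
  · subst hs
    rw [mul_smul, ← smul_sub, ← Finset.sum_filter_add_sum_filter_not _ fun σ : Perm Λ => S.image σ = S,
      Finset.sum_congr rfl (g := fun _ => D.K S (A \ S) * (f * g)) fun σ hσ => ?_, Finset.sum_const,
      Nat.cast_smul_eq_nsmul, add_sub_cancel_left]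
    · exact Submodule.smul_of_tower_mem _ _ (sum_mem fun σ hσ =>
        k1 σ (Finset.mem_filter.mp hσ).1 (Finset.mem_filter.mp hσ).2)
    · obtain ⟨h1, h2⟩ := Finset.mem_filter.mp hσ
      have hd : Disjoint S (A \ S) := Finset.disjoint_sdiff
      rw [map_mul, D.rename_K (D.Gam_GG h1), Finset.image_sdiff _ _ σ.injective, D.Gam_image h1, h2]
      obtain ⟨σ1, a1, σ2, a2, rfl⟩ := D.Gam_split h1 h2
      rw [rename_mul_perm, map_mul, rename_of_fix (D.hn_fix hd.symm a2) hf.1, hg.2.2 σ2 a2, map_mul,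
        map_smul, rename_of_fix (D.hn_fix hd a1) hg.1, hf.2.2 σ1 a1, smul_mul_smul_comm,
        ← D.eta_mul (D.Gam_GG a1) (D.Gam_GG a2), mul_smul_comm, smul_smul,
        D.eta_mul_self (D.Gam_GG h1), one_smul]
  · rw [zero_smul, sub_zero]
    exact Submodule.smul_of_tower_mem _ _ (sum_mem fun σ hσ => k1 σ hσ fun e =>
      hs (ht (e ▸ (D.typ_image (D.Gam_GG hσ) S).symm)))

theorem HN2.hd_eq (h : D.HN2 A pr0 pr1 pr2 key) (m : ℕ) :
    D.hd pr0 (D.typ A) m = D.conv pr1 pr2 (D.typ A) m := by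
  choose b1 p1 q1 r1 using D.exists_gb pr1
  choose b2 p2 q2 r2 using D.exists_gb pr2
  choose! Sd hSA hSd using fun d (hd : d ≤ D.typ A) => D.exists_sub hd
  let n1 := fun d m => D.hdim (D.Id pr1 (Sd d)) (Sd d) m
  let n2 := fun d m => D.hdim (D.Id pr2 (A \ Sd d)) (A \ Sd d) m
  let t := (Finset.Iic (D.typ A) ×ˢ Finset.range (m + 1) ×ˢ Finset.range (m + 1)).filter
    fun i => i.2.1 + i.2.2 + D.kd i.1 (D.typ A - i.1) = m
  let s := t.sigma fun i => Finset.range (n1 i.1 i.2.1) ×ˢ Finset.range (n2 i.1 i.2.2)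
  let y := fun i : Σ _ : (I → ℕ) × ℕ × ℕ, ℕ × ℕ =>
    b1 (Sd i.1.1) i.1.2.1 i.2.1 * b2 (A \ Sd i.1.1) i.1.2.2 i.2.2
  let x := fun i : Σ _ : (I → ℕ) × ℕ × ℕ, ℕ × ℕ => D.av A (D.K (Sd i.1.1) (A \ Sd i.1.1) * y i)
  have hkap : ∀ d ≤ D.typ A, D.kap (Sd d) (A \ Sd d) = D.kd d (D.typ A - d) := fun d hd => by
    rw [kap_eq, D.typ_sdiff (hSA d hd), hSd d hd]
  have hs : ∀ i, i ∈ s ↔ i.1.1 ≤ D.typ A ∧ i.1.2.1 + i.1.2.2 + D.kd i.1.1 (D.typ A - i.1.1) = m ∧
      i.2.1 < n1 i.1.1 i.1.2.1 ∧ i.2.2 < n2 i.1.1 i.1.2.2 := fun i => by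
    simp only [s, t, Finset.mem_sigma, Finset.mem_filter, Finset.mem_product, Finset.mem_Iic,
      Finset.mem_range]
    exact ⟨fun h => ⟨h.1.1.1, h.1.2, h.2⟩, fun h => ⟨⟨⟨h.1, by omega, by omega⟩, h.2.1⟩, h.2.2⟩⟩
  have hx : ∀ i ∈ s, x i ∈ D.W A m := fun i hi => by
    obtain ⟨a1, a2, a3, a4⟩ := (hs i).mp hi
    have b1 := p1 _ _ _ a3
    have b2 := p2 _ _ _ a4
    refine D.av_mem_W (mul_mem (D.K_mem_sup (hSA _ a1) Finset.sdiff_subset) (mul_mem
      (sup_mono (hSA _ a1) b1.1) (sup_mono Finset.sdiff_subset b2.1))) ?_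
    have := (D.K_homog (Sd i.1.1) (A \ Sd i.1.1)).mul (b1.2.1.mul b2.2.1)
    rwa [hkap _ a1, add_comm, a2] at this
  rw [hd_typ, hdim, finrank_eq_card _ _ s x hx (fun f hf => ?_) fun r hr => ?_]
  · rw [Finset.card_sigma, Finset.sum_filter, Finset.sum_product, conv]
    refine Finset.sum_congr rfl fun d hd => ?_
    have hd' := Finset.mem_Iic.mp hd
    rw [Finset.sum_product]
    refine Finset.sum_congr rfl fun m1 _ => Finset.sum_congr rfl fun m2 _ => ?_
    simp only [Finset.card_product, Finset.card_range, n1, n2, ← hd_typ, D.typ_sdiff (hSA d hd'),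
      hSd d hd']
  · refine (h.span (Y := Submodule.span ℂ (x '' s)) (Submodule.span_le.mpr
      (by rintro _ ⟨i, hi, rfl⟩; exact hx i hi)) (fun S hS => ?_) hf).elim fun z hz => ?_
    swap
    · obtain ⟨r, rfl⟩ := (Submodule.mem_span_image_finset_iff_exists_fun' ℂ).mp hz.1
      exact ⟨r, hz.2⟩
    have hd := D.typ_mono hS
    refine ⟨Sd (D.typ S), hSA _ hd, (hSd _ hd).symm, fun m1 m2 hm f hf g hg => ?_⟩
    obtain ⟨c1, e1⟩ := q1 _ _ f hf
    obtain ⟨c2, e2⟩ := q2 _ _ g hg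
    refine ⟨_ * _, ?_, (hn_ring f _ g _).symm ▸ Submodule.add_mem_sup
      (Ideal.mul_mem_right g _ e1) (Ideal.mul_mem_left _ _ e2)⟩
    rw [Finset.sum_mul_sum]
    simp only [smul_mul_smul_comm]
    simp only [Finset.mul_sum, map_sum, mul_smul_comm, map_smul]
    refine sum_mem fun v hv => sum_mem fun w hw => Submodule.smul_mem _ _ (Submodule.subset_span
      ⟨⟨(D.typ S, m1, m2), v, w⟩, (hs _).mpr ⟨hd, ?_, Finset.mem_range.mp hv,
        Finset.mem_range.mp hw⟩, rfl⟩)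
    rwa [hkap _ hd] at hm
  · by_contra hc
    push Not at hc
    obtain ⟨i0, hi0, hmin⟩ := (s.filter fun i => r i ≠ 0).exists_min_image
      (fun i => key (D.sz (Sd i.1.1))) (hc.imp fun i hi => Finset.mem_filter.mpr hi)
    obtain ⟨h1, h2⟩ := Finset.mem_filter.mp hi0
    obtain ⟨a1, a2, a3, a4⟩ := (hs i0).mp h1
    have h0 := hSA _ a1
    set c : ℂ := ((D.Gam A).card : ℂ)⁻¹ *
      ((D.Gam A).filter fun σ : Perm Λ => (Sd i0.1.1).image σ = Sd i0.1.1).card with hc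
    have hc0 : c ≠ 0 := mul_ne_zero (inv_ne_zero (D.card_Gam_ne A)) (Nat.cast_ne_zero.mpr
      (Finset.card_ne_zero.mpr ⟨1, Finset.mem_filter.mpr ⟨D.one_mem_Gam A, by simp⟩⟩))
    have k1 : D.Id pr0 A ≤ D.Id pr1 (Sd i0.1.1) ⊔ D.Id pr2 (A \ Sd i0.1.1) :=
      Ideal.span_le.mpr (by rintro _ ⟨S, hS, h3, rfl⟩; exact h.K_mem h0 hS (.inl h3))
    have k2 : ∑ i ∈ s, r i • (x i - (if Sd i.1.1 = Sd i0.1.1 then c else 0) •
        (D.K (Sd i0.1.1) (A \ Sd i0.1.1) * y i)) ∈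
        D.Id pr1 (Sd i0.1.1) ⊔ D.Id pr2 (A \ Sd i0.1.1) := sum_mem fun i hi => by
      by_cases hri : r i = 0
      · simp [hri]
      obtain ⟨b1, -, b3, b4⟩ := (hs i).mp hi
      exact Submodule.smul_of_tower_mem _ _ (h.av_mod h0 (hSA _ b1)
        (hmin i (Finset.mem_filter.mpr ⟨hi, hri⟩))
        (fun e => by rw [hSd _ b1, hSd _ a1] at e; rw [e]) (p1 _ _ _ b3) (p2 _ _ _ b4))
    have k3 := sub_mem (k1 hr) k2
    simp only [smul_sub, Finset.sum_sub_distrib, sub_sub_cancel, ← mul_smul_comm,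
      ← Finset.mul_sum] at k3
    obtain ⟨ℓ1, c1, d1⟩ := r1 _ _ _ a3
    obtain ⟨ℓ2, c2, d2⟩ := r2 _ _ _ a4
    obtain ⟨ℓ, c3, d3⟩ := exists_fun_two Finset.disjoint_sdiff (D.genIn_Id _ _) (D.genIn_Id _ _)
      c1 c2
    have k4 := c3 _ (D.hn_nzd Finset.disjoint_sdiff k3)
    rw [map_sum, Finset.sum_eq_single_of_mem i0 h1 fun i hi hne => ?_] at k4
    · rw [if_pos rfl, map_smul, map_smul, d3 _ (p1 _ _ _ a3).1 _ (p2 _ _ _ a4).1, d1 _ _ a3,
        d2 _ _ a4] at k4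
      simp [h2, hc0] at k4
    · obtain ⟨b1, -, b3, b4⟩ := (hs i).mp hi
      split_ifs with e
      swap
      · simp
      have e' : i.1.1 = i0.1.1 := by rw [← hSd _ b1, e, hSd _ a1]
      simp only [y, n1, n2, e'] at b3 b4 ⊢
      rw [map_smul, map_smul, d3 _ (p1 _ _ _ b3).1 _ (p2 _ _ _ b4).1, d1 _ _ b3, d2 _ _ b4]
      split_ifs with e1 e2
      · exact absurd (Sigma.ext (Prod.ext e' (Prod.ext e1.1 e2.1))
          (heq_of_eq (Prod.ext e1.2 e2.2))) hne
      all_goals simp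

variable (D)

lemma hn_rel {A S0 S' : Finset Λ} (h0 : S0 ⊆ A) :
    D.ph S0 - D.ph S' = D.ph (S0 \ S') - D.ph (S' \ S0) ∧
      S0.card + (S' \ S0).card = S'.card + (S0 \ S').card ∧
      D.ph (A \ S') = D.ph (S0 \ S') + D.ph ((A \ S0) \ S') ∧
      ((S0 \ S').card = 0 → D.ph (S0 \ S') = 0) ∧ ((S' \ S0).card = 0 → D.ph (S' \ S0) = 0) ∧
      (S' ≠ S0 → (S0 \ S').card ≠ 0 ∨ (S' \ S0).card ≠ 0) := by
  have a1 := D.ph_sdiff (Finset.inter_subset_left (s₁ := S0) (s₂ := S'))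
  have a2 := D.ph_sdiff (Finset.inter_subset_right (s₁ := S0) (s₂ := S'))
  rw [Finset.sdiff_inter_self_left] at a1
  rw [Finset.sdiff_inter_self_right] at a2
  have a3 := Finset.card_sdiff_add_card S0 S'
  have a4 := Finset.card_sdiff_add_card S' S0
  rw [Finset.union_comm] at a4
  refine ⟨by omega, by omega, ?_, fun h => by simp [Finset.card_eq_zero.mp h],
    fun h => by simp [Finset.card_eq_zero.mp h], fun h => ?_⟩
  · rw [← D.ph_union ((Finset.disjoint_sdiff.mono_left Finset.sdiff_subset).mono_right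
      Finset.sdiff_subset), ← Finset.union_sdiff_distrib, Finset.union_sdiff_of_subset h0]
  · by_contra h'
    simp only [not_or, not_not, Finset.card_eq_zero, Finset.sdiff_eq_empty_iff_subset] at h'
    exact h (h'.2.antisymm h'.1)

theorem hn_app1 (A : Finset Λ) (m : ℕ) :
    D.hd prN (D.typ A) m = D.conv prA prB (D.typ A) m := by
  refine HN2.hd_eq (key := fun z => toLex (z.1, (z.2 : ℤ))) ⟨fun S1 S2 T h _ h1 => .inl ?_,
    fun S T1 T2 h h1 => .inl ?_, fun S0 h0 S' _ h1 => ?_⟩ m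
  · simp only [prA, sz, Prod.Lex.toLex_lt_toLex, D.ph_union h] at h1 ⊢
    omega
  · simp only [prB, sz, Prod.Lex.toLex_lt_toLex, D.ph_union h,
      Finset.card_union_of_disjoint h] at h1 ⊢
    omega
  · obtain ⟨a1, a2, a3, a4, a5, a6⟩ := D.hn_rel (S' := S') h0
    obtain ⟨h2, h3⟩ := h1.resolve_left id
    have := a6 h2
    simp only [prA, prB, sz, Prod.Lex.toLex_le_toLex] at h3 ⊢
    omega

theorem hn_app2 (A : Finset Λ) (m : ℕ) :
    D.hd prA (D.typ A) m = D.conv prC prK (D.typ A) m := by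
  refine HN2.hd_eq (key := fun z => toLex (z.1, -(z.2 : ℤ))) ⟨fun S1 S2 T h _ h1 => .inl ?_,
    fun S T1 T2 h h1 => ?_, fun S0 h0 S' _ h1 => ?_⟩ m
  · simp only [prC, sz, Prod.Lex.toLex_lt_toLex, D.ph_union h,
      Finset.card_union_of_disjoint h] at h1 ⊢
    omega
  · simp only [prK, prA, sz, Prod.Lex.toLex_lt_toLex, D.ph_union h] at h1 ⊢
    omega
  · obtain ⟨a1, a2, a3, a4, a5, a6⟩ := D.hn_rel (S' := S') h0
    simp only [prA, prC, prK, sz, Prod.Lex.toLex_le_toLex] at h1 ⊢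
    rcases h1 with h1 | ⟨h2, h3⟩
    · omega
    · have := a6 h2
      omega

end Dat

end Vale.Agent.P066
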