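import Vale.Agent.P066.Sst
import Vale.Agent.P066.HN

/-! Factorization of the total series of a quiver. -/

set_option linter.unusedSectionVars false

noncomputable section
open scoped Classical
open Module

namespace Vale.Agent.P066

section aux

variable {Λ I : Type} [Fintype Λ] [Fintype I]

lemma BT_exists_zv {n : I → ℤ} (h : n ∈ cone (e0 I)) : zv (fun i => (n i).toNat) = n := by
  funext i
  have := h i
  simp only [Pi.basisFun_repr] at this
  simp [zv, this]

lemma BT_zv_inj : Function.Injective (zv : (I → ℕ) → I → ℤ) := fun a b h =>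
  funext fun i => by simpa [zv] using congrFun h i

lemma BT_zv_sub {a d : I → ℕ} (h : a ≤ d) : zv d - zv a = zv (d - a) := by
  funext i
  simp [zv, h i]

lemma BT_box (d : I → ℕ) : box (e0 I) (zv d) = (Finset.Iic d).image zv := by
  ext a
  rw [mem_box, Finset.mem_image]
  constructor
  · rintro ⟨h1, h2⟩
    refine ⟨_, Finset.mem_Iic.2 fun i => ?_, BT_exists_zv h1⟩
    have := h2 i
    simp only [Pi.basisFun_repr, Pi.sub_apply, zv] at this
    simp only [Int.toNat_le]
    omega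
  · rintro ⟨b, hb, rfl⟩
    exact ⟨zv_mem _, by rw [BT_zv_sub (Finset.mem_Iic.1 hb)]; exact zv_mem _⟩

/-- The generating series of the dimension counts. -/
def BTser (D : Dat Λ I) (pr : Pr) : Ser (qq D.arr) (e0 I) :=
  ⟨fun d => if d ∈ cone (e0 I) then tp (-kz D.arr d d) * hs (D.hd pr fun i => (d i).toNat) else 0,
    fun d h => by by_contra hd; simp [hd] at h⟩

lemma BTser_zv (D : Dat Λ I) (pr : Pr) (d : I → ℕ) :
    BTser D pr (zv d) = tp (-(D.kd d d : ℤ)) * hs (D.hd pr d) := by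
  simp only [BTser]
  rw [if_pos (zv_mem d), kz_zv]
  simp [zv]

lemma BTser_zero (D : Dat Λ I) {pr : Pr} (h : ¬ pr (0, 0) (0, 0)) : BTser D pr 0 = 1 := by
  have := BTser_zv D pr 0
  rw [funext (D.hd_zero h), hs_one] at this
  rw [show (0 : I → ℤ) = zv 0 from funext fun i => by simp [zv], this]
  simp [Dat.kd]

lemma BTser_mul (D : Dat Λ I) (pr1 pr2 : Pr) (d : I → ℕ) :
    (BTser D pr1 * BTser D pr2) (zv d) = tp (-(D.kd d d : ℤ)) * hs (D.conv pr1 pr2 d) := by
  rw [Ser.mul_apply, BT_box, Finset.sum_image fun _ _ _ _ h => BT_zv_inj h]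
  unfold Dat.conv
  rw [hs_sum, Finset.mul_sum]
  refine Finset.sum_congr rfl fun a ha => ?_
  obtain ⟨b, rfl⟩ := exists_add_of_le (Finset.mem_Iic.1 ha)
  rw [BT_zv_sub (Finset.mem_Iic.1 ha), BTser_zv, BTser_zv, hs_conv, add_tsub_cancel_left, qq_B,
    kz_zv, kz_zv]
  have h : (D.kd a (a + b) : ℤ) - D.kd (a + b) a + -(D.kd a a : ℤ) + -(D.kd b b : ℤ) =
      -(D.kd (a + b) (a + b) : ℤ) + 2 * (D.kd a b : ℤ) := by
    simp only [Dat.kd, Pi.add_apply, mul_add, add_mul, Finset.sum_add_distrib, Nat.cast_add]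
    ring
  have h' := congrArg tp h
  simp only [tp_add] at h'
  linear_combination (hs (D.hd pr1 a) * hs (D.hd pr2 b)) * h'

lemma BTser_sp (D : Dat Λ I) {pr : Pr} {M : Set (I → ℤ)}
    (h : ∀ d, zv d ∉ M → ∀ m, D.hd pr d m = 0) : Sp Set.univ (BTser D pr) M := by
  intro n _ hn
  by_contra hM
  have hc := BT_exists_zv ((BTser D pr).sp n hn)
  rw [← hc] at hn hM
  rw [BTser_zv, funext (h _ hM), hs_zero, mul_zero] at hn
  exact hn rfl

lemma BT_hom (φ : (I → ℤ) →+ ℤ) (n : I → ℤ) : φ n = ∑ i, φ (e0 I i) * n i := by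
  conv_lhs => rw [← (e0 I).sum_repr n, map_sum]
  exact Finset.sum_congr rfl fun i _ => by
    rw [map_zsmul, Pi.basisFun_repr, smul_eq_mul, mul_comm]

end aux

theorem BT {I : Type} [Fintype I] (arr : I → I → ℕ) (fer : I → Bool) (φ : (I → ℤ) →+ ℤ)
    (hsym : ∀ d ∈ cone (e0 I), ∀ d' ∈ cone (e0 I), φ d = 0 → φ d' = 0 → (qq arr).B d d' = 0)
    (D : ℕ) :
    ∃ (a1 a2 : Ser (qq arr) (e0 I)) (l : List (Fac (I → ℤ))), a1 0 = 1 ∧ a2 0 = 1 ∧
      Sp Set.univ a1 {d | d = 0 ∨ 0 < φ d} ∧ Sp Set.univ a2 {d | d = 0 ∨ φ d < 0} ∧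
      OkL (e0 I) l ∧ (∀ f ∈ l, φ f.m = 0) ∧
      Cong (ND (e0 I) D) (tot arr fer) (a1 * FP (qq arr) (e0 I) l * a2) := by
  let Q : Dat (I × Fin D) I := ⟨Prod.fst, arr, fer, fun i => φ (e0 I i)⟩
  have hpd : ∀ d, Q.pd d = φ (zv d) := fun d => (BT_hom φ (zv d)).symm
  have hz : ∀ d : I → ℕ, ¬ zv d = 0 → d ≠ 0 := fun d h h' =>
    h (by rw [h']; exact funext fun i => by simp [zv])
  have hS : Q.Sym := fun d d' h h' => by
    have := hsym _ (zv_mem d) _ (zv_mem d') (hpd d ▸ h) (hpd d' ▸ h')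
    rw [qq_B, show arr = Q.arr from rfl, kz_zv, kz_zv, sub_eq_zero] at this
    exact_mod_cast this
  have hA : ∀ n ∈ ND (e0 I) D, n ∈ cone (e0 I) → ∃ A, n = zv (Q.typ A) := fun n hn hc => by
    obtain ⟨A, -, h⟩ := Q.exists_sub (A := Finset.univ) (d := fun i => (n i).toNat) fun i => by
      have h1 := (repr_le_deg hc i).trans hn
      have h2 : Q.typ Finset.univ i = D := by
        rw [Dat.typ, show (Finset.univ.filter fun a : I × Fin D => Q.c a = i) =
          {i} ×ˢ Finset.univ by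
            ext a
            simp only [Q, Finset.mem_filter, Finset.mem_univ, true_and, Finset.mem_product,
              Finset.mem_singleton, and_true]]
        simp
      simp only [Pi.basisFun_repr] at h1
      rw [h2, Int.toNat_le]
      exact h1
    exact ⟨A, by rw [h, BT_exists_zv hc]⟩
  obtain ⟨l, hl, hl0, hF⟩ := sst_series Q hS
  refine ⟨BTser Q prC, BTser Q prB, l, BTser_zero Q (by simp [prC]), BTser_zero Q (by simp [prB]),
    BTser_sp Q fun d hd => ?_, BTser_sp Q fun d hd => ?_, hl,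
    fun f hf => (BT_hom φ _).trans (hl0 f hf), ?_⟩
  · simp only [Set.mem_ofPred_eq, not_or, not_lt] at hd
    exact Q.hd_prC (hz d hd.1) (hpd d ▸ hd.2)
  · simp only [Set.mem_ofPred_eq, not_or, not_lt] at hd
    exact Q.hd_prB (hz d hd.1) (hpd d ▸ hd.2)
  have h1 : Cong (ND (e0 I) D) (tot arr fer) (BTser Q prA * BTser Q prB) :=
    Cong.of_cone fun n hn hc => by
      obtain ⟨A, rfl⟩ := hA n hn hc
      rw [BTser_mul, ← funext (Q.hn_app1 A), ← tot_series, ← kz_zv]
      simp only [tot]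
      rw [if_pos hc]
      simp [zv, Q]
  have h2 : Cong (ND (e0 I) D) (BTser Q prA) (BTser Q prC * BTser Q prK) :=
    Cong.of_cone fun n hn hc => by
      obtain ⟨A, rfl⟩ := hA n hn hc
      rw [BTser_mul, ← funext (Q.hn_app2 A), BTser_zv]
  have h3 : Cong (ND (e0 I) D) (BTser Q prK) (FP (qq arr) (e0 I) l) :=
    Cong.of_cone fun n hn hc => by
      obtain ⟨A, rfl⟩ := hA n hn hc
      rw [BTser_zv]
      exact (hF A).symm
  exact h1.trans (Cong.mul (low_ND D) (h2.trans (Cong.mul (low_ND D) (Cong.refl _ _) h3))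
    (Cong.refl _ _))

end Vale.Agent.P066
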