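import Vale.Agent.P066.Defs

/-! Calculus of series: congruences, supports, inverses, factorizations. -/

set_option linter.unusedSectionVars false

noncomputable section
open scoped Classical
open Module

namespace Vale.Agent.P066

variable {L : Type} [AddCommGroup L] {ι : Type} [Fintype ι] {q : QT L} {e : Basis ι ℤ L}

lemma basis_mem_cone (e : Basis ι ℤ L) (i : ι) : e i ∈ cone e := by
  intro j
  rw [e.repr_self, Finsupp.single_apply]
  split_ifs <;> simp
lemma deg_basis (e : Basis ι ℤ L) (i : ι) : deg e (e i) = 1 := by simp [deg_apply, Finsupp.single_apply]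
lemma deg_nonneg {n : L} (h : n ∈ cone e) : 0 ≤ deg e n :=
  Finset.sum_nonneg fun i _ => h i
lemma repr_le_deg' {n : L} (h : n ∈ cone e) (i : ι) : e.repr n i ≤ deg e n :=
  Finset.single_le_sum (f := fun i => e.repr n i) (fun j _ => h j) (Finset.mem_univ i)

lemma deg_pos {n : L} (h : n ∈ cone e) (h0 : n ≠ 0) : 0 < deg e n := by
  refine lt_of_le_of_ne (deg_nonneg h) fun h1 => h0 (e.repr.injective ?_)
  ext i
  have := repr_le_deg' h i
  have := h i
  simp only [map_zero, Finsupp.coe_zero, Pi.zero_apply]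
  omega
lemma repr_le_deg {n : L} (h : n ∈ cone e) (i : ι) : e.repr n i ≤ deg e n :=
  repr_le_deg' h i
lemma cone_antisymm {n : L} (h : n ∈ cone e) (h' : -n ∈ cone e) : n = 0 := by
  by_contra h0
  have := deg_pos h h0
  have := deg_nonneg h'
  rw [map_neg] at this
  omega
lemma cone_le (M : AddSubmonoid L) (h : ∀ i, e i ∈ M) : cone e ≤ M := by
  intro n hn
  rw [← e.sum_repr n]
  refine sum_mem fun i _ => ?_
  rw [← Int.toNat_of_nonneg (hn i), natCast_zsmul]
  exact nsmul_mem (h i) _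
lemma hom_le_of_basis (δ δ' : L →+ ℤ) (h : ∀ i, δ (e i) ≤ δ' (e i)) {n : L} (hn : n ∈ cone e) :
    δ n ≤ δ' n := by
  rw [← e.sum_repr n, map_sum, map_sum]
  refine Finset.sum_le_sum fun i _ => ?_
  rw [map_zsmul, map_zsmul, smul_eq_mul, smul_eq_mul]
  exact mul_le_mul_of_nonneg_left (h i) (hn i)
lemma zsmul_cancel (e : Basis ι ℤ L) {a : ℤ} (ha : a ≠ 0) {v w : L} (h : a • v = a • w) :
    v = w := by
  refine e.repr.injective ?_
  ext i
  have := congrArg (fun x => e.repr x i) h
  simp only [map_zsmul, Finsupp.smul_apply, smul_eq_mul] at this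
  exact mul_left_cancel₀ ha this
lemma mem_NF {D : ℕ} {n : L} : n ∈ NF e D ↔ n ∈ cone e ∧ n ≠ 0 ∧ deg e n ≤ D := by
  rw [NF, Finset.mem_filter, mem_box]
  refine ⟨fun h => ⟨h.1.1, h.2⟩, fun h => ⟨⟨h.1, fun i => ?_⟩, h.2⟩⟩
  have := repr_le_deg h.1 i
  have e1 : e.repr (∑ j, (D : ℤ) • e j) i = D := by
    simp [Finsupp.single_apply, Finsupp.finsetSum_apply]
  rw [map_sub, Finsupp.sub_apply, e1]
  have := h.2.2
  omega
lemma low_univ : Low e Set.univ :=
  fun _ _ _ _ _ => trivial
lemma low_ND (D : ℕ) : Low e (ND e D) := by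
  intro a b _ hb h
  have := deg_nonneg hb
  simp only [ND, Set.mem_ofPred_eq, map_add] at h ⊢
  omega
lemma Low.right {N : Set L} (hN : Low e N) {a b : L} (ha : a ∈ cone e) (hb : b ∈ cone e)
    (h : a + b ∈ N) : b ∈ N :=
  hN b a hb ha (by rwa [add_comm])
lemma Low.of_box {N : Set L} (hN : Low e N) {n a : L} (hn : n ∈ N) (ha : a ∈ box e n) :
    a ∈ N ∧ n - a ∈ N := by
  obtain ⟨h1, h2⟩ := mem_box.1 ha
  have h3 : a + (n - a) ∈ N := by rwa [add_sub_cancel]
  exact ⟨hN _ _ h1 h2 h3, hN.right h1 h2 h3⟩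
/-- Strong induction on the degree inside the cone. -/
lemma cone_ind {p : L → Prop}
    (h : ∀ n ∈ cone e, (∀ a ∈ cone e, n - a ∈ cone e → a ≠ n → p a) → p n) :
    ∀ n ∈ cone e, p n := by
  have key : ∀ k : ℕ, ∀ n ∈ cone e, deg e n < k → p n := by
    intro k
    induction k with
    | zero => intro n hn hk; have := deg_nonneg hn; omega
    | succ k ih =>
      intro n hn hk
      refine h n hn fun a ha hna hne => ih a ha ?_
      have := deg_pos hna (sub_ne_zero.2 hne.symm)
      rw [map_sub] at this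
      omega
  intro n hn
  exact key ((deg e n).toNat + 1) n hn (by omega)

lemma Par.refl (a : L) : Par e a a :=
  rfl
lemma Par.symm {a b : L} (h : Par e a b) : Par e b a :=
  Eq.symm h
lemma Par.trans {a b c : L} (hb : b ∈ cone e) (hb0 : b ≠ 0) (h1 : Par e a b) (h2 : Par e b c) :
    Par e a c := by
  refine zsmul_cancel e (deg_pos hb hb0).ne' ?_
  rw [smul_comm, (show deg e b • c = deg e c • b from h2), smul_comm,
    (show deg e a • b = deg e b • a from h1), smul_comm]
lemma Par.add {a b c : L} (h1 : Par e a c) (h2 : Par e b c) : Par e (a + b) c := by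
  unfold Par at *
  rw [map_add, add_smul, smul_add, h1, h2]
lemma Par.nsmul {a c : L} (h1 : Par e a c) (k : ℕ) : Par e (k • a) c := by
  induction k with
  | zero => simp [Par]
  | succ k ih => rw [succ_nsmul]; exact ih.add h1
lemma Par.map {a b : L} (h : Par e a b) (θ : L →+ ℚ) :
    (deg e a : ℚ) * θ b = (deg e b : ℚ) * θ a := by
  have := congrArg θ h
  simpa only [map_zsmul, zsmul_eq_mul] using this
lemma Par.mapZ {a b : L} (h : Par e a b) (δ : L →+ ℤ) : deg e a * δ b = deg e b * δ a := by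
  have := congrArg δ h
  simpa only [map_zsmul, smul_eq_mul] using this
lemma Par.form_zero {a b : L} (h : Par e a b) (hb : b ∈ cone e) (hb0 : b ≠ 0) :
    q.B a b = 0 := by
  have := h.mapZ (q.B.flip b)
  simp only [AddMonoidHom.flip_apply, q.alt, mul_zero] at this
  exact (mul_eq_zero.1 this.symm).resolve_left (deg_pos hb hb0).ne'
lemma par_iff_dep {a b : L} (hb : b ∈ cone e) (hb0 : b ≠ 0) : Par e a b ↔ Dep a b := by
  refine ⟨fun h => ⟨_, _, (deg_pos hb hb0).ne', Eq.symm h⟩, ?_⟩
  rintro ⟨x, y, hx, h⟩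
  refine zsmul_cancel e hx ?_
  have := congrArg (deg e) h
  simp only [map_zsmul, smul_eq_mul] at this
  rw [smul_smul, this, smul_comm, h, smul_smul, mul_comm]
lemma dep_zero_iff (e : Basis ι ℤ L) {v : L} : Dep v 0 ↔ v = 0 := by
  refine ⟨?_, fun h => ⟨1, 0, one_ne_zero, by simp [h]⟩⟩
  rintro ⟨x, y, hx, h⟩
  exact zsmul_cancel e hx (by simpa using h)
/-- The points parallel to `n`. -/
def parM (e : Basis ι ℤ L) (n : L) : AddSubmonoid L where
  carrier := {a | Par e a n}
  add_mem' := fun h1 h2 => Par.add h1 h2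
  zero_mem' := by simp [Par]

lemma box_zero : box e 0 = {0} := by
  ext a
  rw [mem_box, Finset.mem_singleton, zero_sub]
  exact ⟨fun h => cone_antisymm h.1 h.2, fun h => by simp [h]⟩

lemma mul_zero_apply (f g : Ser q e) : (f * g) 0 = f 0 * g 0 := by simp [Ser.mul_apply, box_zero]
lemma one_zero_apply : (1 : Ser q e) 0 = 1 :=
  if_pos rfl
lemma mul_apply' (f g : Ser q e) (n : L) :
    (f * g) n = ∑ b ∈ box e n, tp (-q.B b n) * f (n - b) * g b := by
  rw [Ser.mul_apply]
  refine Finset.sum_bij' (fun a _ => n - a) (fun a _ => n - a) ?_ ?_ ?_ ?_ ?_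
  · intro a ha; rw [mem_box] at ha ⊢; simpa using ha.symm
  · intro a ha; rw [mem_box] at ha ⊢; simpa using ha.symm
  · intro a _; simp
  · intro a _; simp
  · intro a _; simp [q.alt]
lemma mono_apply {m : L} (hm : m ∈ cone e) (a : R) (n : L) :
    mono q e m a n = if n = m then a else 0 := by simp [mono, hm]
lemma mono_zero_one : mono q e 0 1 = 1 :=
  Ser.ext' fun n => by rw [mono_apply (zero_mem _), Ser.one_apply]
lemma mono_mul_apply {m : L} (hm : m ∈ cone e) (a : R) (f : Ser q e) (n : L) :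
    (mono q e m a * f) n = tp (q.B m n) * a * f (n - m) := by
  rw [Ser.mul_cv, cv, finsum_eq_single _ m]
  · rw [mono_apply hm, if_pos rfl]
  · intro x hx; rw [mono_apply hm, if_neg hx, mul_zero, zero_mul]
lemma mul_mono_apply {m : L} (hm : m ∈ cone e) (a : R) (f : Ser q e) (n : L) :
    (f * mono q e m a) n = tp (-q.B m n) * f (n - m) * a := by
  rw [Ser.mul_cv, cv, finsum_eq_single _ (n - m)]
  · rw [mono_apply hm, if_pos (by simp)]
    simp [q.alt]
  · intro x hx
    rw [mono_apply hm, if_neg (fun h => hx (by rw [← h]; simp)), mul_zero]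
lemma mono_mul_mono {m m' : L} (hm : m ∈ cone e) (hm' : m' ∈ cone e) (a b : R) :
    mono q e m a * mono q e m' b = mono q e (m + m') (tp (q.B m m') * a * b) := by
  refine Ser.ext' fun n => ?_
  rw [mono_mul_apply hm, mono_apply hm', mono_apply (add_mem hm hm')]
  by_cases h : n = m + m'
  · subst h; simp [q.alt]
  · rw [if_neg h, if_neg (fun h' => h (by rw [← h']; simp)), mul_zero]

lemma Cong.refl (N : Set L) (f : Ser q e) : Cong N f f :=
  fun _ _ => rfl
lemma Cong.symm {N : Set L} {f g : Ser q e} (h : Cong N f g) : Cong N g f :=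
  fun n hn => (h n hn).symm
lemma Cong.trans {N : Set L} {f g h : Ser q e} (h1 : Cong N f g) (h2 : Cong N g h) :
    Cong N f h :=
  fun n hn => (h1 n hn).trans (h2 n hn)
lemma Cong.mono {N N' : Set L} {f g : Ser q e} (h : Cong N f g) (hN : N' ⊆ N) :
    Cong N' f g :=
  fun n hn => h n (hN hn)
lemma Cong.of_cone {N : Set L} {f g : Ser q e} (h : ∀ n ∈ N, n ∈ cone e → f n = g n) :
    Cong N f g := by
  intro n hn
  by_cases hc : n ∈ cone e
  · exact h n hn hc
  · rw [f.eq_zero hc, g.eq_zero hc]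
lemma cong_univ {f g : Ser q e} : Cong Set.univ f g ↔ f = g :=
  ⟨fun h => Ser.ext' fun n => h n trivial, fun h _ _ => by rw [h]⟩
lemma Cong.add {N : Set L} {f f' g g' : Ser q e} (h1 : Cong N f f') (h2 : Cong N g g') :
    Cong N (f + g) (f' + g') :=
  fun n hn => by rw [Ser.add_apply, Ser.add_apply, h1 n hn, h2 n hn]
lemma Cong.sub {N : Set L} {f f' g g' : Ser q e} (h1 : Cong N f f') (h2 : Cong N g g') :
    Cong N (f - g) (f' - g') :=
  fun n hn => by rw [Ser.sub_apply, Ser.sub_apply, h1 n hn, h2 n hn]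
lemma Cong.mul {N : Set L} (hN : Low e N) {f f' g g' : Ser q e} (h1 : Cong N f f')
    (h2 : Cong N g g') : Cong N (f * g) (f' * g') := by
  intro n hn
  rw [Ser.mul_apply, Ser.mul_apply]
  refine Finset.sum_congr rfl fun a ha => ?_
  rw [h1 _ (hN.of_box hn ha).1, h2 _ (hN.of_box hn ha).2]
lemma Cong.list_prod {N : Set L} (hN : Low e N) {α : Type*} (l : List α) {f g : α → Ser q e}
    (h : ∀ x ∈ l, Cong N (f x) (g x)) : Cong N (l.map f).prod (l.map g).prod := by
  induction l with
  | nil => exact Cong.refl _ _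
  | cons x l ih =>
    rw [List.map_cons, List.map_cons, List.prod_cons, List.prod_cons]
    exact (h x (by simp)).mul hN (ih fun y hy => h y (List.mem_cons_of_mem _ hy))

lemma Sp.mono {N N' M M' : Set L} {f : Ser q e} (h : Sp N f M) (hN : N' ⊆ N)
    (hM : ∀ n ∈ N', n ∈ cone e → n ∈ M → n ∈ M') : Sp N' f M' :=
  fun n hn h0 => hM n hn (f.sp n h0) (h n (hN hn) h0)
lemma sp_cone (N : Set L) (f : Ser q e) : Sp N f (cone e) :=
  fun n _ h => f.sp n h
lemma Sp.inter {N M M' : Set L} {f : Ser q e} (h : Sp N f M) (h' : Sp N f M') :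
    Sp N f (M ∩ M') :=
  fun n hn h0 => ⟨h n hn h0, h' n hn h0⟩
lemma Sp.congr {N M : Set L} {f g : Ser q e} (h : Sp N f M) (hc : Cong N f g) : Sp N g M :=
  fun n hn h0 => h n hn (by rwa [hc n hn])
lemma sp_one (N : Set L) {M : Set L} (h : (0 : L) ∈ M) : Sp N (1 : Ser q e) M := by
  intro n _ h0
  by_cases hn : n = 0
  · rwa [hn]
  · simp [Ser.one_apply, hn] at h0
lemma sp_mono_ser (N : Set L) {M : Set L} {m : L} (h : m ∈ M) (a : R) :
    Sp N (mono q e m a) M := by
  intro n _ h0
  by_cases hn : n = m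
  · rwa [hn]
  · simp [mono, hn] at h0
lemma Sp.add {N M : Set L} {f g : Ser q e} (h1 : Sp N f M) (h2 : Sp N g M) :
    Sp N (f + g) M := by
  intro n hn h0
  by_contra hM
  exact h0 (by rw [Ser.add_apply, not_not.1 fun x => hM (h1 n hn x),
    not_not.1 fun x => hM (h2 n hn x), add_zero])
lemma Sp.sum {N M : Set L} {α : Type*} (s : Finset α) {f : α → Ser q e}
    (h : ∀ x ∈ s, Sp N (f x) M) : Sp N (∑ x ∈ s, f x) M := by
  intro n hn h0
  rw [Ser.sum_apply] at h0
  obtain ⟨x, hx, h1⟩ := Finset.exists_ne_zero_of_sum_ne_zero h0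
  exact h x hx n hn h1
lemma Sp.mul {N M1 M2 M : Set L} (hN : Low e N) {f g : Ser q e} (h1 : Sp N f M1) (h2 : Sp N g M2)
    (hM : ∀ a ∈ M1, ∀ b ∈ M2, a ∈ cone e → b ∈ cone e → a + b ∈ M) : Sp N (f * g) M := by
  intro n hn h0
  rw [Ser.mul_apply] at h0
  obtain ⟨a, ha, h3⟩ := Finset.exists_ne_zero_of_sum_ne_zero h0
  have := hM a (h1 a (hN.of_box hn ha).1 (right_ne_zero_of_mul (left_ne_zero_of_mul h3))) (n - a)
    (h2 _ (hN.of_box hn ha).2 (right_ne_zero_of_mul h3)) (mem_box.1 ha).1 (mem_box.1 ha).2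
  rwa [add_sub_cancel] at this
lemma Sp.mulM {N : Set L} (hN : Low e N) {M : AddSubmonoid L} {f g : Ser q e} (h1 : Sp N f M)
    (h2 : Sp N g M) : Sp N (f * g) M :=
  h1.mul hN h2 fun _ ha _ hb _ _ => add_mem ha hb
lemma Sp.list_prod {N : Set L} (hN : Low e N) {M : AddSubmonoid L} {α : Type*} (l : List α)
    {f : α → Ser q e} (h : ∀ x ∈ l, Sp N (f x) M) : Sp N (l.map f).prod M := by
  induction l with
  | nil => exact sp_one _ (zero_mem M)
  | cons x l ih =>
    rw [List.map_cons, List.prod_cons]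
    exact (h x (by simp)).mulM hN (ih fun y hy => h y (List.mem_cons_of_mem _ hy))
lemma comm_of_orth {M1 M2 : Set L} {f g : Ser q e} (h1 : Sp Set.univ f M1)
    (h2 : Sp Set.univ g M2) (h : ∀ a ∈ M1, ∀ b ∈ M2, q.B a b = 0) : f * g = g * f := by
  refine Ser.ext' fun n => ?_
  rw [Ser.mul_apply, mul_apply']
  refine Finset.sum_congr rfl fun a _ => ?_
  by_cases ha : f a = 0
  · simp [ha]
  by_cases hb : g (n - a) = 0
  · simp [hb]
  have := h a (h1 a trivial ha) _ (h2 _ trivial hb)
  rw [map_sub, q.alt, sub_zero] at this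
  rw [this, neg_zero]
  ring

/-- The sets of a factorization as submonoids. -/
def negM (θ : L →+ ℚ) : AddSubmonoid L where
  carrier := NegS θ
  add_mem' := by
    rintro a b (rfl | ha) (rfl | hb)
    · left; simp
    · right; simpa using hb
    · right; simpa using ha
    · right; rw [map_add]; linarith
  zero_mem' := Or.inl rfl
def zerM (θ : L →+ ℚ) : AddSubmonoid L where
  carrier := ZerS θ
  add_mem' := by
    intro a b ha hb
    simp only [ZerS, Set.mem_ofPred_eq] at *
    rw [map_add, ha, hb, add_zero]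
  zero_mem' := by simp [ZerS]
def posM (θ : L →+ ℚ) : AddSubmonoid L where
  carrier := PosS θ
  add_mem' := by
    rintro a b (rfl | ha) (rfl | hb)
    · left; simp
    · right; simpa using hb
    · right; simpa using ha
    · right; rw [map_add]; linarith
  zero_mem' := Or.inl rfl
def leM (θ : L →+ ℚ) : AddSubmonoid L where
  carrier := {n | θ n ≤ 0}
  add_mem' := by
    intro a b ha hb
    simp only [Set.mem_ofPred_eq] at *
    rw [map_add]; linarith
  zero_mem' := by simp
def geM (θ : L →+ ℚ) : AddSubmonoid L where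
  carrier := {n | 0 ≤ θ n}
  add_mem' := by
    intro a b ha hb
    simp only [Set.mem_ofPred_eq] at *
    rw [map_add]; linarith
  zero_mem' := by simp

lemma pow_vanish {u : Ser q e} (h : u 0 = 0) (k : ℕ) {n : L} (hn : deg e n < k) :
    (u ^ k) n = 0 := by
  induction k generalizing n with
  | zero => exact Ser.eq_zero _ fun hc => by have := deg_nonneg hc; omega
  | succ k ih =>
    rw [pow_succ', Ser.mul_apply]
    refine Finset.sum_eq_zero fun a ha => ?_
    by_cases h0 : a = 0
    · rw [h0, h, mul_zero, zero_mul]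
    · have := deg_pos (mem_box.1 ha).1 h0
      rw [ih (by rw [map_sub]; omega), mul_zero]

lemma exists_geom {u : Ser q e} (h : u 0 = 0) : ∃ g : Ser q e, ∀ D : ℕ,
    Cong (ND e D) g (∑ k ∈ Finset.range (D + 1), u ^ k) := by
  refine ⟨⟨fun n => (∑ k ∈ Finset.range ((deg e n).toNat + 1), u ^ k) n,
    fun n hn => Ser.sp _ n hn⟩, fun D n hn => ?_⟩
  show (∑ k ∈ Finset.range ((deg e n).toNat + 1), u ^ k) n = _
  rw [Ser.sum_apply, Ser.sum_apply]
  have hD : deg e n ≤ D := hn
  refine Finset.sum_subset (Finset.range_subset_range.2 (by omega)) fun k _ hk => ?_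
  exact pow_vanish h k (by rw [Finset.mem_range] at hk; omega)

lemma isUnit_of_zero {f : Ser q e} (h : f 0 = 1) : IsUnit f := by
  have hu : (1 - f) 0 = 0 := by rw [Ser.sub_apply, h, one_zero_apply, sub_self]
  obtain ⟨g, hg⟩ := exists_geom hu
  refine ⟨⟨f, g, Ser.ext' fun n => ?_, Ser.ext' fun n => ?_⟩, rfl⟩
  · have := mul_neg_geom_sum (1 - f) ((deg e n).toNat + 1)
    rw [sub_sub_cancel] at this
    rw [(Cong.refl _ f).mul (low_ND _) (hg (deg e n).toNat) n (Int.self_le_toNat _), this,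
      Ser.sub_apply, pow_vanish hu _ (by omega), sub_zero]
  · have := geom_sum_mul_neg (1 - f) ((deg e n).toNat + 1)
    rw [sub_sub_cancel] at this
    rw [(hg (deg e n).toNat).mul (low_ND _) (Cong.refl _ f) n (Int.self_le_toNat _), this,
      Ser.sub_apply, pow_vanish hu _ (by omega), sub_zero]
lemma mul_inv {f : Ser q e} (h : f 0 = 1) : f * inv f = 1 :=
  Ring.mul_inverse_cancel f (isUnit_of_zero h)
lemma inv_mul {f : Ser q e} (h : f 0 = 1) : inv f * f = 1 :=
  Ring.inverse_mul_cancel f (isUnit_of_zero h)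
lemma inv_zero_apply {f : Ser q e} (h : f 0 = 1) : inv f 0 = 1 := by
  have := mul_zero_apply f (inv f)
  rw [mul_inv h, one_zero_apply, h, one_mul] at this
  exact this.symm
lemma inv_one : inv (1 : Ser q e) = 1 :=
  Ring.inverse_one _
lemma inv_inv {f : Ser q e} (h : f 0 = 1) : inv (inv f) = f := by
  rw [← one_mul (inv (inv f)), ← mul_inv h, mul_assoc, mul_inv (inv_zero_apply h), mul_one]
lemma inv_mul_rev {f g : Ser q e} (hf : f 0 = 1) (hg : g 0 = 1) :
    inv (f * g) = inv g * inv f := by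
  have h : (f * g) 0 = 1 := by rw [mul_zero_apply, hf, hg, one_mul]
  have h2 : f * g * (inv g * inv f) = 1 := by
    rw [mul_assoc, ← mul_assoc g, mul_inv hg, one_mul, mul_inv hf]
  rw [← mul_one (inv (f * g)), ← h2, ← mul_assoc, inv_mul h, one_mul]
lemma inv_eq_of_mul {f g : Ser q e} (hf : f 0 = 1) (h : f * g = 1) : inv f = g := by rw [← mul_one (inv f), ← h, ← mul_assoc, inv_mul hf, one_mul]
lemma Cong.inv {N : Set L} (hN : Low e N) {f g : Ser q e} (hf : f 0 = 1) (hg : g 0 = 1)
    (h : Cong N f g) : Cong N (inv f) (inv g) := by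
  have := ((Cong.refl N (P066.inv f)).mul hN h).mul hN (Cong.refl N (P066.inv g))
  rw [inv_mul hf, one_mul, mul_assoc, mul_inv hg, mul_one] at this
  exact this.symm
lemma Sp.inv {N : Set L} (hN : Low e N) {M : AddSubmonoid L} {f : Ser q e} (hf : f 0 = 1)
    (h : Sp N f M) : Sp N (inv f) M := by
  have key : ∀ n ∈ cone e, n ∈ N → P066.inv f n ≠ 0 → n ∈ M := by
    refine cone_ind fun n hn ih hN' h0 => ?_
    by_contra hM
    have hn0 : n ≠ 0 := fun h => hM (h ▸ zero_mem M)
    have h1 : (P066.inv f * f) n = 0 := by rw [inv_mul hf, Ser.one_apply, if_neg hn0]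
    rw [Ser.mul_apply, Finset.sum_eq_single n] at h1
    · simp [q.alt, hf, h0] at h1
    · intro a ha hne
      by_contra h2
      have := add_mem (ih a (mem_box.1 ha).1 (mem_box.1 ha).2 hne (hN.of_box hN' ha).1
        (right_ne_zero_of_mul (left_ne_zero_of_mul h2)))
        (h _ (hN.of_box hN' ha).2 (right_ne_zero_of_mul h2))
      rw [add_sub_cancel] at this
      exact hM this
    · intro h2
      exact absurd (mem_box.2 ⟨hn, by simp⟩) h2
  exact fun n hn h0 => key n (Ser.sp _ n h0) hn h0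

lemma trunc_apply (M : Set L) (f : Ser q e) (n : L) :
    trunc M f n = if n ∈ M then f n else 0 := rfl
lemma sp_trunc (N M : Set L) (f : Ser q e) : Sp N (trunc M f) M := by
  intro n _ h0
  by_contra h
  exact h0 (if_neg h)
lemma Sp.cong_trunc {N M : Set L} {f : Ser q e} (h : Sp N f M) : Cong N f (trunc M f) := by
  intro n hn
  rw [trunc_apply]
  split_ifs with h1
  · rfl
  · exact not_not.1 fun x => h1 (h n hn x)
/-- Restriction to a face is multiplicative. -/
lemma trunc_mul {M F : Set L} {f g : Ser q e} (hf : Sp Set.univ f M) (hg : Sp Set.univ g M)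
    (hF : ∀ a ∈ M, ∀ b ∈ M, (a + b ∈ F ↔ a ∈ F ∧ b ∈ F)) :
    trunc F (f * g) = trunc F f * trunc F g := by
  refine Ser.ext' fun n => ?_
  rw [trunc_apply, Ser.mul_apply, Ser.mul_apply, Finset.ite_sum_zero]
  refine Finset.sum_congr rfl fun a _ => ?_
  rw [trunc_apply, trunc_apply]
  by_cases ha : f a = 0
  · simp [ha]
  by_cases hb : g (n - a) = 0
  · simp [hb]
  have := hF a (hf a trivial ha) _ (hg _ trivial hb)
  rw [add_sub_cancel] at this
  by_cases h1 : a ∈ F <;> by_cases h2 : n - a ∈ F <;> simp [this, h1, h2]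

/-- Trace property. -/
lemma trace {N : Set L} (hN : Low e N) {n : L} (hn : n ∈ N) {a : Ser q e}
    (ha : Sp N a (ZerS (th q n))) (y : Ser q e) : (a * y) n = (y * a) n := by
  rw [Ser.mul_apply, mul_apply']
  refine Finset.sum_congr rfl fun x hx => ?_
  by_cases h0 : a x = 0
  · simp [h0]
  have h1 : (q.B x n : ℚ) = 0 := ha x (hN.of_box hn hx).1 h0
  rw [Int.cast_eq_zero.1 h1, neg_zero]
  ring
lemma conj_trace {N : Set L} (hN : Low e N) {n : L} (hn : n ∈ N) {a : Ser q e} (h0 : a 0 = 1)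
    (ha : Sp N a (ZerS (th q n))) (y : Ser q e) : (inv a * y * a) n = y n := by rw [← trace hN hn ha, ← mul_assoc, mul_inv h0, one_mul]

end Vale.Agent.P066
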