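import Vale.Agent.P066.Sym
import Vale.Agent.P066.Calc
import Vale.Agent.P066.ExchAux

/-! Coefficients of products of generating series of orthogonal sets. -/

set_option linter.unusedSectionVars false

noncomputable section
open scoped Classical
open Module

namespace Vale.Agent.P066

lemma cf_prod_sum {A α : Type} [Semiring A] (N : ℕ) (T : Fin N → Finset α) (f : Fin N → α → A) :
    (List.ofFn fun c => ∑ x ∈ T c, f c x).prod =
      ∑ S ∈ Fintype.piFinset T, (List.ofFn fun c => f c (S c)).prod := by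
  induction N with
  | zero => simp
  | succ N ih =>
    rw [List.ofFn_succ, List.prod_cons, ih (fun c => T c.succ) (fun c => f c.succ),
      Finset.sum_mul_sum, ← Finset.sum_product']
    refine Finset.sum_nbij' (fun p => Fin.cons p.1 p.2) (fun S => (S 0, Fin.tail S)) ?_ ?_ ?_ ?_ ?_
    · intro p hp
      rw [Finset.mem_product, Fintype.mem_piFinset] at hp
      rw [Fintype.mem_piFinset, Fin.forall_fin_succ]
      exact hp
    · intro S hS
      rw [Fintype.mem_piFinset, Fin.forall_fin_succ] at hS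
      rw [Finset.mem_product, Fintype.mem_piFinset]
      exact hS
    · intro p _; simp
    · intro S _; simp
    · intro p _; simp [List.ofFn_succ]

section general

variable {L : Type} [AddCommGroup L] {ι : Type} [Fintype ι] {q : QT L} {e : Basis ι ℤ L}

/-- The exponent of an ordered product of monomials. -/
def cfEx (q : QT L) {N : ℕ} (p : Fin N → L) : ℤ :=
  ∑ c, ∑ c', if c < c' then q.B (p c) (p c') else 0

lemma cf_prod_mono (N : ℕ) (p : Fin N → L) (hp : ∀ c, p c ∈ cone e) :
    (List.ofFn fun c => mono q e (p c) 1).prod = mono q e (∑ c, p c) (tp (cfEx q p)) := by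
  induction N with
  | zero => simp [cfEx, mono_zero_one]
  | succ N ih =>
    rw [List.ofFn_succ, List.prod_cons, ih (fun c => p c.succ) (fun c => hp _),
      mono_mul_mono (hp 0) (sum_mem fun c _ => hp _), Fin.sum_univ_succ, mul_one, ← tp_add]
    congr 2
    simp [cfEx, Fin.sum_univ_succ]

/-- The index set of the expansion. -/
def cfS (q : QT L) {V : Type} (v : V → L) (W : Finset V) {N : ℕ} (k : Fin N → ℕ) (n : L) :
    Finset (Fin N → Finset V) :=
  (Fintype.piFinset fun c => (W.powersetCard (k c)).filter fun S => exO q v S).filter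
    (fun S => n = ∑ c, ∑ a ∈ S c, v a)

lemma mem_cfS {V : Type} {v : V → L} {W : Finset V} {N : ℕ} {k : Fin N → ℕ} {n : L}
    {S : Fin N → Finset V} : S ∈ cfS q v W k n ↔
      (∀ c, (S c ⊆ W ∧ (S c).card = k c) ∧ exO q v (S c)) ∧ n = ∑ c, ∑ a ∈ S c, v a := by
  simp only [cfS, Finset.mem_filter, Fintype.mem_piFinset, Finset.mem_powersetCard]

lemma cf_expand {V : Type} {v : V → L} (hc : ∀ a, v a ∈ cone e) (W : Finset V) {N : ℕ}
    (k : Fin N → ℕ) (n : L) :
    HP q e v W (List.ofFn k) n =
      ∑ S ∈ cfS q v W k n, tp (cfEx q fun c => ∑ a ∈ S c, v a) := by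
  unfold HP cfS
  rw [List.map_ofFn]
  simp only [Function.comp_def, Hs_eq]
  rw [cf_prod_sum, Ser.sum_apply, Finset.sum_filter]
  refine Finset.sum_congr rfl fun S _ => ?_
  rw [cf_prod_mono _ _ fun c => sum_mem fun a _ => hc a,
    mono_apply (sum_mem fun c _ => sum_mem fun a _ => hc a)]

end general

variable {V : Type} [Fintype V] {ι : Type} [Fintype ι] {q : QT (V → ℤ)} {e : Basis ι ℤ (V → ℤ)}

lemma cf_eval {v : V → V → ℤ} (hv : ∀ a, v a = Pi.single a 1) {N : ℕ} (S : Fin N → Finset V)
    (j : V) : (∑ c, ∑ a ∈ S c, v a) j = ((Finset.univ.filter fun c => j ∈ S c).card : ℤ) := by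
  simp only [hv, Finset.sum_apply, Pi.single_apply, Finset.sum_ite_eq]
  simp

lemma cf_fiber {n N : ℕ} (g : Fin n → Fin N) (β : Fin n → Fin n → ℤ) :
    ∑ c, ∑ c', (if c < c' then ∑ a ∈ Finset.univ.filter (fun a => g a = c),
      ∑ b ∈ Finset.univ.filter (fun b => g b = c'), β a b else 0) =
      ∑ a, ∑ b, if g a < g b then β a b else 0 := by
  rw [← Finset.sum_fiberwise Finset.univ g]
  refine Finset.sum_congr rfl fun c _ => ?_
  have h1 : ∀ a ∈ Finset.univ.filter (fun a => g a = c),
      ∑ b, (if g a < g b then β a b else 0) =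
        ∑ c', if c < c' then ∑ b ∈ Finset.univ.filter (fun b => g b = c'), β a b else 0 := by
    intro a ha
    rw [← Finset.sum_fiberwise Finset.univ g]
    refine Finset.sum_congr rfl fun c' _ => ?_
    rw [(Finset.mem_filter.1 ha).2]
    split_ifs with h
    · exact Finset.sum_congr rfl fun b hb => by rw [(Finset.mem_filter.1 hb).2, if_pos h]
    · exact Finset.sum_eq_zero fun b hb => by rw [(Finset.mem_filter.1 hb).2, if_neg h]
  rw [Finset.sum_congr rfl h1, Finset.sum_comm]
  refine Finset.sum_congr rfl fun c' _ => ?_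
  split_ifs <;> simp

lemma cf_asc {n : ℕ} (h : Fin n → Fin n) {f : Fin n → ℕ} (hf : IsProper h f) :
    ∑ a, ∑ b, (if f a < f b then
      (if Edge h a b then 1 else 0) - (if Edge h b a then 1 else 0) else 0 : ℤ) =
      2 * asc h f - nE h := by
  have h1 : (asc h f : ℤ) = ∑ a, ∑ b, if Edge h a b ∧ f a < f b then 1 else 0 := by
    rw [asc, Finset.card_filter, ← Finset.univ_product_univ, Finset.sum_product]
    simp
  have h2 : (nE h : ℤ) = ∑ a, ∑ b, if Edge h a b then 1 else 0 := by
    rw [nE, Finset.card_filter, ← Finset.univ_product_univ, Finset.sum_product]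
    simp
  have h3 : ∑ a, ∑ b, (if f a < f b then
      (if Edge h a b then 1 else 0) - (if Edge h b a then 1 else 0) else 0 : ℤ) =
      ∑ a, ∑ b, (if Edge h a b ∧ f a < f b then 1 else 0 : ℤ) -
        ∑ a, ∑ b, (if Edge h a b ∧ f b < f a then 1 else 0 : ℤ) := by
    rw [Finset.sum_comm (f := fun a b => (if Edge h a b ∧ f b < f a then 1 else 0 : ℤ)),
      ← Finset.sum_sub_distrib]
    refine Finset.sum_congr rfl fun a _ => ?_
    rw [← Finset.sum_sub_distrib]
    refine Finset.sum_congr rfl fun b _ => ?_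
    by_cases h4 : f a < f b <;> simp [h4]
  have h4 : ∑ a, ∑ b, (if Edge h a b then 1 else 0 : ℤ) =
      ∑ a, ∑ b, (if Edge h a b ∧ f a < f b then 1 else 0 : ℤ) +
        ∑ a, ∑ b, (if Edge h a b ∧ f b < f a then 1 else 0 : ℤ) := by
    rw [← Finset.sum_add_distrib]
    refine Finset.sum_congr rfl fun a _ => ?_
    rw [← Finset.sum_add_distrib]
    refine Finset.sum_congr rfl fun b _ => ?_
    by_cases h5 : Edge h a b
    · rcases lt_or_gt_of_ne (hf a b h5) with h6 | h6 <;> simp [h5, h6, h6.not_gt]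
    · simp [h5]
  rw [h3, h1, h2, h4]; ring

theorem coef_graph {v : V → V → ℤ} (hv : ∀ a, v a = Pi.single a 1) (hc : ∀ a, v a ∈ cone e)
    {n : ℕ} (h : Fin n → Fin n) {Y : Fin n → V} (hY : Function.Injective Y)
    (hB : ∀ a b, a < b → q.B (v (Y a)) (v (Y b)) = if b ≤ h a then 1 else 0) (u : ℕ →₀ ℕ) {N : ℕ}
    (hN : ∀ i ∈ u.support, i < N) (hu : u.degree = n) :
    HP q e v Finset.univ (List.ofFn fun c : Fin N => u c) (∑ a, v (Y a)) =
      ∑ f ∈ colS h u, tp (2 * asc h f - nE h) := by
  have _ := hu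
  have hβ : ∀ a b, q.B (v (Y a)) (v (Y b)) =
      (if Edge h a b then 1 else 0) - (if Edge h b a then 1 else 0) := by
    intro a b
    rcases lt_trichotomy a b with h1 | h1 | h1
    · rw [hB a b h1]; simp [Edge, h1, h1.not_gt]
    · rw [h1, q.alt, sub_self]
    · rw [q.swap, hB b a h1]; simp [Edge, h1, h1.not_gt]
  set F : (Fin n → ℕ) → Fin N → Finset V :=
    fun f c => (Finset.univ.filter fun a => f a = c).image Y with hF
  have hmem : ∀ f (c : Fin N) a, Y a ∈ F f c ↔ f a = c := fun f c a => by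
    simp [hF, hY.eq_iff]
  have hsum : ∀ f (c : Fin N), ∑ x ∈ F f c, v x =
      ∑ a ∈ Finset.univ.filter (fun a => f a = c), v (Y a) := fun f c =>
    Finset.sum_image fun _ _ _ _ h => hY h
  have hcard : ∀ f (c : Fin N), (F f c).card = content f c := fun f c => by
    rw [sym_content_apply, Finset.card_image_of_injective _ hY]
  have hlt : ∀ f ∈ colS h u, ∀ a, f a < N := fun f hf a =>
    hN _ (Fintype.mem_piFinset.1 (Finset.mem_filter.1 hf).1 a)
  rw [cf_expand hc]
  symm
  refine Finset.sum_bij (fun f _ => F f) ?_ ?_ ?_ ?_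
  · intro f hf
    obtain ⟨h1, h2⟩ := mem_colS.1 hf
    refine mem_cfS.2 ⟨fun c => ⟨⟨Finset.subset_univ _, by rw [hcard, h2]⟩, ?_⟩, ?_⟩
    · intro x hx y hy
      obtain ⟨a, ha, rfl⟩ := Finset.mem_image.1 hx
      obtain ⟨b, hb, rfl⟩ := Finset.mem_image.1 hy
      have h3 : f a = f b := (Finset.mem_filter.1 ha).2.trans (Finset.mem_filter.1 hb).2.symm
      rw [hβ, if_neg fun h4 => h1 a b h4 h3, if_neg fun h4 => h1 b a h4 h3.symm, sub_self]
    · rw [← Finset.sum_fiberwise Finset.univ fun a => (⟨f a, hlt f hf a⟩ : Fin N)]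
      refine Finset.sum_congr rfl fun c _ => ?_
      rw [hsum]
      simp only [Fin.ext_iff]
  · intro f hf f' _ h1
    funext a
    have h2 := (hmem f ⟨f a, hlt f hf a⟩ a).2 rfl
    rw [h1, hmem] at h2
    exact h2.symm
  · intro S hS
    obtain ⟨h3, h2⟩ := mem_cfS.1 hS
    have h4 : ∀ x, (Finset.univ.filter fun c => x ∈ S c).card =
        (Finset.univ.filter fun a => x = Y a).card := by
      intro x
      have h5 := congrFun h2 x
      rw [cf_eval hv] at h5
      simp only [hv, Finset.sum_apply, Pi.single_apply, Finset.sum_boole] at h5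
      exact_mod_cast h5.symm
    have h5 : ∀ a, ∃ c, (Finset.univ.filter fun c => Y a ∈ S c) = {c} := by
      intro a
      rw [← Finset.card_eq_one, h4]
      simp only [hY.eq_iff, Finset.filter_eq, Finset.mem_univ, if_true, Finset.card_singleton]
    choose g hg using h5
    have h6 : ∀ a c, Y a ∈ S c ↔ g a = c := fun a c => by
      have := Finset.ext_iff.1 (hg a) c
      simpa [eq_comm] using this
    have h7 : F (fun a => g a) = S := by
      funext c; ext x
      constructor
      · intro hx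
        obtain ⟨a, ha, rfl⟩ := Finset.mem_image.1 hx
        exact (h6 a c).2 (Fin.ext (Finset.mem_filter.1 ha).2)
      · intro hx
        have h8 : 0 < (Finset.univ.filter fun a => x = Y a).card := by
          rw [← h4]; exact Finset.card_pos.2 ⟨c, by simpa using hx⟩
        obtain ⟨a, ha⟩ := Finset.card_pos.1 h8
        rw [(Finset.mem_filter.1 ha).2] at hx ⊢
        rw [hmem, (h6 a c).1 hx]
    refine ⟨fun a => g a, mem_colS.2 ⟨fun a b hab h8 => ?_, ?_⟩, h7⟩
    · have h9 := (h3 (g a)).2 _ ((h6 a _).2 rfl) _ ((h6 b _).2 (Fin.ext h8.symm))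
      rw [hB a b hab.1, if_pos hab.2] at h9
      exact one_ne_zero h9
    · ext i
      rcases lt_or_ge i N with hi | hi
      · have h8 := hcard (fun a => g a) ⟨i, hi⟩
        rw [h7, (h3 _).1.2] at h8
        exact h8.symm
      · have h8 : u i = 0 := by
          by_contra h9
          have := hN i (Finsupp.mem_support_iff.2 h9)
          omega
        rw [h8, sym_content_apply, Finset.card_eq_zero, Finset.filter_eq_empty_iff]
        intro a _
        have := (g a).2
        omega
  · intro f hf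
    congr 1
    rw [← cf_asc h (mem_colS.1 hf).1]
    have h1 := cf_fiber (fun a => (⟨f a, hlt f hf a⟩ : Fin N)) fun a b => q.B (v (Y a)) (v (Y b))
    simp only [Fin.ext_iff, Fin.mk_lt_mk] at h1
    simp only [← hβ, cfEx, hsum, map_sum, AddMonoidHom.finsetSum_apply]
    rw [← h1]
    refine Finset.sum_congr rfl fun c _ => Finset.sum_congr rfl fun c' _ => ?_
    rw [Finset.sum_comm]

theorem coef_W {v : V → V → ℤ} (hv : ∀ a, v a = Pi.single a 1) (hc : ∀ a, v a ∈ cone e)
    (W : Finset V) (hB : ∀ a ∈ W, ∀ b ∈ W, q.B (v a) (v b) = 0) (p : V → ℤ) :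
    (∀ ks, HP q e v W ks p = 0) ∨ ∃ μ : Multiset ℕ, ∀ (u : ℕ →₀ ℕ) (N : ℕ),
      (∀ i ∈ u.support, i < N) →
        HP q e v W (List.ofFn fun c : Fin N => u c) p = (cnt μ u : R) := by
  by_cases h0 : ∀ ks, HP q e v W ks p = 0
  · exact Or.inl h0
  right
  obtain ⟨ks, hks⟩ := not_forall.1 h0
  rw [← List.ofFn_get ks, cf_expand hc] at hks
  obtain ⟨S0, hS0, -⟩ := Finset.exists_ne_zero_of_sum_ne_zero hks
  obtain ⟨h1, h2⟩ := mem_cfS.1 hS0
  have hp0 : ∀ j, 0 ≤ p j := fun j => by rw [h2, cf_eval hv]; positivity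
  have hpW : ∀ j, j ∉ W → p j = 0 := fun j hj => by
    rw [h2, cf_eval hv, Nat.cast_eq_zero, Finset.card_eq_zero, Finset.filter_eq_empty_iff]
    exact fun c _ hc => hj ((h1 c).1.1 hc)
  refine ⟨Finset.univ.val.map fun j => (p j).toNat, fun u N hN => ?_⟩
  rw [cf_expand hc, cnt_eq_card _ _ hN, Finset.card_eq_sum_ones, Nat.cast_sum]
  refine Finset.sum_congr ?_ fun S hS => ?_
  · ext S
    simp only [mem_cfS, Finset.mem_filter, Finset.mem_univ, true_and]
    constructor
    · rintro ⟨h3, h4⟩
      refine ⟨fun c => (h3 c).1.2, fun j => ?_⟩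
      rw [h4, cf_eval hv, Int.toNat_natCast]
    · rintro ⟨h3, h4⟩
      have h5 : ∀ c, S c ⊆ W := fun c j hj => by
        by_contra h6
        have h7 := h4 j
        rw [hpW j h6, Int.toNat_zero, Finset.card_eq_zero, Finset.filter_eq_empty_iff] at h7
        exact h7 (Finset.mem_univ c) hj
      refine ⟨fun c => ⟨⟨h5 c, h3 c⟩, fun a ha b hb => hB a (h5 c ha) b (h5 c hb)⟩, ?_⟩
      funext j
      rw [cf_eval hv, h4, Int.toNat_of_nonneg (hp0 j)]
  · have h4 := (Finset.mem_filter.1 hS).2.2
    have h5 : ∀ c, S c ⊆ W := fun c j hj => by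
      by_contra h6
      have h7 := h4 j
      rw [hpW j h6, Int.toNat_zero, Finset.card_eq_zero, Finset.filter_eq_empty_iff] at h7
      exact h7 (Finset.mem_univ c) hj
    have h6 : cfEx q (fun c => ∑ a ∈ S c, v a) = 0 := by
      refine Finset.sum_eq_zero fun c _ => Finset.sum_eq_zero fun c' _ => ?_
      rw [ite_eq_right_iff]
      intro _
      simp only [map_sum, AddMonoidHom.finsetSum_apply]
      exact Finset.sum_eq_zero fun b hb => Finset.sum_eq_zero fun a ha =>
        hB a (h5 c ha) b (h5 c' hb)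
    rw [h6, tp_zero, Nat.cast_one]

end Vale.Agent.P066
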