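import Vale.Agent.P066.Ev

/-! Positivity of conjugation by the factors. -/

set_option linter.unusedSectionVars false

noncomputable section
open scoped Classical
open Module

namespace Vale.Agent.P066

variable {L : Type} [AddCommGroup L] {ι : Type} [Fintype ι] {q : QT L} {e : Basis ι ℤ L}

lemma Pos.zero : Pos 0 :=
  fun _ => ⟨0, by simp⟩
lemma Pos.one : Pos 1 :=
  fun k => by
    rw [HahnSeries.coeff_one]
    split_ifs
    exacts [⟨1, by simp⟩, ⟨0, by simp⟩]
lemma Pos.tp (k : ℤ) : Pos (tp k) :=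
  fun j => by
    rw [P066.tp, HahnSeries.coeff_single]
    split_ifs
    exacts [⟨1, by simp⟩, ⟨0, by simp⟩]
lemma Pos.add' {a b : R} (ha : Pos a) (hb : Pos b) : Pos (a + b) := fun k => by
  obtain ⟨x, hx⟩ := ha k
  obtain ⟨y, hy⟩ := hb k
  exact ⟨x + y, by rw [HahnSeries.coeff_add, hx, hy, Nat.cast_add]⟩

lemma Pos.natCast (k : ℕ) : Pos (k : R) := by
  induction k with
  | zero => rw [Nat.cast_zero]; exact Pos.zero
  | succ k ih => rw [Nat.cast_succ]; exact ih.add' Pos.one
lemma Pos.add {a b : R} (ha : Pos a) (hb : Pos b) : Pos (a + b) :=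
  ha.add' hb
lemma Pos.mul {a b : R} (ha : Pos a) (hb : Pos b) : Pos (a * b) :=
  fun k => by
    choose x hx using ha
    choose y hy using hb
    rw [HahnSeries.coeff_mul]
    simp only [hx, hy, ← Nat.cast_mul, ← Nat.cast_sum]
    exact ⟨_, rfl⟩
lemma Pos.sum {α : Type*} (s : Finset α) {f : α → R} (h : ∀ x ∈ s, Pos (f x)) :
    Pos (∑ x ∈ s, f x) :=
  Finset.sum_induction f Pos (fun _ _ => Pos.add) Pos.zero h

lemma one_sub_tp_ne (k : ℤ) (hk : k ≠ 0) : 1 - tp k ≠ 0 := by
  intro h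
  have := congrArg (fun x : R => x.coeff 0) h
  simp [tp, hk.symm] at this
lemma Fc_succ (ε : Bool) (k : ℕ) :
    Fc ε (k + 1) * (1 - tp (2 * k + 2)) = (if ε then tp (2 * k) else 1) * Fc ε k := by
  rw [Fc, div_mul_cancel₀ _ (one_sub_tp_ne _ (by omega))]

lemma Fps_true (j : ℤ) :
    Fps true j = (1 + PowerSeries.C (tp j) * PowerSeries.X) * Fps true (j + 2) := by
  ext1 k
  rw [add_mul, one_mul, map_add, mul_assoc, PowerSeries.coeff_C_mul]
  cases k with
  | zero => simp [Fps]
  | succ k =>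
    have := Fc_succ true k
    rw [if_pos rfl] at this
    rw [PowerSeries.coeff_succ_X_mul]
    simp only [Fps, PowerSeries.coeff_mk]
    push_cast
    rw [show (j + 2) * ((k : ℤ) + 1) = j * (k + 1) + (2 * k + 2) by ring, tp_add, ← mul_assoc,
      ← tp_add j, show j + (j + 2) * (k : ℤ) = j * (k + 1) + 2 * k by ring, tp_add _ (2 * k)]
    linear_combination tp (j * (k + 1)) * this
lemma Fps_false (j : ℤ) :
    (1 - PowerSeries.C (tp j) * PowerSeries.X) * Fps false j = Fps false (j + 2) := by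
  ext1 k
  rw [sub_mul, one_mul, map_sub, mul_assoc, PowerSeries.coeff_C_mul]
  cases k with
  | zero => simp [Fps]
  | succ k =>
    have := Fc_succ false k
    rw [if_neg (by simp), one_mul] at this
    rw [PowerSeries.coeff_succ_X_mul]
    simp only [Fps, PowerSeries.coeff_mk]
    push_cast
    rw [show (j + 2) * ((k : ℤ) + 1) = j * (k + 1) + (2 * k + 2) by ring, tp_add, ← mul_assoc,
      ← tp_add j, show j + j * (k : ℤ) = j * (k + 1) by ring]
    linear_combination tp (j * (k + 1)) * this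
lemma rescale_Fps (ε : Bool) (j a : ℤ) : PowerSeries.rescale (tp a) (Fps ε j) = Fps ε (j + a) := by
  ext1 k
  rw [PowerSeries.coeff_rescale, Fps, Fps, PowerSeries.coeff_mk, PowerSeries.coeff_mk, tp_pow,
    ← mul_assoc, ← tp_add]
  ring_nf

lemma gb_zero (c : ℕ) : gb c 0 = 1 := by simp [gb]
lemma gb_one_one : gb 1 1 = 1 := by simp [gb, Finset.powersetCard_one]
lemma sum_refl_compl {M : Type*} [AddCommMonoid M] (c : ℕ) (S : Finset ℕ) (f : ℕ → M) :
    ∑ i ∈ (Finset.range c).filter (fun i => c - 1 - i ∉ S), f i =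
      ∑ i ∈ Finset.range c \ S, f (c - 1 - i) := by
  refine Finset.sum_nbij' (fun i => c - 1 - i) (fun i => c - 1 - i) ?_ ?_ ?_ ?_ ?_
  · intro i hi
    simp only [Finset.mem_filter, Finset.mem_sdiff, Finset.mem_range] at hi ⊢
    exact ⟨by omega, hi.2⟩
  · intro i hi
    simp only [Finset.mem_filter, Finset.mem_sdiff, Finset.mem_range] at hi ⊢
    exact ⟨by omega, by rw [show c - 1 - (c - 1 - i) = i by omega]; exact hi.2⟩
  · intro i hi
    simp only [Finset.mem_filter, Finset.mem_range] at hi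
    omega
  · intro i hi
    simp only [Finset.mem_sdiff, Finset.mem_range] at hi
    omega
  · intro i hi
    simp only [Finset.mem_filter, Finset.mem_range] at hi
    rw [show c - 1 - (c - 1 - i) = i by omega]

lemma card_refl_compl {c : ℕ} {S : Finset ℕ} (h : S ⊆ Finset.range c) :
    ((Finset.range c).filter (fun i => c - 1 - i ∉ S)).card = c - S.card := by
  rw [Finset.card_eq_sum_ones, sum_refl_compl, ← Finset.card_eq_sum_ones, Finset.card_sdiff_of_subset h,
    Finset.card_range]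

lemma refl_compl_invol {c : ℕ} {S : Finset ℕ} (h : S ⊆ Finset.range c) :
    (Finset.range c).filter (fun i => c - 1 - i ∉
      (Finset.range c).filter (fun i => c - 1 - i ∉ S)) = S := by
  ext i
  simp only [Finset.mem_filter, Finset.mem_range, not_and, not_not]
  constructor
  · rintro ⟨h1, h2⟩
    have := h2 (by omega)
    rwa [show c - 1 - (c - 1 - i) = i by omega] at this
  · intro hi
    have := Finset.mem_range.1 (h hi)
    exact ⟨this, fun _ => by rwa [show c - 1 - (c - 1 - i) = i by omega]⟩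

lemma sum_range_cent (c : ℕ) : ∑ i ∈ Finset.range c, ((c : ℤ) - 1 - 2 * i) = 0 := by
  have : ∀ n : ℕ, ∑ i ∈ Finset.range n, ((c : ℤ) - 1 - 2 * i) = n * (c - n) := fun n => by
    induction n with
    | zero => simp
    | succ n ih => rw [Finset.sum_range_succ, ih]; push_cast; ring
  rw [this, sub_self, mul_zero]

lemma gb_symm {c k : ℕ} (h : k ≤ c) : gb c (c - k) = gb c k := by
  refine Finset.sum_nbij' (fun S => (Finset.range c).filter fun i => c - 1 - i ∉ S)
    (fun S => (Finset.range c).filter fun i => c - 1 - i ∉ S) ?_ ?_ ?_ ?_ ?_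
  · intro S hS
    rw [Finset.mem_powersetCard] at hS ⊢
    exact ⟨Finset.filter_subset _ _, by rw [card_refl_compl hS.1, hS.2]; omega⟩
  · intro S hS
    rw [Finset.mem_powersetCard] at hS ⊢
    exact ⟨Finset.filter_subset _ _, by rw [card_refl_compl hS.1, hS.2]⟩
  · exact fun S hS => refl_compl_invol (Finset.mem_powersetCard.1 hS).1
  · exact fun S hS => refl_compl_invol (Finset.mem_powersetCard.1 hS).1
  · intro S hS
    have h1 := Finset.sum_sdiff (f := fun i : ℕ => (c : ℤ) - 1 - 2 * i)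
      (Finset.mem_powersetCard.1 hS).1
    rw [sum_range_cent] at h1
    rw [sum_refl_compl, eq_neg_of_add_eq_zero_right h1, ← Finset.sum_neg_distrib]
    refine congrArg tp (Finset.sum_congr rfl fun i hi => ?_)
    have := Finset.mem_range.1 (Finset.mem_sdiff.1 hi).1
    omega

lemma tp_sum {α : Type*} (s : Finset α) (f : α → ℤ) : tp (∑ i ∈ s, f i) = ∏ i ∈ s, tp (f i) := by
  induction s using Finset.induction_on with
  | empty => simp
  | insert a s ha ih => rw [Finset.sum_insert ha, Finset.prod_insert ha, tp_add, ih]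

lemma Fps_true_iter (j : ℤ) (c : ℕ) : Fps true (j - 2 * c) =
    (∏ i ∈ Finset.range c, (1 + PowerSeries.C (tp (j - 2 - 2 * i)) * PowerSeries.X)) *
      Fps true j := by
  induction c with
  | zero => simp
  | succ c ih =>
    rw [Fps_true, Finset.prod_range_succ, mul_right_comm, ← ih, mul_comm]
    push_cast
    ring_nf

lemma coeff_gb (c k : ℕ) (a : ℤ) : tp (k * a) * PowerSeries.coeff k (∏ i ∈ Finset.range c,
    (1 + PowerSeries.C (tp (c - 1 - a - 2 * i)) * PowerSeries.X)) = gb c k := by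
  rw [Finset.prod_one_add, map_sum, gb, Finset.powersetCard_eq_filter, Finset.sum_filter,
    Finset.mul_sum]
  refine Finset.sum_congr rfl fun S _ => ?_
  rw [Finset.prod_mul_distrib, Finset.prod_const, ← map_prod, PowerSeries.coeff_C_mul,
    PowerSeries.coeff_X_pow, ← tp_sum]
  by_cases h : S.card = k
  · rw [if_pos h, if_pos h.symm, mul_one, ← tp_add, ← h, Finset.card_eq_sum_ones]
    push_cast
    rw [Finset.sum_mul, ← Finset.sum_add_distrib]
    exact congrArg tp (Finset.sum_congr rfl fun i _ => by ring)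
  · rw [if_neg h, if_neg (Ne.symm h), mul_zero, mul_zero]

lemma Fps_ne (ε : Bool) (j : ℤ) : PowerSeries.constantCoeff (Fps ε j) ≠ 0 := by
  rw [← PowerSeries.coeff_zero_eq_constantCoeff_apply, Fps_zero]
  exact one_ne_zero

lemma rescale_Fps_inv (ε : Bool) (j a : ℤ) :
    PowerSeries.rescale (tp a) (Fps ε j)⁻¹ = (Fps ε (j + a))⁻¹ := by
  rw [PowerSeries.eq_inv_iff_mul_eq_one (Fps_ne _ _), ← rescale_Fps, ← map_mul,
    PowerSeries.inv_mul_cancel _ (Fps_ne _ _), map_one]

lemma sum_gb (c D : ℕ) (F : ℕ → R) : ∑ j ∈ Finset.range (D + c + 1), gb c j * F j =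
    ∑ j ∈ Finset.range (c + 1), gb c j * F j := by
  refine (Finset.sum_subset (Finset.range_subset_range.2 (by omega)) fun j _ hj => ?_).symm
  rw [gb, Finset.powersetCard_eq_empty.2 (by simpa using hj), Finset.sum_empty, zero_mul]

theorem conjE_neg {X : L} (hm : X ∈ cone e) (hm0 : X ≠ 0) (f : Ser q e) {n : L} {c : ℕ}
    (hc : q.B X n = -(c : ℤ)) :
    (Ez q e X * f * inv (Ez q e X)) n = ∑ j ∈ Finset.range (c + 1), gb c j * f (n - j • X) := by
  rw [Ez, Fz, ev_inv hm hm0 (Fps_zero _ _), conj_ev_apply hm hm0 _ _ _ _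
    (D := (deg e n).toNat + c) (by omega), ← sum_gb c (deg e n).toNat, rescale_Fps, hc,
    show (1 : ℤ) + 2 * -(c : ℤ) = 1 - 2 * c by ring, Fps_true_iter, mul_assoc,
    PowerSeries.mul_inv_cancel _ (Fps_ne _ _), mul_one]
  refine Finset.sum_congr rfl fun k _ => ?_
  rw [← coeff_gb c k c, mul_neg, neg_neg, show (c : ℤ) - 1 - c = 1 - 2 by ring]
theorem conjE_pos {X : L} (hm : X ∈ cone e) (hm0 : X ≠ 0) (f : Ser q e) {n : L} {c : ℕ}
    (hc : q.B X n = (c : ℤ)) :
    (inv (Ez q e X) * f * Ez q e X) n = ∑ j ∈ Finset.range (c + 1), gb c j * f (n - j • X) := by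
  have := Fps_true_iter (1 + 2 * c) c
  rw [add_sub_cancel_right] at this
  rw [Ez, Fz, ev_inv hm hm0 (Fps_zero _ _), conj_ev_apply hm hm0 _ _ _ _
    (D := (deg e n).toNat + c) (by omega), ← sum_gb c (deg e n).toNat, rescale_Fps_inv, hc, this,
    mul_left_comm, PowerSeries.inv_mul_cancel _ (Fps_ne _ _), mul_one]
  refine Finset.sum_congr rfl fun k _ => ?_
  rw [← coeff_gb c k (-c), mul_neg, show (c : ℤ) - 1 - -c = 1 + 2 * c - 2 by ring]

/-- All coefficients of the power series are positive. -/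
def PosP (φ : PowerSeries R) : Prop := ∀ k, Pos (PowerSeries.coeff k φ)

lemma PosP.mul {φ ψ : PowerSeries R} (h : PosP φ) (h' : PosP ψ) : PosP (φ * ψ) := fun k => by
  rw [PowerSeries.coeff_mul]
  exact Pos.sum _ fun x _ => (h _).mul (h' _)

lemma posP_one : PosP 1 := fun k => by
  rw [PowerSeries.coeff_one]
  split_ifs
  exacts [Pos.one, Pos.zero]

lemma Fps_step (ε : Bool) (j : ℤ) : ∃ ψ, PosP ψ ∧ Fps ε j = ψ * Fps ε (j + 2) := by
  cases ε
  · refine ⟨PowerSeries.mk fun k => tp j ^ k, fun k => ?_, ?_⟩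
    · rw [PowerSeries.coeff_mk, tp_pow]
      exact Pos.tp _
    · have : (PowerSeries.mk fun k => tp j ^ k) * (1 - PowerSeries.C (tp j) * PowerSeries.X) = 1 := by
        ext1 k
        rw [mul_sub, mul_one, map_sub, mul_left_comm, PowerSeries.coeff_C_mul]
        cases k with
        | zero => simp
        | succ k => simp [PowerSeries.coeff_succ_mul_X, pow_succ', PowerSeries.coeff_one]
      rw [← Fps_false, ← mul_assoc, this, one_mul]
  · refine ⟨_, fun k => ?_, Fps_true j⟩
    rw [map_add, PowerSeries.coeff_C_mul, PowerSeries.coeff_X]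
    refine (posP_one k).add ((Pos.tp j).mul ?_)
    split_ifs
    exacts [Pos.one, Pos.zero]

lemma Fps_steps (ε : Bool) (j : ℤ) (c : ℕ) : ∃ ψ, PosP ψ ∧ Fps ε j = ψ * Fps ε (j + 2 * c) := by
  induction c with
  | zero => exact ⟨1, posP_one, by simp⟩
  | succ c ih =>
    obtain ⟨ψ, h1, h2⟩ := ih
    obtain ⟨φ, h3, h4⟩ := Fps_step ε (j + 2 * c)
    refine ⟨ψ * φ, h1.mul h3, ?_⟩
    rw [h2, h4, mul_assoc]
    push_cast
    ring_nf

lemma posAct_gen (s : ℤ → Prop) (T : Fac L → Ser q e → Ser q e)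
    (hT : ∀ f : Fac L, f.m ∈ cone e → f.m ≠ 0 → ∀ p, s (q.B f.m p) → ∃ (D : ℕ) (b : ℕ → R),
      (∀ k, Pos (b k)) ∧ ∀ y, T f y p = ∑ k ∈ Finset.range D, b k * y (p - k • f.m))
    {l : List (Fac L)} (hl : OkL e l) (ho : ∀ f ∈ l, ∀ f' ∈ l, q.B f.m f'.m = 0)
    {p : L} (hp : ∀ f ∈ l, s (q.B f.m p)) :
    ∃ β : L →₀ R, (∀ x, Pos (β x)) ∧ (∀ x ∈ β.support, p - x ∈ cone e) ∧
      ∀ y : Ser q e, l.foldr T y p = β.sum fun x b => b * y x := by
  induction l generalizing p with
  | nil =>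
    refine ⟨Finsupp.single p 1, fun x => ?_, fun x hx => ?_, fun y => by simp⟩
    · rw [Finsupp.single_apply]
      split_ifs
      exacts [Pos.one, Pos.zero]
    · rw [Finset.mem_singleton.1 (Finsupp.support_single_subset hx), sub_self]
      exact zero_mem _
  | cons f l ih =>
    obtain ⟨D, b, h1, h2⟩ := hT f (hl f (by simp)).1 (hl f (by simp)).2 p (hp f (by simp))
    choose β k1 k2 k3 using fun k : ℕ => ih (fun x hx => hl x (List.mem_cons_of_mem _ hx))
      (fun x hx y hy => ho x (List.mem_cons_of_mem _ hx) y (List.mem_cons_of_mem _ hy))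
      (p := p - k • f.m) fun x hx => by
        rw [map_sub, map_nsmul, ho x (List.mem_cons_of_mem _ hx) f (by simp), smul_zero, sub_zero]
        exact hp x (List.mem_cons_of_mem _ hx)
    refine ⟨∑ k ∈ Finset.range D, b k • β k, fun x => ?_, fun x hx => ?_, fun y => ?_⟩
    · rw [Finsupp.finsetSum_apply]
      exact Pos.sum _ fun k _ => (h1 k).mul (k1 k x)
    · rw [Finsupp.mem_support_iff, Finsupp.finsetSum_apply] at hx
      obtain ⟨k, -, hk⟩ := Finset.exists_ne_zero_of_sum_ne_zero hx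
      have := add_mem (k2 k x (Finsupp.mem_support_iff.2 (right_ne_zero_of_mul hk)))
        (nsmul_mem (hl f (by simp)).1 k)
      rwa [sub_right_comm, sub_add_cancel] at this
    · have : ∀ γ : L →₀ R, (γ.sum fun x b => b * y x) = Finsupp.linearCombination R y.co γ :=
        fun γ => rfl
      rw [List.foldr_cons, h2, this, map_sum]
      exact Finset.sum_congr rfl fun k _ => by rw [k3, this, map_smul, smul_eq_mul]

theorem posAct_neg {l : List (Fac L)} (hl : OkL e l) (ho : ∀ f ∈ l, ∀ f' ∈ l, q.B f.m f'.m = 0)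
    {p : L} (hp : ∀ f ∈ l, q.B f.m p < 0) :
    ∃ β : L →₀ R, (∀ x, Pos (β x)) ∧ (∀ x ∈ β.support, p - x ∈ cone e) ∧
      ∀ y : Ser q e, (FP q e l * y * inv (FP q e l)) p = β.sum fun x b => b * y x := by
  have key : ∀ (l : List (Fac L)), OkL e l → ∀ y : Ser q e, FP q e l * y * inv (FP q e l) =
      l.foldr (fun f y => Fz q e f * y * inv (Fz q e f)) y := by
    intro l hl y
    induction l with
    | nil => rw [FP_nil, inv_one, one_mul, mul_one]; rfl
    | cons f l ih =>
      have hl' : OkL e l := fun x hx => hl x (List.mem_cons_of_mem _ hx)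
      rw [List.foldr_cons, ← ih hl', FP_cons,
        inv_mul_rev (Fz_zero (hl f (by simp)).1 (hl f (by simp)).2) (FP_zero hl')]
      simp only [mul_assoc]
  simp only [key l hl]
  refine posAct_gen (· < 0) _ (fun f hm hm0 p h => ?_) hl ho hp
  obtain ⟨ψ, h1, h2⟩ := Fps_steps f.ε (f.j + 2 * q.B f.m p) (-q.B f.m p).toNat
  rw [Int.toNat_of_nonneg (by omega), mul_neg, add_neg_cancel_right] at h2
  refine ⟨(deg e p).toNat + 1, _, fun k => (Pos.tp (-(k * q.B f.m p))).mul (h1 k), fun y => ?_⟩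
  rw [Fz, ev_inv hm hm0 (Fps_zero _ _), conj_ev_apply hm hm0 _ _ _ _ (Int.self_le_toNat _),
    rescale_Fps, h2, mul_assoc, PowerSeries.mul_inv_cancel _ (Fps_ne _ _), mul_one]
theorem posAct_pos {l : List (Fac L)} (hl : OkL e l) (ho : ∀ f ∈ l, ∀ f' ∈ l, q.B f.m f'.m = 0)
    {p : L} (hp : ∀ f ∈ l, 0 < q.B f.m p) :
    ∃ β : L →₀ R, (∀ x, Pos (β x)) ∧ (∀ x ∈ β.support, p - x ∈ cone e) ∧
      ∀ y : Ser q e, (inv (FP q e l) * y * FP q e l) p = β.sum fun x b => b * y x := by
  have key : ∀ (l : List (Fac L)), OkL e l → (∀ f ∈ l, ∀ f' ∈ l, q.B f.m f'.m = 0) →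
      ∀ y : Ser q e, inv (FP q e l) * y * FP q e l =
        l.foldr (fun f y => inv (Fz q e f) * y * Fz q e f) y := by
    intro l hl ho y
    induction l with
    | nil => rw [FP_nil, inv_one, one_mul, mul_one]; rfl
    | cons f l ih =>
      have hl' : OkL e l := fun x hx => hl x (List.mem_cons_of_mem _ hx)
      rw [List.foldr_cons, ← ih hl' fun x hx y hy =>
          ho x (List.mem_cons_of_mem _ hx) y (List.mem_cons_of_mem _ hy), FP_cons,
        comm_of_orth (sp_Fz _ (M := mulM f.m) ⟨1, one_nsmul _⟩)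
          (sp_FP _ (M := AddMonoidHom.mker (q.B f.m)) fun x hx =>
            ho f (by simp) x (List.mem_cons_of_mem _ hx)) (by
          rintro _ ⟨k, rfl⟩ b hb
          rw [map_nsmul, AddMonoidHom.nsmul_apply, show q.B f.m b = 0 from hb, smul_zero]),
        inv_mul_rev (FP_zero hl') (Fz_zero (hl f (by simp)).1 (hl f (by simp)).2)]
      simp only [mul_assoc]
  simp only [key l hl ho]
  refine posAct_gen (0 < ·) _ (fun f hm hm0 p h => ?_) hl ho hp
  obtain ⟨ψ, h1, h2⟩ := Fps_steps f.ε f.j (q.B f.m p).toNat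
  rw [Int.toNat_of_nonneg (by omega)] at h2
  refine ⟨(deg e p).toNat + 1, _, fun k => (Pos.tp (-(k * q.B f.m p))).mul (h1 k), fun y => ?_⟩
  rw [Fz, ev_inv hm hm0 (Fps_zero _ _), conj_ev_apply hm hm0 _ _ _ _ (Int.self_le_toNat _),
    rescale_Fps_inv, h2, mul_left_comm, PowerSeries.inv_mul_cancel _ (Fps_ne _ _), mul_one]

end Vale.Agent.P066
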