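import Mathlib

/-! Labelled shuffle algebra of a quiver: definitions. -/

set_option linter.unusedSectionVars false

noncomputable section
open scoped Classical
open MvPolynomial Equiv

namespace Vale.Agent.P066

/-- Labels `Λ` coloured by vertices `I`, arrows, vertex types and a stability. -/
structure Dat (Λ I : Type) where
  c : Λ → I
  arr : I → I → ℕ
  fer : I → Bool
  φ : I → ℤ

abbrev Pl (Λ : Type) := MvPolynomial Λ ℂ

/-- A condition on a pair (sub, quotient) of (slope, size) data. -/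
abbrev Pr := ℤ × ℕ → ℤ × ℕ → Prop

def prN : Pr := fun _ _ => False
def prA : Pr := fun _ w => w.1 < 0
def prB : Pr := fun z _ => z.2 ≠ 0 ∧ 0 ≤ z.1
def prC : Pr := fun _ w => w.2 ≠ 0 ∧ w.1 ≤ 0
def prK : Pr := fun z w => 0 < z.1 ∨ w.1 < 0

variable {Λ I : Type} [Fintype Λ] [Fintype I]

/-- Polynomials in the variables of `A`. -/
def sup (A : Finset Λ) : Subalgebra ℂ (Pl Λ) := supported ℂ (A : Set Λ)

/-- The ideal is generated by polynomials in the variables of `B`. -/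
def GenIn (J : Ideal (Pl Λ)) (B : Finset Λ) : Prop :=
  ∃ G : Set (Pl Λ), (∀ g ∈ G, g ∈ sup B) ∧ J = Ideal.span G

/-- Kill the variables outside `A`. -/
def res (A : Finset Λ) : Pl Λ →ₐ[ℂ] Pl Λ := aeval fun a => if a ∈ A then X a else 0

/-- Contraction of the variables in `S` with a functional. -/
def Phi (S : Finset Λ) (ℓ : Pl Λ →ₗ[ℂ] ℂ) : Pl Λ →ₗ[ℂ] Pl Λ :=
  (basisMonomials Λ ℂ).constr ℂ fun u =>
    ℓ (monomial (u.filter (· ∈ S)) 1) • monomial (u.filter (· ∉ S)) 1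

/-- Translation of every variable by the parameter of its label. -/
def TT (ρ : Λ → ℕ) : Pl Λ →ₐ[ℂ] MvPolynomial ℕ (Pl Λ) := aeval fun a => C (X a) + X (ρ a)

/-- Modulo `J`, the translate of `f` has degree at most `n` in the parameters. -/
def Le (J : Ideal (Pl Λ)) (ρ : Λ → ℕ) (n : ℤ) : Submodule ℂ (Pl Λ) where
  carrier := {f | ∀ β : ℕ →₀ ℕ, n < (β.degree : ℤ) → coeff β (TT ρ f) ∈ J}
  add_mem' := by
    intro f g hf hg β hβ
    rw [map_add, coeff_add]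
    exact J.add_mem (hf β hβ) (hg β hβ)
  zero_mem' := by intro β _; simp
  smul_mem' := by
    intro r f hf β hβ
    rw [map_smul, coeff_smul]
    exact Submodule.smul_of_tower_mem J r (hf β hβ)

lemma mem_Le {J : Ideal (Pl Λ)} {ρ : Λ → ℕ} {n : ℤ} {f : Pl Λ} :
    f ∈ Le J ρ n ↔ ∀ β : ℕ →₀ ℕ, n < (β.degree : ℤ) → coeff β (TT ρ f) ∈ J := Iff.rfl

/-- The ideal is stable under translation. -/
def Stab (J : Ideal (Pl Λ)) (ρ : Λ → ℕ) : Prop := ∀ f ∈ J, ∀ β, coeff β (TT ρ f) ∈ J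

/-- On `A`, the partition by `ρ1` refines the partition by `ρ0`. -/
def Refines (A : Finset Λ) (ρ1 ρ0 : Λ → ℕ) : Prop :=
  ∀ a ∈ A, ∀ b ∈ A, ρ1 a = ρ1 b → ρ0 a = ρ0 b

def blk (A : Finset Λ) (ρ : Λ → ℕ) (l : ℕ) : Finset Λ := A.filter fun a => ρ a = l

def lab (A : Finset Λ) (ρ : Λ → ℕ) : Finset ℕ := A.image ρ

/-- Sum of the variables of `B`. -/
def sg (B : Finset Λ) : Pl Λ := ∑ a ∈ B, X a

/-- No odd generator is repeated. -/
def Good {G : Type} (par : G → Bool) (μ : Multiset (G × ℕ)) : Prop :=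
  ∀ x, par x.1 = true → μ.count x ≤ 1

namespace Dat

variable (D : Dat Λ I)

def K (S T : Finset Λ) : Pl Λ := ∏ a ∈ S, ∏ b ∈ T, (X b - X a) ^ D.arr (D.c a) (D.c b)

def kap (S T : Finset Λ) : ℕ := ∑ a ∈ S, ∑ b ∈ T, D.arr (D.c a) (D.c b)

def ph (S : Finset Λ) : ℤ := ∑ a ∈ S, D.φ (D.c a)

def sz (S : Finset Λ) : ℤ × ℕ := (D.ph S, S.card)

def typ (S : Finset Λ) : I → ℕ := fun i => (S.filter fun a => D.c a = i).card

def kd (d d' : I → ℕ) : ℕ := ∑ i, ∑ j, D.arr i j * d i * d' j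

def pd (d : I → ℕ) : ℤ := ∑ i, D.φ i * d i

/-- Number of fermion labels of a type. -/
def nf (d : I → ℕ) : ℕ := ∑ i, if D.fer i = true then d i else 0

def Sym : Prop := ∀ d d', D.pd d = 0 → D.pd d' = 0 → D.kd d d' = D.kd d' d

/-- Colour preserving permutations. -/
def GG : Subgroup (Perm Λ) where
  carrier := {σ | ∀ a, D.c (σ a) = D.c a}
  mul_mem' := by
    intro σ τ hσ hτ a
    rw [Perm.mul_apply, hσ, hτ]
  one_mem' := fun _ => rfl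
  inv_mem' := by
    intro σ hσ a
    have := hσ (σ⁻¹ a)
    simpa using this.symm

lemma mem_GG {σ : Perm Λ} : σ ∈ D.GG ↔ ∀ a, D.c (σ a) = D.c a := Iff.rfl

/-- Colour preserving permutations supported in `A`. -/
def Gam (A : Finset Λ) : Finset (Perm Λ) :=
  Finset.univ.filter fun σ => σ ∈ D.GG ∧ ∀ a, a ∉ A → σ a = a

lemma mem_Gam {A : Finset Λ} {σ : Perm Λ} :
    σ ∈ D.Gam A ↔ σ ∈ D.GG ∧ ∀ a, a ∉ A → σ a = a := by simp [Gam]

/-- Sign on the fermion labels. -/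
def eta (σ : Perm Λ) : ℂ :=
  if h : ∀ a, D.fer (D.c (σ a)) = true ↔ D.fer (D.c a) = true then
    ((Perm.sign (σ.subtypePerm (p := fun a => D.fer (D.c a) = true) h) : ℤ) : ℂ) else 0

def Inv (A : Finset Λ) (f : Pl Λ) : Prop := ∀ σ ∈ D.Gam A, rename σ f = D.eta σ • f

/-- Projection to the twisted invariants. -/
def av (A : Finset Λ) : Pl Λ →ₗ[ℂ] Pl Λ :=
  ((D.Gam A).card : ℂ)⁻¹ • ∑ σ ∈ D.Gam A, D.eta σ • (rename σ : Pl Λ →ₐ[ℂ] Pl Λ).toLinearMap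

lemma av_apply (A : Finset Λ) (f : Pl Λ) :
    D.av A f = ((D.Gam A).card : ℂ)⁻¹ • ∑ σ ∈ D.Gam A, D.eta σ • rename σ f := by
  simp [av, LinearMap.sum_apply]

def Id (pr : Pr) (A : Finset Λ) : Ideal (Pl Λ) :=
  Ideal.span {f | ∃ S, S ⊆ A ∧ pr (D.sz S) (D.sz (A \ S)) ∧ f = D.K S (A \ S)}

/-- Homogeneous twisted invariants in the variables of `A`. -/
def W (A : Finset Λ) (m : ℕ) : Submodule ℂ (Pl Λ) where
  carrier := {f | f ∈ sup A ∧ f.IsHomogeneous m ∧ D.Inv A f}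
  add_mem' := by
    rintro f g ⟨h1, h2, h3⟩ ⟨h4, h5, h6⟩
    refine ⟨add_mem h1 h4, h2.add h5, fun σ hσ => ?_⟩
    rw [map_add, h3 σ hσ, h6 σ hσ, smul_add]
  zero_mem' := ⟨zero_mem _, isHomogeneous_zero _ _ _, fun σ _ => by simp⟩
  smul_mem' := by
    rintro r f ⟨h1, h2, h3⟩
    refine ⟨Subalgebra.smul_mem _ h1 r, (homogeneousSubmodule Λ ℂ m).smul_mem r h2,
      fun σ hσ => ?_⟩
    rw [map_smul, h3 σ hσ, smul_comm]

lemma mem_W {A : Finset Λ} {m : ℕ} {f : Pl Λ} :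
    f ∈ D.W A m ↔ f ∈ sup A ∧ f.IsHomogeneous m ∧ D.Inv A f := Iff.rfl

def hdim (J : Ideal (Pl Λ)) (A : Finset Λ) (m : ℕ) : ℕ :=
  Module.finrank ℂ ((D.W A m).map (Ideal.Quotient.mkₐ ℂ J).toLinearMap)

def hd (pr : Pr) (d : I → ℕ) (m : ℕ) : ℕ :=
  if h : ∃ S, D.typ S = d then D.hdim (D.Id pr h.choose) h.choose m else 0

/-- Twisted convolution of dimension counts. -/
def conv (pr1 pr2 : Pr) (d : I → ℕ) (m : ℕ) : ℕ :=
  ∑ d1 ∈ Finset.Iic d, ∑ m1 ∈ Finset.range (m + 1), ∑ m2 ∈ Finset.range (m + 1),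
    if m1 + m2 + D.kd d1 (d - d1) = m then D.hd pr1 d1 m1 * D.hd pr2 (d - d1) m2 else 0

abbrev KK (B : Finset Λ) : Ideal (Pl Λ) := D.Id prK B

def LL (A : Finset Λ) (ρ : Λ → ℕ) : Ideal (Pl Λ) := ⨆ l ∈ lab A ρ, D.KK (blk A ρ l)

def Adm (A : Finset Λ) (ρ : Λ → ℕ) : Prop := ∀ l, D.ph (blk A ρ l) = 0

def kk (A : Finset Λ) (ρ : Λ → ℕ) : ℕ :=
  ∑ a ∈ A, ∑ b ∈ A, if ρ a < ρ b then D.arr (D.c a) (D.c b) else 0

def KP (A : Finset Λ) (ρ : Λ → ℕ) : Pl Λ :=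
  ∏ a ∈ A, ∏ b ∈ A, if ρ a < ρ b then (X b - X a) ^ D.arr (D.c a) (D.c b) else 1

/-- The leading part of the translate of `KP`. -/
def Del (A : Finset Λ) (ρ : Λ → ℕ) : MvPolynomial ℕ ℂ :=
  ∏ a ∈ A, ∏ b ∈ A, if ρ a < ρ b then (X (ρ b) - X (ρ a)) ^ D.arr (D.c a) (D.c b) else 1

/-- The weight filtration. -/
def FF (A : Finset Λ) (ω : ℤ) : Submodule ℂ (Pl Λ) :=
  ⨅ ρ : Λ → ℕ, ⨅ _ : D.Adm A ρ, Le (D.LL A ρ) ρ (D.kk A ρ + ω - (lab A ρ).card)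

lemma mem_FF {A : Finset Λ} {ω : ℤ} {f : Pl Λ} :
    f ∈ D.FF A ω ↔ ∀ ρ, D.Adm A ρ → f ∈ Le (D.LL A ρ) ρ (D.kk A ρ + ω - (lab A ρ).card) := by
  simp [FF, Submodule.mem_iInf]

/-- Homogeneous bases of the primitive parts. -/
structure VData where
  Gen : Type
  fin : Fintype Gen
  ty : Gen → I → ℕ
  dg : Gen → ℕ
  b : Finset Λ → Gen → Pl Λ
  ty_ne : ∀ v, ty v ≠ 0
  ty_pd : ∀ v, D.pd (ty v) = 0
  memW : ∀ B v, D.typ B = ty v → b B v ∈ D.W B (dg v)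
  memF : ∀ B v, D.typ B = ty v → b B v ∈ D.FF B 1
  span : ∀ B f, B.Nonempty → D.ph B = 0 → f ∈ sup B → D.Inv B f → f ∈ D.FF B 1 →
    ∃ r : Gen → ℂ, f - ∑ v with ty v = D.typ B, r v • b B v ∈ D.KK B
  dual : ∀ B v, D.typ B = ty v → ∃ ℓ : Pl Λ →ₗ[ℂ] ℂ, (∀ f ∈ D.KK B, ℓ f = 0) ∧
    ∀ w, ty w = D.typ B → ℓ (b B w) = if w = v then 1 else 0
  act : ∀ σ ∈ D.GG, ∀ B v, D.typ B = ty v →
    ∃ ε : ℂ, (ε = 1 ∨ ε = -1) ∧ rename σ (b B v) = ε • b (B.image σ) v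

instance (V : D.VData) : Fintype V.Gen := V.fin

variable {D}

namespace VData

variable (V : D.VData)

/-- The generators fit the blocks. -/
def Val (A : Finset Λ) (ρ : Λ → ℕ) (γ : ℕ → V.Gen × ℕ) : Prop :=
  ∀ l ∈ lab A ρ, D.typ (blk A ρ l) = V.ty (γ l).1

/-- Product of the basis elements of the blocks. -/
def bb (A : Finset Λ) (ρ : Λ → ℕ) (γ : ℕ → V.Gen × ℕ) : Pl Λ :=
  ∏ l ∈ lab A ρ, V.b (blk A ρ l) (γ l).1

/-- The ordered monomial. -/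
def mm (A : Finset Λ) (ρ : Λ → ℕ) (γ : ℕ → V.Gen × ℕ) : Pl Λ :=
  D.KP A ρ * V.bb A ρ γ * ∏ l ∈ lab A ρ, sg (blk A ρ l) ^ (γ l).2

def wt (A : Finset Λ) (ρ : Λ → ℕ) (γ : ℕ → V.Gen × ℕ) : ℕ := ∑ l ∈ lab A ρ, ((γ l).2 + 1)

def dgm (A : Finset Λ) (ρ : Λ → ℕ) (γ : ℕ → V.Gen × ℕ) : ℕ :=
  D.kk A ρ + ∑ l ∈ lab A ρ, (V.dg (γ l).1 + (γ l).2)

/-- The symbol of the ordered monomial. -/
def sy (A : Finset Λ) (ρ : Λ → ℕ) (γ : ℕ → V.Gen × ℕ) : MvPolynomial ℕ ℂ :=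
  D.Del A ρ * ∏ l ∈ lab A ρ, (C ((blk A ρ l).card : ℂ) * X l) ^ (γ l).2

/-- Span of the averaged monomials of weight `ω`. -/
def MS (A : Finset Λ) (ω : ℤ) : Submodule ℂ (Pl Λ) :=
  Submodule.span ℂ {f | ∃ ρ γ, V.Val A ρ γ ∧ (V.wt A ρ γ : ℤ) = ω ∧ f = D.av A (V.mm A ρ γ)}

def par (v : V.Gen) : Bool := decide (Odd (D.nf (V.ty v) + D.kd (V.ty v) (V.ty v)))

def jj (v : V.Gen) : ℤ := 2 * V.dg v - D.kd (V.ty v) (V.ty v)

end VData

end Dat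

/-- The good multisets with given total type and total exponent. -/
def GM {G I : Type} (par : G → Bool) (ty : G → I → ℕ) (jj : G → ℤ) (d : I → ℕ) (k : ℤ) :
    Set (Multiset (G × ℕ)) :=
  {μ | Good par μ ∧ (μ.map fun x => ty x.1).sum = d ∧ (μ.map fun x => jj x.1 + 2 * x.2).sum = k}

end Vale.Agent.P066
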