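import Vale.Agent.P066.Conj
import Vale.Agent.P066.DDefs

/-! Coefficients of products of factors count good multisets. -/

set_option linter.unusedSectionVars false

noncomputable section
open scoped Classical
open Module

namespace Vale.Agent.P066

variable {I : Type} [Fintype I]

/-- Integer vector of a type. -/
def zv (d : I → ℕ) : I → ℤ := fun i => d i

lemma ct_fiber {α β : Type} {S : Set α} (t : Finset β) (f : α → β) (h : ∀ x ∈ S, f x ∈ t)
    (hf : ∀ b ∈ t, {x ∈ S | f x = b}.Finite) :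
    S.Finite ∧ S.ncard = ∑ b ∈ t, {x ∈ S | f x = b}.ncard := by
  have hS : S.Finite := (t.finite_toSet.biUnion hf).subset fun x hx =>
    Set.mem_biUnion (h x hx) ⟨hx, rfl⟩
  refine ⟨hS, ?_⟩
  lift S to Finset α using hS
  rw [Set.ncard_coe_finset, Finset.card_eq_sum_card_fiberwise (f := f) (t := t) h]
  refine Finset.sum_congr rfl fun b _ => ?_
  rw [← Set.ncard_coe_finset, Finset.coe_filter]
  rfl

/-- The series counts the elements of a weighted set. -/
def Cnt (a : R) {α : Type} (S : Set α) (w : α → ℤ) : Prop :=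
  ∀ k, {x ∈ S | w x = k}.Finite ∧ a.coeff k = ({x ∈ S | w x = k}.ncard : ℚ)

lemma Cnt.mul {a b : R} {α β : Type} {S : Set α} {T : Set β} {w : α → ℤ} {u : β → ℤ}
    (ha : Cnt a S w) (hb : Cnt b T u) : Cnt (a * b) (S ×ˢ T) fun p => w p.1 + u p.2 := by
  intro k
  have e : ∀ ij ∈ Finset.antidiagonal a.isPWO_support b.isPWO_support k,
      {p ∈ {p ∈ S ×ˢ T | w p.1 + u p.2 = k} | (w p.1, u p.2) = ij} =
        {x ∈ S | w x = ij.1} ×ˢ {y ∈ T | u y = ij.2} := fun ij hij => by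
    have := (Finset.mem_antidiagonal.1 hij).2.2
    ext p
    simp only [Set.mem_ofPred_eq, Set.mem_prod, Prod.ext_iff]
    constructor
    · rintro ⟨⟨⟨h1, h2⟩, -⟩, h3, h4⟩
      exact ⟨⟨h1, h3⟩, h2, h4⟩
    · rintro ⟨⟨h1, h3⟩, h2, h4⟩
      exact ⟨⟨⟨h1, h2⟩, by rw [h3, h4, this]⟩, h3, h4⟩
  obtain ⟨h1, h2⟩ := ct_fiber (S := {p ∈ S ×ˢ T | w p.1 + u p.2 = k})
    (Finset.antidiagonal a.isPWO_support b.isPWO_support k) (fun p => (w p.1, u p.2))
    (fun p hp => Finset.mem_antidiagonal.2 ⟨by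
      rw [HahnSeries.mem_support, (ha _).2, Nat.cast_ne_zero]
      exact Set.ncard_ne_zero_of_mem (a := p.1) ⟨hp.1.1, rfl⟩ (ha _).1, by
      rw [HahnSeries.mem_support, (hb _).2, Nat.cast_ne_zero]
      exact Set.ncard_ne_zero_of_mem (a := p.2) ⟨hp.1.2, rfl⟩ (hb _).1, hp.2⟩)
    fun ij hij => by rw [e ij hij]; exact (ha _).1.prod (hb _).1
  refine ⟨h1, ?_⟩
  rw [h2, HahnSeries.coeff_mul, Nat.cast_sum]
  refine Finset.sum_congr rfl fun ij hij => ?_
  rw [e ij hij, Set.ncard_prod, (ha _).2, (hb _).2, Nat.cast_mul]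

lemma Cnt.sum {α β : Type} {S : Set α} {w : α → ℤ} (t : Finset β) (f : α → β) {a : β → R}
    (h : ∀ x ∈ S, f x ∈ t) (ha : ∀ j ∈ t, Cnt (a j) {x ∈ S | f x = j} w) :
    Cnt (∑ j ∈ t, a j) S w := by
  intro k
  have e : ∀ j, {x ∈ {x ∈ S | w x = k} | f x = j} = {x ∈ {x ∈ S | f x = j} | w x = k} :=
    fun j => Set.ext fun x => and_right_comm
  obtain ⟨h1, h2⟩ := ct_fiber (S := {x ∈ S | w x = k}) t f (fun x hx => h x hx.1)
    fun j hj => by rw [e]; exact (ha j hj k).1
  refine ⟨h1, ?_⟩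
  rw [h2, HahnSeries.coeff_sum, Nat.cast_sum]
  exact Finset.sum_congr rfl fun j hj => by rw [e, (ha j hj k).2]

lemma Cnt.bij {a : R} {α β : Type} {S : Set α} {T : Set β} {w : α → ℤ} {u : β → ℤ}
    (ha : Cnt a S w) (φ : α → β) (hφ : Set.BijOn φ S T) (h : ∀ x ∈ S, u (φ x) = w x) :
    Cnt a T u := by
  intro k
  have hb : Set.BijOn φ {x ∈ S | w x = k} {y ∈ T | u y = k} :=
    ⟨fun x hx => ⟨hφ.1 hx.1, (h x hx.1).trans hx.2⟩, hφ.2.1.mono fun x hx => hx.1, fun y hy => by
      obtain ⟨x, hx, rfl⟩ := hφ.2.2 hy.1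
      exact ⟨x, ⟨hx, (h x hx).symm.trans hy.2⟩, rfl⟩⟩
  exact ⟨hb.finite_iff_finite.1 (ha k).1, by rw [(ha k).2, hb.ncard_eq]⟩

lemma ct_coeff_tp_mul (j k : ℤ) (a : R) : (tp j * a).coeff k = a.coeff (k - j) := by
  rw [tp, HahnSeries.coeff_single_mul, one_mul]

lemma Cnt.tp {a : R} {α : Type} {S : Set α} {w : α → ℤ} (ha : Cnt a S w) (j : ℤ) :
    Cnt (tp j * a) S fun x => j + w x := by
  intro k
  have : {x ∈ S | j + w x = k} = {x ∈ S | w x = k - j} :=
    Set.ext fun x => and_congr_right' (by omega)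
  rw [ct_coeff_tp_mul, this]
  exact ha _

/-- Multisets of numbers of a given size. -/
def ctS (ε : Bool) (k : ℕ) : Set (Multiset ℕ) := {μ | (ε = true → μ.Nodup) ∧ μ.card = k}

lemma ct_finite (ε : Bool) (k : ℕ) (s : ℤ) : {μ ∈ ctS ε k | 2 * (μ.sum : ℤ) = s}.Finite := by
  refine (Set.finite_Iic (k • Multiset.range (s.toNat + 1))).subset fun μ hμ => ?_
  refine Multiset.le_iff_count.2 fun a => ?_
  by_cases ha : a ∈ μ
  · have h1 := Multiset.le_sum_of_mem ha
    have h2 := hμ.2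
    rw [Multiset.count_nsmul, Multiset.count_eq_one_of_mem (Multiset.nodup_range _)
      (Multiset.mem_range.2 (by omega)), mul_one, ← hμ.1.2]
    exact Multiset.count_le_card _ _
  · rw [Multiset.count_eq_zero_of_notMem ha]
    exact Nat.zero_le _

lemma ct_shift (ε : Bool) (k : ℕ) :
    Set.BijOn (Multiset.map Nat.succ) (ctS ε k) {μ ∈ ctS ε k | 0 ∉ μ} := by
  refine ⟨fun μ hμ => ⟨⟨fun h => (hμ.1 h).map Nat.succ_injective, by simpa using hμ.2⟩, by simp⟩,
    (Multiset.map_injective Nat.succ_injective).injOn, fun μ hμ => ?_⟩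
  have e : (μ.map Nat.pred).map Nat.succ = μ := by
    rw [Multiset.map_map]
    refine (Multiset.map_congr rfl fun a ha => ?_).trans (Multiset.map_id μ)
    exact Nat.succ_pred fun h => hμ.2 (h ▸ ha)
  exact ⟨μ.map Nat.pred, ⟨fun h => Multiset.Nodup.of_map Nat.succ (e.symm ▸ hμ.1.1 h),
    by simpa using hμ.1.2⟩, e⟩

lemma ct_sum_shift (μ : Multiset ℕ) : (μ.map Nat.succ).sum = μ.sum + μ.card := by
  simp [Multiset.sum_map_add]

lemma ct_cons (ε : Bool) (k : ℕ) : Set.BijOn (Multiset.cons 0)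
    {μ ∈ ctS ε k | ε = true → 0 ∉ μ} {μ ∈ ctS ε (k + 1) | 0 ∈ μ} := by
  refine ⟨fun μ hμ => ⟨⟨fun h => Multiset.nodup_cons.2 ⟨hμ.2 h, hμ.1.1 h⟩,
    by simpa using hμ.1.2⟩, by simp⟩, fun μ _ ν _ h => by simpa using h, fun μ hμ => ?_⟩
  obtain ⟨ν, rfl⟩ := Multiset.exists_cons_of_mem hμ.2
  exact ⟨ν, ⟨⟨fun h => (Multiset.nodup_cons.1 (hμ.1.1 h)).2, by simpa using hμ.1.2⟩,
    fun h => (Multiset.nodup_cons.1 (hμ.1.1 h)).1⟩, rfl⟩

lemma ct_period {u : ℤ → ℚ} {d b : ℤ} (hd : 0 < d) (h : ∀ s, u s = u (s - d))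
    (hb : ∀ s < b, u s = 0) (s : ℤ) : u s = 0 := by
  have : ∀ n : ℕ, ∀ s < b + n, u s = 0 := fun n => by
    induction n with
    | zero => simpa using hb
    | succ n ih => exact fun s hs => (h s).trans (ih _ (by push_cast at hs; omega))
  exact this (s - b + 1).toNat s (by omega)

lemma cnt_Fc (ε : Bool) (k : ℕ) : Cnt (Fc ε k) (ctS ε k) fun μ => 2 * (μ.sum : ℤ) := by
  induction k with
  | zero =>
    refine fun s => ⟨ct_finite ε 0 s, ?_⟩
    rw [Fc, HahnSeries.coeff_one]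
    split_ifs with h
    · rw [show {μ ∈ ctS ε 0 | 2 * (μ.sum : ℤ) = s} = {0} from Set.ext fun μ => by
        simp only [ctS, Set.mem_ofPred_eq, Multiset.card_eq_zero, Set.mem_singleton_iff]
        exact ⟨fun h => h.1.2, by rintro rfl; simp [h]⟩]
      simp
    · rw [show {μ ∈ ctS ε 0 | 2 * (μ.sum : ℤ) = s} = ∅ from Set.eq_empty_of_forall_notMem (by
        rintro μ ⟨⟨-, h1⟩, h2⟩
        rw [Multiset.card_eq_zero.1 h1] at h2
        exact h h2.symm)]
      simp
  | succ k ih =>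
    have h1 : Cnt ((if ε then tp (2 * k) else 1) * Fc ε k) {μ ∈ ctS ε (k + 1) | 0 ∈ μ}
        fun μ => 2 * (μ.sum : ℤ) := by
      refine Cnt.bij (w := fun μ => 2 * (μ.sum : ℤ)) ?_ _ (ct_cons ε k) fun μ _ => by simp
      cases ε with
      | false => simpa using ih
      | true =>
        simp only [if_true, forall_true_left]
        refine (ih.tp _).bij _ (ct_shift true k) fun μ hμ => ?_
        rw [ct_sum_shift, hμ.2]
        push_cast
        ring
    have h2 : Fc ε (k + 1) =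
        tp (2 * k + 2) * Fc ε (k + 1) + (if ε then tp (2 * k) else 1) * Fc ε k := by
      have := one_sub_tp_ne (2 * k + 2) (by omega)
      rw [← sub_eq_iff_eq_add', ← one_sub_mul, Fc, mul_div_cancel₀ _ this]
    refine fun s => ⟨ct_finite ε _ s, sub_eq_zero.1 ?_⟩
    refine ct_period (u := fun s => (Fc ε (k + 1)).coeff s -
      ({μ ∈ ctS ε (k + 1) | 2 * (μ.sum : ℤ) = s}.ncard : ℚ)) (d := 2 * k + 2)
      (b := min 0 (Fc ε (k + 1)).order) (by omega) (fun s => ?_) (fun s hs => ?_) s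
    · have h3 : Set.BijOn (Multiset.map Nat.succ)
          {μ ∈ ctS ε (k + 1) | 2 * (μ.sum : ℤ) = s - (2 * k + 2)}
          {μ ∈ {μ ∈ ctS ε (k + 1) | 0 ∉ μ} | 2 * (μ.sum : ℤ) = s} := by
        have h4 : ∀ μ ∈ ctS ε (k + 1), 2 * ((μ.map Nat.succ).sum : ℤ) = s ↔
            2 * (μ.sum : ℤ) = s - (2 * k + 2) := fun μ hμ => by
          rw [ct_sum_shift, hμ.2]
          omega
        refine ⟨fun μ hμ => ⟨(ct_shift ε _).1 hμ.1, (h4 μ hμ.1).2 hμ.2⟩,
          (ct_shift ε _).2.1.mono fun μ hμ => hμ.1, fun μ hμ => ?_⟩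
        obtain ⟨ν, hν, rfl⟩ := (ct_shift ε _).2.2 hμ.1
        exact ⟨ν, ⟨hν, (h4 ν hν).1 hμ.2⟩, rfl⟩
      have h5 : {μ ∈ ctS ε (k + 1) | 2 * (μ.sum : ℤ) = s} =
          {μ ∈ {μ ∈ ctS ε (k + 1) | 0 ∉ μ} | 2 * (μ.sum : ℤ) = s} ∪
            {μ ∈ {μ ∈ ctS ε (k + 1) | 0 ∈ μ} | 2 * (μ.sum : ℤ) = s} := by
        ext μ
        simp only [Set.mem_ofPred_eq, Set.mem_union]
        tauto
      conv_lhs => rw [h2, HahnSeries.coeff_add, ct_coeff_tp_mul, (h1 s).2, h5, Set.ncard_union_eq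
        (Set.disjoint_left.2 fun μ a b => a.1.2 b.1.2)
        (h3.finite_iff_finite.1 (ct_finite _ _ _)) (h1 s).1, ← h3.ncard_eq]
      push_cast
      ring
    · rw [HahnSeries.coeff_eq_zero_of_lt_order (by omega),
        show {μ ∈ ctS ε (k + 1) | 2 * (μ.sum : ℤ) = s} = ∅ from
          Set.eq_empty_of_forall_notMem fun μ h => by have := h.2; omega]
      simp

theorem Fc_coeff (ε : Bool) (k : ℕ) (s : ℤ) :
    (Fc ε k).coeff s = ({μ : Multiset ℕ | (ε = true → μ.Nodup) ∧ μ.card = k ∧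
      2 * (μ.sum : ℤ) = s}.ncard : ℚ) := by
  rw [(cnt_Fc ε k s).2]
  simp only [ctS, Set.mem_ofPred_eq, and_assoc]

/-- Good multisets on a list of generators. -/
def ctG {G : Type} (par : G → Bool) (m : G → I → ℤ) (l : List G) (p : I → ℤ) :
    Set (Multiset (G × ℕ)) :=
  {μ | Good par μ ∧ (μ.map fun x => m x.1).sum = p ∧ ∀ x ∈ μ, x.1 ∈ l}

lemma ct_split {G : Type} (par : G → Bool) (m : G → I → ℤ) {l : List G} {v : G} (hv : v ∉ l)
    (p : I → ℤ) (j : ℕ) :
    Set.BijOn (fun x : Multiset ℕ × Multiset (G × ℕ) => x.1.map (Prod.mk v) + x.2)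
      (ctS (par v) j ×ˢ ctG par m l (p - j • m v))
      {μ ∈ ctG par m (v :: l) p | (μ.filter fun x => x.1 = v).card = j} := by
  have f1 : ∀ (ν : Multiset ℕ) (μ : Multiset (G × ℕ)), (∀ x ∈ μ, x.1 ∈ l) →
      (ν.map (Prod.mk v) + μ).filter (fun x => x.1 = v) = ν.map (Prod.mk v) ∧
      (ν.map (Prod.mk v) + μ).filter (fun x => ¬ x.1 = v) = μ := fun ν μ h => by
    have a1 : ∀ x ∈ μ, ¬ x.1 = v := fun x hx e => hv (e ▸ h x hx)
    have a2 : ∀ x ∈ ν.map (Prod.mk v), x.1 = v := by simp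
    rw [Multiset.filter_add, Multiset.filter_add, Multiset.filter_eq_self.2 a2,
      Multiset.filter_eq_nil.2 a1, Multiset.filter_eq_self.2 a1,
      Multiset.filter_eq_nil.2 fun x hx h => h (a2 x hx), add_zero, zero_add]
    exact ⟨rfl, rfl⟩
  have f2 : ∀ ν : Multiset ℕ, ((ν.map (Prod.mk v)).map fun x => m x.1).sum = ν.card • m v :=
    fun ν => by simp
  have inj : Function.Injective (Prod.mk v : ℕ → G × ℕ) := Prod.mk_right_injective v
  refine ⟨?_, ?_, ?_⟩
  · rintro ⟨ν, μ⟩ ⟨⟨a1, a2⟩, a3, a4, a5⟩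
    refine ⟨⟨fun x hx => ?_, ?_, fun x hx => ?_⟩, by rw [(f1 ν μ a5).1, Multiset.card_map, a2]⟩
    · by_cases e : x.1 = v
      · rw [← Multiset.count_filter_of_pos (p := fun x => x.1 = v) e, (f1 ν μ a5).1]
        exact Multiset.nodup_iff_count_le_one.1 ((a1 (e ▸ hx)).map inj) x
      · rw [← Multiset.count_filter_of_pos (p := fun x => ¬ x.1 = v) e, (f1 ν μ a5).2]
        exact a3 x hx
    · rw [Multiset.map_add, Multiset.sum_add, f2, a2, a4, add_sub_cancel]
    · rcases Multiset.mem_add.1 hx with h | h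
      · obtain ⟨a, -, rfl⟩ := Multiset.mem_map.1 h
        exact List.mem_cons_self
      · exact List.mem_cons_of_mem _ (a5 x h)
  · rintro ⟨ν, μ⟩ ⟨-, -, -, a⟩ ⟨ν', μ'⟩ ⟨-, -, -, b⟩ e
    simp only at e
    have e1 := (f1 ν μ a).1.symm.trans (e ▸ (f1 ν' μ' b).1)
    have e2 := (f1 ν μ a).2.symm.trans (e ▸ (f1 ν' μ' b).2)
    rw [Multiset.map_injective inj e1, e2]
  · rintro μ ⟨⟨a1, a2, a3⟩, a4⟩
    have e : ((μ.filter fun x => x.1 = v).map Prod.snd).map (Prod.mk v) =
        μ.filter fun x => x.1 = v := by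
      rw [Multiset.map_map]
      refine (Multiset.map_congr rfl fun x hx => ?_).trans (Multiset.map_id _)
      exact Prod.ext (Multiset.mem_filter.1 hx).2.symm rfl
    have e' := Multiset.filter_add_not (fun x : G × ℕ => x.1 = v) μ
    refine ⟨((μ.filter fun x => x.1 = v).map Prod.snd, μ.filter fun x => ¬ x.1 = v),
      ⟨⟨fun h => Multiset.Nodup.of_map (Prod.mk v) ?_, by simpa using a4⟩, fun x hx => ?_, ?_,
        fun x hx => ?_⟩, by simp only [e, e']⟩
    · rw [e, Multiset.nodup_iff_count_le_one]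
      intro x
      rw [Multiset.count_filter]
      split_ifs with hx
      · exact a1 x (hx ▸ h)
      · exact zero_le_one
    · exact (Multiset.count_le_of_le _ (Multiset.filter_le _ _)).trans (a1 x hx)
    · rw [← e', ← e, Multiset.map_add, Multiset.sum_add, f2, Multiset.card_map, a4] at a2
      exact eq_sub_of_add_eq' a2
    · exact (List.mem_cons.1 (a3 x (Multiset.mem_filter.1 hx).1)).resolve_left
        (Multiset.mem_filter.1 hx).2

lemma cnt_FP (q : QT (I → ℤ)) {G : Type} (par : G → Bool) (m : G → I → ℤ)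
    (hm : ∀ v, m v ∈ cone (e0 I)) (hm0 : ∀ v, m v ≠ 0) (jj : G → ℤ)
    (ho : ∀ v w, q.B (m v) (m w) = 0) (l : List G) (hl : l.Nodup) (p : I → ℤ) :
    Cnt (FP q (e0 I) (l.map fun v => ⟨par v, jj v, m v⟩) p) (ctG par m l p)
      fun μ => (μ.map fun x => jj x.1 + 2 * x.2).sum := by
  induction l generalizing p with
  | nil =>
    intro k
    have e : {μ ∈ ctG par m [] p | (μ.map fun x => jj x.1 + 2 * (x.2 : ℤ)).sum = k} =
        if p = 0 ∧ k = 0 then {0} else ∅ := by
      ext μ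
      constructor
      · rintro ⟨⟨-, a1, a2⟩, a3⟩
        obtain rfl : μ = 0 := Multiset.eq_zero_of_forall_notMem fun x hx => by simpa using a2 x hx
        rw [if_pos ⟨a1.symm, a3.symm⟩]
        rfl
      · intro h
        split_ifs at h with h1
        · obtain rfl : μ = 0 := h
          exact ⟨⟨fun x _ => by simp, h1.1.symm, by simp⟩, h1.2.symm⟩
        · exact h.elim
    rw [e, List.map_nil, FP_nil, Ser.one_apply]
    by_cases h1 : p = 0 <;> by_cases h2 : k = 0 <;> simp [h1, h2]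
  | cons v l ih =>
    obtain ⟨hv, hl⟩ := List.nodup_cons.1 hl
    rw [List.map_cons, FP_cons, Fz,
      ev_mul_apply (hm v) (hm0 v) _ _ p (D := (deg (e0 I) p).toNat) (Int.self_le_toNat _)]
    refine Cnt.sum _ (fun μ => (μ.filter fun x => x.1 = v).card) (fun μ hμ => ?_) fun j _ => ?_
    · have h1 := Multiset.card_le_card (Multiset.filter_le (fun x => x.1 = v) μ)
      have h2 := Multiset.card_nsmul_le_sum (s := μ.map fun x => deg (e0 I) (m x.1)) (a := 1)
        fun y hy => by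
          obtain ⟨x, -, rfl⟩ := Multiset.mem_map.1 hy
          exact deg_pos (hm _) (hm0 _)
      have h3 := map_multiset_sum (deg (e0 I)) (μ.map fun x => m x.1)
      rw [hμ.2.1, Multiset.map_map] at h3
      rw [Multiset.card_map, nsmul_one] at h2
      have h4 := h2.trans h3.ge
      rw [Finset.mem_range]
      omega
    · have h1 := (((cnt_Fc (par v) j).tp (jj v * j)).mul (ih hl (p - j • m v))).bij
        (u := fun μ => (μ.map fun x => jj x.1 + 2 * (x.2 : ℤ)).sum) _ (ct_split par m hv p j)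
        fun x hx => by
          simp only [Multiset.map_add, Multiset.sum_add, Multiset.map_map, Function.comp_def,
            Multiset.sum_map_add, Multiset.map_const', Multiset.sum_replicate, hx.1.2,
            Multiset.sum_map_mul_left, Nat.cast_multiset_sum, nsmul_eq_mul, mul_comm (jj v)]
      simp only [Fps, PowerSeries.coeff_mk]
      by_cases h0 : FP q (e0 I) (l.map fun v => ⟨par v, jj v, m v⟩) (p - j • m v) = 0
      · rw [h0, mul_zero] at h1 ⊢
        exact h1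
      · have h2 := sp_FP (q := q) (e := e0 I) Set.univ (M := AddMonoidHom.mker (q.B (m v)))
          (l := l.map fun v => ⟨par v, jj v, m v⟩) (fun f hf => by
            obtain ⟨w, -, rfl⟩ := List.mem_map.1 hf
            exact ho v w) _ trivial h0
        have h3 : q.B (m v) p = 0 := by
          have h4 : q.B (m v) (p - j • m v) = 0 := h2
          rwa [map_sub, map_nsmul, q.alt, smul_zero, sub_zero] at h4
        rwa [h3, mul_zero, tp_zero, one_mul]

theorem count (q : QT (I → ℤ)) {G : Type} [Fintype G] (par : G → Bool) {ty : G → I → ℕ}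
    (hty : ∀ v, ty v ≠ 0) (jj : G → ℤ) (ho : ∀ v w, q.B (zv (ty v)) (zv (ty w)) = 0) (d : I → ℕ)
    (k : ℤ) :
    (FP q (e0 I) (Finset.univ.toList.map fun v => ⟨par v, jj v, zv (ty v)⟩) (zv d)).coeff k =
      ((GM par ty jj d k).ncard : ℚ) := by
  have inj : Function.Injective (zv : (I → ℕ) → I → ℤ) := fun a b h =>
    funext fun i => Nat.cast_injective (R := ℤ) (congrFun h i)
  have hs : ∀ μ : Multiset (G × ℕ),
      (μ.map fun x => zv (ty x.1)).sum = zv (μ.map fun x => ty x.1).sum := fun μ => by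
    induction μ using Multiset.induction_on with
    | empty => rfl
    | cons a s ih =>
      simp only [Multiset.map_cons, Multiset.sum_cons, ih]
      funext i
      simp [zv]
  rw [(cnt_FP q par (fun v => zv (ty v)) (fun v i => by simp [zv]) (fun v h => hty v (inj h)) jj ho
    _ (Finset.nodup_toList _) (zv d) k).2]
  simp only [ctG, GM, Set.mem_ofPred_eq, hs, inj.eq_iff, Finset.mem_toList, Finset.mem_univ,
    implies_true, and_true, and_assoc]

end Vale.Agent.P066
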