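import Vale.Agent.P066.DDefs

/-! Labelled shuffle algebra: kernels, types, permutations, averaging. -/

set_option linter.unusedSectionVars false

noncomputable section
open scoped Classical
open MvPolynomial Equiv

namespace Vale.Agent.P066

variable {Λ I : Type} [Fintype Λ] [Fintype I]

lemma sup_mono {A B : Finset Λ} (h : A ⊆ B) : sup A ≤ sup B := supported_mono (Finset.coe_subset.mpr h)
lemma X_mem_sup {A : Finset Λ} {a : Λ} (h : a ∈ A) : (X a : Pl Λ) ∈ sup A := X_mem_supported.mpr h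
lemma sup_univ (f : Pl Λ) : f ∈ sup (Finset.univ : Finset Λ) := by
  rw [sup, Finset.coe_univ, supported_univ]
  trivial
lemma mem_sup_iff {A : Finset Λ} {f : Pl Λ} :
    f ∈ sup A ↔ ∀ u ∈ f.support, ∀ a ∈ u.support, a ∈ A := by
  rw [sup, mem_supported]
  constructor
  · intro h u hu a ha
    exact h ((mem_vars_iff_mem_support a).mpr ⟨u, hu, ha⟩)
  · intro h a ha
    obtain ⟨u, hu, ha⟩ := (mem_vars_iff_mem_support a).mp ha
    exact h u hu a ha
lemma mem_sup_empty {f : Pl Λ} (h : f ∈ sup (∅ : Finset Λ)) : ∃ r : ℂ, f = C r := by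
  rw [sup, Finset.coe_empty, supported_empty, Algebra.mem_bot] at h
  obtain ⟨r, rfl⟩ := h
  exact ⟨r, rfl⟩
lemma algHom_eq_on_sup {S : Type*} [Semiring S] [Algebra ℂ S] {A : Finset Λ}
    (F G : Pl Λ →ₐ[ℂ] S) (h : ∀ a ∈ A, F (X a) = G (X a)) {f : Pl Λ} (hf : f ∈ sup A) :
    F f = G f := by
  rw [sup, supported_eq_adjoin_X] at hf
  refine (Algebra.adjoin_le (S := AlgHom.equalizer F G) ?_ hf :)
  rintro _ ⟨a, ha, rfl⟩
  exact h a ha
lemma rename_of_fix {A : Finset Λ} {σ : Perm Λ} (h : ∀ a ∈ A, σ a = a) {f : Pl Λ}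
    (hf : f ∈ sup A) : rename σ f = f :=   algHom_eq_on_sup (rename σ) (AlgHom.id ℂ _) (fun a ha => by simp [h a ha]) hf
lemma rename_congr {A : Finset Λ} {σ τ : Perm Λ} (h : ∀ a ∈ A, σ a = τ a) {f : Pl Λ}
    (hf : f ∈ sup A) : rename σ f = rename τ f :=   algHom_eq_on_sup (rename σ) (rename τ) (fun a ha => by simp [h a ha]) hf
lemma rename_mem_sup {A : Finset Λ} (σ : Perm Λ) {f : Pl Λ} (hf : f ∈ sup A) :
    rename σ f ∈ sup (A.image σ) := by
  rw [sup, supported_eq_adjoin_X] at hf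
  refine (Algebra.adjoin_le (S := (sup (A.image σ)).comap (rename σ)) ?_ hf :)
  rintro _ ⟨a, ha, rfl⟩
  simp only [SetLike.mem_coe, Subalgebra.mem_comap, rename_X]
  exact X_mem_sup (Finset.mem_image_of_mem _ ha)
lemma rename_mul_perm (σ τ : Perm Λ) (f : Pl Λ) :
    rename (σ * τ) f = rename σ (rename τ f) := by rw [rename_rename, Perm.coe_mul]
lemma hc_mem_sup {A : Finset Λ} (m : ℕ) {f : Pl Λ} (hf : f ∈ sup A) :
    homogeneousComponent m f ∈ sup A := by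
  rw [mem_sup_iff] at hf ⊢
  intro u hu
  rw [support_homogeneousComponent] at hu
  exact hf u (Finset.mem_filter.mp hu).1
lemma hc_rename (σ : Perm Λ) (m : ℕ) (f : Pl Λ) :
    homogeneousComponent m (rename σ f) = rename σ (homogeneousComponent m f) := (rename_homogeneousComponent m f).symm
lemma hc_mul_homog {k : ℕ} {g : Pl Λ} (hg : g.IsHomogeneous k) (m : ℕ) (f : Pl Λ) :
    homogeneousComponent m (g * f) =
      if k ≤ m then g * homogeneousComponent (m - k) f else 0 := by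
  induction f using MvPolynomial.induction_on' with
  | monomial u r =>
    have h1 := isHomogeneous_monomial (σ := Λ) r (rfl : u.degree = u.degree)
    rw [homogeneousComponent_of_mem (hg.mul h1), homogeneousComponent_of_mem h1]
    split_ifs <;> first | rfl | omega | simp
  | add p q hp hq =>
    rw [mul_add, map_add, hp, hq, map_add]
    split_ifs <;> simp [mul_add]
/-- Ideals generated by homogeneous polynomials are homogeneous. -/
lemma hc_mem_span {G : Set (Pl Λ)} (hG : ∀ g ∈ G, ∃ k, g.IsHomogeneous k) (m : ℕ) {f : Pl Λ}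
    (hf : f ∈ Ideal.span G) : homogeneousComponent m f ∈ Ideal.span G := by
  have key : ∀ p, homogeneousComponent m (f * p) ∈ Ideal.span G := by
    induction hf using Submodule.span_induction with
    | mem g hg =>
      intro p
      obtain ⟨k, hk⟩ := hG g hg
      rw [hc_mul_homog hk]
      split_ifs
      · exact Ideal.mul_mem_right _ _ (Ideal.subset_span hg)
      · exact zero_mem _
    | zero => simp
    | add f g _ _ hf hg => intro p; rw [add_mul, map_add]; exact add_mem (hf p) (hg p)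
    | smul r f _ hf => intro p; rw [smul_eq_mul, mul_comm r, mul_assoc]; exact hf _
  simpa using key 1
lemma res_mem_sup (A : Finset Λ) (f : Pl Λ) : res A f ∈ sup A := by
  induction f using MvPolynomial.induction_on with
  | C r => rw [res, aeval_C]; exact Subalgebra.algebraMap_mem _ r
  | add p q hp hq => rw [map_add]; exact add_mem hp hq
  | mul_X p a hp =>
    rw [map_mul]
    refine mul_mem hp ?_
    rw [res, aeval_X]
    split_ifs with h
    · exact X_mem_sup h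
    · exact zero_mem _
lemma res_of_mem {A : Finset Λ} {f : Pl Λ} (hf : f ∈ sup A) : res A f = f :=   algHom_eq_on_sup (res A) (AlgHom.id ℂ _) (fun a ha => by simp [res, ha]) hf
lemma res_homog (A : Finset Λ) {m : ℕ} {f : Pl Λ} (hf : f.IsHomogeneous m) :
    (res A f).IsHomogeneous m := by
  have := hf.aeval (n := 1) (fun a => if a ∈ A then (X a : Pl Λ) else 0) fun a => by
    split_ifs
    · exact isHomogeneous_X _ _
    · exact isHomogeneous_zero _ _ _
  rwa [one_mul] at this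
lemma GenIn.res {J : Ideal (Pl Λ)} {B A : Finset Λ} (h : GenIn J B) (hB : B ⊆ A) {f : Pl Λ}
    (hf : f ∈ J) : res A f ∈ J := by
  obtain ⟨G, hG, rfl⟩ := h
  refine (Ideal.span_le (I := (Ideal.span G).comap (P066.res A)).mpr (fun g hg => ?_) hf :)
  rw [SetLike.mem_coe, Ideal.mem_comap, res_of_mem (sup_mono hB (hG g hg))]
  exact Ideal.subset_span hg
lemma GenIn.mono {J : Ideal (Pl Λ)} {B A : Finset Λ} (h : GenIn J B) (hB : B ⊆ A) :
    GenIn J A := by
  obtain ⟨G, hG, rfl⟩ := h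
  exact ⟨G, fun g hg => sup_mono hB (hG g hg), rfl⟩
lemma GenIn.sup {J J' : Ideal (Pl Λ)} {B : Finset Λ} (h : GenIn J B) (h' : GenIn J' B) :
    GenIn (J ⊔ J') B := by
  obtain ⟨G, hG, rfl⟩ := h
  obtain ⟨G', hG', rfl⟩ := h'
  exact ⟨G ∪ G', fun g hg => hg.elim (hG g) (hG' g), (Ideal.span_union G G').symm⟩
lemma GenIn.iSup {α : Type*} (s : Finset α) {J : α → Ideal (Pl Λ)} {B : Finset Λ}
    (h : ∀ x ∈ s, GenIn (J x) B) : GenIn (⨆ x ∈ s, J x) B := by
  induction s using Finset.induction_on with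
  | empty => exact ⟨∅, by simp, by simp⟩
  | insert a s _ ih =>
    rw [Finset.iSup_insert]
    exact (h a (Finset.mem_insert_self _ _)).sup
      (ih fun x hx => h x (Finset.mem_insert_of_mem hx))
lemma sg_mem_sup (B : Finset Λ) : sg B ∈ sup B := sum_mem fun _ ha => X_mem_sup ha
lemma sg_homog (B : Finset Λ) : (sg B).IsHomogeneous 1 :=   IsHomogeneous.sum _ _ _ fun a _ => isHomogeneous_X _ a
lemma rename_sg (σ : Perm Λ) (B : Finset Λ) : rename σ (sg B) = sg (B.image σ) := by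
  simp [sg, Finset.sum_image σ.injective.injOn]

lemma mem_blk {A : Finset Λ} {ρ : Λ → ℕ} {l : ℕ} {a : Λ} : a ∈ blk A ρ l ↔ a ∈ A ∧ ρ a = l := by
  simp [blk]
lemma mem_lab {A : Finset Λ} {ρ : Λ → ℕ} {l : ℕ} : l ∈ lab A ρ ↔ ∃ a ∈ A, ρ a = l := by
  simp [lab]
lemma blk_subset (A : Finset Λ) (ρ : Λ → ℕ) (l : ℕ) : blk A ρ l ⊆ A := Finset.filter_subset _ _
lemma blk_nonempty {A : Finset Λ} {ρ : Λ → ℕ} {l : ℕ} : (blk A ρ l).Nonempty ↔ l ∈ lab A ρ := by
  simp only [Finset.Nonempty, mem_blk, mem_lab]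
lemma blk_disjoint (A : Finset Λ) (ρ : Λ → ℕ) {l l' : ℕ} (h : l ≠ l') :
    Disjoint (blk A ρ l) (blk A ρ l') :=   Finset.disjoint_left.mpr fun _ h1 h2 => h ((mem_blk.mp h1).2.symm.trans (mem_blk.mp h2).2)
lemma sum_blk {M : Type*} [AddCommMonoid M] (A : Finset Λ) (ρ : Λ → ℕ) (f : Λ → M) :
    ∑ l ∈ lab A ρ, ∑ a ∈ blk A ρ l, f a = ∑ a ∈ A, f a :=   Finset.sum_fiberwise_of_maps_to (fun _ ha => Finset.mem_image_of_mem ρ ha) f
lemma prod_blk {M : Type*} [CommMonoid M] (A : Finset Λ) (ρ : Λ → ℕ) (f : Λ → M) :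
    ∏ l ∈ lab A ρ, ∏ a ∈ blk A ρ l, f a = ∏ a ∈ A, f a :=   Finset.prod_fiberwise_of_maps_to (fun _ ha => Finset.mem_image_of_mem ρ ha) f
lemma blk_image (A : Finset Λ) (ρ : Λ → ℕ) (σ : Perm Λ) (l : ℕ) :
    blk (A.image σ) (ρ ∘ σ.symm) l = (blk A ρ l).image σ := by
  rw [blk, blk, Finset.filter_image]
  simp
lemma lab_image (A : Finset Λ) (ρ : Λ → ℕ) (σ : Perm Λ) :
    lab (A.image σ) (ρ ∘ σ.symm) = lab A ρ := by
  rw [lab, lab, Finset.image_image]
  congr 1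
  funext a
  simp
lemma Refines.exists_map {A : Finset Λ} {ρ1 ρ0 : Λ → ℕ} (h : Refines A ρ1 ρ0) :
    ∃ g : ℕ → ℕ, (∀ a ∈ A, g (ρ1 a) = ρ0 a) ∧ lab A ρ0 = (lab A ρ1).image g := by
  have key : ∀ a ∈ A, (fun l => if hl : ∃ a ∈ A, ρ1 a = l then ρ0 hl.choose else 0) (ρ1 a) =
      ρ0 a := fun a ha => by
    have hl : ∃ b ∈ A, ρ1 b = ρ1 a := ⟨a, ha, rfl⟩
    simp only [dif_pos hl]
    exact h _ hl.choose_spec.1 a ha hl.choose_spec.2
  refine ⟨fun l => if hl : ∃ a ∈ A, ρ1 a = l then ρ0 hl.choose else 0, key, ?_⟩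
  rw [lab, lab, Finset.image_image]
  exact Finset.image_congr fun a ha => (key a ha).symm
lemma Refines.card_le {A : Finset Λ} {ρ1 ρ0 : Λ → ℕ} (h : Refines A ρ1 ρ0) :
    (lab A ρ0).card ≤ (lab A ρ1).card := by
  obtain ⟨g, hg⟩ := h.exists_map
  rw [hg.2]
  exact Finset.card_image_le
lemma Refines.symm_of_card {A : Finset Λ} {ρ1 ρ0 : Λ → ℕ} (h : Refines A ρ1 ρ0)
    (hc : (lab A ρ1).card ≤ (lab A ρ0).card) : Refines A ρ0 ρ1 := by
  obtain ⟨g, hg⟩ := h.exists_map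
  have h1 : Set.InjOn g (lab A ρ1) :=
    Finset.card_image_iff.mp (le_antisymm Finset.card_image_le (hg.2 ▸ hc))
  intro a ha b hb hab
  exact h1 (mem_lab.mpr ⟨a, ha, rfl⟩) (mem_lab.mpr ⟨b, hb, rfl⟩)
    ((hg.1 a ha).trans (hab.trans (hg.1 b hb).symm))
lemma Refines.blk_eq {A : Finset Λ} {ρ1 ρ0 : Λ → ℕ} (h : Refines A ρ1 ρ0) (h' : Refines A ρ0 ρ1)
    {a : Λ} (ha : a ∈ A) : blk A ρ1 (ρ1 a) = blk A ρ0 (ρ0 a) := by
  ext b
  simp only [mem_blk]
  exact and_congr_right fun hb => ⟨h b hb a ha, h' b hb a ha⟩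

namespace Dat

variable (D : Dat Λ I)

@[simp] lemma K_empty_left (T : Finset Λ) : D.K ∅ T = 1 := by simp [K]
@[simp] lemma K_empty_right (S : Finset Λ) : D.K S ∅ = 1 := by simp [K]
lemma K_union_left {S S' : Finset Λ} (h : Disjoint S S') (T : Finset Λ) :
    D.K (S ∪ S') T = D.K S T * D.K S' T := Finset.prod_union h
lemma K_union_right (S : Finset Λ) {T T' : Finset Λ} (h : Disjoint T T') :
    D.K S (T ∪ T') = D.K S T * D.K S T' := by
  simp only [K, Finset.prod_union h, Finset.prod_mul_distrib]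
lemma K_dvd {S S' T T' : Finset Λ} (hS : S' ⊆ S) (hT : T' ⊆ T) : D.K S' T' ∣ D.K S T :=   (Finset.prod_dvd_prod_of_dvd _ _ fun _ _ => Finset.prod_dvd_prod_of_subset _ _ _ hT).trans
    (Finset.prod_dvd_prod_of_subset _ _ _ hS)
lemma K_mem_sup {S T A : Finset Λ} (hS : S ⊆ A) (hT : T ⊆ A) : D.K S T ∈ sup A :=   prod_mem fun _ ha => prod_mem fun _ hb =>
    pow_mem (sub_mem (X_mem_sup (hT hb)) (X_mem_sup (hS ha))) _
lemma K_homog (S T : Finset Λ) : (D.K S T).IsHomogeneous (D.kap S T) :=   IsHomogeneous.prod _ _ _ fun a _ => IsHomogeneous.prod _ _ _ fun b _ => by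
    simpa using ((isHomogeneous_X ℂ b).sub (isHomogeneous_X ℂ a)).pow (D.arr (D.c a) (D.c b))
lemma rename_K {σ : Perm Λ} (hσ : σ ∈ D.GG) (S T : Finset Λ) :
    rename σ (D.K S T) = D.K (S.image σ) (T.image σ) := by
  simp [K, Finset.prod_image σ.injective.injOn, D.mem_GG.mp hσ]
lemma sum_typ {M : Type*} [AddCommMonoid M] (S : Finset Λ) (f : I → M) :
    ∑ a ∈ S, f (D.c a) = ∑ i, D.typ S i • f i := by
  rw [← Finset.sum_fiberwise S D.c]
  refine Finset.sum_congr rfl fun i _ => ?_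
  rw [Finset.sum_congr rfl fun a ha => by rw [(Finset.mem_filter.mp ha).2], Finset.sum_const, typ]
lemma kap_eq (S T : Finset Λ) : D.kap S T = D.kd (D.typ S) (D.typ T) := by
  rw [kap, kd, D.sum_typ S fun i => ∑ b ∈ T, D.arr i (D.c b)]
  refine Finset.sum_congr rfl fun i _ => ?_
  rw [D.sum_typ T (D.arr i), Finset.smul_sum]
  exact Finset.sum_congr rfl fun j _ => by simp only [smul_eq_mul]; ring
lemma ph_eq (S : Finset Λ) : D.ph S = D.pd (D.typ S) := by
  rw [ph, pd, D.sum_typ S D.φ]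
  exact Finset.sum_congr rfl fun j _ => by rw [nsmul_eq_mul, mul_comm]
lemma card_eq (S : Finset Λ) : S.card = ∑ i, D.typ S i := by
  simpa using D.sum_typ S fun _ => (1 : ℕ)
lemma nf_typ (S : Finset Λ) :
    D.nf (D.typ S) = (S.filter fun a => D.fer (D.c a) = true).card := by
  rw [Finset.card_filter, D.sum_typ S fun i => if D.fer i = true then 1 else 0, nf]
  exact Finset.sum_congr rfl fun j _ => by split_ifs <;> simp
lemma sz_congr {S S' : Finset Λ} (h : D.typ S = D.typ S') : D.sz S = D.sz S' := by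
  rw [sz, sz, ph_eq, ph_eq, D.card_eq, D.card_eq, h]
@[simp] lemma typ_empty : D.typ ∅ = 0 := by funext i; simp [typ]
@[simp] lemma ph_empty : D.ph ∅ = 0 := by simp [ph]
lemma typ_eq_zero {S : Finset Λ} : D.typ S = 0 ↔ S = ∅ := by
  refine ⟨fun h => Finset.card_eq_zero.mp ?_, fun h => h ▸ D.typ_empty⟩
  simp [D.card_eq S, h]
lemma typ_union {S T : Finset Λ} (h : Disjoint S T) : D.typ (S ∪ T) = D.typ S + D.typ T := by
  funext i
  simp only [typ, Finset.filter_union, Pi.add_apply]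
  exact Finset.card_union_of_disjoint (Finset.disjoint_filter_filter h)
lemma typ_mono {S T : Finset Λ} (h : S ⊆ T) : D.typ S ≤ D.typ T := fun _ =>
  Finset.card_le_card (Finset.filter_subset_filter _ h)
lemma typ_sdiff {S A : Finset Λ} (h : S ⊆ A) : D.typ (A \ S) = D.typ A - D.typ S := by
  have := D.typ_union (Finset.disjoint_sdiff (s := S) (t := A))
  rw [Finset.union_sdiff_of_subset h] at this
  rw [this, add_tsub_cancel_left]
lemma typ_image {σ : Perm Λ} (hσ : σ ∈ D.GG) (S : Finset Λ) : D.typ (S.image σ) = D.typ S := by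
  funext i
  simp only [typ, Finset.filter_image, Finset.card_image_of_injective _ σ.injective,
    D.mem_GG.mp hσ]
lemma typ_blk (A : Finset Λ) (ρ : Λ → ℕ) : ∑ l ∈ lab A ρ, D.typ (blk A ρ l) = D.typ A := by
  funext i
  simp only [typ, Finset.sum_apply, Finset.card_filter]
  exact sum_blk A ρ _
lemma ph_union {S T : Finset Λ} (h : Disjoint S T) : D.ph (S ∪ T) = D.ph S + D.ph T := Finset.sum_union h
lemma ph_sdiff {S A : Finset Λ} (h : S ⊆ A) : D.ph (A \ S) = D.ph A - D.ph S :=   eq_sub_of_add_eq (Finset.sum_sdiff h)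
lemma kd_add_left (d d' d'' : I → ℕ) : D.kd (d + d') d'' = D.kd d d'' + D.kd d' d'' := by
  simp only [kd, Pi.add_apply, mul_add, add_mul, Finset.sum_add_distrib]
lemma kd_add_right (d d' d'' : I → ℕ) : D.kd d (d' + d'') = D.kd d d' + D.kd d d'' := by
  simp only [kd, Pi.add_apply, mul_add, Finset.sum_add_distrib]
lemma pd_add (d d' : I → ℕ) : D.pd (d + d') = D.pd d + D.pd d' := by
  simp only [pd, Pi.add_apply, Nat.cast_add, mul_add, Finset.sum_add_distrib]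
lemma exists_sub {A : Finset Λ} {d : I → ℕ} (h : d ≤ D.typ A) : ∃ S, S ⊆ A ∧ D.typ S = d := by
  choose t ht hc using fun i => Finset.exists_subset_card_eq (h i)
  refine ⟨Finset.univ.biUnion t, Finset.biUnion_subset.mpr fun i _ =>
    (ht i).trans (Finset.filter_subset _ _), funext fun i => ?_⟩
  rw [typ, ← hc i]
  congr 1
  ext a
  simp only [Finset.mem_filter, Finset.mem_biUnion, Finset.mem_univ, true_and]
  constructor
  · rintro ⟨⟨j, hj⟩, rfl⟩
    exact (Finset.mem_filter.mp (ht j hj)).2 ▸ hj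
  · exact fun ha => ⟨⟨i, ha⟩, (Finset.mem_filter.mp (ht i ha)).2⟩
lemma exists_perm_blk' {A : Finset Λ} {ρ ρ' : Λ → ℕ}
    (h : ∀ l, D.typ (blk A ρ l) = D.typ (blk A ρ' l)) :
    ∃ σ ∈ D.Gam A, ∀ a ∈ A, ρ' (σ a) = ρ a := by
  let F : (Λ → ℕ) → Λ → I × ℕ ⊕ Λ := fun r a => if a ∈ A then .inl (D.c a, r a) else .inr a
  have hF : ∀ r i l, Fintype.card {a // F r a = .inl (i, l)} = D.typ (blk A r l) i := by
    intro r i l
    rw [Fintype.card_subtype, typ]
    congr 1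
    ext a
    by_cases ha : a ∈ A <;> simp [F, ha, mem_blk, and_comm]
  have hc : ∀ x, Fintype.card {a // F ρ a = x} = Fintype.card {a // F ρ' a = x} := by
    rintro (⟨i, l⟩ | b)
    · rw [hF, hF, h]
    · refine Fintype.card_congr (Equiv.subtypeEquivRight fun a => ?_)
      by_cases ha : a ∈ A <;> simp [F, ha]
  have key := Equiv.ofFiberEquiv_map fun x => Fintype.equivOfCardEq (hc x)
  generalize (Equiv.ofFiberEquiv fun x => Fintype.equivOfCardEq (hc x)) = σ at key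
  have k1 : ∀ a ∈ A, D.c (σ a) = D.c a ∧ ρ' (σ a) = ρ a := fun a ha => by
    have := key a
    by_cases h' : σ a ∈ A <;> simp [F, ha, h'] at this
    exact this
  have k2 : ∀ a, a ∉ A → σ a = a := fun a ha => by
    have := key a
    by_cases h' : σ a ∈ A <;> simp [F, ha, h'] at this
    exact this
  refine ⟨σ, D.mem_Gam.mpr ⟨fun a => ?_, k2⟩, fun a ha => (k1 a ha).2⟩
  by_cases ha : a ∈ A
  · exact (k1 a ha).1
  · rw [k2 a ha]
lemma exists_perm {A S S' : Finset Λ} (hS : S ⊆ A) (hS' : S' ⊆ A) (h : D.typ S = D.typ S') :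
    ∃ σ ∈ D.Gam A, S.image σ = S' := by
  have key : ∀ {T : Finset Λ}, T ⊆ A → ∀ l, D.typ (blk A (fun a => if a ∈ T then 0 else 1) l) =
      if l = 0 then D.typ T else if l = 1 then D.typ A - D.typ T else 0 := fun {T} hT l => by
    split_ifs with h0 h1
    · congr 1
      ext a
      simpa [mem_blk, h0] using fun ha => hT ha
    · rw [← D.typ_sdiff hT]
      congr 1
      ext a
      simp [mem_blk, h1]
    · rw [typ_eq_zero]
      ext a
      simp only [mem_blk, Finset.notMem_empty, iff_false, not_and]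
      split_ifs <;> omega
  obtain ⟨σ, hσ, h1⟩ := D.exists_perm_blk' (A := A) (ρ := fun a => if a ∈ S then 0 else 1)
    (ρ' := fun a => if a ∈ S' then 0 else 1) fun l => by rw [key hS, key hS', h]
  refine ⟨σ, hσ, Finset.eq_of_subset_of_card_le (Finset.image_subset_iff.mpr fun a ha => ?_) ?_⟩
  · simpa [ha] using h1 a (hS ha)
  · rw [Finset.card_image_of_injective _ σ.injective, D.card_eq, D.card_eq, h]
/-- Matching of two block decompositions with the same types. -/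
lemma exists_perm_blk {A : Finset Λ} {ρ ρ' : Λ → ℕ}
    (h : ∀ l, D.typ (blk A ρ l) = D.typ (blk A ρ' l)) :
    ∃ σ ∈ D.Gam A, ∀ a ∈ A, ρ' (σ a) = ρ a := D.exists_perm_blk' h

lemma fer_iff {σ : Perm Λ} (hσ : σ ∈ D.GG) (a : Λ) :
    D.fer (D.c (σ a)) = true ↔ D.fer (D.c a) = true := by rw [D.mem_GG.mp hσ]
/-- Restriction to the fermion labels. -/
def ferPerm {σ : Perm Λ} (hσ : σ ∈ D.GG) : Perm {a // D.fer (D.c a) = true} :=
  σ.subtypePerm (p := fun a => D.fer (D.c a) = true) (D.fer_iff hσ)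
lemma eta_eq {σ : Perm Λ} (hσ : σ ∈ D.GG) :
    D.eta σ = ((Perm.sign (D.ferPerm hσ) : ℤ) : ℂ) := dif_pos (D.fer_iff hσ)
lemma eta_one : D.eta 1 = 1 := by
  rw [D.eta_eq (one_mem _), show D.ferPerm (one_mem _) = 1 from rfl]
  simp
lemma eta_mul {σ τ : Perm Λ} (hσ : σ ∈ D.GG) (hτ : τ ∈ D.GG) :
    D.eta (σ * τ) = D.eta σ * D.eta τ := by
  rw [D.eta_eq hσ, D.eta_eq hτ, D.eta_eq (mul_mem hσ hτ), ← Int.cast_mul, ← Units.val_mul,
    ← map_mul]
  rfl
lemma eta_sign {σ : Perm Λ} (hσ : σ ∈ D.GG) : D.eta σ = 1 ∨ D.eta σ = -1 := by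
  rw [D.eta_eq hσ]
  rcases Int.units_eq_one_or (Perm.sign (D.ferPerm hσ)) with h | h <;> simp [h]
lemma eta_mul_self {σ : Perm Λ} (hσ : σ ∈ D.GG) : D.eta σ * D.eta σ = 1 := by
  rcases D.eta_sign hσ with h | h <;> simp [h]
lemma eta_inv {σ : Perm Λ} (hσ : σ ∈ D.GG) : D.eta σ⁻¹ = D.eta σ := by
  have h := D.eta_mul (inv_mem hσ) hσ
  rw [inv_mul_cancel, eta_one] at h
  rw [← mul_one (D.eta σ⁻¹), ← D.eta_mul_self hσ, ← mul_assoc, ← h, one_mul]
/-- Sign of an involution exchanging two disjoint sets. -/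
lemma eta_swap {σ : Perm Λ} (hσ : σ ∈ D.GG) (h2 : σ * σ = 1) {B : Finset Λ}
    (hd : Disjoint B (B.image σ)) (hf : ∀ a, a ∉ B → a ∉ B.image σ → σ a = a) :
    D.eta σ = (-1) ^ D.nf (D.typ B) := by
  have hσ2 : ∀ a, σ (σ a) = a := fun a => by rw [← Perm.mul_apply, h2, Perm.one_apply]
  have hfix : ∀ a, σ a ≠ a ↔ a ∈ B ∪ B.image σ := fun a => by
    rw [Finset.mem_union]
    refine ⟨fun h => by by_contra h'; exact h (hf a (not_or.mp h').1 (not_or.mp h').2), ?_⟩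
    rintro (h | h) e
    · exact Finset.disjoint_left.mp hd h (e ▸ Finset.mem_image_of_mem σ h)
    · obtain ⟨b, hb, rfl⟩ := Finset.mem_image.mp h
      rw [hσ2] at e
      exact Finset.disjoint_left.mp hd (e ▸ hb) h
  rw [D.eta_eq hσ, Perm.sign_of_pow_two_eq_one (by ext a; simp [sq, hσ2, ferPerm]),
    ← Fintype.card_subtype_compl]
  have e : Fintype.card {x : {a // D.fer (D.c a) = true} //
      ¬x ∈ Function.fixedPoints (D.ferPerm hσ)} = D.nf (D.typ (B ∪ B.image σ)) := by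
    rw [nf_typ, Fintype.card_subtype]
    refine Finset.card_bij (fun x _ => x.1) (fun x hx => ?_) (fun x _ y _ h => Subtype.ext h)
      fun a ha => ?_
    · simp only [Finset.mem_filter, Finset.mem_univ, true_and, Function.mem_fixedPoints_iff,
        Subtype.ext_iff] at hx
      exact Finset.mem_filter.mpr ⟨(hfix _).mp hx, x.2⟩
    · obtain ⟨h3, h4⟩ := Finset.mem_filter.mp ha
      refine ⟨⟨a, h4⟩, ?_, rfl⟩
      simp only [Finset.mem_filter, Finset.mem_univ, true_and, Function.mem_fixedPoints_iff,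
        Subtype.ext_iff]
      exact (hfix a).mpr h3
  have e2 : D.nf (D.typ (B ∪ B.image σ)) = 2 * D.nf (D.typ B) := by
    rw [D.typ_union hd, D.typ_image hσ, nf, nf, Finset.mul_sum]
    exact Finset.sum_congr rfl fun i _ => by split_ifs <;> simp [two_mul]
  rw [e, e2, Nat.mul_div_cancel_left _ two_pos]
  simp

lemma Gam_GG {A : Finset Λ} {σ : Perm Λ} (h : σ ∈ D.Gam A) : σ ∈ D.GG := (D.mem_Gam.1 h).1
lemma one_mem_Gam (A : Finset Λ) : 1 ∈ D.Gam A := D.mem_Gam.mpr ⟨one_mem _, fun _ _ => rfl⟩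
lemma mul_mem_Gam {A : Finset Λ} {σ τ : Perm Λ} (hσ : σ ∈ D.Gam A) (hτ : τ ∈ D.Gam A) :
    σ * τ ∈ D.Gam A :=   D.mem_Gam.mpr ⟨mul_mem (D.Gam_GG hσ) (D.Gam_GG hτ), fun a ha => by
    rw [Perm.mul_apply, (D.mem_Gam.mp hτ).2 a ha, (D.mem_Gam.mp hσ).2 a ha]⟩
lemma inv_mem_Gam {A : Finset Λ} {σ : Perm Λ} (hσ : σ ∈ D.Gam A) : σ⁻¹ ∈ D.Gam A :=   D.mem_Gam.mpr ⟨inv_mem (D.Gam_GG hσ), fun a ha =>
    Perm.inv_eq_iff_eq.mpr ((D.mem_Gam.mp hσ).2 a ha).symm⟩
lemma Gam_mem {A : Finset Λ} {σ : Perm Λ} (hσ : σ ∈ D.Gam A) {a : Λ} : σ a ∈ A ↔ a ∈ A := by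
  have h := (D.mem_Gam.mp hσ).2
  refine not_iff_not.mp ⟨fun h1 => ?_, fun h1 => by rwa [h a h1]⟩
  rwa [← σ.injective (h _ h1)]
lemma Gam_image {A : Finset Λ} {σ : Perm Λ} (hσ : σ ∈ D.Gam A) : A.image σ = A :=   Finset.eq_of_subset_of_card_le (Finset.image_subset_iff.mpr fun _ ha => (D.Gam_mem hσ).mpr ha)
    (Finset.card_image_of_injective _ σ.injective).ge
lemma Gam_mono {S A : Finset Λ} (h : S ⊆ A) : D.Gam S ⊆ D.Gam A := fun _ hσ =>
  D.mem_Gam.mpr ⟨D.Gam_GG hσ, fun a ha => (D.mem_Gam.mp hσ).2 a fun h' => ha (h h')⟩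
lemma Gam_conj {A : Finset Λ} {σ τ : Perm Λ} (hτ : τ ∈ D.GG) (hσ : σ ∈ D.Gam A) :
    τ * σ * τ⁻¹ ∈ D.Gam (A.image τ) := by
  refine D.mem_Gam.mpr ⟨mul_mem (mul_mem hτ (D.Gam_GG hσ)) (inv_mem hτ), fun a ha => ?_⟩
  rw [Perm.mul_apply, Perm.mul_apply, (D.mem_Gam.mp hσ).2 _ fun h => ha ?_]
  · simp
  · simpa using Finset.mem_image_of_mem τ h
lemma Gam_split {A S : Finset Λ} {σ : Perm Λ} (hσ : σ ∈ D.Gam A) (h : S.image σ = S) :
    ∃ σ1 ∈ D.Gam S, ∃ σ2 ∈ D.Gam (A \ S), σ = σ1 * σ2 := by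
  have h1 : ∀ a, σ a ∈ S ↔ a ∈ S := fun a => by
    conv_lhs => rw [← h]
    exact σ.injective.mem_finset_image
  have h2 : ∀ a ∈ S, Perm.ofSubtype (σ.subtypePerm h1) a = σ a := fun a ha => by
    rw [Perm.ofSubtype_apply_of_mem _ ha]
    rfl
  have h3 : Perm.ofSubtype (σ.subtypePerm h1) ∈ D.Gam S := by
    refine D.mem_Gam.mpr ⟨fun a => ?_, fun a ha => Perm.ofSubtype_apply_of_not_mem _ ha⟩
    by_cases ha : a ∈ S
    · rw [h2 a ha, D.Gam_GG hσ a]
    · rw [Perm.ofSubtype_apply_of_not_mem _ ha]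
  refine ⟨_, h3, _⁻¹ * σ, D.mem_Gam.mpr ⟨mul_mem (inv_mem (D.Gam_GG h3)) (D.Gam_GG hσ),
    fun a ha => ?_⟩, (mul_inv_cancel_left _ _).symm⟩
  rw [Perm.mul_apply, Perm.inv_eq_iff_eq]
  by_cases h4 : a ∈ S
  · exact (h2 a h4).symm
  · rw [Perm.ofSubtype_apply_of_not_mem _ h4]
    exact (D.mem_Gam.mp hσ).2 a fun h5 => ha (Finset.mem_sdiff.mpr ⟨h5, h4⟩)
lemma rename_prod_aux {ρ : Λ → ℕ} {f : ℕ → Pl Λ} (s : Finset ℕ) : ∀ (A : Finset Λ) (σ : Perm Λ),
    σ ∈ D.Gam A → (∀ a ∈ A, ρ a ∈ s) → (∀ a ∈ A, ρ (σ a) = ρ a) →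
    (∀ l ∈ s, f l ∈ sup (blk A ρ l)) → (∀ l ∈ s, D.Inv (blk A ρ l) (f l)) →
    rename σ (∏ l ∈ s, f l) = D.eta σ • ∏ l ∈ s, f l := by
  induction s using Finset.induction_on with
  | empty =>
    intro A σ hσ hA _ _ _
    have : σ = 1 := Equiv.ext fun a => (D.mem_Gam.mp hσ).2 a fun ha => by simpa using hA a ha
    simp [this, eta_one]
  | insert l s hl ih =>
    intro A σ hσ hA h hs hi
    obtain ⟨σ1, h1, σ2, h2, rfl⟩ := D.Gam_split (S := blk A ρ l) hσ (Finset.eq_of_subset_of_card_le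
      (Finset.image_subset_iff.mpr fun a ha => mem_blk.mpr ⟨(D.Gam_mem hσ).mpr (mem_blk.mp ha).1,
        (h a (mem_blk.mp ha).1).trans (mem_blk.mp ha).2⟩)
      (Finset.card_image_of_injective _ σ.injective).ge)
    have e : ∀ l' ∈ s, blk (A \ blk A ρ l) ρ l' = blk A ρ l' := fun l' hl' => by
      ext a
      simp only [mem_blk, Finset.mem_sdiff]
      exact ⟨fun h => ⟨h.1.1, h.2⟩, fun h =>
        ⟨⟨h.1, fun h' => hl (h'.2.symm.trans h.2 ▸ hl')⟩, h.2⟩⟩
    have f1 := (D.mem_Gam.mp h1).2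
    have i1 := ih _ σ2 h2 (fun a ha => ?_) (fun a ha => ?_)
      (fun l' hl' => e l' hl' ▸ hs l' (Finset.mem_insert_of_mem hl'))
      fun l' hl' => e l' hl' ▸ hi l' (Finset.mem_insert_of_mem hl')
    · have i2 : rename σ1 (∏ l ∈ s, f l) = ∏ l ∈ s, f l := by
        rw [map_prod]
        refine Finset.prod_congr rfl fun l' hl' => rename_of_fix (fun a ha => f1 a fun h' => ?_)
          (hs l' (Finset.mem_insert_of_mem hl'))
        exact hl ((mem_blk.mp h').2.symm.trans (mem_blk.mp ha).2 ▸ hl')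
      rw [Finset.prod_insert hl, rename_mul_perm, map_mul, i1, rename_of_fix (fun a ha =>
        (D.mem_Gam.mp h2).2 a fun h' => (Finset.mem_sdiff.mp h').2 ha)
        (hs l (Finset.mem_insert_self _ _)), map_mul, map_smul, i2,
        hi l (Finset.mem_insert_self _ _) σ1 h1, D.eta_mul (D.Gam_GG h1) (D.Gam_GG h2),
        smul_mul_smul_comm]
    · obtain ⟨a1, a2⟩ := Finset.mem_sdiff.mp ha
      exact (Finset.mem_insert.mp (hA a a1)).resolve_left fun h' => a2 (mem_blk.mpr ⟨a1, h'⟩)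
    · rw [← h a (Finset.mem_sdiff.mp ha).1, Perm.mul_apply,
        f1 _ (Finset.mem_sdiff.mp ((D.Gam_mem h2).mpr ha)).2]
/-- A permutation preserving the blocks acts on a product of invariants by its sign. -/
lemma rename_prod_blk {A : Finset Λ} {ρ : Λ → ℕ} {σ : Perm Λ} (hσ : σ ∈ D.Gam A)
    (h : ∀ a ∈ A, ρ (σ a) = ρ a) {f : ℕ → Pl Λ} (hs : ∀ l ∈ lab A ρ, f l ∈ sup (blk A ρ l))
    (hi : ∀ l ∈ lab A ρ, D.Inv (blk A ρ l) (f l)) :
    rename σ (∏ l ∈ lab A ρ, f l) = D.eta σ • ∏ l ∈ lab A ρ, f l :=   D.rename_prod_aux (lab A ρ) A σ hσ (fun a ha => mem_lab.mpr ⟨a, ha, rfl⟩) h hs hi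
lemma Inv.rename {A : Finset Λ} {f : Pl Λ} (h : D.Inv A f) {τ : Perm Λ} (hτ : τ ∈ D.GG) :
    D.Inv (A.image τ) (rename τ f) := by
  intro σ hσ
  have h1 := D.Gam_conj (inv_mem hτ) hσ
  rw [Finset.image_image, ← Perm.coe_mul, inv_mul_cancel, Perm.coe_one, Finset.image_id,
    inv_inv] at h1
  have h2 := D.Gam_GG hσ
  rw [← rename_mul_perm, show σ * τ = τ * (τ⁻¹ * σ * τ) by group, rename_mul_perm, h _ h1, map_smul,
    D.eta_mul (mul_mem (inv_mem hτ) h2) hτ, D.eta_mul (inv_mem hτ) h2, D.eta_inv hτ,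
    mul_right_comm, D.eta_mul_self hτ, one_mul]
lemma Inv.hc {A : Finset Λ} {f : Pl Λ} (h : D.Inv A f) (m : ℕ) :
    D.Inv A (homogeneousComponent m f) := fun σ hσ => by
  rw [← hc_rename, h σ hσ, map_smul]
lemma rename_mem_W {A : Finset Λ} {m : ℕ} {f : Pl Λ} (h : f ∈ D.W A m) {τ : Perm Λ}
    (hτ : τ ∈ D.GG) : rename τ f ∈ D.W (A.image τ) m :=   ⟨rename_mem_sup τ h.1, h.2.1.rename_isHomogeneous, Inv.rename D h.2.2 hτ⟩
instance W_finite (A : Finset Λ) (m : ℕ) : Module.Finite ℂ (D.W A m) := by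
  have := Module.Finite.of_fg (homogeneousSubmodule_fg Λ ℂ m)
  exact Submodule.finiteDimensional_of_le (S₂ := homogeneousSubmodule Λ ℂ m) fun f hf => hf.2.1

lemma card_Gam_ne (A : Finset Λ) : ((D.Gam A).card : ℂ) ≠ 0 :=   Nat.cast_ne_zero.mpr (Finset.card_ne_zero.mpr ⟨1, D.one_mem_Gam A⟩)
lemma av_inv (A : Finset Λ) (f : Pl Λ) : D.Inv A (D.av A f) := by
  intro τ hτ
  have h0 := D.Gam_GG hτ
  rw [av_apply, map_smul, map_sum, smul_comm (D.eta τ), Finset.smul_sum (r := D.eta τ)]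
  congr 1
  refine Finset.sum_nbij' (fun σ => τ * σ) (fun σ => τ⁻¹ * σ) (fun σ hσ => D.mul_mem_Gam hτ hσ)
    (fun σ hσ => D.mul_mem_Gam (D.inv_mem_Gam hτ) hσ) (fun σ _ => by simp) (fun σ _ => by simp)
    fun σ hσ => ?_
  rw [map_smul, rename_mul_perm, D.eta_mul h0 (D.Gam_GG hσ), smul_smul, ← mul_assoc,
    D.eta_mul_self h0, one_mul]
lemma av_of_inv {A : Finset Λ} {f : Pl Λ} (h : D.Inv A f) : D.av A f = f := by
  rw [av_apply, Finset.sum_congr rfl fun σ hσ => by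
    rw [h σ hσ, smul_smul, D.eta_mul_self (D.Gam_GG hσ), one_smul], Finset.sum_const,
    ← Nat.cast_smul_eq_nsmul ℂ, smul_smul, inv_mul_cancel₀ (D.card_Gam_ne A), one_smul]
lemma av_rename {A : Finset Λ} {σ : Perm Λ} (hσ : σ ∈ D.Gam A) (f : Pl Λ) :
    D.av A (rename σ f) = D.eta σ • D.av A f := by
  have h0 := D.Gam_GG hσ
  rw [av_apply, av_apply, smul_comm (D.eta σ), Finset.smul_sum (r := D.eta σ)]
  congr 1
  refine Finset.sum_nbij' (fun τ => τ * σ) (fun τ => τ * σ⁻¹) (fun τ hτ => D.mul_mem_Gam hτ hσ)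
    (fun τ hτ => D.mul_mem_Gam hτ (D.inv_mem_Gam hσ)) (fun τ _ => by simp) (fun τ _ => by simp)
    fun τ hτ => ?_
  rw [rename_mul_perm, D.eta_mul (D.Gam_GG hτ) h0, smul_smul, mul_left_comm, D.eta_mul_self h0,
    mul_one]
lemma av_mem {A : Finset Λ} {U : Submodule ℂ (Pl Λ)}
    (hU : ∀ σ ∈ D.Gam A, ∀ f ∈ U, rename σ f ∈ U) {f : Pl Λ} (hf : f ∈ U) : D.av A f ∈ U := by
  rw [av_apply]
  exact U.smul_mem _ (sum_mem fun σ hσ => U.smul_mem _ (hU σ hσ f hf))
lemma av_mem_sup {S A : Finset Λ} (h : S ⊆ A) {f : Pl Λ} (hf : f ∈ sup A) : D.av S f ∈ sup A :=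
  D.av_mem (U := Subalgebra.toSubmodule (sup A)) (fun σ hσ g hg => by
    have := rename_mem_sup σ hg
    rwa [D.Gam_image (D.Gam_mono h hσ)] at this) hf
lemma av_homog (A : Finset Λ) {m : ℕ} {f : Pl Λ} (hf : f.IsHomogeneous m) :
    (D.av A f).IsHomogeneous m :=   D.av_mem (U := homogeneousSubmodule Λ ℂ m)
    (fun _ _ _ hg => IsHomogeneous.rename_isHomogeneous hg) hf
lemma av_mem_W {A : Finset Λ} {m : ℕ} {f : Pl Λ} (hs : f ∈ sup A) (hf : f.IsHomogeneous m) :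
    D.av A f ∈ D.W A m := ⟨D.av_mem_sup subset_rfl hs, D.av_homog A hf, D.av_inv A f⟩
lemma av_mul {A : Finset Λ} {g : Pl Λ} (hg : ∀ σ ∈ D.Gam A, rename σ g = g) (f : Pl Λ) :
    D.av A (g * f) = g * D.av A f := by
  rw [av_apply, av_apply, mul_smul_comm, Finset.mul_sum]
  congr 1
  exact Finset.sum_congr rfl fun σ hσ => by rw [map_mul, hg σ hσ, mul_smul_comm]
lemma av_av {S A : Finset Λ} (h : S ⊆ A) (f : Pl Λ) : D.av A (D.av S f) = D.av A f := by
  rw [D.av_apply S, map_smul, map_sum, Finset.sum_congr rfl fun σ hσ => by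
    rw [map_smul, D.av_rename (D.Gam_mono h hσ), smul_smul, D.eta_mul_self (D.Gam_GG hσ),
      one_smul], Finset.sum_const, ← Nat.cast_smul_eq_nsmul ℂ, smul_smul,
    inv_mul_cancel₀ (D.card_Gam_ne S), one_smul]
lemma hc_av (A : Finset Λ) (m : ℕ) (f : Pl Λ) :
    homogeneousComponent m (D.av A f) = D.av A (homogeneousComponent m f) := by
  simp only [av_apply, map_smul, map_sum, hc_rename]

lemma K_mem_Id {pr : Pr} {A S : Finset Λ} (hS : S ⊆ A) (h : pr (D.sz S) (D.sz (A \ S))) :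
    D.K S (A \ S) ∈ D.Id pr A := Ideal.subset_span ⟨S, hS, h, rfl⟩
lemma genIn_Id (pr : Pr) (A : Finset Λ) : GenIn (D.Id pr A) A :=   ⟨_, by rintro _ ⟨S, hS, -, rfl⟩; exact D.K_mem_sup hS Finset.sdiff_subset, rfl⟩
lemma rename_mem_Id {pr : Pr} {A : Finset Λ} {σ : Perm Λ} (hσ : σ ∈ D.GG) {f : Pl Λ}
    (hf : f ∈ D.Id pr A) : rename σ f ∈ D.Id pr (A.image σ) := by
  refine (Ideal.span_le (I := (D.Id pr (A.image σ)).comap (rename σ)).mpr ?_ hf :)
  rintro _ ⟨S, hS, h, rfl⟩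
  rw [SetLike.mem_coe, Ideal.mem_comap, D.rename_K hσ, Finset.image_sdiff _ _ σ.injective]
  refine D.K_mem_Id (Finset.image_subset_image hS) ?_
  rwa [← Finset.image_sdiff _ _ σ.injective, D.sz_congr (D.typ_image hσ S),
    D.sz_congr (D.typ_image hσ _)]
lemma hc_mem_Id {pr : Pr} {A : Finset Λ} (m : ℕ) {f : Pl Λ} (hf : f ∈ D.Id pr A) :
    homogeneousComponent m f ∈ D.Id pr A :=   hc_mem_span (by rintro _ ⟨S, -, -, rfl⟩; exact ⟨_, D.K_homog _ _⟩) m hf
lemma Id_eq_top_left {pr : Pr} {A : Finset Λ} (h : pr (D.sz A) (0, 0)) : D.Id pr A = ⊤ := by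
  have := D.K_mem_Id (pr := pr) (A := A) subset_rfl (by simpa [sz] using h)
  rwa [sdiff_self, Finset.bot_eq_empty, K_empty_right, ← Ideal.eq_top_iff_one] at this
lemma Id_eq_top_right {pr : Pr} {A : Finset Λ} (h : pr (0, 0) (D.sz A)) : D.Id pr A = ⊤ := by
  have := D.K_mem_Id (pr := pr) (Finset.empty_subset A) (by simpa [sz] using h)
  rwa [K_empty_left, ← Ideal.eq_top_iff_one] at this
lemma Id_empty {pr : Pr} (h : ¬ pr (0, 0) (0, 0)) : D.Id pr ∅ = ⊥ := by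
  refine Ideal.span_eq_bot.mpr ?_
  rintro _ ⟨S, hS, h1, rfl⟩
  rw [Finset.subset_empty.mp hS] at h1
  exact absurd (by simpa [sz] using h1) h
lemma KK_eq_top {A : Finset Λ} (h : D.ph A ≠ 0) : D.KK A = ⊤ := by
  rcases h.lt_or_gt with h | h
  · exact D.Id_eq_top_right (.inr h)
  · exact D.Id_eq_top_left (.inl h)

end Dat

end Vale.Agent.P066
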