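import Mathlib

/-! Quantum torus series: basic definitions. -/

set_option linter.unusedSectionVars false

noncomputable section
open scoped Classical
open Module

namespace Vale.Agent.P066

/-- Coefficient field: Laurent series in `t`. -/
abbrev R := LaurentSeries ℚ

/-- The power `t^k`. -/
def tp (k : ℤ) : R := HahnSeries.single k 1

/-- All coefficients are natural numbers. -/
def Pos (a : R) : Prop := ∀ k : ℤ, ∃ m : ℕ, a.coeff k = m

lemma tp_add (a b : ℤ) : tp (a + b) = tp a * tp b := by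
  simp [tp, HahnSeries.single_mul_single]

@[simp] lemma tp_zero : tp 0 = 1 := rfl

lemma tp_ne_zero (a : ℤ) : tp a ≠ 0 := by
  simp [tp]

/-- An alternating integral form. -/
structure QT (L : Type) [AddCommGroup L] where
  B : L →+ L →+ ℤ
  alt : ∀ a, B a a = 0

variable {L : Type} [AddCommGroup L] {ι : Type} [Fintype ι]

lemma QT.swap (q : QT L) (a b : L) : q.B a b = -q.B b a := by
  have h := q.alt (a + b)
  simp only [map_add, AddMonoidHom.add_apply, q.alt] at h
  linarith

/-- The cone of nonnegative combinations of the basis. -/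
def cone (e : Basis ι ℤ L) : AddSubmonoid L where
  carrier := {n | ∀ i, 0 ≤ e.repr n i}
  add_mem' := by
    intro a b ha hb i
    simp only [map_add, Finsupp.add_apply]
    exact add_nonneg (ha i) (hb i)
  zero_mem' := by intro i; simp

lemma mem_cone {e : Basis ι ℤ L} {n : L} : n ∈ cone e ↔ ∀ i, 0 ≤ e.repr n i := Iff.rfl

/-- Sum of the coordinates. -/
def deg (e : Basis ι ℤ L) : L →+ ℤ where
  toFun n := ∑ i, e.repr n i
  map_zero' := by simp
  map_add' a b := by simp [Finset.sum_add_distrib]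

lemma deg_apply (e : Basis ι ℤ L) (n : L) : deg e n = ∑ i, e.repr n i := rfl

/-- The `a` with `a` and `n - a` in the cone. -/
def box (e : Basis ι ℤ L) (n : L) : Finset L :=
  (Finset.Icc (0 : ι → ℤ) (e.equivFun n)).image e.equivFun.symm

lemma mem_box {e : Basis ι ℤ L} {n a : L} : a ∈ box e n ↔ a ∈ cone e ∧ n - a ∈ cone e := by
  simp only [box, Finset.mem_image, Finset.mem_Icc, mem_cone]
  constructor
  · rintro ⟨x, ⟨h0, h1⟩, rfl⟩
    have hx : ∀ i, e.repr (e.equivFun.symm x) i = x i := by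
      intro i
      have := congrFun (e.equivFun.apply_symm_apply x) i
      simpa only [Basis.equivFun_apply] using this
    refine ⟨fun i => ?_, fun i => ?_⟩
    · rw [hx]; exact h0 i
    · rw [map_sub, Finsupp.sub_apply, hx]
      have := h1 i
      simp only [Basis.equivFun_apply] at this
      linarith
  · rintro ⟨h0, h1⟩
    refine ⟨e.equivFun a, ⟨fun i => ?_, fun i => ?_⟩, e.equivFun.symm_apply_apply a⟩
    · simpa using h0 i
    · have := h1 i
      rw [map_sub, Finsupp.sub_apply] at this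
      simp only [Basis.equivFun_apply]
      linarith

/-- Twisted convolution (independent of the basis). -/
def cv (q : QT L) (f g : L → R) (n : L) : R := ∑ᶠ a, tp (q.B a n) * f a * g (n - a)

/-- Series supported in the cone of `e`. -/
@[ext] structure Ser (q : QT L) (e : Basis ι ℤ L) where
  co : L → R
  sp : ∀ n, co n ≠ 0 → n ∈ cone e

namespace Ser

variable {q : QT L} {e : Basis ι ℤ L}

instance : CoeFun (Ser q e) (fun _ => L → R) := ⟨Ser.co⟩

lemma ext' {f g : Ser q e} (h : ∀ n, f n = g n) : f = g := Ser.ext (funext h)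

lemma eq_zero (f : Ser q e) {n : L} (h : n ∉ cone e) : f n = 0 := by
  by_contra hn; exact h (f.sp n hn)

lemma cv_eq (f g : Ser q e) (n : L) :
    cv q f g n = ∑ a ∈ box e n, tp (q.B a n) * f a * g (n - a) := by
  unfold cv
  apply finsum_eq_sum_of_support_subset
  intro a ha
  have h1 : f a ≠ 0 := fun h => ha (by simp [h])
  have h2 : g (n - a) ≠ 0 := fun h => ha (by simp [h])
  exact Finset.mem_coe.2 (mem_box.2 ⟨f.sp _ h1, g.sp _ h2⟩)

instance : Zero (Ser q e) := ⟨⟨fun _ => 0, fun _ h => (h rfl).elim⟩⟩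
instance : One (Ser q e) :=
  ⟨⟨fun n => if n = 0 then 1 else 0, fun n h => by
    by_cases hn : n = 0
    · rw [hn]; exact zero_mem _
    · simp [hn] at h⟩⟩
instance : Add (Ser q e) :=
  ⟨fun f g => ⟨fun n => f n + g n, fun n h => by
    by_contra hn; simp [f.eq_zero hn, g.eq_zero hn] at h⟩⟩
instance : Neg (Ser q e) :=
  ⟨fun f => ⟨fun n => - f n, fun n h => by
    by_contra hn; simp [f.eq_zero hn] at h⟩⟩
instance : Sub (Ser q e) :=
  ⟨fun f g => ⟨fun n => f n - g n, fun n h => by
    by_contra hn; simp [f.eq_zero hn, g.eq_zero hn] at h⟩⟩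
instance : SMul ℕ (Ser q e) :=
  ⟨fun k f => ⟨fun n => k • f n, fun n h => by
    by_contra hn; simp [f.eq_zero hn] at h⟩⟩
instance : SMul ℤ (Ser q e) :=
  ⟨fun k f => ⟨fun n => k • f n, fun n h => by
    by_contra hn; simp [f.eq_zero hn] at h⟩⟩
instance : Mul (Ser q e) :=
  ⟨fun f g => ⟨cv q f g, fun n h => by
    rw [cv_eq] at h
    obtain ⟨a, ha, -⟩ := Finset.exists_ne_zero_of_sum_ne_zero h
    obtain ⟨h1, h2⟩ := mem_box.1 ha
    have := add_mem h1 h2
    simpa using this⟩⟩

@[simp] lemma zero_apply (n : L) : (0 : Ser q e) n = 0 := rfl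
lemma one_apply (n : L) : (1 : Ser q e) n = if n = 0 then 1 else 0 := rfl
@[simp] lemma add_apply (f g : Ser q e) (n : L) : (f + g) n = f n + g n := rfl
@[simp] lemma neg_apply (f : Ser q e) (n : L) : (-f) n = - f n := rfl
@[simp] lemma sub_apply (f g : Ser q e) (n : L) : (f - g) n = f n - g n := rfl
lemma mul_cv (f g : Ser q e) (n : L) : (f * g) n = cv q f g n := rfl
lemma mul_apply (f g : Ser q e) (n : L) :
    (f * g) n = ∑ a ∈ box e n, tp (q.B a n) * f a * g (n - a) := cv_eq f g n

instance : AddCommGroup (Ser q e) :=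
  Function.Injective.addCommGroup Ser.co (fun _ _ h => Ser.ext h) rfl (fun _ _ => rfl)
    (fun _ => rfl) (fun _ _ => rfl) (fun _ _ => rfl) (fun _ _ => rfl)

lemma mul_assoc' (f g h : Ser q e) : f * g * h = f * (g * h) := by
  apply ext'
  intro n
  simp only [mul_apply, Finset.mul_sum, Finset.sum_mul, Finset.sum_sigma']
  refine Finset.sum_bij' (fun x _ => ⟨x.2, x.1 - x.2⟩) (fun x _ => ⟨x.1 + x.2, x.1⟩) ?_ ?_ ?_ ?_ ?_
  · rintro ⟨a, b⟩ hx
    simp only [Finset.mem_sigma, mem_box] at hx ⊢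
    obtain ⟨⟨_, h2⟩, h3, h4⟩ := hx
    refine ⟨⟨h3, ?_⟩, h4, ?_⟩
    · have := add_mem h2 h4
      simpa using this
    · simpa using h2
  · rintro ⟨a, b⟩ hx
    simp only [Finset.mem_sigma, mem_box] at hx ⊢
    obtain ⟨⟨h1, _⟩, h3, h4⟩ := hx
    refine ⟨⟨add_mem h1 h3, ?_⟩, h1, ?_⟩
    · rw [← sub_sub]; exact h4
    · simpa using h3
  · rintro ⟨a, b⟩ _; simp
  · rintro ⟨a, b⟩ _; simp
  · rintro ⟨a, b⟩ _
    have h1 : n - b - (a - b) = n - a := by abel
    have h2 : q.B a n + q.B b a = q.B b n + q.B (a - b) (n - b) := by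
      simp only [map_sub, AddMonoidHom.sub_apply, q.alt, q.swap a b]; ring
    have h3 : tp (q.B a n) * tp (q.B b a) = tp (q.B b n) * tp (q.B (a - b) (n - b)) := by
      rw [← tp_add, ← tp_add, h2]
    simp only [h1]
    linear_combination (f b * g (a - b) * h (n - a)) * h3

lemma one_mul' (f : Ser q e) : 1 * f = f := by
  apply ext'
  intro n
  rw [mul_cv, cv, finsum_eq_single _ 0]
  · simp [one_apply]
  · intro a ha; simp [one_apply, ha]

lemma mul_one' (f : Ser q e) : f * 1 = f := by
  apply ext'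
  intro n
  rw [mul_cv, cv, finsum_eq_single _ n]
  · simp [one_apply, q.alt]
  · intro a ha
    have : n - a ≠ 0 := fun h => ha (sub_eq_zero.1 h).symm
    simp [one_apply, this]

instance : Ring (Ser q e) :=
  { (inferInstance : AddCommGroup (Ser q e)), (inferInstance : Mul (Ser q e)),
    (inferInstance : One (Ser q e)) with
    mul_assoc := mul_assoc'
    one_mul := one_mul'
    mul_one := mul_one'
    left_distrib := fun f g h => ext' fun n => by
      simp only [mul_apply, add_apply, mul_add, Finset.sum_add_distrib]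
    right_distrib := fun f g h => ext' fun n => by
      simp only [mul_apply, add_apply, mul_add, add_mul, Finset.sum_add_distrib]
    zero_mul := fun f => ext' fun n => by simp [mul_apply]
    mul_zero := fun f => ext' fun n => by simp [mul_apply] }

lemma sum_apply {α : Type*} (s : Finset α) (f : α → Ser q e) (n : L) :
    (∑ x ∈ s, f x) n = ∑ x ∈ s, f x n := by
  induction s using Finset.induction_on with
  | empty => simp
  | insert a s ha ih => simp [Finset.sum_insert ha, ih]

end Ser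

/-- The monomial `a z^m` (zero if `m` is not in the cone). -/
def mono (q : QT L) (e : Basis ι ℤ L) (m : L) (a : R) : Ser q e :=
  ⟨fun n => if n = m ∧ m ∈ cone e then a else 0, fun n h => by
    by_contra hn
    apply h
    rw [if_neg]
    rintro ⟨rfl, h2⟩
    exact hn h2⟩

/-- Restriction of a series to a set of exponents. -/
def trunc {q : QT L} {e : Basis ι ℤ L} (M : Set L) (f : Ser q e) : Ser q e :=
  ⟨fun n => if n ∈ M then f n else 0, fun n h => by
    by_contra hn; simp [f.eq_zero hn] at h⟩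

/-- `N` is closed under taking summands in the cone. -/
def Low (e : Basis ι ℤ L) (N : Set L) : Prop :=
  ∀ a b, a ∈ cone e → b ∈ cone e → a + b ∈ N → a ∈ N

/-- Exponents of degree at most `D`. -/
def ND (e : Basis ι ℤ L) (D : ℕ) : Set L := {n | deg e n ≤ D}

/-- The nonzero cone points of degree at most `D`, as a finset. -/
def NF (e : Basis ι ℤ L) (D : ℕ) : Finset L :=
  (box e (∑ i, (D : ℤ) • e i)).filter (fun n => n ≠ 0 ∧ deg e n ≤ D)

/-- Agreement of coefficients on `N`. -/
def Cong {q : QT L} {e : Basis ι ℤ L} (N : Set L) (f g : Ser q e) : Prop := ∀ n ∈ N, f n = g n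

/-- On `N`, the support of `f` lies in `M`. -/
def Sp {q : QT L} {e : Basis ι ℤ L} (N : Set L) (f : Ser q e) (M : Set L) : Prop :=
  ∀ n ∈ N, f n ≠ 0 → n ∈ M

/-- Inverse of a series. -/
def inv {q : QT L} {e : Basis ι ℤ L} (f : Ser q e) : Ser q e := Ring.inverse f

def NegS (θ : L →+ ℚ) : Set L := {n | n = 0 ∨ θ n < 0}
def ZerS (θ : L →+ ℚ) : Set L := {n | θ n = 0}
def PosS (θ : L →+ ℚ) : Set L := {n | n = 0 ∨ 0 < θ n}

/-- Modulo `N`, `g = a b c` with `a, b, c` supported where `θ` is negative, zero, positive. -/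
structure IsFac {q : QT L} {e : Basis ι ℤ L} (N : Set L) (θ : L →+ ℚ) (g a b c : Ser q e) :
    Prop where
  a0 : a 0 = 1
  b0 : b 0 = 1
  c0 : c 0 = 1
  spa : Sp N a (NegS θ)
  spb : Sp N b (ZerS θ)
  spc : Sp N c (PosS θ)
  eq : Cong N g (a * b * c)

def fac {q : QT L} {e : Basis ι ℤ L} (θ : L →+ ℚ) (g : Ser q e) : Ser q e × Ser q e × Ser q e :=
  if h : ∃ x : Ser q e × Ser q e × Ser q e, IsFac Set.univ θ g x.1 x.2.1 x.2.2 then h.choose
  else (1, g, 1)

def neg {q : QT L} {e : Basis ι ℤ L} (θ : L →+ ℚ) (g : Ser q e) : Ser q e := (fac θ g).1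
def zer {q : QT L} {e : Basis ι ℤ L} (θ : L →+ ℚ) (g : Ser q e) : Ser q e := (fac θ g).2.1
def pos {q : QT L} {e : Basis ι ℤ L} (θ : L →+ ℚ) (g : Ser q e) : Ser q e := (fac θ g).2.2

/-- The functional `a ↦ B a p`. -/
def th (q : QT L) (p : L) : L →+ ℚ := (Int.castAddHom ℚ).comp (q.B.flip p)

@[simp] lemma th_apply (q : QT L) (p a : L) : th q p a = (q.B a p : ℚ) := rfl

/-- The derivation `z^n ↦ δ(n) z^n`. -/
def Dr {q : QT L} {e : Basis ι ℤ L} (δ : L →+ ℤ) (f : Ser q e) : Ser q e :=
  ⟨fun n => (δ n : R) * f n, fun n h => by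
    by_contra hn; simp [f.eq_zero hn] at h⟩

/-- Logarithm coefficient. -/
def lg {q : QT L} {e : Basis ι ℤ L} (f : Ser q e) (n : L) : R :=
  (inv f * Dr (deg e) f) n / (deg e n : R)

/-- Attractor invariant. -/
def att {q : QT L} {e : Basis ι ℤ L} (g : Ser q e) (n : L) : R := lg (zer (th q n) g) n

/-- Conjugated coefficient. -/
def Ac {q : QT L} {e : Basis ι ℤ L} (θ : L →+ ℚ) (g f : Ser q e) : Ser q e :=
  inv (neg θ g) * f * neg θ g

def alpha {q : QT L} {e : Basis ι ℤ L} (g f : Ser q e) (p : L) : R := Ac (th q p) g f p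

/-- Substitution of `z^m` in a power series, as a function. -/
def evf (m : L) (φ : PowerSeries R) (n : L) : R :=
  ∑ᶠ k : ℕ, if n = k • m then PowerSeries.coeff k φ else 0

/-- Substitution of `z^m` in a power series. -/
def ev (q : QT L) (e : Basis ι ℤ L) (m : L) (φ : PowerSeries R) : Ser q e :=
  ⟨fun n => if m ∈ cone e then evf m φ n else 0, fun n h => by
    by_cases hm : m ∈ cone e
    · rw [if_pos hm] at h
      obtain ⟨k, hk⟩ : ∃ k : ℕ, n = k • m := by
        by_contra hk
        push Not at hk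
        apply h
        simp [evf, hk]
      rw [hk]; exact nsmul_mem hm k
    · simp [hm] at h⟩

/-- Coefficients of the fermionic (`true`) and bosonic (`false`) series. -/
def Fc (ε : Bool) : ℕ → R
  | 0 => 1
  | k + 1 => (if ε then tp (2 * k) else 1) * Fc ε k / (1 - tp (2 * k + 2))

def Fps (ε : Bool) (j : ℤ) : PowerSeries R := PowerSeries.mk fun k => tp (j * k) * Fc ε k

/-- A factor: type, shift, exponent. -/
structure Fac (L : Type) where
  ε : Bool
  j : ℤ
  m : L

def Fz (q : QT L) (e : Basis ι ℤ L) (f : Fac L) : Ser q e := ev q e f.m (Fps f.ε f.j)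

def FP (q : QT L) (e : Basis ι ℤ L) (l : List (Fac L)) : Ser q e := (l.map (Fz q e)).prod

/-- The quantum dilogarithm series at `z^X`. -/
def Ez (q : QT L) (e : Basis ι ℤ L) (X : L) : Ser q e := Fz q e ⟨true, 1, X⟩

/-- Logarithm of a power series with constant term one. -/
def LG (φ : PowerSeries R) : PowerSeries R :=
  PowerSeries.mk fun k =>
    PowerSeries.coeff k (φ⁻¹ * PowerSeries.mk fun i => (i : R) * PowerSeries.coeff i φ) / (k : R)

def lgF (f : Fac L) (n : L) : R := evf f.m (LG (Fps f.ε f.j)) n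

def lgL (l : List (Fac L)) (n : L) : R := (l.map fun f => lgF f n).sum

/-- All exponents of the list are nonzero cone points. -/
def OkL (e : Basis ι ℤ L) (l : List (Fac L)) : Prop := ∀ f ∈ l, f.m ∈ cone e ∧ f.m ≠ 0

/-- Cluster element of the seed `(e, U)`. -/
def IsCl {q : QT L} {e : Basis ι ℤ L} (U : Finset ι) (g : Ser q e) : Prop :=
  g 0 = 1 ∧ ∀ n, att g n = ∑ i ∈ U, lgF ⟨true, 1, e i⟩ n

/-- Parallel cone points. -/
def Par (e : Basis ι ℤ L) (a b : L) : Prop := deg e a • b = deg e b • a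

/-- `v` lies on the rational line through `n`. -/
def Dep (v n : L) : Prop := ∃ a b : ℤ, a ≠ 0 ∧ a • v = b • n

/-- Symmetric Gaussian binomial coefficient. -/
def gb (c k : ℕ) : R :=
  ∑ S ∈ Finset.powersetCard k (Finset.range c), tp (∑ i ∈ S, ((c : ℤ) - 1 - 2 * i))

/-- The linear map of a mutation. -/
def mutMap (q : QT L) (e : Basis ι ℤ L) (k : ι) : L →ₗ[ℤ] L :=
  e.constr ℤ fun i => if i = k then - e k else e i + (max (q.B (e k) (e i)) 0) • e k

lemma mutMap_self (q : QT L) (e : Basis ι ℤ L) (k : ι) : mutMap q e k (e k) = - e k := by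
  rw [mutMap, Basis.constr_basis, if_pos rfl]

lemma mutMap_ne (q : QT L) (e : Basis ι ℤ L) {k i : ι} (h : i ≠ k) :
    mutMap q e k (e i) = e i + (max (q.B (e k) (e i)) 0) • e k := by
  rw [mutMap, Basis.constr_basis, if_neg h]

lemma mutMap_invol (q : QT L) (e : Basis ι ℤ L) (k : ι) :
    (mutMap q e k).comp (mutMap q e k) = LinearMap.id := by
  apply e.ext
  intro i
  by_cases h : i = k
  · subst h; simp [mutMap_self]
  · simp [mutMap_ne q e h, mutMap_self]

/-- The mutated basis. -/
def mutB (q : QT L) (e : Basis ι ℤ L) (k : ι) : Basis ι ℤ L :=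
  e.map (LinearEquiv.ofLinearMap (mutMap q e k) (mutMap q e k) (mutMap_invol q e k)
    (mutMap_invol q e k))

lemma mutB_self (q : QT L) (e : Basis ι ℤ L) (k : ι) : mutB q e k k = - e k := by
  simp [mutB, mutMap_self]

lemma mutB_ne (q : QT L) (e : Basis ι ℤ L) {k i : ι} (h : i ≠ k) :
    mutB q e k i = e i + (max (q.B (e k) (e i)) 0) • e k := by
  simp [mutB, mutMap_ne q e h]

/-- Generating series of the pairwise orthogonal `k`-subsets of `W`. -/
def Hs (q : QT L) (e : Basis ι ℤ L) {V : Type} (v : V → L) (W : Finset V) (k : ℕ) : Ser q e :=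
  ∑ S ∈ (W.powersetCard k).filter (fun S => ∀ a ∈ S, ∀ b ∈ S, q.B (v a) (v b) = 0),
    mono q e (∑ a ∈ S, v a) 1

def HP (q : QT L) (e : Basis ι ℤ L) {V : Type} (v : V → L) (W : Finset V) (ks : List ℕ) :
    Ser q e := (ks.map (Hs q e v W)).prod

/-- Series with the same coefficients up to `Φ`. -/
def Rel {L' ι' : Type} [AddCommGroup L'] [Fintype ι'] {q : QT L} {e : Basis ι ℤ L}
    {q' : QT L'} {e' : Basis ι' ℤ L'} (Φ : L ≃+ L') (f : Ser q e) (f' : Ser q' e') : Prop :=
  ∀ n, f' (Φ n) = f n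

/-- Data for pushing series forward. -/
structure Push {L' ι' : Type} [AddCommGroup L'] [Fintype ι'] (q : QT L) (e : Basis ι ℤ L)
    (q' : QT L') (e' : Basis ι' ℤ L') where
  γ : L →+ L'
  jj : L →+ ℤ
  mem : ∀ i, γ (e i) ∈ cone e'
  ne : ∀ i, γ (e i) ≠ 0
  form : ∀ a b, q'.B (γ a) (γ b) = q.B a b

lemma Push.map_cone {L' ι' : Type} [AddCommGroup L'] [Fintype ι'] {q : QT L} {e : Basis ι ℤ L}
    {q' : QT L'} {e' : Basis ι' ℤ L'} (P : Push q e q' e') {d : L} (hd : d ∈ cone e) :
    P.γ d ∈ cone e' := by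
  rw [← e.sum_repr d, map_sum]
  apply sum_mem
  intro i _
  rw [map_zsmul, ← Int.toNat_of_nonneg (hd i), natCast_zsmul]
  exact nsmul_mem (P.mem i) _

/-- The substitution `x^d ↦ t^(jj d) z^(γ d)`. -/
def Push.app {L' ι' : Type} [AddCommGroup L'] [Fintype ι'] {q : QT L} {e : Basis ι ℤ L}
    {q' : QT L'} {e' : Basis ι' ℤ L'} (P : Push q e q' e') (f : Ser q e) : Ser q' e' :=
  ⟨fun n => ∑ᶠ d, if P.γ d = n then tp (P.jj d) * f d else 0, fun n h => by
    obtain ⟨d, hd⟩ : ∃ d, (if P.γ d = n then tp (P.jj d) * f d else 0) ≠ 0 := by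
      by_contra hk
      push Not at hk
      apply h
      simp [hk]
    by_cases h1 : P.γ d = n
    · rw [if_pos h1] at hd
      rw [← h1]
      exact P.map_cone (f.sp d (right_ne_zero_of_mul hd))
    · simp [h1] at hd⟩

/-- The Euler type form of a quiver on integer vectors. -/
def kz {I : Type} [Fintype I] (arr : I → I → ℕ) (d d' : I → ℤ) : ℤ :=
  ∑ i, ∑ j, (arr i j : ℤ) * d i * d' j

/-- The quantum torus of a quiver. -/
def qq {I : Type} [Fintype I] (arr : I → I → ℕ) : QT (I → ℤ) where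
  B := AddMonoidHom.mk' (fun d => AddMonoidHom.mk' (fun d' => kz arr d d' - kz arr d' d)
      (fun a b => by simp only [kz, Pi.add_apply, mul_add, add_mul, Finset.sum_add_distrib]; ring))
    (fun a b => by
      ext d'
      simp only [kz, Pi.add_apply, mul_add, add_mul, Finset.sum_add_distrib, AddMonoidHom.mk'_apply,
        AddMonoidHom.add_apply, AddMonoidHom.coe_comp, Function.comp_apply]
      ring)
  alt := fun a => by simp

lemma qq_B {I : Type} [Fintype I] (arr : I → I → ℕ) (d d' : I → ℤ) :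
    (qq arr).B d d' = kz arr d d' - kz arr d' d := rfl

/-- The standard basis. -/
abbrev e0 (I : Type) [Fintype I] : Basis I ℤ (I → ℤ) := Pi.basisFun ℤ I

/-- The total series of a quiver. -/
def tot {I : Type} [Fintype I] (arr : I → I → ℕ) (fer : I → Bool) : Ser (qq arr) (e0 I) :=
  ⟨fun d => if d ∈ cone (e0 I) then tp (- kz arr d d) * ∏ i, Fc (fer i) (d i).toNat else 0,
    fun d h => by by_contra hd; simp [hd] at h⟩

end Vale.Agent.P066
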