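import Vale.Agent.P066.Filt

/-! Divisibility of leading parts. -/

set_option linter.unusedSectionVars false

noncomputable section
open scoped Classical
open MvPolynomial Equiv

namespace Vale.Agent.P066

variable {Λ I : Type} [Fintype Λ] [Fintype I]

/-- The part of degree `N` of a polynomial with polynomial coefficients, contracted. -/
def divL (ℓ : Pl Λ →ₗ[ℂ] ℂ) (N : ℕ) (P : MvPolynomial ℕ (Pl Λ)) : MvPolynomial ℕ ℂ :=
  ∑ β ∈ P.support with β.degree = N, monomial β (ℓ (coeff β P))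

lemma coeff_divL (ℓ : Pl Λ →ₗ[ℂ] ℂ) (N : ℕ) (P : MvPolynomial ℕ (Pl Λ)) (β : ℕ →₀ ℕ) :
    coeff β (divL ℓ N P) = if β.degree = N then ℓ (coeff β P) else 0 := by
  unfold divL
  rw [coeff_sum]
  simp only [coeff_monomial]
  rw [Finset.sum_ite_eq']
  by_cases h : β.degree = N
  · by_cases h2 : β ∈ P.support
    · rw [if_pos (Finset.mem_filter.2 ⟨h2, h⟩), if_pos h]
    · rw [if_neg (fun h3 => h2 (Finset.mem_filter.1 h3).1), if_pos h,
        notMem_support_iff.1 h2, map_zero]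
  · rw [if_neg h, if_neg]
    exact fun h3 => h (Finset.mem_filter.1 h3).2

lemma divL_sum (ℓ : Pl Λ →ₗ[ℂ] ℂ) (N : ℕ) {α : Type*} (s : Finset α)
    (P : α → MvPolynomial ℕ (Pl Λ)) : divL ℓ N (∑ x ∈ s, P x) = ∑ x ∈ s, divL ℓ N (P x) := by
  ext β
  simp only [coeff_divL, coeff_sum, map_sum]
  split_ifs <;> simp

lemma divL_map (ℓ : Pl Λ →ₗ[ℂ] ℂ) (N : ℕ) (g : Pl Λ) (P : MvPolynomial ℕ ℂ) :
    divL ℓ N (C g * map (algebraMap ℂ (Pl Λ)) P) = ℓ g • homogeneousComponent N P := by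
  ext β
  rw [coeff_divL, coeff_C_mul, coeff_map, coeff_smul, coeff_homogeneousComponent]
  split_ifs
  · rw [mul_comm, ← Algebra.smul_def, map_smul, smul_eq_mul, smul_eq_mul, mul_comm]
  · simp

/-- The substitution keeping only one parameter. -/
def divS (l l' : ℕ) (i : ℕ) : MvPolynomial ℕ ℂ := if i = l' then X l' - X l else 0

lemma divS_homog (l l' i : ℕ) : (divS l l' i).IsHomogeneous 1 := by
  unfold divS
  split_ifs
  · exact (isHomogeneous_X ℂ l').sub (isHomogeneous_X ℂ l)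
  · exact isHomogeneous_zero _ _ _

lemma divS_dvd (l l' : ℕ) (γ : ℕ →₀ ℕ) :
    (X l' - X l) ^ γ.degree ∣ γ.prod fun i k => divS l l' i ^ k := by
  rw [Finsupp.degree_apply, ← Finset.prod_pow_eq_pow_sum]
  refine Finset.prod_dvd_prod_of_dvd _ _ fun i _ => pow_dvd_pow_of_dvd ?_ _
  unfold divS
  split_ifs
  · exact dvd_rfl
  · exact dvd_zero _

lemma divS_prod_homog (l l' : ℕ) (γ : ℕ →₀ ℕ) :
    (γ.prod fun i k => divS l l' i ^ k).IsHomogeneous γ.degree := by
  rw [Finsupp.degree_apply]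
  refine IsHomogeneous.prod _ _ _ fun i _ => ?_
  simpa using (divS_homog l l' i).pow (γ i)

/-- Expansion of the translate along a merged partition. -/
lemma TT_merge (ρ : Λ → ℕ) (l l' : ℕ) (f : Pl Λ) :
    TT ρ f = ∑ β ∈ (TT (fun a => if ρ a = l' then l else ρ a) f).support,
      ∑ γ ∈ (TT ρ (coeff β (TT (fun a => if ρ a = l' then l else ρ a) f))).support,
        C (coeff γ (TT ρ (coeff β (TT (fun a => if ρ a = l' then l else ρ a) f)))) *
          map (algebraMap ℂ (Pl Λ)) ((γ.prod fun i k => divS l l' i ^ k) * monomial β 1) := by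
  set ρ2 : Λ → ℕ := fun a => if ρ a = l' then l else ρ a with hρ2
  set sb : MvPolynomial ℕ (Pl Λ) →ₐ[Pl Λ] MvPolynomial ℕ (Pl Λ) :=
    aeval fun i => map (algebraMap ℂ (Pl Λ)) (divS l l' i) with hsb
  set U : Pl Λ →ₐ[ℂ] MvPolynomial ℕ (Pl Λ) := (sb.restrictScalars ℂ).comp (TT ρ) with hU
  set Ψ : MvPolynomial ℕ (Pl Λ) →ₐ[ℂ] MvPolynomial ℕ (Pl Λ) := aevalTower U X with hΨ
  have h1 : Ψ.comp (TT ρ2) = TT ρ := by
    apply algHom_ext
    intro a
    simp only [AlgHom.comp_apply, TT_X, map_add, hΨ, aevalTower_C, aevalTower_X, hU,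
      AlgHom.coe_restrictScalars', hsb, aeval_C, aeval_X, algebraMap_eq, hρ2, divS]
    split_ifs with h
    · rw [h]; simp only [map_sub, map_X]; ring
    · simp
  have h2 : ∀ g : Pl Λ, U g = ∑ γ ∈ (TT ρ g).support,
      C (coeff γ (TT ρ g)) * map (algebraMap ℂ (Pl Λ)) (γ.prod fun i k => divS l l' i ^ k) := by
    intro g
    have : U g = sb (TT ρ g) := rfl
    rw [this]
    conv_lhs => rw [(TT ρ g).as_sum]
    rw [map_sum]
    refine Finset.sum_congr rfl fun γ _ => ?_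
    rw [hsb, aeval_monomial, algebraMap_eq, map_finsuppProd]
    simp only [map_pow]
  have h3 : ∀ (β : ℕ →₀ ℕ) (g : Pl Λ), Ψ (monomial β g) = U g * monomial β 1 := by
    intro β g
    rw [monomial_eq, monomial_eq, map_mul, hΨ, aevalTower_C, map_finsuppProd]
    simp
  conv_lhs => rw [← h1, AlgHom.comp_apply, (TT ρ2 f).as_sum, map_sum]
  refine Finset.sum_congr rfl fun β _ => ?_
  rw [h3, h2, Finset.sum_mul]
  refine Finset.sum_congr rfl fun γ _ => ?_
  rw [map_mul, map_monomial, map_one (algebraMap ℂ (Pl Λ)), mul_assoc]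

theorem pow_dvd_tops {J : Ideal (Pl Λ)} {ρ : Λ → ℕ} (hJ : Stab J ρ) {ℓ : Pl Λ →ₗ[ℂ] ℂ}
    (hℓ : ∀ f ∈ J, ℓ f = 0) {l l' : ℕ} (hl : l ≠ l') {N κ : ℕ} {f : Pl Λ}
    (hf : f ∈ Le J (fun a => if ρ a = l' then l else ρ a) ((N : ℤ) - κ)) :
    (X l' - X l) ^ κ ∣ tops ρ ℓ N f := by
  have _ := hl
  have e : tops ρ ℓ N f = divL ℓ N (TT ρ f) := rfl
  rw [e, TT_merge ρ l l' f, divL_sum]
  refine Finset.dvd_sum fun β _ => ?_
  rw [divL_sum]
  refine Finset.dvd_sum fun γ _ => ?_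
  rw [divL_map, homogeneousComponent_of_mem
    ((divS_prod_homog l l' γ).mul (isHomogeneous_monomial (1 : ℂ) (d := β) rfl))]
  split_ifs with h
  · by_cases hκ : κ ≤ γ.degree
    · rw [smul_eq_C_mul]
      exact Dvd.dvd.mul_left (Dvd.dvd.mul_right ((pow_dvd_pow _ hκ).trans (divS_dvd l l' γ)) _) _
    · rw [hℓ _ (hJ _ (hf β (by omega)) γ), zero_smul]
      exact dvd_zero _
  · rw [smul_zero]
    exact dvd_zero _

lemma div_irred {l l' : ℕ} (h : l ≠ l') : Irreducible (X l' - X l : MvPolynomial ℕ ℂ) := by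
  have := irreducible_mul_X_add (1 : MvPolynomial ℕ ℂ) (-X l) l' one_ne_zero (by simp)
    (by rw [vars_neg, vars_X]; simpa using h.symm) isRelPrime_one_left
  rwa [one_mul, ← sub_eq_add_neg] at this

lemma div_relprime {l l' m m' : ℕ} (h : l < l') (h' : m < m') (hne : (l, l') ≠ (m, m')) :
    IsRelPrime (X l' - X l : MvPolynomial ℕ ℂ) (X m' - X m) := by
  rw [(div_irred h.ne).isRelPrime_iff_not_dvd]
  rintro ⟨c, hc⟩
  have key : ∀ x : ℕ → ℂ, x l' = x l → x m' = x m := by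
    intro x hx
    have := congrArg (eval x) hc
    simp only [map_sub, map_mul, eval_X, hx, sub_self, zero_mul] at this
    exact sub_eq_zero.1 this
  have h1 := key (fun i => if i = l' then (l : ℂ) else i) (by simp [h.ne])
  have hne' : l ≠ m ∨ l' ≠ m' := by
    by_contra hh
    push Not at hh
    exact hne (by rw [hh.1, hh.2])
  by_cases a : m' = l'
  · have b : m ≠ l' := by omega
    simp only [a, b, if_true, if_false, Nat.cast_inj] at h1
    omega
  · by_cases b : m = l'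
    · simp only [a, b, if_true, if_false, Nat.cast_inj] at h1
      omega
    · simp only [a, b, if_false, Nat.cast_inj] at h1
      omega

namespace Dat

variable {D : Dat Λ I}

theorem Del_dvd {A : Finset Λ} {ρ : Λ → ℕ} {T : MvPolynomial ℕ ℂ}
    (h : ∀ l ∈ lab A ρ, ∀ l' ∈ lab A ρ, l < l' →
      (X l' - X l) ^ D.kap (blk A ρ l) (blk A ρ l') ∣ T) : D.Del A ρ ∣ T := by
  rw [D.Del_eq_prod, ← Finset.prod_product']
  apply Finset.prod_dvd_of_isRelPrime
  · rintro ⟨l, l'⟩ - ⟨m, m'⟩ - hne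
    simp only [Function.onFun]
    split_ifs with h1 h2
    · exact (div_relprime h1 h2 hne).pow
    · exact isRelPrime_one_right
    · exact isRelPrime_one_left
    · exact isRelPrime_one_left
  · rintro ⟨l, l'⟩ hp
    rw [Finset.mem_product] at hp
    simp only
    split_ifs with h1
    · exact h l hp.1 l' hp.2 h1
    · exact one_dvd _

/-- If the leading parts vanish on all coarser partitions, the leading part is divisible. -/
theorem Del_dvd_tops (hS : D.Sym) {A : Finset Λ} {ρ : Λ → ℕ} (hρ : D.Adm A ρ) {ω : ℤ} {N : ℕ}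
    (hN : (N : ℤ) = D.kk A ρ + ω - (lab A ρ).card) {f : Pl Λ}
    (hf : ∀ ρ2, D.Adm A ρ2 → (lab A ρ2).card < (lab A ρ).card →
      f ∈ Le (D.LL A ρ2) ρ2 (D.kk A ρ2 + ω - 1 - (lab A ρ2).card))
    {ℓ : Pl Λ →ₗ[ℂ] ℂ} (hℓ : ∀ g ∈ D.LL A ρ, ℓ g = 0) : D.Del A ρ ∣ tops ρ ℓ N f := by
  refine Del_dvd fun l hl l' hl' hlt => ?_
  refine pow_dvd_tops (D.stab_LL fun _ _ _ _ h => h) hℓ hlt.ne ?_
  set ρ2 : Λ → ℕ := fun a => if ρ a = l' then l else ρ a with hρ2
  have hr : Refines A ρ ρ2 := fun a _ b _ e => by simp only [hρ2, e]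
  have s1 : lab A ρ2 ⊆ (lab A ρ).erase l' := by
    intro x hx
    obtain ⟨a, ha, e⟩ := mem_lab.1 hx
    rw [Finset.mem_erase, ← e]
    simp only [hρ2]
    split_ifs with h
    · exact ⟨hlt.ne, hl⟩
    · exact ⟨h, mem_lab.2 ⟨a, ha, rfl⟩⟩
  have s2 : lab A ρ ⊆ insert l' (lab A ρ2) := by
    intro x hx
    obtain ⟨a, ha, e⟩ := mem_lab.1 hx
    rw [Finset.mem_insert]
    by_cases h : x = l'
    · exact Or.inl h
    · exact Or.inr (mem_lab.2 ⟨a, ha, by simp only [hρ2, e, if_neg h]⟩)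
  have c1 : (lab A ρ2).card < (lab A ρ).card :=
    lt_of_le_of_lt (Finset.card_le_card s1) (Finset.card_erase_lt_of_mem hl')
  have c2 : (lab A ρ).card ≤ (lab A ρ2).card + 1 :=
    (Finset.card_le_card s2).trans (Finset.card_insert_le _ _)
  have hl2 : l ∈ lab A ρ2 := by
    have := s2 hl
    rw [Finset.mem_insert] at this
    exact this.resolve_left hlt.ne
  have k1 := D.kk_refine hS hρ hr
  have k2 : D.kk (blk A ρ2 l) ρ ≤ ∑ x ∈ lab A ρ2, D.kk (blk A ρ2 x) ρ :=
    Finset.single_le_sum (f := fun x => D.kk (blk A ρ2 x) ρ) (fun _ _ => Nat.zero_le _) hl2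
  have t1 : blk A ρ l ⊆ blk A ρ2 l := fun a ha => by
    rw [mem_blk] at ha ⊢
    exact ⟨ha.1, by simp only [hρ2, ha.2, ite_self]⟩
  have t2 : blk A ρ l' ⊆ blk A ρ2 l := fun a ha => by
    rw [mem_blk] at ha ⊢
    exact ⟨ha.1, by simp only [hρ2, ha.2, if_true]⟩
  have k3 : D.kap (blk A ρ l) (blk A ρ l') ≤ D.kk (blk A ρ2 l) ρ := by
    refine le_trans (Finset.sum_le_sum fun a ha => ?_) (Finset.sum_le_sum_of_subset t1)
    refine le_trans (Finset.sum_le_sum fun b hb => ?_) (Finset.sum_le_sum_of_subset t2)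
    rw [(mem_blk.1 ha).2, (mem_blk.1 hb).2, if_pos hlt]
  refine Le_mono (D.LL_le_LL hr) ρ2 ?_ (hf ρ2 (hρ.coarsen D hr) c1)
  omega

end Dat

lemma div_hc_mul {P Q : MvPolynomial ℕ ℂ} {a : ℕ} (h1 : P.IsHomogeneous a) (d : ℕ) :
    homogeneousComponent (a + d) (P * Q) = P * homogeneousComponent d Q := by
  conv_lhs => rw [← sum_homogeneousComponent Q, Finset.mul_sum, map_sum]
  rw [Finset.sum_eq_single d]
  · exact homogeneousComponent_eq_self (h1.mul (homogeneousComponent_isHomogeneous d Q))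
  · intro i _ hi
    rw [homogeneousComponent_of_mem (h1.mul (homogeneousComponent_isHomogeneous i Q)),
      if_neg (by omega)]
  · intro hd
    rw [Finset.mem_range] at hd
    rw [homogeneousComponent_eq_zero d Q (by omega), mul_zero, map_zero]

/-- The quotient of a homogeneous polynomial in some variables by another one. -/
theorem quot_props {s : Finset ℕ} {P Q T : MvPolynomial ℕ ℂ} (hP : P ≠ 0) (h : T = P * Q)
    {a N : ℕ} (h1 : P.IsHomogeneous a) (h2 : T.IsHomogeneous N)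
    (h3 : ∀ β ∈ T.support, ∀ l ∈ β.support, l ∈ s) :
    ∀ β ∈ Q.support, β.degree + a = N ∧ ∀ l ∈ β.support, l ∈ s := by
  intro β hβ
  have hc : coeff β Q ≠ 0 := mem_support_iff.1 hβ
  constructor
  · by_contra hne
    have e := div_hc_mul (Q := Q) h1 β.degree
    rw [← h, homogeneousComponent_of_mem h2, if_neg (by omega)] at e
    have h4 := (mul_eq_zero.1 e.symm).resolve_left hP
    have h5 := coeff_homogeneousComponent β.degree Q β
    rw [h4, if_pos rfl, coeff_zero] at h5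
    exact hc h5.symm
  · intro l hl
    have hQ : Q ≠ 0 := fun e => hc (by rw [e, coeff_zero])
    have h4 : β l ≤ degreeOf l Q := monomial_le_degreeOf l hβ
    have h5 : β l ≠ 0 := Finsupp.mem_support_iff.1 hl
    have h6 : degreeOf l T = degreeOf l P + degreeOf l Q := by rw [h, degreeOf_mul_eq hP hQ]
    by_contra hn
    have h7 : degreeOf l T ≤ 0 := by
      rw [degreeOf_le_iff]
      intro m hm
      by_contra h8
      exact hn (h3 m hm l (Finsupp.mem_support_iff.2 (by omega)))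
    omega

end Vale.Agent.P066
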