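import Vale.Agent.P066.Log

/-! Substitution of monomials in power series. -/

set_option linter.unusedSectionVars false

noncomputable section
open scoped Classical
open Module

namespace Vale.Agent.P066

variable {L : Type} [AddCommGroup L] {ι : Type} [Fintype ι] {q : QT L} {e : Basis ι ℤ L}

/-- The natural multiples of `m`. -/
def mulM (m : L) : AddSubmonoid L := AddSubmonoid.multiples m

lemma mem_mulM {m n : L} : n ∈ mulM m ↔ ∃ k : ℕ, k • m = n := Iff.rfl

lemma nsmul_inj (e : Basis ι ℤ L) {m : L} (hm0 : m ≠ 0) {k j : ℕ} (h : k • m = j • m) : k = j := by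
  by_contra hne
  refine hm0 (zsmul_cancel e (a := (k : ℤ) - j) (by omega) ?_)
  rw [sub_smul, natCast_zsmul, natCast_zsmul, h, sub_self, smul_zero]

lemma tp_pow (a : ℤ) (k : ℕ) : tp a ^ k = tp (k * a) := by
  induction k with
  | zero => simp
  | succ k ih => rw [pow_succ, ih, ← tp_add]; push_cast; ring_nf

lemma evf_nsmul (e : Basis ι ℤ L) {m : L} (hm0 : m ≠ 0) (φ : PowerSeries R) (k : ℕ) :
    evf m φ (k • m) = PowerSeries.coeff k φ := by
  rw [evf, finsum_eq_single _ k, if_pos rfl]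
  exact fun j hj => if_neg fun h => hj (nsmul_inj e hm0 h).symm
lemma evf_of_not {m n : L} (h : n ∉ mulM m) (φ : PowerSeries R) : evf m φ n = 0 :=
  finsum_eq_zero_of_forall_eq_zero fun k => if_neg fun x => h ⟨k, x.symm⟩
lemma ev_apply {m : L} (hm : m ∈ cone e) (φ : PowerSeries R) (n : L) :
    ev q e m φ n = evf m φ n :=
  if_pos hm
lemma ev_nsmul {m : L} (hm : m ∈ cone e) (hm0 : m ≠ 0) (φ : PowerSeries R) (k : ℕ) :
    ev q e m φ (k • m) = PowerSeries.coeff k φ := by rw [ev_apply hm, evf_nsmul e hm0]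

lemma ev_zero_apply {m : L} (hm : m ∈ cone e) (hm0 : m ≠ 0) (φ : PowerSeries R) :
    ev q e m φ 0 = PowerSeries.coeff 0 φ := by rw [← ev_nsmul (q := q) hm hm0, zero_smul]
lemma sp_ev (N : Set L) (m : L) (φ : PowerSeries R) : Sp N (ev q e m φ) (mulM m) := by
  intro n _ h
  by_contra hn
  by_cases hm : m ∈ cone e
  · exact h (by rw [ev_apply hm, evf_of_not hn])
  · exact h (if_neg hm)
lemma eq_of_mulM {m : L} {f g : Ser q e} (hf : Sp Set.univ f (mulM m)) (hg : Sp Set.univ g (mulM m))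
    (h : ∀ k : ℕ, f (k • m) = g (k • m)) : f = g := by
  refine Ser.ext' fun n => ?_
  by_cases hn : n ∈ mulM m
  · obtain ⟨k, rfl⟩ := hn
    exact h k
  · rw [not_not.1 fun x => hn (hf n trivial x), not_not.1 fun x => hn (hg n trivial x)]

lemma sum_box_mul {m : L} (hm : m ∈ cone e) (hm0 : m ≠ 0) {F : L → R} {p : L} {K : ℕ}
    (hK : ∀ k : ℕ, p - k • m ∈ cone e → k ≤ K) (h1 : ∀ a, F a ≠ 0 → a ∈ mulM m)
    (h2 : ∀ a, F a ≠ 0 → p - a ∈ cone e) :
    ∑ a ∈ box e p, F a = ∑ k ∈ Finset.range (K + 1), F (k • m) := by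
  rw [← finsum_eq_sum_of_support_subset F (s := box e p),
    finsum_eq_sum_of_support_subset F (s := (Finset.range (K + 1)).image fun k => k • m),
    Finset.sum_image fun a _ b _ h => nsmul_inj e hm0 h]
  · intro a ha
    obtain ⟨k, rfl⟩ := h1 a ha
    exact Finset.mem_coe.2 (Finset.mem_image_of_mem _
      (Finset.mem_range.2 (Nat.lt_succ_of_le (hK k (h2 _ ha)))))
  · intro a ha
    obtain ⟨k, rfl⟩ := h1 a ha
    exact Finset.mem_coe.2 (mem_box.2 ⟨nsmul_mem hm k, h2 _ ha⟩)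

lemma ev_mul_apply' {m : L} (hm : m ∈ cone e) (hm0 : m ≠ 0) (φ : PowerSeries R) (y : Ser q e)
    (p : L) {K : ℕ} (hK : ∀ k : ℕ, p - k • m ∈ cone e → k ≤ K) :
    (ev q e m φ * y) p = ∑ k ∈ Finset.range (K + 1),
      tp (k * q.B m p) * PowerSeries.coeff k φ * y (p - k • m) := by
  rw [Ser.mul_apply, sum_box_mul hm hm0 hK
    (fun a h => sp_ev Set.univ m φ a trivial (right_ne_zero_of_mul (left_ne_zero_of_mul h)))
    fun a h => y.sp _ (right_ne_zero_of_mul h)]
  refine Finset.sum_congr rfl fun k _ => ?_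
  rw [ev_nsmul hm hm0, map_nsmul, AddMonoidHom.nsmul_apply, nsmul_eq_mul]

lemma mul_ev_apply' {m : L} (hm : m ∈ cone e) (hm0 : m ≠ 0) (φ : PowerSeries R) (y : Ser q e)
    (p : L) {K : ℕ} (hK : ∀ k : ℕ, p - k • m ∈ cone e → k ≤ K) :
    (y * ev q e m φ) p = ∑ k ∈ Finset.range (K + 1),
      tp (-(k * q.B m p)) * y (p - k • m) * PowerSeries.coeff k φ := by
  rw [mul_apply', sum_box_mul hm hm0 hK
    (fun a h => sp_ev Set.univ m φ a trivial (right_ne_zero_of_mul h))
    fun a h => y.sp _ (right_ne_zero_of_mul (left_ne_zero_of_mul h))]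
  refine Finset.sum_congr rfl fun k _ => ?_
  rw [ev_nsmul hm hm0, map_nsmul, AddMonoidHom.nsmul_apply, nsmul_eq_mul]

lemma string_le {m : L} (hm : m ∈ cone e) (hm0 : m ≠ 0) {p : L} {D : ℕ} (hD : deg e p ≤ D) (k : ℕ)
    (h : p - k • m ∈ cone e) : k ≤ D := by
  have h1 := deg_nonneg h
  have h2 := deg_pos hm hm0
  rw [map_sub, map_nsmul, nsmul_eq_mul] at h1
  have : (k : ℤ) ≤ k * deg e m := le_mul_of_one_le_right (by omega) h2
  omega

lemma ev_one {m : L} (hm : m ∈ cone e) (hm0 : m ≠ 0) : ev q e m 1 = 1 :=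
  eq_of_mulM (sp_ev _ _ _) (sp_one _ (zero_mem (mulM m))) fun k => by
    rw [ev_nsmul hm hm0, PowerSeries.coeff_one, Ser.one_apply]
    exact if_congr ⟨fun h => by rw [h, zero_smul], fun h =>
      nsmul_inj e hm0 (by rw [h, zero_smul])⟩ rfl rfl
lemma ev_add {m : L} (hm : m ∈ cone e) (hm0 : m ≠ 0) (φ ψ : PowerSeries R) :
    ev q e m (φ + ψ) = ev q e m φ + ev q e m ψ :=
  eq_of_mulM (sp_ev _ _ _) ((sp_ev _ _ _).add (sp_ev _ _ _)) fun k => by
    rw [Ser.add_apply, ev_nsmul hm hm0, ev_nsmul hm hm0, ev_nsmul hm hm0, map_add]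
lemma sub_nsmul_of_le {m : L} {j k : ℕ} (h : k ≤ j) : (j - k) • m = j • m - k • m := by
  rw [eq_sub_iff_add_eq, ← add_nsmul, Nat.sub_add_cancel h]

lemma ev_mul {m : L} (hm : m ∈ cone e) (hm0 : m ≠ 0) (φ ψ : PowerSeries R) :
    ev q e m (φ * ψ) = ev q e m φ * ev q e m ψ :=
  eq_of_mulM (sp_ev _ _ _) ((sp_ev _ _ _).mulM low_univ (sp_ev _ _ _)) fun j => by
    rw [ev_nsmul hm hm0, ev_mul_apply' hm hm0 _ _ _ (K := j) fun k h => by
        have h1 := deg_nonneg h
        have h2 := deg_pos hm hm0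
        rw [map_sub, map_nsmul, map_nsmul, nsmul_eq_mul, nsmul_eq_mul, ← sub_mul] at h1
        have := nonneg_of_mul_nonneg_left h1 h2
        omega,
      PowerSeries.coeff_mul, Finset.Nat.sum_antidiagonal_eq_sum_range_succ_mk]
    refine Finset.sum_congr rfl fun k hk => ?_
    rw [← sub_nsmul_of_le (Nat.lt_succ_iff.1 (Finset.mem_range.1 hk)), ev_nsmul hm hm0, map_nsmul,
      q.alt, smul_zero, mul_zero, tp_zero, one_mul]
lemma ev_inv {m : L} (hm : m ∈ cone e) (hm0 : m ≠ 0) {φ : PowerSeries R}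
    (h : PowerSeries.coeff 0 φ = 1) : inv (ev q e m φ) = ev q e m φ⁻¹ := by
  refine inv_eq_of_mul (by rw [ev_zero_apply hm hm0, h]) ?_
  rw [← ev_mul hm hm0, PowerSeries.mul_inv_cancel _ (by
    rw [← PowerSeries.coeff_zero_eq_constantCoeff_apply, h]; exact one_ne_zero), ev_one hm hm0]
lemma ev_mul_apply {m : L} (hm : m ∈ cone e) (hm0 : m ≠ 0) (φ : PowerSeries R) (y : Ser q e)
    (p : L) {D : ℕ} (hD : deg e p ≤ D) :
    (ev q e m φ * y) p = ∑ k ∈ Finset.range (D + 1),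
      tp (k * q.B m p) * PowerSeries.coeff k φ * y (p - k • m) :=
  ev_mul_apply' hm hm0 φ y p (string_le hm hm0 hD)
lemma mul_ev_apply {m : L} (hm : m ∈ cone e) (hm0 : m ≠ 0) (φ : PowerSeries R) (y : Ser q e)
    (p : L) {D : ℕ} (hD : deg e p ≤ D) :
    (y * ev q e m φ) p = ∑ k ∈ Finset.range (D + 1),
      tp (-(k * q.B m p)) * y (p - k • m) * PowerSeries.coeff k φ :=
  mul_ev_apply' hm hm0 φ y p (string_le hm hm0 hD)
/-- Conjugation along a string. -/
lemma conj_ev_apply {m : L} (hm : m ∈ cone e) (hm0 : m ≠ 0) (φ ψ : PowerSeries R) (y : Ser q e)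
    (p : L) {D : ℕ} (hD : deg e p ≤ D) :
    (ev q e m φ * y * ev q e m ψ) p = ∑ k ∈ Finset.range (D + 1),
      tp (-(k * q.B m p)) * PowerSeries.coeff k (PowerSeries.rescale (tp (2 * q.B m p)) φ * ψ) *
        y (p - k • m) := by
  have key : ∀ p', q.B m p' = q.B m p → (ev q e m φ * y) p' =
      (y * ev q e m (PowerSeries.rescale (tp (2 * q.B m p)) φ)) p' := fun p' h => by
    rw [ev_mul_apply hm hm0 _ _ _ (Int.self_le_toNat _),
      mul_ev_apply hm hm0 _ _ _ (Int.self_le_toNat _), h]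
    refine Finset.sum_congr rfl fun k _ => ?_
    rw [PowerSeries.coeff_rescale, tp_pow,
      show (k : ℤ) * q.B m p = -(k * q.B m p) + k * (2 * q.B m p) by ring, tp_add]
    ring_nf
  have : (ev q e m φ * y * ev q e m ψ) p =
      (y * ev q e m (PowerSeries.rescale (tp (2 * q.B m p)) φ) * ev q e m ψ) p := by
    rw [mul_ev_apply hm hm0 _ _ _ hD, mul_ev_apply hm hm0 _ _ _ hD]
    refine Finset.sum_congr rfl fun k _ => ?_
    rw [key _ (by simp [q.alt])]
  rw [this, mul_assoc, ← ev_mul hm hm0, mul_ev_apply hm hm0 _ _ _ hD]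
  exact Finset.sum_congr rfl fun k _ => by ring

lemma Fps_zero (ε : Bool) (j : ℤ) : PowerSeries.coeff 0 (Fps ε j) = 1 := by simp [Fps, Fc]
lemma Fz_zero {f : Fac L} (hm : f.m ∈ cone e) (hm0 : f.m ≠ 0) : Fz q e f 0 = 1 := by rw [Fz, ev_zero_apply hm hm0, Fps_zero]
lemma Ez_zero {X : L} (hm : X ∈ cone e) (hm0 : X ≠ 0) : Ez q e X 0 = 1 :=
  Fz_zero (f := ⟨true, 1, X⟩) hm hm0
lemma FP_nil : FP q e [] = 1 := rfl
lemma FP_cons (f : Fac L) (l : List (Fac L)) : FP q e (f :: l) = Fz q e f * FP q e l := by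
  simp [FP]
lemma FP_append (l l' : List (Fac L)) : FP q e (l ++ l') = FP q e l * FP q e l' := by
  simp [FP]
lemma FP_zero {l : List (Fac L)} (hl : OkL e l) : FP q e l 0 = 1 := by
  induction l with
  | nil => exact one_zero_apply
  | cons f l ih =>
    rw [FP_cons]
    exact mul_zero_one (Fz_zero (hl f (by simp)).1 (hl f (by simp)).2)
      (ih fun x hx => hl x (List.mem_cons_of_mem _ hx))
lemma sp_Fz (N : Set L) {M : AddSubmonoid L} {f : Fac L} (h : f.m ∈ M) : Sp N (Fz q e f) M :=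
  (sp_ev N f.m _).mono subset_rfl fun _ _ _ ⟨k, hk⟩ => hk ▸ nsmul_mem h k
lemma sp_Ez (N : Set L) {M : AddSubmonoid L} {X : L} (h : X ∈ M) : Sp N (Ez q e X) M :=
  sp_Fz N (f := ⟨true, 1, X⟩) h
lemma sp_FP (N : Set L) {M : AddSubmonoid L} {l : List (Fac L)} (h : ∀ f ∈ l, f.m ∈ M) :
    Sp N (FP q e l) M :=
  (Sp.list_prod low_univ l fun f hf => sp_Fz _ (h f hf)).mono (Set.subset_univ _) fun _ _ _ x => x

lemma lg_ev {m : L} (hm : m ∈ cone e) (hm0 : m ≠ 0) {φ : PowerSeries R}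
    (h : PowerSeries.coeff 0 φ = 1) (n : L) : lg (ev q e m φ) n = evf m (LG φ) n := by
  have := charZero_R
  have h1 : Dr (deg e) (ev q e m φ) = ev q e m (PowerSeries.C (deg e m : R) *
      PowerSeries.mk fun i => (i : R) * PowerSeries.coeff i φ) :=
    eq_of_mulM ((sp_ev _ _ _).dr _) (sp_ev _ _ _) fun k => by
      rw [Dr_apply, ev_nsmul hm hm0, ev_nsmul hm hm0, PowerSeries.coeff_C_mul, PowerSeries.coeff_mk,
        map_nsmul, nsmul_eq_mul]
      push_cast
      ring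
  rw [lg, h1, ev_inv hm hm0 h, ← ev_mul hm hm0, ev_apply hm]
  by_cases hn : n ∈ mulM m
  · obtain ⟨k, rfl⟩ := hn
    rw [evf_nsmul e hm0, evf_nsmul e hm0, LG, PowerSeries.coeff_mk, mul_left_comm,
      PowerSeries.coeff_C_mul, map_nsmul, nsmul_eq_mul]
    push_cast
    rw [mul_comm (k : R), mul_div_mul_left _ _ (deg_cast_ne hm hm0)]
  · rw [evf_of_not hn, evf_of_not hn, zero_div]
lemma lg_Fz {f : Fac L} (hm : f.m ∈ cone e) (hm0 : f.m ≠ 0) (n : L) :
    lg (Fz q e f) n = lgF f n :=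
  lg_ev hm hm0 (Fps_zero _ _) n
lemma lgF_ne {f : Fac L} {n : L} (h : lgF f n ≠ 0) : ∃ k : ℕ, 0 < k ∧ n = k • f.m := by
  by_contra hk
  refine h (finsum_eq_zero_of_forall_eq_zero fun k => ?_)
  split_ifs with h1
  · rcases k.eq_zero_or_pos with rfl | h2
    · simp [LG]
    · exact absurd ⟨k, h2, h1⟩ hk
  · rfl
lemma lgL_nil (n : L) : lgL ([] : List (Fac L)) n = 0 := rfl
lemma lgL_cons (f : Fac L) (l : List (Fac L)) (n : L) : lgL (f :: l) n = lgF f n + lgL l n := by
  simp [lgL]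
lemma lgL_append (l l' : List (Fac L)) (n : L) : lgL (l ++ l') n = lgL l n + lgL l' n := by
  simp [lgL]
lemma lgL_ne {l : List (Fac L)} {n : L} (h : lgL l n ≠ 0) :
    ∃ f ∈ l, ∃ k : ℕ, 0 < k ∧ n = k • f.m := by
  induction l with
  | nil => exact absurd rfl h
  | cons f l ih =>
    rw [lgL_cons] at h
    by_cases h1 : lgF f n = 0
    · rw [h1, zero_add] at h
      obtain ⟨g, hg, h2⟩ := ih h
      exact ⟨g, List.mem_cons_of_mem _ hg, h2⟩
    · exact ⟨f, by simp, lgF_ne h1⟩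
lemma lg_FP {l : List (Fac L)} (hl : OkL e l) {n : L} (h : ∀ f ∈ l, q.B f.m n = 0) :
    lg (FP q e l) n = lgL l n := by
  induction l with
  | nil => exact lg_one n
  | cons f l ih =>
    have hl' : OkL e l := fun x hx => hl x (List.mem_cons_of_mem _ hx)
    have h' : ∀ x ∈ l, q.B x.m n = 0 := fun x hx => h x (List.mem_cons_of_mem _ hx)
    rw [FP_cons, lgL_cons, lg_mul low_univ trivial (Fz_zero (hl f (by simp)).1 (hl f (by simp)).2)
      (FP_zero hl') (sp_FP _ (M := zerM (th q n)) fun x hx => by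
        show th q n x.m = 0
        rw [th_apply, h' x hx, Int.cast_zero]),
      ih hl' h', lg_Fz (hl f (by simp)).1 (hl f (by simp)).2]
theorem exists_cl (q : QT L) (e : Basis ι ℤ L) (U : Finset ι) : ∃ g : Ser q e, IsCl U g := by
  obtain ⟨g, h0, h⟩ := exists_att q e fun n => ∑ i ∈ U, lgF ⟨true, 1, e i⟩ n
  refine ⟨g, h0, fun n => ?_⟩
  by_cases hn : n ∈ cone e ∧ n ≠ 0
  · exact h n hn.1 hn.2
  rw [Finset.sum_eq_zero fun i _ => not_not.1 fun x => hn ?_]
  · by_cases hc : n ∈ cone e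
    · rw [not_not.1 fun x => hn ⟨hc, x⟩, att_zero]
    · exact att_of_not_mem _ hc
  · obtain ⟨k, hk, rfl⟩ := lgF_ne x
    exact ⟨nsmul_mem (basis_mem_cone e i) k, fun h =>
      hk.ne' (nsmul_inj e (e.ne_zero i) (h.trans (zero_smul _ _).symm))⟩
theorem IsCl.list {U : Finset ι} {g : Ser q e} (h : IsCl U g) :
    ∃ l, OkL e l ∧ ∀ n, att g n = lgL l n := by
  refine ⟨U.toList.map fun i => ⟨true, 1, e i⟩, fun f hf => ?_, fun n => ?_⟩
  · obtain ⟨i, -, rfl⟩ := List.mem_map.1 hf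
    exact ⟨basis_mem_cone e i, e.ne_zero i⟩
  · rw [h.2, lgL, List.map_map, Finset.sum_map_toList]
    rfl

lemma FP_basis_zero {I : Type} [Fintype I] (q : QT (I → ℤ)) (fer : I → Bool) (l : List I)
    {d : I → ℤ} {i : I} (hi : i ∉ l) (hd : d i ≠ 0) :
    FP q (e0 I) (l.map fun i => ⟨fer i, 0, e0 I i⟩) d = 0 := by
  by_contra h
  refine hd (sp_FP Set.univ (M := AddMonoidHom.mker (Pi.evalAddMonoidHom (fun _ => ℤ) i))
    (fun f hf => ?_) d trivial h)
  obtain ⟨j, hj, rfl⟩ := List.mem_map.1 hf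
  have : i ≠ j := fun x => hi (x ▸ hj)
  simp [this]

lemma FP_basis_list {I : Type} [Fintype I] (q : QT (I → ℤ)) (fer : I → Bool) (l : List I)
    (hl : l.Nodup) (h : ∀ i ∈ l, ∀ j ∈ l, q.B (e0 I i) (e0 I j) = 0) (d : I → ℤ)
    (hd : ∀ i, 0 ≤ d i) (hs : ∀ i, i ∉ l → d i = 0) :
    FP q (e0 I) (l.map fun i => ⟨fer i, 0, e0 I i⟩) d =
      (l.map fun i => Fc (fer i) (d i).toNat).prod := by
  induction l generalizing d with
  | nil =>
    obtain rfl : d = 0 := funext fun i => hs i (by simp)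
    exact one_zero_apply
  | cons i l ih =>
    have hi := (List.nodup_cons.1 hl).1
    have hB : q.B (e0 I i) d = 0 := by
      rw [← (e0 I).sum_repr d, map_sum]
      refine Finset.sum_eq_zero fun j _ => ?_
      by_cases hj : j ∈ i :: l
      · rw [map_zsmul, h i (by simp) j hj, smul_zero]
      · simp [hs j hj]
    have hv : ∀ (k : ℕ) (j : I), (d - k • e0 I i) j = d j - if j = i then k else 0 := fun k j => by
      simp [Pi.single_apply]
    have := hd i
    rw [List.map_cons, List.map_cons, List.prod_cons, FP_cons, Fz,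
      ev_mul_apply' (basis_mem_cone _ i) ((e0 I).ne_zero i) _ _ _ (K := (d i).toNat) fun k hk => by
        have h2 : 0 ≤ (d - k • e0 I i) i := by simpa using hk i
        rw [hv, if_pos rfl] at h2
        omega,
      Finset.sum_eq_single_of_mem (d i).toNat (by simp) fun k _ hk => by
        rw [FP_basis_zero q fer l hi (by rw [hv, if_pos rfl]; omega), mul_zero],
      ih (List.nodup_cons.1 hl).2
        (fun a ha b hb => h a (List.mem_cons_of_mem _ ha) b (List.mem_cons_of_mem _ hb)) _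
        (fun j => by
          have := hd j
          rw [hv]
          split_ifs with x
          · subst x; omega
          · omega)
        (fun j hj => by
          rw [hv]
          split_ifs with x
          · subst x; omega
          · rw [hs j (by simp [x, hj])]; rfl),
      hB, List.map_congr_left (l := l) (g := fun i => Fc (fer i) (d i).toNat) fun j hj => by
        rw [hv, if_neg fun (x : j = i) => hi (x ▸ hj)]; simp]
    simp [Fps]

/-- Product of factors at orthogonal basis vectors. -/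
theorem FP_basis {I : Type} [Fintype I] (q : QT (I → ℤ)) (fer : I → Bool) (s : Finset I)
    (h : ∀ i ∈ s, ∀ j ∈ s, q.B (e0 I i) (e0 I j) = 0) (d : I → ℤ) :
    FP q (e0 I) (s.toList.map fun i => ⟨fer i, 0, e0 I i⟩) d =
      if d ∈ cone (e0 I) ∧ ∀ i, i ∉ s → d i = 0 then ∏ i ∈ s, Fc (fer i) (d i).toNat else 0 := by
  split_ifs with hd
  · rw [FP_basis_list q fer s.toList s.nodup_toList (by simpa using h) d
      (fun i => by simpa using hd.1 i) (by simpa using hd.2), Finset.prod_map_toList]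
  · by_cases hc : d ∈ cone (e0 I)
    · obtain ⟨i, hi, h0⟩ : ∃ i, i ∉ s ∧ d i ≠ 0 := by
        by_contra x
        push Not at x
        exact hd ⟨hc, x⟩
      exact FP_basis_zero q fer _ (by simpa using hi) h0
    · exact Ser.eq_zero _ hc

end Vale.Agent.P066
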