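import Vale.Agent.P066.Calc

/-! Factorization with respect to a functional. -/

set_option linter.unusedSectionVars false

noncomputable section
open scoped Classical
open Module

namespace Vale.Agent.P066

variable {L : Type} [AddCommGroup L] {ι : Type} [Fintype ι] {q : QT L} {e : Basis ι ℤ L}

/-- Triangularity of the product. -/
lemma tri2 {a a' b b' : Ser q e} (ha : a 0 = 1) (ha' : a' 0 = 1) (hb : b 0 = 1) (hb' : b' 0 = 1)
    {n : L} (hn : n ≠ 0) (h1 : ∀ x ∈ cone e, n - x ∈ cone e → x ≠ n → a x = a' x)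
    (h2 : ∀ x ∈ cone e, n - x ∈ cone e → x ≠ n → b x = b' x) :
    (a * b) n - (a' * b') n = (a n - a' n) + (b n - b' n) := by
  by_cases hc : n ∈ cone e
  swap
  · simp [Ser.eq_zero _ hc]
  rw [Ser.mul_apply, Ser.mul_apply, ← Finset.sum_sub_distrib,
    Finset.sum_eq_add_of_mem n 0 (mem_box.2 ⟨hc, by simp⟩) (mem_box.2 ⟨zero_mem _, by simpa⟩) hn]
  · simp [q.alt, ha, ha', hb, hb']
  · intro x hx hne
    obtain ⟨h3, h4⟩ := mem_box.1 hx
    rw [h1 x h3 h4 hne.1, h2 (n - x) h4 (by simpa using h3) (by simpa using hne.2), sub_self]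

/-- The proper summands of `n`. -/
def prp (e : Basis ι ℤ L) (n : L) : Set L := {x | n - x ∈ cone e ∧ x ≠ n}

lemma low_prp (n : L) : Low e (prp e n) := by
  rintro a b ha hb ⟨h1, h2⟩
  refine ⟨by simpa [sub_add_eq_sub_sub] using add_mem h1 hb, ?_⟩
  rintro rfl
  have : b = 0 := cone_antisymm hb (by simpa using h1)
  exact h2 (by rw [this, add_zero])

lemma cong_prp {f g : Ser q e} {n : L} (h : ∀ x ∈ cone e, n - x ∈ cone e → x ≠ n → f x = g x) :
    Cong (prp e n) f g := Cong.of_cone fun x hx hc => h x hc hx.1 hx.2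

lemma tri3 {a a' b b' c c' : Ser q e} (ha : a 0 = 1) (ha' : a' 0 = 1) (hb : b 0 = 1)
    (hb' : b' 0 = 1) (hc : c 0 = 1) (hc' : c' 0 = 1) {n : L} (hn : n ≠ 0)
    (h1 : Cong (prp e n) a a') (h2 : Cong (prp e n) b b') (h3 : Cong (prp e n) c c') :
    (a * b * c) n - (a' * b' * c') n = (a n - a' n) + (b n - b' n) + (c n - c' n) := by
  rw [tri2 (by rw [mul_zero_apply, ha, hb, one_mul]) (by rw [mul_zero_apply, ha', hb', one_mul])
    hc hc' hn (fun x _ h h' => h1.mul (low_prp n) h2 x ⟨h, h'⟩) (fun x _ h h' => h3 x ⟨h, h'⟩),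
    tri2 ha ha' hb hb' hn (fun x _ h h' => h1 x ⟨h, h'⟩) (fun x _ h h' => h2 x ⟨h, h'⟩)]

/-- Solving a triangular system. -/
lemma exists_tri (F : Ser q e → L → R)
    (hF : ∀ u u' : Ser q e, u 0 = 1 → u' 0 = 1 → ∀ n, n ≠ 0 → Cong (prp e n) u u' →
      F u n - F u' n = u n - u' n) (a : L → R) :
    ∃ u : Ser q e, u 0 = 1 ∧ ∀ n ∈ cone e, n ≠ 0 → F u n = a n := by
  let T : Ser q e → Ser q e := fun u =>
    ⟨fun n => if n ∈ cone e then if n = 0 then 1 else a n - (F u n - u n) else 0,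
      fun n h => by by_contra hn; exact h (if_neg hn)⟩
  have T0 : ∀ u, T u 0 = 1 := fun u => by simp [T]
  have Tn : ∀ u, ∀ n ∈ cone e, n ≠ 0 → T u n = a n - (F u n - u n) := fun u n h h0 => by
    simp [T, h, h0]
  have hT : ∀ u u' : Ser q e, u 0 = 1 → u' 0 = 1 → ∀ n, Cong (prp e n) u u' → T u n = T u' n := by
    intro u u' h h' n hc
    by_cases hn : n ∈ cone e
    · by_cases h0 : n = 0
      · rw [h0, T0, T0]
      · rw [Tn u n hn h0, Tn u' n hn h0]
        linear_combination -hF u u' h h' n h0 hc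
    · rw [Ser.eq_zero _ hn, Ser.eq_zero _ hn]
  have i0 : ∀ k, (T^[k] 1) 0 = 1 := fun k => by
    cases k with
    | zero => exact one_zero_apply
    | succ k => rw [Function.iterate_succ_apply', T0]
  have hlt : ∀ {n x : L}, x ∈ prp e n → deg e x < deg e n := fun {n x} hx => by
    have := deg_pos hx.1 (sub_ne_zero.2 hx.2.symm)
    rw [map_sub] at this
    omega
  have st : ∀ k j : ℕ, ∀ n ∈ cone e, deg e n ≤ k → deg e n ≤ j → (T^[k] 1) n = (T^[j] 1) n := by
    intro k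
    induction k with
    | zero =>
      intro j n hn h _
      obtain rfl : n = 0 := by by_contra h0; have := deg_pos hn h0; omega
      rw [i0, i0]
    | succ k ih =>
      intro j n hn h h'
      cases j with
      | zero =>
        obtain rfl : n = 0 := by by_contra h0; have := deg_pos hn h0; omega
        rw [i0, i0]
      | succ j =>
        rw [Function.iterate_succ_apply', Function.iterate_succ_apply']
        exact hT _ _ (i0 k) (i0 j) n (Cong.of_cone fun x hx hc =>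
          ih j x hc (by have := hlt hx; omega) (by have := hlt hx; omega))
  let u : Ser q e := ⟨fun n => (T^[(deg e n).toNat] 1) n, fun n h => Ser.sp _ n h⟩
  have u0 : u 0 = 1 := i0 _
  refine ⟨u, u0, fun n hn h0 => ?_⟩
  have h1 : u n = (T^[(deg e n).toNat + 1] 1) n := st _ _ n hn (by omega) (by omega)
  rw [Function.iterate_succ_apply', ← hT u _ u0 (i0 _) n (Cong.of_cone fun x hx hc =>
    st _ _ x hc (by omega) (by have := hlt hx; omega)), Tn u n hn h0] at h1
  linear_combination h1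

lemma trunc_split (θ : L →+ ℚ) (u : Ser q e) {n : L} (hn : n ≠ 0) :
    trunc (NegS θ) u n + trunc (ZerS θ) u n + trunc (PosS θ) u n = u n := by
  simp only [trunc_apply, NegS, ZerS, PosS, Set.mem_ofPred_eq, hn, false_or]
  rcases lt_trichotomy (θ n) 0 with h | h | h
  · simp [h, h.ne, not_lt.2 h.le]
  · simp [h]
  · simp [h, h.ne', not_lt.2 h.le]

lemma Cong.trunc {N : Set L} (M : Set L) {f g : Ser q e} (h : Cong N f g) :
    Cong N (trunc M f) (trunc M g) := fun n hn => by rw [trunc_apply, trunc_apply, h n hn]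

lemma trunc_zero {M : Set L} (hM : (0 : L) ∈ M) {f : Ser q e} (h : f 0 = 1) : trunc M f 0 = 1 := by
  rw [trunc_apply, if_pos hM, h]

theorem fac_spec (θ : L →+ ℚ) {g : Ser q e} (hg : g 0 = 1) :
    IsFac Set.univ θ g (neg θ g) (zer θ g) (pos θ g) := by
  have h0 : (0 : L) ∈ NegS θ := zero_mem (negM θ)
  have h1 : (0 : L) ∈ ZerS θ := zero_mem (zerM θ)
  have h2 : (0 : L) ∈ PosS θ := zero_mem (posM θ)
  obtain ⟨u, u0, hu⟩ := exists_tri (q := q) (e := e)
    (fun u => (trunc (NegS θ) u * trunc (ZerS θ) u * trunc (PosS θ) u : Ser q e))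
    (fun u u' h h' n hn hc => by
      rw [tri3 (trunc_zero h0 h) (trunc_zero h0 h') (trunc_zero h1 h) (trunc_zero h1 h')
        (trunc_zero h2 h) (trunc_zero h2 h') hn (hc.trunc _) (hc.trunc _) (hc.trunc _)]
      linear_combination trunc_split θ u hn - trunc_split θ u' hn) g
  have h : ∃ x : Ser q e × Ser q e × Ser q e, IsFac Set.univ θ g x.1 x.2.1 x.2.2 :=
    ⟨(trunc (NegS θ) u, trunc (ZerS θ) u, trunc (PosS θ) u), trunc_zero h0 u0, trunc_zero h1 u0,
      trunc_zero h2 u0, sp_trunc _ _ _, sp_trunc _ _ _, sp_trunc _ _ _,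
      Cong.of_cone fun n _ hn => by
        by_cases hn0 : n = 0
        · rw [hn0, mul_zero_apply, mul_zero_apply, trunc_zero h0 u0, trunc_zero h1 u0,
            trunc_zero h2 u0, hg, one_mul, one_mul]
        · exact (hu n hn hn0).symm⟩
  have := h.choose_spec
  unfold neg zer pos fac
  rw [dif_pos h]
  exact this
lemma neg_zero_apply (θ : L →+ ℚ) {g : Ser q e} (hg : g 0 = 1) : neg θ g 0 = 1 :=
  (fac_spec θ hg).a0
lemma zer_zero_apply (θ : L →+ ℚ) {g : Ser q e} (hg : g 0 = 1) : zer θ g 0 = 1 :=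
  (fac_spec θ hg).b0
lemma pos_zero_apply (θ : L →+ ℚ) {g : Ser q e} (hg : g 0 = 1) : pos θ g 0 = 1 :=
  (fac_spec θ hg).c0
lemma sp_neg (N : Set L) (θ : L →+ ℚ) {g : Ser q e} (hg : g 0 = 1) : Sp N (neg θ g) (NegS θ) :=
  fun n _ h => (fac_spec θ hg).spa n trivial h
lemma sp_zer (N : Set L) (θ : L →+ ℚ) {g : Ser q e} (hg : g 0 = 1) : Sp N (zer θ g) (ZerS θ) :=
  fun n _ h => (fac_spec θ hg).spb n trivial h
lemma sp_pos (N : Set L) (θ : L →+ ℚ) {g : Ser q e} (hg : g 0 = 1) : Sp N (pos θ g) (PosS θ) :=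
  fun n _ h => (fac_spec θ hg).spc n trivial h
lemma fac_eq (θ : L →+ ℚ) {g : Ser q e} (hg : g 0 = 1) : g = neg θ g * zer θ g * pos θ g :=
  cong_univ.1 (fac_spec θ hg).eq

lemma IsFac.mono {N N' : Set L} {θ : L →+ ℚ} {g a b c : Ser q e} (h : IsFac N θ g a b c)
    (hN : N' ⊆ N) : IsFac N' θ g a b c :=
  ⟨h.a0, h.b0, h.c0, h.spa.mono hN fun _ _ _ x => x, h.spb.mono hN fun _ _ _ x => x,
    h.spc.mono hN fun _ _ _ x => x, h.eq.mono hN⟩

lemma IsFac.eq_trunc {N : Set L} {θ : L →+ ℚ} {g a b c : Ser q e} (h : IsFac N θ g a b c)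
    {n : L} (hN : n ∈ N) (hn : n ≠ 0) :
    a n = (if θ n < 0 then a n + b n + c n else 0) ∧ b n = (if θ n = 0 then a n + b n + c n else 0)
      ∧ c n = if 0 < θ n then a n + b n + c n else 0 := by
  have h1 : ¬θ n < 0 → a n = 0 := fun x => not_not.1 fun y => x ((h.spa n hN y).resolve_left hn)
  have h2 : ¬θ n = 0 → b n = 0 := fun x => not_not.1 fun y => x (h.spb n hN y)
  have h3 : ¬0 < θ n → c n = 0 := fun x => not_not.1 fun y => x ((h.spc n hN y).resolve_left hn)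
  rcases lt_trichotomy (θ n) 0 with k | k | k
  · simp [k, k.ne, not_lt.2 k.le, h2 k.ne, h3 (not_lt.2 k.le)]
  · simp [k, h1 (by simp [k]), h3 (by simp [k])]
  · simp [k, k.ne', not_lt.2 k.le, h2 k.ne', h1 (not_lt.2 k.le)]

lemma IsFac.uniq2 {N : Set L} (hN : Low e N) {θ : L →+ ℚ} {g a b c a' b' c' : Ser q e}
    (h : IsFac N θ g a b c) (h' : IsFac N θ g a' b' c') :
    Cong N a a' ∧ Cong N b b' ∧ Cong N c c' := by
  have key : ∀ n ∈ cone e, n ∈ N → a n = a' n ∧ b n = b' n ∧ c n = c' n := by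
    refine cone_ind fun n _ ih hn => ?_
    by_cases h0 : n = 0
    · rw [h0, h.a0, h.b0, h.c0, h'.a0, h'.b0, h'.c0]
      exact ⟨rfl, rfl, rfl⟩
    have ih' := fun x hx hx' hne => ih x hx hx' hne (hN x (n - x) hx hx' (by rwa [add_sub_cancel]))
    have := tri3 h.a0 h'.a0 h.b0 h'.b0 h.c0 h'.c0 h0
      (cong_prp fun x h1 h2 h3 => (ih' x h1 h2 h3).1)
      (cong_prp fun x h1 h2 h3 => (ih' x h1 h2 h3).2.1)
      (cong_prp fun x h1 h2 h3 => (ih' x h1 h2 h3).2.2)
    rw [← h.eq n hn, ← h'.eq n hn, sub_self] at this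
    have e1 : a n + b n + c n = a' n + b' n + c' n := by linear_combination -this
    obtain ⟨k1, k2, k3⟩ := h.eq_trunc hn h0
    obtain ⟨l1, l2, l3⟩ := h'.eq_trunc hn h0
    rw [e1] at k1 k2 k3
    exact ⟨k1.trans l1.symm, k2.trans l2.symm, k3.trans l3.symm⟩
  exact ⟨Cong.of_cone fun n h1 h2 => (key n h2 h1).1, Cong.of_cone fun n h1 h2 => (key n h2 h1).2.1,
    Cong.of_cone fun n h1 h2 => (key n h2 h1).2.2⟩

lemma fac_specN (N : Set L) (θ : L →+ ℚ) {g : Ser q e} (hg : g 0 = 1) :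
    IsFac N θ g (neg θ g) (zer θ g) (pos θ g) := (fac_spec θ hg).mono (Set.subset_univ _)

lemma IsFac.congr {N : Set L} {θ : L →+ ℚ} {g g' a b c : Ser q e} (h : IsFac N θ g a b c)
    (hc : Cong N g' g) : IsFac N θ g' a b c :=
  ⟨h.a0, h.b0, h.c0, h.spa, h.spb, h.spc, hc.trans h.eq⟩

lemma mul_zero_one {f g : Ser q e} (hf : f 0 = 1) (hg : g 0 = 1) : (f * g) 0 = 1 := by
  rw [mul_zero_apply, hf, hg, one_mul]

/-- Uniqueness modulo a lower set. -/
theorem IsFac.unique {N : Set L} (hN : Low e N) {θ : L →+ ℚ} {g a b c : Ser q e} (hg : g 0 = 1)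
    (h : IsFac N θ g a b c) :
    Cong N (neg θ g) a ∧ Cong N (zer θ g) b ∧ Cong N (pos θ g) c :=
  (fac_specN N θ hg).uniq2 hN h

theorem fac_congr {N : Set L} (hN : Low e N) (θ : L →+ ℚ) {g g' : Ser q e} (hg : g 0 = 1)
    (hg' : g' 0 = 1) (h : Cong N g g') :
    Cong N (neg θ g) (neg θ g') ∧ Cong N (zer θ g) (zer θ g') ∧ Cong N (pos θ g) (pos θ g') :=
  ((fac_specN N θ hg').congr h).unique hN hg

theorem fac_sp {N : Set L} (hN : Low e N) (θ : L →+ ℚ) {M : AddSubmonoid L} {g : Ser q e}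
    (hg : g 0 = 1) (h : Sp N g M) :
    Sp N (neg θ g) M ∧ Sp N (zer θ g) M ∧ Sp N (pos θ g) M := by
  have key : ∀ n ∈ cone e, n ∈ N →
      neg θ g n = trunc M (neg θ g) n ∧ zer θ g n = trunc M (zer θ g) n ∧
        pos θ g n = trunc M (pos θ g) n := by
    refine cone_ind fun n _ ih hn => ?_
    by_cases hM : n ∈ M
    · simp [trunc_apply, hM]
    have h0 : n ≠ 0 := fun x => hM (x ▸ zero_mem M)
    have ih' := fun x hx hx' hne => ih x hx hx' hne (hN x (n - x) hx hx' (by rwa [add_sub_cancel]))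
    have s := fac_specN N θ hg
    have := tri3 s.a0 (trunc_zero (zero_mem M) s.a0) s.b0 (trunc_zero (zero_mem M) s.b0) s.c0
      (trunc_zero (zero_mem M) s.c0) h0
      (cong_prp fun x h1 h2 h3 => (ih' x h1 h2 h3).1)
      (cong_prp fun x h1 h2 h3 => (ih' x h1 h2 h3).2.1)
      (cong_prp fun x h1 h2 h3 => (ih' x h1 h2 h3).2.2)
    have z : ∀ f : Ser q e, trunc M f n = 0 := fun f => if_neg hM
    rw [← s.eq n hn, not_not.1 fun x => hM (h n hn x), not_not.1 fun x => hM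
      ((((sp_trunc N M _).mulM hN (sp_trunc N M _)).mulM hN (sp_trunc N M _)) n hn x),
      z, z, z, sub_zero, sub_zero, sub_zero, sub_zero] at this
    have k := s.eq_trunc hn h0
    rw [← this] at k
    simpa [z] using k
  exact ⟨(sp_trunc N M _).congr (Cong.of_cone fun n h1 h2 => (key n h2 h1).1.symm),
    (sp_trunc N M _).congr (Cong.of_cone fun n h1 h2 => (key n h2 h1).2.1.symm),
    (sp_trunc N M _).congr (Cong.of_cone fun n h1 h2 => (key n h2 h1).2.2.symm)⟩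

/-- Triangularity of the three factors. -/
theorem fac_sub (θ : L →+ ℚ) {g g' : Ser q e} (hg : g 0 = 1) (hg' : g' 0 = 1) {n : L}
    (hn : θ n = 0) (h : ∀ a ∈ cone e, n - a ∈ cone e → a ≠ n → g a = g' a) :
    zer θ g n - zer θ g' n = g n - g' n := by
  by_cases h0 : n = 0
  · rw [h0, hg, hg', zer_zero_apply θ hg, zer_zero_apply θ hg']
  obtain ⟨h1, h2, h3⟩ := fac_congr (low_prp n) θ hg hg' (cong_prp h)
  have s := fac_spec θ hg
  have s' := fac_spec θ hg'
  have := tri3 s.a0 s'.a0 s.b0 s'.b0 s.c0 s'.c0 h0 h1 h2 h3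
  obtain ⟨k1, -, k3⟩ := s.eq_trunc (n := n) trivial h0
  obtain ⟨l1, -, l3⟩ := s'.eq_trunc (n := n) trivial h0
  rw [hn, if_neg (lt_irrefl _)] at k1 k3 l1 l3
  rw [← fac_eq θ hg, ← fac_eq θ hg', k1, k3, l1, l3] at this
  linear_combination -this

theorem fac_of_neg {N : Set L} (hN : Low e N) {θ : L →+ ℚ} {r : Ser q e} (hr : r 0 = 1)
    (h : Sp N r (NegS θ)) : Cong N (neg θ r) r ∧ Cong N (zer θ r) 1 ∧ Cong N (pos θ r) 1 :=
  IsFac.unique hN hr ⟨hr, one_zero_apply, one_zero_apply, h, sp_one _ (zero_mem (zerM θ)),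
    sp_one _ (zero_mem (posM θ)), by rw [mul_one, mul_one]; exact Cong.refl _ _⟩
theorem fac_of_zer {N : Set L} (hN : Low e N) {θ : L →+ ℚ} {r : Ser q e} (hr : r 0 = 1)
    (h : Sp N r (ZerS θ)) : Cong N (neg θ r) 1 ∧ Cong N (zer θ r) r ∧ Cong N (pos θ r) 1 :=
  IsFac.unique hN hr ⟨one_zero_apply, hr, one_zero_apply, sp_one _ (zero_mem (negM θ)), h,
    sp_one _ (zero_mem (posM θ)), by rw [mul_one, one_mul]; exact Cong.refl _ _⟩
theorem fac_of_pos {N : Set L} (hN : Low e N) {θ : L →+ ℚ} {r : Ser q e} (hr : r 0 = 1)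
    (h : Sp N r (PosS θ)) : Cong N (neg θ r) 1 ∧ Cong N (zer θ r) 1 ∧ Cong N (pos θ r) r :=
  IsFac.unique hN hr ⟨one_zero_apply, one_zero_apply, hr, sp_one _ (zero_mem (negM θ)),
    sp_one _ (zero_mem (zerM θ)), h, by rw [one_mul, one_mul]; exact Cong.refl _ _⟩

/-- A functional refining another one on `N`. -/
theorem fac_refine {N : Set L} (hN : Low e N) {θ θ' : L →+ ℚ} {g : Ser q e} (hg : g 0 = 1)
    (h : ∀ n ∈ N, n ∈ cone e → (θ n < 0 → θ' n < 0) ∧ (0 < θ n → 0 < θ' n)) :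
    Cong N (neg θ' g) (neg θ g * neg θ' (zer θ g)) ∧ Cong N (zer θ' g) (zer θ' (zer θ g)) ∧
      Cong N (pos θ' g) (pos θ' (zer θ g) * pos θ g) := by
  have s := fac_specN N θ hg
  have s' := fac_specN N θ' s.b0
  refine IsFac.unique hN hg ⟨mul_zero_one s.a0 s'.a0, s'.b0, mul_zero_one s'.c0 s.c0,
    Sp.mulM hN (M := negM θ') (s.spa.mono subset_rfl fun n h1 h2 h3 =>
      h3.imp_right (h n h1 h2).1) s'.spa, s'.spb,
    Sp.mulM hN (M := posM θ') s'.spc (s.spc.mono subset_rfl fun n h1 h2 h3 =>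
      h3.imp_right (h n h1 h2).2), ?_⟩
  have : neg θ g * neg θ' (zer θ g) * zer θ' (zer θ g) * (pos θ' (zer θ g) * pos θ g) =
      neg θ g * (neg θ' (zer θ g) * zer θ' (zer θ g) * pos θ' (zer θ g)) * pos θ g := by
    simp only [mul_assoc]
  rw [this, ← fac_eq θ' s.b0]
  exact s.eq

/-- Functionals with the same signs on the support give the same factorization. -/
theorem fac_sign {N : Set L} (hN : Low e N) {θ θ' : L →+ ℚ} {M : AddSubmonoid L} {g : Ser q e}
    (hg : g 0 = 1) (hM : Sp N g M)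
    (h : ∀ n ∈ N, n ∈ cone e → n ∈ M → (θ n < 0 ↔ θ' n < 0) ∧ (0 < θ n ↔ 0 < θ' n)) :
    Cong N (neg θ g) (neg θ' g) ∧ Cong N (zer θ g) (zer θ' g) ∧ Cong N (pos θ g) (pos θ' g) := by
  have s := fac_specN N θ' hg
  obtain ⟨h1, h2, h3⟩ := fac_sp hN θ' hg hM
  refine IsFac.unique hN hg ⟨s.a0, s.b0, s.c0,
    (s.spa.inter h1).mono subset_rfl fun n a b c => c.1.imp_right (h n a b c.2).1.2,
    (s.spb.inter h2).mono subset_rfl fun n a b c => ?_,
    (s.spc.inter h3).mono subset_rfl fun n a b c => c.1.imp_right (h n a b c.2).2.2, s.eq⟩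
  have k : θ' n = 0 := c.1
  obtain ⟨k1, k2⟩ := h n a b c.2
  rw [k] at k1 k2
  exact le_antisymm (not_lt.1 fun x => lt_irrefl _ (k2.1 x)) (not_lt.1 fun x => lt_irrefl _ (k1.1 x))

/-- Factorization from a splitting into a nonpositive and a nonnegative part. -/
theorem fac_two {N : Set L} (hN : Low e N) {θ : L →+ ℚ} {g a b : Ser q e} (hg : g 0 = 1)
    (ha : a 0 = 1) (hb : b 0 = 1) (h : Cong N g (a * b)) (spa : Sp N a (leM θ))
    (spb : Sp N b (geM θ)) :
    Cong N (neg θ g) (neg θ a) ∧ Cong N (zer θ g) (zer θ a * zer θ b) ∧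
      Cong N (pos θ g) (pos θ b) ∧ Cong N a (neg θ a * zer θ a) ∧
      Cong N b (zer θ b * pos θ b) := by
  have s := fac_specN N θ ha
  have s' := fac_specN N θ hb
  have h1 : Cong N (pos θ a) 1 := by
    intro n hn
    by_cases h0 : n = 0
    · rw [h0, s.c0, one_zero_apply]
    · rw [Ser.one_apply, if_neg h0]
      by_contra x
      exact absurd ((s.spc n hn x).resolve_left h0) (not_lt.2 ((fac_sp hN θ ha spa).2.2 n hn x))
  have h2 : Cong N (neg θ b) 1 := by
    intro n hn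
    by_cases h0 : n = 0
    · rw [h0, s'.a0, one_zero_apply]
    · rw [Ser.one_apply, if_neg h0]
      by_contra x
      exact absurd ((s'.spa n hn x).resolve_left h0) (not_lt.2 ((fac_sp hN θ hb spb).1 n hn x))
  have h3 : Cong N a (neg θ a * zer θ a) := by
    have := s.eq.trans ((Cong.refl _ _).mul hN h1)
    rwa [mul_one] at this
  have h4 : Cong N b (zer θ b * pos θ b) := by
    have := s'.eq.trans ((h2.mul hN (Cong.refl _ _)).mul hN (Cong.refl _ _))
    rwa [one_mul] at this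
  have := IsFac.unique hN hg ⟨s.a0, mul_zero_one s.b0 s'.b0, s'.c0, s.spa,
    Sp.mulM hN (M := zerM θ) s.spb s'.spb, s'.spc, by
      have := h.trans (h3.mul hN h4)
      simpa only [mul_assoc] using this⟩
  exact ⟨this.1, this.2.1, this.2.2, h3, h4⟩

lemma sp_sub_one {M : Set L} {f : Ser q e} (hf : f 0 = 1) (h : Sp Set.univ f M) :
    Sp Set.univ (f - 1) {n | n ∈ M ∧ n ≠ 0} := by
  intro n _ h1
  have h0 : n ≠ 0 := fun x => h1 (by rw [x, Ser.sub_apply, hf, one_zero_apply, sub_self])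
  rw [Ser.sub_apply, Ser.one_apply, if_neg h0, sub_zero] at h1
  exact ⟨h n trivial h1, h0⟩

lemma sp_conj_neg {θ : L →+ ℚ} {a b f : Ser q e} (hab : a * b = 1) (hf : f 0 = 1)
    (ha : Sp Set.univ a (ZerS θ)) (hb : Sp Set.univ b (ZerS θ)) (h : Sp Set.univ f (NegS θ)) :
    Sp Set.univ (a * f * b) (NegS θ) := by
  rw [show a * f * b = 1 + a * (f - 1) * b by rw [mul_sub, sub_mul, mul_one, hab]; abel]
  refine (sp_one _ (zero_mem (negM θ))).add (Sp.mul low_univ (M1 := {n | θ n < 0})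
    (ha.mul low_univ (sp_sub_one hf h) fun x hx y hy _ _ => ?_) hb fun x hx y hy _ _ => Or.inr ?_)
  · show θ (x + y) < 0
    rw [map_add, show θ x = 0 from hx, zero_add]
    exact hy.1.resolve_left hy.2
  · rw [map_add, show θ y = 0 from hy, add_zero]
    exact hx

lemma sp_conj_pos {θ : L →+ ℚ} {a b f : Ser q e} (hab : a * b = 1) (hf : f 0 = 1)
    (ha : Sp Set.univ a (ZerS θ)) (hb : Sp Set.univ b (ZerS θ)) (h : Sp Set.univ f (PosS θ)) :
    Sp Set.univ (a * f * b) (PosS θ) := by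
  rw [show a * f * b = 1 + a * (f - 1) * b by rw [mul_sub, sub_mul, mul_one, hab]; abel]
  refine (sp_one _ (zero_mem (posM θ))).add (Sp.mul low_univ (M1 := {n | 0 < θ n})
    (ha.mul low_univ (sp_sub_one hf h) fun x hx y hy _ _ => ?_) hb fun x hx y hy _ _ => Or.inr ?_)
  · show 0 < θ (x + y)
    rw [map_add, show θ x = 0 from hx, zero_add]
    exact hy.1.resolve_left hy.2
  · rw [map_add, show θ y = 0 from hy, add_zero]
    exact hx

/-- A left factor supported in the kernel. -/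
theorem zer_mul_left {θ : L →+ ℚ} {a h : Ser q e} (ha : a 0 = 1) (hh : h 0 = 1)
    (spa : Sp Set.univ a (ZerS θ)) : zer θ (a * h) = a * zer θ h := by
  have s := fac_spec θ hh
  refine cong_univ.1 (IsFac.unique low_univ (mul_zero_one ha hh) (a := a * neg θ h * inv a)
    ⟨mul_zero_one (mul_zero_one ha s.a0) (inv_zero_apply ha), mul_zero_one ha s.b0, s.c0,
      sp_conj_neg (mul_inv ha) s.a0 spa (Sp.inv low_univ (M := zerM θ) ha spa) s.spa,
      Sp.mulM low_univ (M := zerM θ) spa s.spb, s.spc, cong_univ.2 ?_⟩).2.1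
  rw [mul_assoc _ (inv a), ← mul_assoc (inv a), inv_mul ha, one_mul, mul_assoc a, mul_assoc a,
    ← fac_eq θ hh]
theorem zer_mul_right {θ : L →+ ℚ} {a h : Ser q e} (ha : a 0 = 1) (hh : h 0 = 1)
    (spa : Sp Set.univ a (ZerS θ)) : zer θ (h * a) = zer θ h * a := by
  have s := fac_spec θ hh
  refine cong_univ.1 (IsFac.unique low_univ (mul_zero_one hh ha) (c := inv a * pos θ h * a)
    ⟨s.a0, mul_zero_one s.b0 ha, mul_zero_one (mul_zero_one (inv_zero_apply ha) s.c0) ha, s.spa,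
      Sp.mulM low_univ (M := zerM θ) s.spb spa,
      sp_conj_pos (inv_mul ha) s.c0 (Sp.inv low_univ (M := zerM θ) ha spa) spa s.spc,
      cong_univ.2 ?_⟩).2.1
  rw [← mul_assoc _ _ a, ← mul_assoc _ _ a, ← mul_assoc _ (inv a), mul_assoc _ a, mul_inv ha,
    mul_one, ← fac_eq θ hh]
theorem zer_neg_mul {θ : L →+ ℚ} {a h : Ser q e} (ha : a 0 = 1) (hh : h 0 = 1)
    (spa : Sp Set.univ a (NegS θ)) : zer θ (a * h) = zer θ h := by
  have s := fac_spec θ hh
  refine cong_univ.1 (IsFac.unique low_univ (mul_zero_one ha hh)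
    ⟨mul_zero_one ha s.a0, s.b0, s.c0, Sp.mulM low_univ (M := negM θ) spa s.spa, s.spb, s.spc,
      cong_univ.2 ?_⟩).2.1
  rw [mul_assoc a, mul_assoc a, ← fac_eq θ hh]
theorem zer_mul_pos {θ : L →+ ℚ} {a h : Ser q e} (ha : a 0 = 1) (hh : h 0 = 1)
    (spa : Sp Set.univ a (PosS θ)) : zer θ (h * a) = zer θ h := by
  have s := fac_spec θ hh
  refine cong_univ.1 (IsFac.unique low_univ (mul_zero_one hh ha)
    ⟨s.a0, s.b0, mul_zero_one s.c0 ha, s.spa, s.spb, Sp.mulM low_univ (M := posM θ) s.spc spa,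
      cong_univ.2 ?_⟩).2.1
  rw [← mul_assoc, ← fac_eq θ hh]

theorem alpha_eq {N : Set L} (hN : Low e N) {p : L} (hp : p ∈ N) {g a b : Ser q e} (hg : g 0 = 1)
    (ha : a 0 = 1) (hb : b 0 = 1) (h : Cong N g (a * b)) (spa : Sp N a (leM (th q p)))
    (spb : Sp N b (geM (th q p))) (f : Ser q e) : alpha g f p = (inv a * f * a) p := by
  obtain ⟨h1, -, -, h2, -⟩ := fac_two hN hg ha hb h spa spb
  have s := fac_specN N (th q p) ha
  rw [((h2.inv hN ha (mul_zero_one s.a0 s.b0)).mul hN (Cong.refl N f)).mul hN h2 p hp,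
    inv_mul_rev s.a0 s.b0, alpha, Ac,
    ((h1.inv hN (neg_zero_apply _ hg) s.a0).mul hN (Cong.refl N f)).mul hN h1 p hp,
    ← conj_trace hN hp s.b0 s.spb]
  simp only [mul_assoc]

lemma alpha_of_not_mem (g f : Ser q e) {p : L} (hp : p ∉ cone e) : alpha g f p = 0 :=
  Ser.eq_zero _ hp

end Vale.Agent.P066
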