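import Vale.Agent.P066.Kun

/-! The translation degree and the weight filtration. -/

set_option linter.unusedSectionVars false

noncomputable section
open scoped Classical
open MvPolynomial Equiv

namespace Vale.Agent.P066

variable {Λ I : Type} [Fintype Λ] [Fintype I]

lemma filt_bih {σ R : Type*} [CommRing R] (ρ : σ → ℕ) {m : ℕ} {f : MvPolynomial σ R}
    (hf : f.IsHomogeneous m) {β : ℕ →₀ ℕ} {u : σ →₀ ℕ}
    (h : coeff u (coeff β (aeval (fun a => (C (X a) + X (ρ a) :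
      MvPolynomial ℕ (MvPolynomial σ R))) f)) ≠ 0) : β.degree + u.degree = m := by
  have h1 : aeval (fun a => (C (X a) + X (ρ a) : MvPolynomial ℕ (MvPolynomial σ R))) =
      (sumAlgEquiv R ℕ σ).toAlgHom.comp (aeval fun a => X (.inr a) + X (.inl (ρ a))) := by
    ext1 a
    simp
  have h2 : ∀ g : MvPolynomial (ℕ ⊕ σ) R,
      coeff u (coeff β (sumAlgEquiv R ℕ σ g)) = coeff (β.sumElim u) g := fun g => by
    simp [sumAlgEquiv, coeff, AddMonoidAlgebra.curryAlgEquiv, AddMonoidAlgebra.curryRingEquiv,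
      AddMonoidAlgebra.curryAddEquiv]
  have h3 := hf.aeval (S := R) (fun a => (X (.inr a) + X (.inl (ρ a)) : MvPolynomial (ℕ ⊕ σ) R))
    (fun a => (isHomogeneous_X _ _).add (isHomogeneous_X _ _))
  rw [h1] at h
  by_contra hne
  refine h ((h2 _).trans (h3.coeff_eq_zero ?_))
  rwa [Finsupp.sumElim_eq_add, map_add, Finsupp.degree_mapDomain, Finsupp.degree_mapDomain,
    one_mul]

lemma TT_X (ρ : Λ → ℕ) (a : Λ) : TT ρ (X a) = C (X a) + X (ρ a) := by simp [TT]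
lemma coeff_zero_TT (ρ : Λ → ℕ) (f : Pl Λ) : coeff 0 (TT ρ f) = f := by
  rw [← constantCoeff_eq]
  induction f using MvPolynomial.induction_on with
  | C r => simp [TT]
  | add p q hp hq => simp [hp, hq]
  | mul_X p a hp => simp [hp, TT_X]
lemma TT_congr {A : Finset Λ} {ρ ρ' : Λ → ℕ} (h : ∀ a ∈ A, ρ a = ρ' a) {f : Pl Λ}
    (hf : f ∈ sup A) : TT ρ f = TT ρ' f :=
  algHom_eq_on_sup _ _ (fun a ha => by rw [TT_X, TT_X, h a ha]) hf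
lemma coeff_TT_mem_sup {A : Finset Λ} (ρ : Λ → ℕ) {f : Pl Λ} (hf : f ∈ sup A) (β : ℕ →₀ ℕ) :
    coeff β (TT ρ f) ∈ sup A := by
  have h := algHom_eq_on_sup (TT ρ) ((mapAlgHom (res A)).comp (TT ρ))
    (fun a ha => by simp [TT_X, res_of_mem (X_mem_sup ha)]) hf
  rw [h, AlgHom.comp_apply, mapAlgHom_apply, coeff_map]
  exact res_mem_sup A _
lemma coeff_TT_eq_zero {A : Finset Λ} {ρ : Λ → ℕ} {f : Pl Λ} (hf : f ∈ sup A) {β : ℕ →₀ ℕ}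
    {l : ℕ} (hl : l ∈ β.support) (hn : l ∉ lab A ρ) : coeff β (TT ρ f) = 0 := by
  have h : sup A ≤ ((supported (Pl Λ) (lab A ρ : Set ℕ)).restrictScalars ℂ).comap (TT ρ) := by
    rw [sup, supported_eq_adjoin_X, Algebra.adjoin_le_iff]
    rintro _ ⟨a, ha, rfl⟩
    change TT ρ (X a) ∈ supported (Pl Λ) (lab A ρ : Set ℕ)
    rw [TT_X]
    exact add_mem (Subalgebra.algebraMap_mem _ _)
      (X_mem_supported.2 (Finset.mem_coe.2 (mem_lab.2 ⟨a, ha, rfl⟩)))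
  by_contra hne
  exact hn (mem_supported.1 (h hf) ((mem_vars_iff_mem_support l).2 ⟨β, mem_support_iff.2 hne, hl⟩))
lemma coeff_TT_rename (ρ : Λ → ℕ) (σ : Perm Λ) (f : Pl Λ) (β : ℕ →₀ ℕ) :
    coeff β (TT (ρ ∘ σ.symm) (rename σ f)) = rename σ (coeff β (TT ρ f)) := by
  have h : (TT (ρ ∘ σ.symm)).comp (rename σ) = (mapAlgHom (rename σ)).comp (TT ρ) := by
    ext1 a
    simp [TT_X]
  have h1 := congrArg (coeff β) (DFunLike.congr_fun h f)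
  exact h1.trans (coeff_map _ _ _)
lemma coeff_TT_homog (ρ : Λ → ℕ) {m : ℕ} {f : Pl Λ} (hf : f.IsHomogeneous m) (β : ℕ →₀ ℕ) :
    (β.degree ≤ m → (coeff β (TT ρ f)).IsHomogeneous (m - β.degree)) ∧
      (m < β.degree → coeff β (TT ρ f) = 0) := by
  refine ⟨fun _ u hu => ?_, fun h => ?_⟩
  · have := filt_bih ρ hf hu
    rw [Pi.one_def, ← Finsupp.degree_eq_weight_one]
    omega
  · ext u
    by_contra hu
    have := filt_bih ρ hf hu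
    omega
lemma coeff_TT_hc (ρ : Λ → ℕ) (m : ℕ) (f : Pl Λ) (β : ℕ →₀ ℕ) :
    coeff β (TT ρ (homogeneousComponent m f)) =
      if β.degree ≤ m then homogeneousComponent (m - β.degree) (coeff β (TT ρ f)) else 0 := by
  induction f using MvPolynomial.induction_on' with
  | add p q hp hq =>
    simp only [map_add, coeff_add, hp, hq]
    split_ifs <;> simp
  | monomial d r =>
    have h := isHomogeneous_monomial (d := d) r rfl
    obtain ⟨h1, h2⟩ := coeff_TT_homog ρ h β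
    rw [homogeneousComponent_of_mem h]
    by_cases h3 : β.degree ≤ d.degree
    · rw [homogeneousComponent_of_mem (h1 h3)]
      split_ifs <;> first | rfl | omega
    · rw [h2 (by omega)]
      split_ifs <;> simp [h2 (by omega)]

lemma Le_mono {J J' : Ideal (Pl Λ)} (hJ : J ≤ J') (ρ : Λ → ℕ) {n n' : ℤ} (h : n ≤ n') :
    Le J ρ n ≤ Le J' ρ n' := fun _ hf β hβ => hJ (hf β (h.trans_lt hβ))
lemma Le_mul {J : Ideal (Pl Λ)} {ρ : Λ → ℕ} {n n' : ℤ} {f g : Pl Λ} (hf : f ∈ Le J ρ n)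
    (hg : g ∈ Le J ρ n') : f * g ∈ Le J ρ (n + n') := fun β hβ => by
  rw [map_mul, coeff_mul]
  refine J.sum_mem fun x hx => ?_
  have h := congrArg Finsupp.degree (Finset.HasAntidiagonal.mem_antidiagonal.1 hx)
  rw [map_add] at h
  by_cases h1 : n < (x.1.degree : ℤ)
  · exact J.mul_mem_right _ (hf _ h1)
  · exact J.mul_mem_left _ (hg _ (by omega))
lemma Le_of_fix (J : Ideal (Pl Λ)) {ρ : Λ → ℕ} {f : Pl Λ} (hf : TT ρ f = C f) :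
    f ∈ Le J ρ 0 := fun β hβ => by
  rw [hf, coeff_C, if_neg]
  · exact J.zero_mem
  · rintro rfl
    simp at hβ
lemma Le_one (J : Ideal (Pl Λ)) (ρ : Λ → ℕ) : (1 : Pl Λ) ∈ Le J ρ 0 := Le_of_fix J (by simp)
lemma Le_prod {J : Ideal (Pl Λ)} {ρ : Λ → ℕ} {α : Type*} (s : Finset α) {n : α → ℤ}
    {f : α → Pl Λ} (h : ∀ x ∈ s, f x ∈ Le J ρ (n x)) :
    ∏ x ∈ s, f x ∈ Le J ρ (∑ x ∈ s, n x) := by
  induction s using Finset.induction_on with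
  | empty => simpa using Le_one J ρ
  | insert a s ha ih =>
    rw [Finset.prod_insert ha, Finset.sum_insert ha]
    exact Le_mul (h a (Finset.mem_insert_self _ _))
      (ih fun x hx => h x (Finset.mem_insert_of_mem hx))
lemma Le_of_homog (J : Ideal (Pl Λ)) (ρ : Λ → ℕ) {m : ℕ} {f : Pl Λ} (hf : f.IsHomogeneous m) :
    f ∈ Le J ρ m := fun β hβ => by
  rw [(coeff_TT_homog ρ hf β).2 (by omega)]
  exact J.zero_mem
lemma Stab.mem_Le {J : Ideal (Pl Λ)} {ρ : Λ → ℕ} (h : Stab J ρ) {f : Pl Λ} (hf : f ∈ J) (n : ℤ) :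
    f ∈ Le J ρ n := fun β _ => h f hf β
lemma mem_of_Le_neg {J : Ideal (Pl Λ)} {ρ : Λ → ℕ} {n : ℤ} (hn : n < 0) {f : Pl Λ}
    (hf : f ∈ Le J ρ n) : f ∈ J := coeff_zero_TT ρ f ▸ hf 0 (by simpa using hn)
lemma stab_span {G : Set (Pl Λ)} {ρ : Λ → ℕ} (h : ∀ g ∈ G, TT ρ g = C g) :
    Stab (Ideal.span G) ρ := fun f hf => by
  induction hf using Submodule.span_induction with
  | mem g hg =>
    intro β
    rw [h g hg, coeff_C]
    split_ifs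
    · exact Ideal.subset_span hg
    · exact Ideal.zero_mem _
  | zero => simp
  | add f g _ _ hf hg => exact fun β => by simpa using Ideal.add_mem _ (hf β) (hg β)
  | smul a f _ hf =>
    intro β
    rw [smul_eq_mul, map_mul, coeff_mul]
    exact Ideal.sum_mem _ fun x _ => Ideal.mul_mem_left _ _ (hf _)
/-- Multiplication by an invariant carrying one ideal into another. -/
lemma Le_fix_mul {J J' : Ideal (Pl Λ)} {ρ : Λ → ℕ} {g : Pl Λ} (hg : TT ρ g = C g)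
    (hJ : ∀ f ∈ J', g * f ∈ J) {n : ℤ} {f : Pl Λ} (hf : f ∈ Le J' ρ n) : g * f ∈ Le J ρ n :=
  fun β hβ => by
    rw [map_mul, hg, coeff_C_mul]
    exact hJ _ (hf β hβ)
lemma Le_coarsen {A : Finset Λ} {ρ1 ρ0 : Λ → ℕ} (h : Refines A ρ1 ρ0) {J : Ideal (Pl Λ)} {n : ℤ}
    {f : Pl Λ} (hs : f ∈ sup A) (hf : f ∈ Le J ρ1 n) : f ∈ Le J ρ0 n := fun β hβ => by
  obtain ⟨g, hg, -⟩ := h.exists_map
  have h1 := algHom_eq_on_sup (TT ρ0) (((rename g).restrictScalars ℂ).comp (TT ρ1))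
    (fun a ha => by simp [TT_X, hg a ha]) hs
  rw [h1, AlgHom.comp_apply, AlgHom.restrictScalars_apply, (TT ρ1 f).as_sum, map_sum, coeff_sum]
  refine J.sum_mem fun d _ => ?_
  rw [rename_monomial, coeff_monomial]
  split_ifs with h2
  · exact hf d (by rwa [← h2, Finsupp.degree_mapDomain] at hβ)
  · exact J.zero_mem
lemma Le_coeff {A : Finset Λ} {ρ1 ρ0 : Λ → ℕ} (h : Refines A ρ1 ρ0) {J : Ideal (Pl Λ)} {n : ℤ}
    {f : Pl Λ} (hs : f ∈ sup A) (hf : f ∈ Le J ρ1 n) (β : ℕ →₀ ℕ) :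
    coeff β (TT ρ0 f) ∈ Le J ρ1 (n - β.degree) := fun α hα => by
  obtain ⟨g, hg, -⟩ := h.exists_map
  let Ψ : MvPolynomial ℕ (Pl Λ) →ₐ[Pl Λ] MvPolynomial ℕ (MvPolynomial ℕ (Pl Λ)) :=
    aeval fun l => C (X l) + X (g l)
  have h1 := algHom_eq_on_sup ((mapAlgHom (TT ρ1)).comp (TT ρ0))
    ((Ψ.restrictScalars ℂ).comp (TT ρ1)) (fun a ha => by
      simp [TT_X, hg a ha, Ψ, add_assoc]) hs
  have h2 : TT ρ1 (coeff β (TT ρ0 f)) = coeff β (Ψ (TT ρ1 f)) :=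
    (coeff_map _ _ _).symm.trans (congrArg (coeff β) h1)
  rw [h2, (TT ρ1 f).as_sum, map_sum, coeff_sum, coeff_sum]
  refine J.sum_mem fun d _ => ?_
  rw [← mul_one (coeff d _), ← smul_eq_mul, ← smul_monomial, map_smul, coeff_smul, coeff_smul,
    smul_eq_mul]
  by_cases h3 : coeff α (coeff β (Ψ (monomial d 1))) = 0
  · rw [h3, mul_zero]
    exact J.zero_mem
  · have := filt_bih g (isHomogeneous_monomial (d := d) (1 : Pl Λ) rfl) h3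
    exact J.mul_mem_right _ (hf d (by omega))

/-- The part of degree `N` of the translate, contracted with a functional. -/
def tops (ρ : Λ → ℕ) (ℓ : Pl Λ →ₗ[ℂ] ℂ) (N : ℕ) (f : Pl Λ) : MvPolynomial ℕ ℂ :=
  ∑ β ∈ (TT ρ f).support with β.degree = N, monomial β (ℓ (coeff β (TT ρ f)))

lemma coeff_tops (ρ : Λ → ℕ) (ℓ : Pl Λ →ₗ[ℂ] ℂ) (N : ℕ) (f : Pl Λ) (β : ℕ →₀ ℕ) :
    coeff β (tops ρ ℓ N f) = if β.degree = N then ℓ (coeff β (TT ρ f)) else 0 := by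
  simp only [tops, coeff_sum, coeff_monomial, Finset.sum_ite_eq', Finset.mem_filter,
    mem_support_iff]
  by_cases h : coeff β (TT ρ f) = 0 <;> simp [h]
lemma tops_homog (ρ : Λ → ℕ) (ℓ : Pl Λ →ₗ[ℂ] ℂ) (N : ℕ) (f : Pl Λ) :
    (tops ρ ℓ N f).IsHomogeneous N :=
  IsHomogeneous.sum _ _ _ fun _ h => isHomogeneous_monomial _ (Finset.mem_filter.1 h).2
lemma tops_add (ρ : Λ → ℕ) (ℓ : Pl Λ →ₗ[ℂ] ℂ) (N : ℕ) (f g : Pl Λ) :
    tops ρ ℓ N (f + g) = tops ρ ℓ N f + tops ρ ℓ N g := by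
  ext β
  simp only [coeff_add, coeff_tops, map_add]
  split_ifs <;> simp
lemma tops_smul (ρ : Λ → ℕ) (ℓ : Pl Λ →ₗ[ℂ] ℂ) (N : ℕ) (r : ℂ) (f : Pl Λ) :
    tops ρ ℓ N (r • f) = r • tops ρ ℓ N f := by
  ext β
  simp only [coeff_smul, coeff_tops, map_smul]
  split_ifs <;> simp
/-- The same as a linear map. -/
def topsL (ρ : Λ → ℕ) (ℓ : Pl Λ →ₗ[ℂ] ℂ) (N : ℕ) : Pl Λ →ₗ[ℂ] MvPolynomial ℕ ℂ where
  toFun := tops ρ ℓ N
  map_add' := tops_add ρ ℓ N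
  map_smul' := tops_smul ρ ℓ N
lemma tops_eq_zero {J : Ideal (Pl Λ)} {ρ : Λ → ℕ} {ℓ : Pl Λ →ₗ[ℂ] ℂ} (hℓ : ∀ f ∈ J, ℓ f = 0)
    {N : ℕ} {f : Pl Λ} (hf : f ∈ Le J ρ ((N : ℤ) - 1)) : tops ρ ℓ N f = 0 := by
  ext β
  rw [coeff_tops]
  split_ifs with h
  · exact hℓ _ (hf β (by omega))
  · rfl

protected lemma Refines.rfl (A : Finset Λ) (ρ : Λ → ℕ) : Refines A ρ ρ := fun _ _ _ _ h => h
lemma Refines.blk_blk {A : Finset Λ} {ρ1 ρ0 : Λ → ℕ} (h : Refines A ρ1 ρ0) {l l' : ℕ}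
    (hl : l' ∈ lab (blk A ρ0 l) ρ1) : blk (blk A ρ0 l) ρ1 l' = blk A ρ1 l' := by
  obtain ⟨b, hb, rfl⟩ := mem_lab.1 hl
  obtain ⟨hb', rfl⟩ := mem_blk.1 hb
  ext a
  simp only [mem_blk]
  exact ⟨fun h1 => ⟨h1.1.1, h1.2⟩, fun h1 => ⟨⟨h1.1, h _ h1.1 _ hb' h1.2⟩, h1.2⟩⟩
lemma lab_mono {A B : Finset Λ} (h : A ⊆ B) (ρ : Λ → ℕ) : lab A ρ ⊆ lab B ρ :=
  Finset.image_subset_image h
lemma mem_lab_self {A : Finset Λ} (ρ : Λ → ℕ) {a : Λ} (ha : a ∈ A) : ρ a ∈ lab A ρ :=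
  mem_lab.2 ⟨a, ha, rfl⟩
lemma blk_eq_empty {A : Finset Λ} {ρ : Λ → ℕ} {l : ℕ} (h : l ∉ lab A ρ) : blk A ρ l = ∅ :=
  Finset.not_nonempty_iff_eq_empty.1 (mt blk_nonempty.1 h)
lemma prod_blk₂ {M : Type*} [CommMonoid M] (A : Finset Λ) (ρ : Λ → ℕ) (F : ℕ → ℕ → Λ → Λ → M) :
    ∏ a ∈ A, ∏ b ∈ A, F (ρ a) (ρ b) a b =
      ∏ l ∈ lab A ρ, ∏ l' ∈ lab A ρ, ∏ a ∈ blk A ρ l, ∏ b ∈ blk A ρ l', F l l' a b := by
  rw [← prod_blk A ρ]
  refine Finset.prod_congr rfl fun l _ => ?_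
  rw [Finset.prod_comm (s := lab A ρ)]
  refine Finset.prod_congr rfl fun a ha => ?_
  rw [← prod_blk A ρ]
  refine Finset.prod_congr rfl fun l' _ => Finset.prod_congr rfl fun b hb => ?_
  rw [(mem_blk.1 ha).2, (mem_blk.1 hb).2]
lemma sum_blk₂ {M : Type*} [AddCommMonoid M] (A : Finset Λ) (ρ : Λ → ℕ)
    (F : ℕ → ℕ → Λ → Λ → M) :
    ∑ a ∈ A, ∑ b ∈ A, F (ρ a) (ρ b) a b =
      ∑ l ∈ lab A ρ, ∑ l' ∈ lab A ρ, ∑ a ∈ blk A ρ l, ∑ b ∈ blk A ρ l', F l l' a b :=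
  prod_blk₂ (M := Multiplicative M) A ρ F
/-- The diagonal part of a double sum. -/
lemma sum_blk_diag {M : Type*} [AddCommMonoid M] (A : Finset Λ) (ρ : Λ → ℕ) (F : Λ → Λ → M) :
    ∑ a ∈ A, ∑ b ∈ A, (if ρ a = ρ b then F a b else 0) =
      ∑ l ∈ lab A ρ, ∑ a ∈ blk A ρ l, ∑ b ∈ blk A ρ l, F a b := by
  rw [← sum_blk A ρ]
  refine Finset.sum_congr rfl fun l _ => Finset.sum_congr rfl fun a ha => ?_
  rw [← Finset.sum_filter, (mem_blk.1 ha).2]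
  simp only [blk, eq_comm]

namespace Dat

variable (D : Dat Λ I)

lemma TT_K {ρ : Λ → ℕ} {S T : Finset Λ} (h : ∀ a ∈ S, ∀ b ∈ T, ρ a = ρ b) :
    TT ρ (D.K S T) = C (D.K S T) := by
  simp only [K, map_prod, map_pow, map_sub, TT_X]
  refine Finset.prod_congr rfl fun a ha => Finset.prod_congr rfl fun b hb => ?_
  rw [h a ha b hb, add_sub_add_right_eq_sub]
lemma KK_le_LL_blk {A : Finset Λ} {ρ : Λ → ℕ} {l : ℕ} (hl : l ∈ lab A ρ) :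
    D.KK (blk A ρ l) ≤ D.LL A ρ := le_iSup₂_of_le l hl le_rfl
lemma genIn_LL (A : Finset Λ) (ρ : Λ → ℕ) : GenIn (D.LL A ρ) A :=
  GenIn.iSup _ fun l _ => (D.genIn_Id _ _).mono (blk_subset A ρ l)
lemma stab_LL {A : Finset Λ} {ρ ρ' : Λ → ℕ} (h : Refines A ρ ρ') : Stab (D.LL A ρ) ρ' := by
  have h1 : D.LL A ρ ≤ ((D.LL A ρ).map C).comap (TT ρ') := by
    refine iSup₂_le fun l hl => Ideal.span_le.2 ?_
    rintro _ ⟨S, hS, hp, rfl⟩
    change TT ρ' _ ∈ (D.LL A ρ).map C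
    rw [D.TT_K fun a ha b hb => ?_]
    · exact Ideal.mem_map_of_mem _ (D.KK_le_LL_blk hl (D.K_mem_Id hS hp))
    · have h2 := mem_blk.1 (hS ha)
      have h3 := mem_blk.1 (Finset.mem_sdiff.1 hb).1
      exact h _ h2.1 _ h3.1 (h2.2.trans h3.2.symm)
  exact fun f hf => mem_map_C_iff.1 (h1 hf)
lemma ph_eq_sum_blk {S A : Finset Λ} (h : S ⊆ A) (ρ : Λ → ℕ) :
    D.ph S = ∑ l ∈ lab A ρ, D.ph (blk S ρ l) :=
  (Finset.sum_fiberwise_of_maps_to (fun _ ha => mem_lab_self ρ (h ha)) _).symm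
lemma KK_le_LL (A : Finset Λ) (ρ : Λ → ℕ) : D.KK A ≤ D.LL A ρ := by
  refine Ideal.span_le.2 ?_
  rintro _ ⟨S, hS, hp, rfl⟩
  have h1 : ∀ l, blk A ρ l \ blk S ρ l = blk (A \ S) ρ l := fun l => by
    ext a
    simp only [Finset.mem_sdiff, mem_blk]
    tauto
  obtain ⟨l, hl, h2⟩ : ∃ l ∈ lab A ρ, prK (D.sz (blk S ρ l)) (D.sz (blk A ρ l \ blk S ρ l)) := by
    simp only [h1]
    rcases hp with hp | hp
    · change 0 < D.ph S at hp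
      rw [D.ph_eq_sum_blk hS ρ, ← Finset.sum_const_zero (s := lab A ρ)] at hp
      obtain ⟨l, hl, h⟩ := Finset.exists_lt_of_sum_lt hp
      exact ⟨l, hl, .inl h⟩
    · change D.ph (A \ S) < 0 at hp
      rw [D.ph_eq_sum_blk Finset.sdiff_subset ρ, ← Finset.sum_const_zero (s := lab A ρ)] at hp
      obtain ⟨l, hl, h⟩ := Finset.exists_lt_of_sum_lt hp
      exact ⟨l, hl, .inr h⟩
  refine Ideal.mem_of_dvd _ (D.K_dvd (blk_subset S ρ l) ?_)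
    (D.KK_le_LL_blk hl (D.K_mem_Id (Finset.filter_subset_filter _ hS) h2))
  exact (h1 l).subset.trans (blk_subset _ _ _)
lemma LL_refine {A : Finset Λ} {ρ1 ρ0 : Λ → ℕ} (h : Refines A ρ1 ρ0) :
    D.LL A ρ1 = ⨆ l ∈ lab A ρ0, D.LL (blk A ρ0 l) ρ1 := by
  refine le_antisymm (iSup₂_le fun l' hl' => ?_) (iSup₂_le fun l _ => iSup₂_le fun l' hl' => ?_)
  · obtain ⟨a, ha, rfl⟩ := mem_lab.1 hl'
    have h1 : ρ1 a ∈ lab (blk A ρ0 (ρ0 a)) ρ1 := mem_lab_self _ (mem_blk.2 ⟨ha, rfl⟩)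
    rw [← h.blk_blk h1]
    exact le_iSup₂_of_le (ρ0 a) (mem_lab_self _ ha) (D.KK_le_LL_blk h1)
  · rw [h.blk_blk hl']
    exact D.KK_le_LL_blk (lab_mono (blk_subset _ _ _) _ hl')
lemma LL_le_LL {A : Finset Λ} {ρ1 ρ0 : Λ → ℕ} (h : Refines A ρ1 ρ0) :
    D.LL A ρ0 ≤ D.LL A ρ1 := by
  rw [D.LL_refine h]
  exact iSup₂_mono fun l _ => D.KK_le_LL _ _
lemma LL_const {A : Finset Λ} (hA : D.ph A = 0) (l : ℕ) : D.LL A (fun _ => l) = D.KK A := by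
  refine le_antisymm (iSup₂_le fun l' hl' => ?_) (D.KK_le_LL _ _)
  obtain ⟨a, -, rfl⟩ := mem_lab.1 hl'
  simp [blk]
lemma rename_mem_LL {A : Finset Λ} {ρ : Λ → ℕ} {σ : Perm Λ} (hσ : σ ∈ D.GG) {f : Pl Λ}
    (hf : f ∈ D.LL A ρ) : rename σ f ∈ D.LL (A.image σ) (ρ ∘ σ.symm) := by
  have h : D.LL A ρ ≤ (D.LL (A.image σ) (ρ ∘ σ.symm)).comap (rename σ : Pl Λ →ₐ[ℂ] Pl Λ) :=
    iSup₂_le fun l hl g hg => D.KK_le_LL_blk ((lab_image A ρ σ).symm ▸ hl)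
      ((blk_image A ρ σ l).symm ▸ D.rename_mem_Id hσ hg)
  exact h hf
lemma LL_induction {A : Finset Λ} {ρ : Λ → ℕ} {p : Pl Λ → Prop}
    (h1 : ∀ l ∈ lab A ρ, ∀ g ∈ D.KK (blk A ρ l), p g) (h0 : p 0)
    (hadd : ∀ f g, p f → p g → p (f + g)) {f : Pl Λ} (hf : f ∈ D.LL A ρ) : p f := by
  rw [LL, iSup_subtype'] at hf
  exact Submodule.iSup_induction _ (motive := p) hf (fun l => h1 l l.2) h0 hadd
lemma hc_mem_LL {A : Finset Λ} {ρ : Λ → ℕ} (m : ℕ) {f : Pl Λ} (hf : f ∈ D.LL A ρ) :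
    homogeneousComponent m f ∈ D.LL A ρ :=
  D.LL_induction (p := fun f => homogeneousComponent m f ∈ D.LL A ρ)
    (fun _ hl _ hg => D.KK_le_LL_blk hl (D.hc_mem_Id m hg)) (by simp)
    (fun f g h1 h2 => by simpa using Ideal.add_mem _ h1 h2) hf
lemma Adm.ph {A : Finset Λ} {ρ : Λ → ℕ} (h : D.Adm A ρ) : D.ph A = 0 := by
  rw [D.ph_eq_sum_blk subset_rfl ρ]
  exact Finset.sum_eq_zero fun l _ => h l
lemma Adm.blk {A : Finset Λ} {ρ1 ρ0 : Λ → ℕ} (h : D.Adm A ρ1) (hr : Refines A ρ1 ρ0) (l : ℕ) :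
    D.Adm (blk A ρ0 l) ρ1 := fun l' => by
  by_cases hl : l' ∈ lab (P066.blk A ρ0 l) ρ1
  · rw [hr.blk_blk hl, h]
  · rw [blk_eq_empty hl, D.ph_empty]
lemma Adm.coarsen {A : Finset Λ} {ρ1 ρ0 : Λ → ℕ} (h : D.Adm A ρ1) (hr : Refines A ρ1 ρ0) :
    D.Adm A ρ0 := fun l => Adm.ph D (Adm.blk D h hr l)
lemma adm_const {A : Finset Λ} (hA : D.ph A = 0) (l : ℕ) : D.Adm A (fun _ => l) := fun l' => by
  by_cases h : l = l' <;> simp [blk, h, hA]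
lemma kk_eq_sum (A : Finset Λ) (ρ : Λ → ℕ) :
    D.kk A ρ = ∑ l ∈ lab A ρ, ∑ l' ∈ lab A ρ,
      if l < l' then D.kap (blk A ρ l) (blk A ρ l') else 0 := by
  refine (sum_blk₂ A ρ fun l l' a b => if l < l' then D.arr (D.c a) (D.c b) else 0).trans ?_
  refine Finset.sum_congr rfl fun l _ => Finset.sum_congr rfl fun l' _ => ?_
  split_ifs <;> simp [kap]
lemma KP_eq_prod (A : Finset Λ) (ρ : Λ → ℕ) :
    D.KP A ρ = ∏ l ∈ lab A ρ, ∏ l' ∈ lab A ρ,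
      if l < l' then D.K (blk A ρ l) (blk A ρ l') else 1 := by
  refine (prod_blk₂ A ρ fun l l' a b =>
    if l < l' then (X b - X a : Pl Λ) ^ D.arr (D.c a) (D.c b) else 1).trans ?_
  refine Finset.prod_congr rfl fun l _ => Finset.prod_congr rfl fun l' _ => ?_
  split_ifs <;> simp [K]
lemma Del_eq_prod (A : Finset Λ) (ρ : Λ → ℕ) :
    D.Del A ρ = ∏ l ∈ lab A ρ, ∏ l' ∈ lab A ρ,
      if l < l' then (X l' - X l) ^ D.kap (blk A ρ l) (blk A ρ l') else 1 := by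
  refine (prod_blk₂ A ρ fun l l' a b =>
    if l < l' then (X l' - X l : MvPolynomial ℕ ℂ) ^ D.arr (D.c a) (D.c b) else 1).trans ?_
  refine Finset.prod_congr rfl fun l _ => Finset.prod_congr rfl fun l' _ => ?_
  split_ifs <;> simp [kap, Finset.prod_pow_eq_pow_sum]
lemma Del_ne_zero (A : Finset Λ) (ρ : Λ → ℕ) : D.Del A ρ ≠ 0 := by
  refine Finset.prod_ne_zero_iff.2 fun a _ => Finset.prod_ne_zero_iff.2 fun b _ => ?_
  split_ifs with h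
  · exact pow_ne_zero _ (sub_ne_zero.2 fun h' => h.ne' (X_injective h'))
  · exact one_ne_zero
lemma Del_homog (A : Finset Λ) (ρ : Λ → ℕ) : (D.Del A ρ).IsHomogeneous (D.kk A ρ) := by
  refine IsHomogeneous.prod _ _ _ fun a _ => IsHomogeneous.prod _ _ _ fun b _ => ?_
  split_ifs
  · simpa using ((isHomogeneous_X ℂ (ρ b)).sub (isHomogeneous_X ℂ (ρ a))).pow _
  · exact isHomogeneous_one _ _
lemma KP_homog (A : Finset Λ) (ρ : Λ → ℕ) : (D.KP A ρ).IsHomogeneous (D.kk A ρ) := by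
  refine IsHomogeneous.prod _ _ _ fun a _ => IsHomogeneous.prod _ _ _ fun b _ => ?_
  split_ifs
  · simpa using ((isHomogeneous_X ℂ b).sub (isHomogeneous_X ℂ a)).pow _
  · exact isHomogeneous_one _ _
lemma KP_mem_sup (A : Finset Λ) (ρ : Λ → ℕ) : D.KP A ρ ∈ sup A := by
  refine prod_mem fun a ha => prod_mem fun b hb => ?_
  split_ifs
  · exact pow_mem (sub_mem (X_mem_sup hb) (X_mem_sup ha)) _
  · exact one_mem _
lemma rename_KP {σ : Perm Λ} (hσ : σ ∈ D.GG) (A : Finset Λ) (ρ : Λ → ℕ) :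
    rename σ (D.KP A ρ) = D.KP (A.image σ) (ρ ∘ σ.symm) := by
  simp only [KP, map_prod, Finset.prod_image σ.injective.injOn, Function.comp,
    Equiv.symm_apply_apply, D.mem_GG.1 hσ, apply_ite (rename σ), map_pow, map_sub, rename_X,
    map_one]
lemma kk_image {σ : Perm Λ} (hσ : σ ∈ D.GG) (A : Finset Λ) (ρ : Λ → ℕ) :
    D.kk (A.image σ) (ρ ∘ σ.symm) = D.kk A ρ := by
  simp only [kk, Finset.sum_image σ.injective.injOn, Function.comp, Equiv.symm_apply_apply,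
    D.mem_GG.1 hσ]
lemma kap_symm (hS : D.Sym) {S T : Finset Λ} (h1 : D.ph S = 0) (h2 : D.ph T = 0) :
    D.kap S T = D.kap T S := by
  rw [D.kap_eq, D.kap_eq]
  exact hS _ _ (D.ph_eq S ▸ h1) (D.ph_eq T ▸ h2)
lemma two_kk (hS : D.Sym) {A : Finset Λ} {ρ : Λ → ℕ} (h : D.Adm A ρ) :
    2 * D.kk A ρ = ∑ a ∈ A, ∑ b ∈ A, if ρ a ≠ ρ b then D.arr (D.c a) (D.c b) else 0 := by
  rw [sum_blk₂ A ρ fun l l' a b => if l ≠ l' then D.arr (D.c a) (D.c b) else 0, two_mul]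
  nth_rw 2 [D.kk_eq_sum]
  rw [Finset.sum_comm, D.kk_eq_sum, ← Finset.sum_add_distrib]
  refine Finset.sum_congr rfl fun l _ => ?_
  rw [← Finset.sum_add_distrib]
  refine Finset.sum_congr rfl fun l' _ => ?_
  rw [D.kap_symm hS (h l') (h l)]
  rcases lt_trichotomy l l' with h1 | rfl | h1
  · simp [h1, h1.ne, h1.not_gt, kap]
  · simp
  · simp [h1, h1.ne', h1.not_gt, kap]
lemma kk_refine (hS : D.Sym) {A : Finset Λ} {ρ1 ρ0 : Λ → ℕ} (h : D.Adm A ρ1)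
    (hr : Refines A ρ1 ρ0) :
    D.kk A ρ1 = D.kk A ρ0 + ∑ l ∈ lab A ρ0, D.kk (blk A ρ0 l) ρ1 := by
  refine Nat.eq_of_mul_eq_mul_left two_pos ?_
  rw [mul_add, Finset.mul_sum, D.two_kk hS h, D.two_kk hS (Adm.coarsen D h hr),
    Finset.sum_congr rfl fun l _ => D.two_kk hS (Adm.blk D h hr l), ← sum_blk_diag,
    ← Finset.sum_add_distrib]
  refine Finset.sum_congr rfl fun a ha => ?_
  rw [← Finset.sum_add_distrib]
  refine Finset.sum_congr rfl fun b hb => ?_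
  by_cases h1 : ρ0 a = ρ0 b
  · simp [h1]
  · simp [h1, mt (hr a ha b hb) h1]
lemma kk_congr (hS : D.Sym) {A : Finset Λ} {ρ1 ρ0 : Λ → ℕ} (h : D.Adm A ρ1)
    (hr : Refines A ρ1 ρ0) (hr' : Refines A ρ0 ρ1) : D.kk A ρ1 = D.kk A ρ0 := by
  refine Nat.eq_of_mul_eq_mul_left two_pos ?_
  rw [D.two_kk hS h, D.two_kk hS (Adm.coarsen D h hr)]
  refine Finset.sum_congr rfl fun a ha => Finset.sum_congr rfl fun b hb => ?_
  exact if_congr (not_congr ⟨hr a ha b hb, hr' a ha b hb⟩) rfl rfl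
lemma card_lab_refine {A : Finset Λ} {ρ1 ρ0 : Λ → ℕ} (hr : Refines A ρ1 ρ0) :
    (lab A ρ1).card = ∑ l ∈ lab A ρ0, (lab (blk A ρ0 l) ρ1).card := by
  obtain ⟨g, hg, -⟩ := hr.exists_map
  rw [Finset.card_eq_sum_card_fiberwise (f := g) (t := lab A ρ0)]
  · refine Finset.sum_congr rfl fun l _ => congrArg _ (Finset.ext fun l' => ?_)
    simp only [Finset.mem_filter, mem_lab, mem_blk]
    constructor
    · rintro ⟨⟨a, ha, rfl⟩, rfl⟩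
      exact ⟨a, ⟨ha, (hg a ha).symm⟩, rfl⟩
    · rintro ⟨a, ⟨ha, rfl⟩, rfl⟩
      exact ⟨⟨a, ha, rfl⟩, hg a ha⟩
  · intro l' hl'
    obtain ⟨a, ha, rfl⟩ := mem_lab.1 hl'
    exact Finset.mem_coe.2 (mem_lab.2 ⟨a, ha, (hg a ha).symm⟩)
lemma kap_self (hS : D.Sym) {A : Finset Λ} {ρ : Λ → ℕ} (h : D.Adm A ρ) :
    D.kap A A = 2 * D.kk A ρ + ∑ l ∈ lab A ρ, D.kap (blk A ρ l) (blk A ρ l) := by
  simp only [kap]
  rw [D.two_kk hS h, ← sum_blk_diag, ← Finset.sum_add_distrib]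
  refine Finset.sum_congr rfl fun a _ => ?_
  rw [← Finset.sum_add_distrib]
  refine Finset.sum_congr rfl fun b _ => ?_
  by_cases h1 : ρ a = ρ b <;> simp [h1]

lemma FF_mono (A : Finset Λ) {ω ω' : ℤ} (h : ω ≤ ω') : D.FF A ω ≤ D.FF A ω' := fun _ hf =>
  D.mem_FF.2 fun ρ hρ => Le_mono le_rfl ρ (by omega) (D.mem_FF.1 hf ρ hρ)
lemma mem_FF_of_KK {A : Finset Λ} {f : Pl Λ} (hf : f ∈ D.KK A) (ω : ℤ) : f ∈ D.FF A ω :=
  D.mem_FF.2 fun ρ _ => (D.stab_LL (.rfl A ρ)).mem_Le (D.KK_le_LL A ρ hf) _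
lemma mem_KK_of_FF {A : Finset Λ} (hA : D.ph A = 0) {ω : ℤ} (hω : ω < 0) {f : Pl Λ}
    (hf : f ∈ D.FF A ω) : f ∈ D.KK A := by
  rw [← D.LL_const hA 0]
  refine mem_of_Le_neg ?_ (D.mem_FF.1 hf _ (D.adm_const hA 0))
  simp only [kk, lt_self_iff_false, if_false, Finset.sum_const_zero]
  omega
lemma rename_mem_FF {A : Finset Λ} {ω : ℤ} {σ : Perm Λ} (hσ : σ ∈ D.GG) {f : Pl Λ}
    (hf : f ∈ D.FF A ω) : rename σ f ∈ D.FF (A.image σ) ω := D.mem_FF.2 fun ρ' hρ => by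
  obtain ⟨ρ, rfl⟩ : ∃ ρ : Λ → ℕ, ρ' = ρ ∘ σ.symm := ⟨ρ' ∘ σ, by ext; simp⟩
  have h1 : D.Adm A ρ := fun l => by
    rw [← hρ l, blk_image, D.ph_eq, D.ph_eq, D.typ_image hσ]
  intro β hβ
  rw [D.kk_image hσ, lab_image] at hβ
  rw [coeff_TT_rename]
  exact D.rename_mem_LL hσ (D.mem_FF.1 hf ρ h1 β hβ)
lemma av_mem_FF {A : Finset Λ} {ω : ℤ} {f : Pl Λ} (hf : f ∈ D.FF A ω) : D.av A f ∈ D.FF A ω :=
  D.av_mem (fun _ hσ _ hg => by
    simpa only [D.Gam_image hσ] using D.rename_mem_FF (D.Gam_GG hσ) hg) hf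
lemma hc_mem_FF {A : Finset Λ} {ω : ℤ} (m : ℕ) {f : Pl Λ} (hf : f ∈ D.FF A ω) :
    homogeneousComponent m f ∈ D.FF A ω := D.mem_FF.2 fun ρ hρ β hβ => by
  rw [coeff_TT_hc]
  split_ifs
  · exact D.hc_mem_LL _ (D.mem_FF.1 hf ρ hρ β hβ)
  · exact Ideal.zero_mem _
lemma homog_mem_FF (A : Finset Λ) {m : ℕ} {f : Pl Λ} (hf : f.IsHomogeneous m) :
    f ∈ D.FF A (m + A.card) := D.mem_FF.2 fun ρ _ => by
  have : (lab A ρ).card ≤ A.card := Finset.card_image_le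
  exact Le_mono le_rfl ρ (by omega) (Le_of_homog _ ρ hf)

end Dat

end Vale.Agent.P066
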