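import Vale.Agent.P066.Filt

/-! Finite dimensionality of the primitive parts. -/

set_option linter.unusedSectionVars false

noncomputable section
open scoped Classical
open MvPolynomial Equiv

namespace Vale.Agent.P066

variable {Λ I : Type} [Fintype Λ] [Fintype I]

lemma fd_tower_mem {J : Ideal (Pl Λ)} (g : Pl Λ →ₐ[ℂ] Pl Λ) (y : ℕ → Pl Λ)
    (P : MvPolynomial ℕ (Pl Λ)) (h : ∀ β, g (coeff β P) ∈ J) : aevalTower g y P ∈ J := by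
  rw [P.as_sum, map_sum]
  refine J.sum_mem fun β _ => ?_
  rw [monomial_eq, map_mul, aevalTower_C]
  exact J.mul_mem_right _ (h β)

/-- Average of the variables of a block. -/
def fdAvg (B : Finset Λ) (ρ : Λ → ℕ) (l : ℕ) : Pl Λ :=
  ((blk B ρ l).card : ℂ)⁻¹ • ∑ c ∈ blk B ρ l, X c

/-- Subtract the averages. -/
def fdPi (B : Finset Λ) (ρ : Λ → ℕ) : Pl Λ →ₐ[ℂ] Pl Λ :=
  ((aevalTower (AlgHom.id ℂ (Pl Λ)) fun l => -fdAvg B ρ l).comp (TT ρ)).comp (res B)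

lemma fdPi_X (B : Finset Λ) (ρ : Λ → ℕ) (a : Λ) :
    fdPi B ρ (X a) = if a ∈ B then X a - fdAvg B ρ (ρ a) else 0 := by
  simp only [fdPi, AlgHom.comp_apply, res, aeval_X]
  split_ifs
  · simp [TT_X, sub_eq_add_neg]
  · simp

lemma fdPi_mem {B : Finset Λ} {ρ : Λ → ℕ} {J : Ideal (Pl Λ)} (h1 : GenIn J B) (h2 : Stab J ρ)
    {f : Pl Λ} (hf : f ∈ J) : fdPi B ρ f ∈ J :=
  fd_tower_mem _ _ _ fun β => h2 _ (h1.res subset_rfl hf) β

lemma fd_expand {B : Finset Λ} {ρ : Λ → ℕ} {J : Ideal (Pl Λ)} {f : Pl Λ} (hf : f ∈ sup B)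
    (h : ∀ β, fdPi B ρ (coeff β (TT ρ f)) ∈ J) : f ∈ J := by
  have := algHom_eq_on_sup ((aevalTower (fdPi B ρ) (fdAvg B ρ)).comp (TT ρ)) (AlgHom.id ℂ _)
    (fun a ha => by simp [TT_X, fdPi_X, ha]) hf
  rw [AlgHom.id_apply] at this
  rw [← this]
  exact fd_tower_mem _ _ _ h

lemma fdPi_X_mem {B : Finset Λ} {ρ : Λ → ℕ} {Q : Ideal (Pl Λ)}
    (h : ∀ a ∈ B, ∀ b ∈ B, ρ a = ρ b → (X a - X b : Pl Λ) ∈ Q) (a : Λ) : fdPi B ρ (X a) ∈ Q := by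
  rw [fdPi_X]
  split_ifs with ha
  · have h0 : ((blk B ρ (ρ a)).card : ℂ) ≠ 0 :=
      Nat.cast_ne_zero.2 (Finset.card_ne_zero.2 ⟨a, mem_blk.2 ⟨ha, rfl⟩⟩)
    have : (X a : Pl Λ) - fdAvg B ρ (ρ a) =
        ((blk B ρ (ρ a)).card : ℂ)⁻¹ • ∑ c ∈ blk B ρ (ρ a), (X a - X c) := by
      rw [Finset.sum_sub_distrib, smul_sub, fdAvg, Finset.sum_const, ← Nat.cast_smul_eq_nsmul ℂ,
        smul_smul, inv_mul_cancel₀ h0, one_smul]
    rw [this]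
    refine Submodule.smul_of_tower_mem Q _ (Q.sum_mem fun c hc => ?_)
    exact h a ha c (mem_blk.1 hc).1 (mem_blk.1 hc).2.symm
  · exact Q.zero_mem

/-- The Artin-Rees step. -/
lemma fd_key {B : Finset Λ} {ρ : Λ → ℕ} {J N : Ideal (Pl Λ)} (hJ : ∀ f ∈ J, fdPi B ρ f ∈ J)
    (hN : ∀ f ∈ N, fdPi B ρ f ∈ N) (hS : Stab N ρ)
    (h : ∀ a ∈ B, ∀ b ∈ B, ρ a = ρ b → (X a - X b : Pl Λ) ∈ (J.colon (N : Set (Pl Λ))).radical)
    (n : ℕ) : ∃ M : ℕ, ∀ m, M ≤ m → ∀ f ∈ sup B, f.IsHomogeneous m → f ∈ N → f ∈ Le J ρ n →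
      f ∈ J := by
  have hY : (idealOfVars Λ ℂ).map (fdPi B ρ) ≤ (J.colon (N : Set (Pl Λ))).radical := by
    rw [idealOfVars, Ideal.map_span, Ideal.span_le]
    rintro _ ⟨_, ⟨a, rfl⟩, rfl⟩
    exact fdPi_X_mem h a
  obtain ⟨r, hr⟩ := Ideal.exists_pow_le_of_le_radical_of_fg hY (IsNoetherian.noetherian _)
  obtain ⟨k, hk⟩ := (idealOfVars Λ ℂ).exists_pow_inf_eq_pow_smul (M := Pl Λ) N
  refine ⟨n + k + r, fun m hm f hf hh hfN hle => fd_expand (ρ := ρ) hf fun β => ?_⟩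
  by_cases hβ : (n : ℤ) < β.degree
  · exact hJ _ (hle β hβ)
  have hβ' : β.degree ≤ n := by omega
  have h1 := (coeff_TT_homog ρ hh β).1 (by omega)
  have h2 : coeff β (TT ρ f) ∈ idealOfVars Λ ℂ ^ (k + r) := by
    rw [mem_pow_idealOfVars_iff']
    exact fun x hx => h1.coeff_eq_zero (by omega)
  have h3 : coeff β (TT ρ f) ∈ idealOfVars Λ ℂ ^ r * N := by
    have h4 : coeff β (TT ρ f) ∈ idealOfVars Λ ℂ ^ (k + r) • (⊤ : Ideal (Pl Λ)) ⊓ N :=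
      ⟨by simpa using h2, hS f hfN β⟩
    rw [hk _ (by omega), Nat.add_sub_cancel_left] at h4
    exact Submodule.smul_mono le_rfl inf_le_right h4
  have h5 := Ideal.mem_map_of_mem (fdPi B ρ) h3
  rw [Ideal.map_mul, Ideal.map_pow] at h5
  refine (Ideal.mul_le.2 fun a ha b hb => ?_) h5
  exact Submodule.mem_colon.1 (hr ha) b (Ideal.map_le_iff_le_comap.2 hN hb)

lemma fd_uniform (P : (Λ → ℕ) → Prop) (Q : (Λ → ℕ) → ℕ → Prop)
    (hQ : ∀ ρ ρ' M M', (∀ a b, ρ a = ρ b ↔ ρ' a = ρ' b) → M ≤ M' → Q ρ M → Q ρ' M')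
    (h : ∀ ρ, P ρ → ∃ M, Q ρ M) : ∃ M, ∀ ρ, P ρ → Q ρ M := by
  have : ∀ r : Λ → Λ → Prop, ∃ M, ∀ ρ, P ρ → (∀ a b, r a b ↔ ρ a = ρ b) → Q ρ M := by
    intro r
    by_cases h0 : ∃ ρ, P ρ ∧ ∀ a b, r a b ↔ ρ a = ρ b
    · obtain ⟨ρ, h1, h2⟩ := h0
      obtain ⟨M, hM⟩ := h ρ h1
      exact ⟨M, fun ρ' _ h3 => hQ ρ ρ' M M (fun a b => (h2 a b).symm.trans (h3 a b)) le_rfl hM⟩
    · exact ⟨0, fun ρ h1 h2 => (h0 ⟨ρ, h1, h2⟩).elim⟩
  choose M hM using this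
  exact ⟨Finset.univ.sup M, fun ρ hρ => hQ ρ ρ _ _ (fun _ _ => Iff.rfl)
    (Finset.le_sup (Finset.mem_univ _)) (hM (fun a b => ρ a = ρ b) ρ hρ fun _ _ => Iff.rfl)⟩

namespace Dat

variable (D : Dat Λ I)

lemma fd_K_mem {B S : Finset Λ} {ρ : Λ → ℕ} {l : ℕ} (hl : l ∈ lab B ρ) (hS : S ⊆ blk B ρ l)
    (h : 0 < D.ph S) : D.K S (blk B ρ l \ S) ∈ D.LL B ρ :=
  D.KK_le_LL_blk hl (D.K_mem_Id hS (Or.inl h))

lemma fd_rad {B : Finset Λ} {ρ : Λ → ℕ} (hρ : D.Adm B ρ) {N : Ideal (Pl Λ)}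
    (hN : ∀ ρ1, D.Adm B ρ1 → Refines B ρ1 ρ → ¬ Refines B ρ ρ1 → N ≤ D.LL B ρ1)
    (a : Λ) (ha : a ∈ B) (b : Λ) (hb : b ∈ B) (hab : ρ a = ρ b) :
    (X a - X b : Pl Λ) ∈ ((D.LL B ρ).colon (N : Set (Pl Λ))).radical := by
  rw [← vanishingIdeal_zeroLocus_eq_radical (K := ℂ), mem_vanishingIdeal_iff]
  intro x hx
  by_contra hne
  have hne' : x a ≠ x b := fun e => hne (by simp [e])
  obtain ⟨ι, hι⟩ := exists_injective_nat (Set.range x)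
  set ρ1 : Λ → ℕ := fun c => Nat.pair (ρ c) (ι ⟨x c, c, rfl⟩) with hρ1
  have key : ∀ c d, ρ1 c = ρ1 d ↔ ρ c = ρ d ∧ x c = x d := fun c d => by
    simp only [hρ1, Nat.pair_eq_pair, hι.eq_iff]
    exact and_congr_right' Subtype.ext_iff
  have sub : ∀ {c l1}, c ∈ blk B ρ1 l1 → blk B ρ1 l1 ⊆ blk B ρ (ρ c) := fun {c l1} hc d hd =>
    mem_blk.2 ⟨(mem_blk.1 hd).1, ((key d c).1 ((mem_blk.1 hd).2.trans (mem_blk.1 hc).2.symm)).1⟩
  have dif : ∀ {c l1 a' b'}, c ∈ blk B ρ1 l1 → a' ∈ blk B ρ1 l1 →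
      b' ∈ blk B ρ (ρ c) \ blk B ρ1 l1 → ρ a' = ρ b' ∧ x a' ≠ x b' := by
    intro c l1 a' b' hc h1 h2
    obtain ⟨h3, h4⟩ := Finset.mem_sdiff.1 h2
    have h5 : ρ a' = ρ b' := (mem_blk.1 (sub hc h1)).2.trans (mem_blk.1 h3).2.symm
    exact ⟨h5, fun e => h4 (mem_blk.2 ⟨(mem_blk.1 h3).1,
      ((key a' b').2 ⟨h5, e⟩).symm.trans (mem_blk.1 h1).2⟩)⟩
  by_cases hA : D.Adm B ρ1
  · have hle := hN ρ1 hA (fun c _ d _ e => ((key c d).1 e).1)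
      fun h => hne' ((key a b).1 (h a ha b hb hab)).2
    set h : Pl Λ := ∏ a' ∈ B, ∏ b' ∈ B,
      if ρ a' = ρ b' ∧ x a' ≠ x b' then (X b' - X a') ^ D.arr (D.c a') (D.c b') else 1 with hh
    have h1 : D.LL B ρ1 ≤ (D.LL B ρ).colon {h} := by
      refine iSup₂_le fun l1 hl1 => Ideal.span_le.2 ?_
      rintro _ ⟨S, hS, hp, rfl⟩
      obtain ⟨c, hc⟩ := blk_nonempty.2 hl1
      have hpos : 0 < D.ph S := by
        have h2 := D.ph_sdiff hS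
        have h3 := hA l1
        rcases hp with hp | hp <;> simp only [sz] at hp <;> omega
      have hK := D.fd_K_mem (mem_lab.2 ⟨c, (mem_blk.1 hc).1, rfl⟩) (hS.trans (sub hc)) hpos
      have e : blk B ρ (ρ c) \ S = (blk B ρ1 l1 \ S) ∪ (blk B ρ (ρ c) \ blk B ρ1 l1) := by
        rw [Finset.union_comm, Finset.sdiff_union_sdiff_cancel (sub hc) hS]
      rw [e, D.K_union_right _ (Finset.disjoint_of_subset_left Finset.sdiff_subset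
        Finset.disjoint_sdiff)] at hK
      have hd : D.K S (blk B ρ (ρ c) \ blk B ρ1 l1) ∣ h := by
        refine (Finset.prod_dvd_prod_of_dvd _ _ fun a' ha' => ?_).trans
          (Finset.prod_dvd_prod_of_subset S B _ (hS.trans (blk_subset _ _ _)))
        rw [Finset.prod_congr rfl fun b' hb' => (if_pos (dif hc (hS ha') hb')).symm]
        exact Finset.prod_dvd_prod_of_subset _ _ _ (Finset.sdiff_subset.trans (blk_subset _ _ _))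
      obtain ⟨u, hu⟩ := hd
      rw [SetLike.mem_coe, Submodule.mem_colon_singleton, smul_eq_mul, hu, ← mul_assoc]
      exact Ideal.mul_mem_right _ _ hK
    have h2 := hx h (Submodule.mem_colon.2 fun g hg => by
      rw [smul_eq_mul, mul_comm]
      exact Submodule.mem_colon_singleton.1 (h1 (hle hg)))
    simp only [hh, map_prod, Finset.prod_eq_zero_iff] at h2
    obtain ⟨a', -, b', -, h2⟩ := h2
    split_ifs at h2 with h3
    · rw [map_pow, map_sub, aeval_X, aeval_X] at h2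
      exact h3.2 (sub_eq_zero.1 (eq_zero_of_pow_eq_zero h2)).symm
    · simp at h2
  · obtain ⟨l1, hl1, hpos⟩ : ∃ l1 ∈ lab B ρ1, 0 < D.ph (blk B ρ1 l1) := by
      by_contra hc
      push Not at hc
      have h0 : ∑ l ∈ lab B ρ1, D.ph (blk B ρ1 l) = 0 := (sum_blk B ρ1 _).trans (Adm.ph D hρ)
      refine hA fun l => ?_
      by_cases hl : l ∈ lab B ρ1
      · exact (Finset.sum_eq_zero_iff_of_nonpos hc).1 h0 l hl
      · rw [Finset.not_nonempty_iff_eq_empty.1 (mt blk_nonempty.1 hl), ph_empty]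
    obtain ⟨c, hc⟩ := blk_nonempty.2 hl1
    have h2 := hx _ (Ideal.le_colon
      (D.fd_K_mem (mem_lab.2 ⟨c, (mem_blk.1 hc).1, rfl⟩) (sub hc) hpos))
    simp only [K, map_prod, Finset.prod_eq_zero_iff] at h2
    obtain ⟨a', h3, b', h4, h2⟩ := h2
    rw [map_pow, map_sub, aeval_X, aeval_X] at h2
    exact (dif hc h3 h4).2 (sub_eq_zero.1 (eq_zero_of_pow_eq_zero h2)).symm

/-- Elements of bounded translation degree on all refinements vanish in large degree. -/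
theorem deg_bound (B : Finset Λ) (n : ℕ) (ρ : Λ → ℕ) (hρ : D.Adm B ρ) :
    ∃ M : ℕ, ∀ m, M ≤ m → ∀ f ∈ sup B, f.IsHomogeneous m →
      (∀ ρ1, D.Adm B ρ1 → Refines B ρ1 ρ → f ∈ Le (D.LL B ρ1) ρ1 n) → f ∈ D.LL B ρ := by
  induction hk : B.card - (lab B ρ).card using Nat.strong_induction_on generalizing ρ with
  | _ k ih =>
  let P : (Λ → ℕ) → Prop := fun ρ1 => D.Adm B ρ1 ∧ Refines B ρ1 ρ ∧ ¬ Refines B ρ ρ1
  obtain ⟨M1, h1⟩ := fd_uniform P (fun ρ M => ∀ m, M ≤ m → ∀ f ∈ sup B, f.IsHomogeneous m →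
      (∀ ρ1, D.Adm B ρ1 → Refines B ρ1 ρ → f ∈ Le (D.LL B ρ1) ρ1 n) → f ∈ D.LL B ρ)
    (fun ρ ρ' M M' e hM h m hm f hf hh hl => D.LL_le_LL (fun a _ b _ => (e a b).2)
      (h m (hM.trans hm) f hf hh fun ρ1 h1 h2 =>
        hl ρ1 h1 fun a ha b hb h3 => (e a b).1 (h2 a ha b hb h3)))
    (fun ρ1 h => ih _ (by
      have h2 : (lab B ρ1).card ≤ B.card := Finset.card_image_le
      have h3 := mt h.2.1.symm_of_card h.2.2
      omega) ρ1 h.1 rfl)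
  let N : Ideal (Pl Λ) := ⨅ ρ1, ⨅ _ : P ρ1, D.LL B ρ1
  have hN : ∀ f, f ∈ N ↔ ∀ ρ1, P ρ1 → f ∈ D.LL B ρ1 := fun f => by
    simp only [N, Submodule.mem_iInf]
  obtain ⟨M2, h2⟩ := fd_key (B := B) (ρ := ρ) (J := D.LL B ρ) (N := N)
    (fun f => fdPi_mem (D.genIn_LL B ρ) (D.stab_LL fun _ _ _ _ h => h))
    (fun f hf => (hN _).2 fun ρ1 h =>
      fdPi_mem (D.genIn_LL B ρ1) (D.stab_LL h.2.1) ((hN f).1 hf ρ1 h))
    (fun f hf β => (hN _).2 fun ρ1 h => D.stab_LL h.2.1 f ((hN f).1 hf ρ1 h) β)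
    (D.fd_rad hρ fun ρ1 a1 a2 a3 f hf => (hN f).1 hf ρ1 ⟨a1, a2, a3⟩) n
  refine ⟨M1 + M2, fun m hm f hf hh hl => h2 m (by omega) f hf hh ((hN f).2 fun ρ1 h => ?_)
    (hl ρ hρ fun _ _ _ _ h => h)⟩
  exact h1 ρ1 h m (by omega) f hf hh fun ρ2 a1 a2 =>
    hl ρ2 a1 fun a ha b hb e => h.2.1 a ha b hb (a2 a ha b hb e)

theorem prim_bound : ∃ M : ℕ, ∀ B m, D.ph B = 0 → M ≤ m → ∀ f ∈ sup B, f.IsHomogeneous m →
    f ∈ D.FF B 1 → f ∈ D.KK B := by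
  have : ∀ B : Finset Λ, ∃ M : ℕ, ∀ m, D.ph B = 0 → M ≤ m → ∀ f ∈ sup B, f.IsHomogeneous m →
      f ∈ D.FF B 1 → f ∈ D.KK B := fun B => by
    by_cases hB : D.ph B = 0
    · obtain ⟨M, hM⟩ := D.deg_bound B (D.kap B B + 1) (fun _ => 0) (D.adm_const hB 0)
      refine ⟨M, fun m _ hm f hf hh hF => D.LL_const hB 0 ▸ hM m hm f hf hh fun ρ1 h1 _ => ?_⟩
      have : D.kk B ρ1 ≤ D.kap B B := Finset.sum_le_sum fun a _ => Finset.sum_le_sum fun b _ => by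
        split_ifs <;> simp
      exact Le_mono le_rfl ρ1 (by push_cast; omega) (D.mem_FF.1 hF ρ1 h1)
    · exact ⟨0, fun _ h => (hB h).elim⟩
  choose M hM using this
  exact ⟨Finset.univ.sup M, fun B m h1 h2 =>
    hM B m h1 ((Finset.le_sup (Finset.mem_univ B)).trans h2)⟩

end Dat

end Vale.Agent.P066
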