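import Vale.Agent.P066.Calc

/-! Generic functionals and first wall crossings. -/

set_option linter.unusedSectionVars false

noncomputable section
open scoped Classical
open Module

namespace Vale.Agent.P066

variable {L : Type} [AddCommGroup L] {ι : Type} [Fintype ι]

open Filter Topology in
lemma gen_ev_pos {a : ℚ} (ha : a ≠ 0) (b : ℚ) : ∀ᶠ ε in 𝓝[>] (0 : ℚ), 0 < a * (a + ε * b) := by
  refine nhdsWithin_le_nhds (ContinuousAt.eventually_lt (f := fun _ => (0 : ℚ))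
    (g := fun ε => a * (a + ε * b)) continuousAt_const (by fun_prop) ?_)
  simpa using ha

open Filter Topology in
lemma gen_ev_all (N : Finset L) (θ ψ : L →+ ℚ) :
    ∀ᶠ ε in 𝓝[>] (0 : ℚ), 0 < ε ∧ ∀ n ∈ N, θ n ≠ 0 → 0 < θ n * (θ n + ε * ψ n) := by
  refine Filter.Eventually.and self_mem_nhdsWithin ((eventually_all_finset _).2 fun n _ => ?_)
  by_cases h : θ n = 0
  · exact Eventually.of_forall fun _ x => absurd h x
  · exact (gen_ev_pos h _).mono fun _ x _ => x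

lemma gen_sign {a b c : ℚ} (h : 0 < a * b) (h' : 0 < b * c) : 0 < a * c := by
  have hb : b ≠ 0 := by rintro rfl; simp at h
  have : 0 < (a * c) * (b * b) := by nlinarith [mul_pos h h']
  exact (mul_pos_iff_of_pos_right (mul_self_pos.2 hb)).1 this

lemma gen_dep {v n : L} (h : Dep v n) {θ : L →+ ℚ} (h0 : θ n = 0) : θ v = 0 := by
  obtain ⟨a, b, ha, h⟩ := h
  have := congrArg θ h
  rw [map_zsmul, map_zsmul, h0, smul_zero, zsmul_eq_mul] at this
  exact (mul_eq_zero.1 this).resolve_left (Int.cast_ne_zero.2 ha)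

lemma gen_sep (e : Basis ι ℤ L) {v n : L} (h : ¬ Dep v n) : ∃ ψ : L →+ ℚ, ψ n = 0 ∧ ψ v ≠ 0 := by
  by_contra hc
  push Not at hc
  let c : ι → L →+ ℚ := fun i => (Int.castAddHom ℚ).comp (e.coord i).toAddMonoidHom
  have hc' : ∀ i x, c i x = e.repr x i := fun _ _ => rfl
  by_cases hn : ∀ i, e.repr n i = 0
  · refine h ⟨1, 0, one_ne_zero, e.repr.injective (Finsupp.ext fun i => ?_)⟩
    have := hc (c i) (by rw [hc', hn, Int.cast_zero])
    rw [hc', Int.cast_eq_zero] at this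
    simp [this]
  · push Not at hn
    obtain ⟨i, hi⟩ := hn
    refine h ⟨e.repr n i, e.repr v i, hi, e.repr.injective (Finsupp.ext fun j => ?_)⟩
    have := hc (e.repr n i • c j - e.repr n j • c i) (by simp [hc', mul_comm])
    simp only [AddMonoidHom.sub_apply, AddMonoidHom.smul_apply, hc', zsmul_eq_mul] at this
    simp only [map_zsmul, Finsupp.smul_apply, smul_eq_mul]
    have h2 : e.repr n i * e.repr v j - e.repr n j * e.repr v i = 0 := by exact_mod_cast this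
    linear_combination h2

theorem exists_eps (N : Finset L) (θ ψ : L →+ ℚ) :
    ∃ ε : ℚ, 0 < ε ∧ ∀ n ∈ N, θ n ≠ 0 → 0 < θ n * (θ n + ε * ψ n) :=
  (gen_ev_all N θ ψ).exists

/-- Lexicographic refinement on a finite set. -/
theorem exists_lex (N : Finset L) (θ ψ : L →+ ℚ) :
    ∃ θ' : L →+ ℚ, (∀ n ∈ N, θ n ≠ 0 → 0 < θ n * θ' n) ∧
      ∃ ε : ℚ, 0 < ε ∧ ∀ n, θ n = 0 → θ' n = ε * ψ n := by
  obtain ⟨ε, h1, h2⟩ := exists_eps N θ ψ
  exact ⟨θ + ε • ψ, h2, ε, h1, fun n h => by simp [h]⟩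

theorem perturb (e : Basis ι ℤ L) (N V : Finset L) (θ : L →+ ℚ) (n0 : L) (h0 : θ n0 = 0) :
    ∃ θ' : L →+ ℚ, θ' n0 = 0 ∧ (∀ n ∈ N, θ n ≠ 0 → 0 < θ n * θ' n) ∧
      ∀ v ∈ V, ¬ Dep v n0 → θ' v ≠ 0 := by
  induction V using Finset.induction_on with
  | empty => exact ⟨θ, h0, fun n _ h => mul_self_pos.2 h, by simp⟩
  | insert v V _ ih =>
    obtain ⟨θ', h1, h2, h3⟩ := ih
    by_cases hv : Dep v n0
    · refine ⟨θ', h1, h2, fun x hx h => ?_⟩
      rcases Finset.mem_insert.1 hx with rfl | hx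
      exacts [absurd hv h, h3 x hx h]
    obtain ⟨ψ, k1, k2⟩ := gen_sep e hv
    obtain ⟨ε, e1, e2⟩ := exists_eps (N ∪ insert v V) θ' ψ
    refine ⟨θ' + ε • ψ, by simp [h1, k1], fun n hn h => gen_sign (h2 n hn h)
      (e2 n (Finset.mem_union_left _ hn) (right_ne_zero_of_mul (h2 n hn h).ne')), fun x hx h => ?_⟩
    by_cases h4 : θ' x = 0
    · rcases Finset.mem_insert.1 hx with rfl | hx
      · simp [h4, k2, e1.ne']
      · exact absurd h4 (h3 x hx h)
    · exact right_ne_zero_of_mul (e2 x (Finset.mem_union_right _ hx) h4).ne'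

/-- The first wall met when moving from `θ` towards `η` inside the hyperplane of `n0`. -/
theorem cross (e : Basis ι ℤ L) (N : Finset L) (θ : L →+ ℚ) (η : L →+ ℤ) (n0 : L) (h0 : θ n0 = 0)
    (h1 : η n0 = 0) (hker : ∀ m ∈ N, θ m = 0 → Dep m n0) (hbad : ∃ m ∈ N, θ m * η m < 0) :
    ∃ (θ0 θ1 : L →+ ℚ) (n' : L), n' ∈ N ∧ θ n' * η n' < 0 ∧ θ0 n0 = 0 ∧ θ1 n0 = 0 ∧ θ0 n' = 0 ∧
      (∀ m ∈ N, θ0 m ≠ 0 → 0 < θ0 m * θ m ∧ 0 < θ0 m * θ1 m) ∧
      (∀ m ∈ N, θ0 m = 0 → Dep m n0 ∨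
        (θ m * η m < 0 ∧ 0 < θ1 m * η m ∧ Dep (η m • n' - η n' • m) n0)) ∧
      (N.filter fun m => θ1 m * η m < 0).card < (N.filter fun m => θ m * η m < 0).card := by
  obtain ⟨τ, t0, t1, t2⟩ := perturb e N ((N ×ˢ N).image fun x => η x.1 • x.2 - η x.2 • x.1) θ n0 h0
  let η' : L →+ ℚ := (Int.castAddHom ℚ).comp η
  have hη : ∀ x, η' x = η x := fun _ => rfl
  have hb : ∀ m ∈ N, θ m * η m < 0 → 0 < θ m * (τ m - η m) ∧ τ m * η m < 0 := fun m hm h => by
    have := t1 m hm (left_ne_zero_of_mul h.ne)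
    refine ⟨by linarith, ?_⟩
    have := gen_sign (a := τ m) (b := θ m) (c := -η m) (by linarith) (by linarith)
    linarith
  obtain ⟨n', hn', hmin⟩ := (N.filter fun m => θ m * η m < 0).exists_min_image
    (fun m => τ m / (τ m - η m)) (by
      obtain ⟨m, h1, h2⟩ := hbad
      exact ⟨m, Finset.mem_filter.2 ⟨h1, h2⟩⟩)
  obtain ⟨n1, n2⟩ := Finset.mem_filter.1 hn'
  obtain ⟨n3, n4⟩ := hb n' n1 n2
  have n5 : τ n' - η n' ≠ 0 := right_ne_zero_of_mul n3.ne'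
  obtain ⟨s, hs⟩ : ∃ s, s = τ n' / (τ n' - η n') := ⟨_, rfl⟩
  have s0 : s * (τ n' - η n') = τ n' := by rw [hs, div_mul_cancel₀ _ n5]
  have hτ : τ n' ≠ 0 := left_ne_zero_of_mul n4.ne
  have hη' : (η n' : ℚ) ≠ 0 := right_ne_zero_of_mul n4.ne
  have q0 := mul_self_pos.2 n5
  have s1 : 0 < s := by
    refine (mul_pos_iff_of_pos_right q0).1 ?_
    rw [← mul_assoc, s0]
    nlinarith [mul_self_pos.2 hτ]
  have s2 : 0 < 1 - s := by
    refine (mul_pos_iff_of_pos_right q0).1 ?_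
    rw [← mul_assoc, sub_mul, s0]
    nlinarith [mul_self_pos.2 hη']
  let θ0 : L →+ ℚ := (1 - s) • τ + s • η'
  have e0 : ∀ x, θ0 x = (1 - s) * τ x + s * η x := fun _ => rfl
  obtain ⟨ε, e1, e2⟩ := exists_eps N θ0 η'
  have z0 : θ0 n' = 0 := by rw [e0]; linarith
  have good : ∀ m ∈ N, θ m ≠ 0 → ¬θ m * η m < 0 → 0 < θ0 m * θ m := fun m hm h h' => by
    have := t1 m hm h
    rw [e0]
    nlinarith [mul_pos s2 this, mul_nonneg s1.le (not_lt.1 h')]
  have ker : ∀ m ∈ N, θ m = 0 → θ0 m = 0 := fun m hm h => gen_dep (hker m hm h) (by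
    rw [e0, t0, h1]; simp)
  have A : ∀ m ∈ N, θ0 m ≠ 0 → 0 < θ0 m * θ m ∧ 0 < θ0 m * (θ0 + ε • η') m := fun m hm h => by
    refine ⟨?_, e2 m hm h⟩
    have hθ : θ m ≠ 0 := fun x => h (ker m hm x)
    by_cases hbm : θ m * η m < 0
    swap
    · exact good m hm hθ hbm
    obtain ⟨m3, -⟩ := hb m hm hbm
    have m5 : τ m - η m ≠ 0 := right_ne_zero_of_mul m3.ne'
    have m6 := hmin m (Finset.mem_filter.2 ⟨hm, hbm⟩)
    rw [← hs] at m6
    have m7 : θ0 m = (τ m - η m) * (τ m / (τ m - η m) - s) := by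
      rw [mul_sub, mul_div_cancel₀ _ m5, e0]; ring
    refine lt_of_le_of_ne ?_ (mul_ne_zero h hθ).symm
    rw [m7]
    nlinarith [mul_nonneg m3.le (sub_nonneg.2 m6)]
  have B : ∀ m, θ0 m = 0 → (θ0 + ε • η') m * η m = ε * (η m * η m) := fun m h => by
    simp [h, hη, mul_assoc]
  refine ⟨θ0, θ0 + ε • η', n', n1, n2, by rw [e0, t0, h1]; simp, by simp [e0, t0, h1, hη], z0, A,
    fun m hm h => ?_, Finset.card_lt_card ⟨fun m hm => ?_, fun hsub => ?_⟩⟩
  · by_cases hθ : θ m = 0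
    · exact Or.inl (hker m hm hθ)
    have hbm : θ m * η m < 0 := by
      by_contra x
      have := good m hm hθ x
      rw [h, zero_mul] at this
      exact lt_irrefl _ this
    refine Or.inr ⟨hbm, ?_, ?_⟩
    · rw [B m h]
      exact mul_pos e1 (mul_self_pos.2 (right_ne_zero_of_mul hbm.ne))
    · by_contra x
      refine t2 _ (Finset.mem_image.2 ⟨(m, n'), Finset.mem_product.2 ⟨hm, n1⟩, rfl⟩) x ?_
      rw [map_sub, map_zsmul, map_zsmul, zsmul_eq_mul, zsmul_eq_mul]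
      rw [e0] at h z0
      refine (mul_eq_zero.1 ?_).resolve_left s2.ne'
      linear_combination (η m : ℚ) * z0 - (η n' : ℚ) * h
  · obtain ⟨m1, m2⟩ := Finset.mem_filter.1 hm
    refine Finset.mem_filter.2 ⟨m1, ?_⟩
    have h : θ0 m ≠ 0 := fun x => by
      rw [B m x] at m2
      nlinarith [mul_nonneg e1.le (mul_self_nonneg (η m : ℚ))]
    obtain ⟨a1, a2⟩ := A m m1 h
    have := gen_sign (gen_sign (a := θ m) (b := θ0 m) (by linarith) a2) (c := -η m) (by linarith)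
    linarith
  · have := (Finset.mem_filter.1 (hsub hn')).2
    rw [B n' z0] at this
    nlinarith [mul_nonneg e1.le (mul_self_nonneg (η n' : ℚ))]

end Vale.Agent.P066
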