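import Vale.Agent.P066.GridCAux

/-! Faces of the grid and the mutation sequence. -/

noncomputable section
open scoped Classical
open Module

namespace Vale.Agent.P066.GC

variable {ρ m : ℕ}

/-- The chain of level `j` with window starting at round `T`. -/
def ch (ρ m j T i : ℕ) : GV ρ m → ℤ :=
  if i = 0 then w ρ m j else if i ≤ m then U ρ m j (T + i - 1) else w ρ m (j + 1)

/-- The index set of the faces. -/
abbrev Ix (ρ m : ℕ) := Option (Fin ρ × Fin (m + 1))

/-- The faces. -/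
def F (T : ℕ → ℕ) : Ix ρ m → GV ρ m → ℤ
  | none => w ρ m 0
  | some x => ch ρ m x.1 (T x.1) (x.2 + 1) - ch ρ m x.1 (T x.1) x.2

lemma ch_zero (j T : ℕ) : ch ρ m j T 0 = w ρ m j := if_pos rfl

lemma ch_mid (j T : ℕ) {i : ℕ} (hi : i < m) : ch ρ m j T (i + 1) = U ρ m j (T + i) := by
  rw [ch, if_neg (by omega), if_pos (by omega)]
  rfl

lemma ch_last (j T : ℕ) : ch ρ m j T (m + 1) = w ρ m (j + 1) := by
  rw [ch, if_neg (by omega), if_neg (by omega)]

section Mem

variable {T : ℕ → ℕ} {M : AddSubmonoid (GV ρ m → ℤ)}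

lemma ch_sub_mem (hM : ∀ c, F T c ∈ M) {j : ℕ} (hj : j < ρ) {i i' : ℕ} (h : i ≤ i')
    (h' : i' ≤ m + 1) : ch ρ m j (T j) i' - ch ρ m j (T j) i ∈ M := by
  induction h with
  | refl => rw [sub_self]; exact zero_mem _
  | @step k _ ih =>
    have := add_mem (hM (some (⟨j, hj⟩, ⟨k, h'⟩))) (ih (Nat.le_of_succ_le h'))
    simpa only [F, sub_add_sub_cancel] using this

lemma delta_mem (hM : ∀ c, F T c ∈ M) {j : ℕ} (hj : j < ρ) : w ρ m (j + 1) - w ρ m j ∈ M := by
  simpa only [ch_last, ch_zero] using ch_sub_mem hM hj (Nat.zero_le _) le_rfl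

lemma w_mem (hM : ∀ c, F T c ∈ M) {i : ℕ} (hi : i ≤ ρ) : w ρ m i ∈ M := by
  induction i with
  | zero => exact hM none
  | succ i ih => simpa only [sub_add_cancel] using add_mem (delta_mem hM hi) (ih (by omega))

lemma up_mem (hm : 0 < m) (hM : ∀ c, F T c ∈ M) {j : ℕ} (hj : j < ρ) (s : ℕ) :
    T j ≤ s → U ρ m j s - w ρ m j ∈ M := by
  induction s using Nat.strong_induction_on with
  | _ s ih =>
    intro hs
    by_cases h : s < T j + m
    · have := ch_sub_mem hM hj (Nat.zero_le (s - T j + 1)) (by omega)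
      rwa [ch_zero, ch_mid _ _ (by omega), Nat.add_sub_cancel' hs] at this
    · obtain ⟨s', rfl⟩ : ∃ s', s = s' + m := ⟨s - m, by omega⟩
      rw [U_add hm, add_sub_right_comm]
      exact add_mem (ih s' (by omega) (by omega)) (delta_mem hM hj)

lemma U_mem (hm : 0 < m) (hM : ∀ c, F T c ∈ M) {j : ℕ} (hj : j < ρ) {s : ℕ} (hs : T j ≤ s) :
    U ρ m j s ∈ M := by
  simpa only [sub_add_cancel] using add_mem (up_mem hm hM hj s hs) (w_mem hM hj.le)

lemma down_mem (hm : 0 < m) (hM : ∀ c, F T c ∈ M) {j : ℕ} (hj : j < ρ) (d : ℕ) :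
    ∀ s, s + d + 1 = T j → w ρ m j - U ρ m j s ∈ M := by
  induction d using Nat.strong_induction_on with
  | _ d ih =>
    intro s hs
    have e : w ρ m j - U ρ m j s = w ρ m (j + 1) - U ρ m j (s + m) := by
      rw [U_add hm]; abel
    by_cases h : T j ≤ s + m
    · have := ch_sub_mem hM hj (i := s + m - T j + 1) (by omega) le_rfl
      rwa [ch_last, ch_mid _ _ (by omega), Nat.add_sub_cancel' h, ← e] at this
    · have := add_mem (delta_mem hM hj) (ih (d - m) (by omega) (s + m) (by omega))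
      rwa [sub_add_sub_cancel, ← e] at this

end Mem

/-- The mutated vector at time `t`. -/
def X (ρ m t : ℕ) : GV ρ m → ℤ := U ρ m (t % ρ) (t / ρ) - w ρ m (t % ρ)

lemma X_w (hρ : 0 < ρ) (hm : 0 < m) (t : ℕ) {i : ℕ} (hi : i ≤ ρ) :
    (gq ρ m).B (X ρ m t) (w ρ m i) =
      (if i = t % ρ + 1 then 1 else 0) - if i = t % ρ then 1 else 0 := by
  have hj := Nat.mod_lt t hρ
  rw [(gq ρ m).swap, X, map_sub, B_wU hm hi hj, B_ww hi]
  ring

lemma X_U (hρ : 0 < ρ) (hm : 0 < m) (t : ℕ) {j s : ℕ} (hj : j < ρ) (h1 : tau ρ t j ≤ s)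
    (h2 : s < tau ρ t j + m) :
    (gq ρ m).B (X ρ m t) (U ρ m j s) = if j = t % ρ ∧ s = t / ρ then -1 else 0 := by
  have h0 := Nat.mod_lt t hρ
  rw [X, map_sub, AddMonoidHom.sub_apply, B_wU hm h0.le hj]
  unfold tau at h1 h2
  generalize t % ρ = a at *
  generalize t / ρ = b at *
  rcases (show j = a ∨ j = a + 1 ∨ a = j + 1 ∨ (a + 2 ≤ j ∨ j + 2 ≤ a) by omega) with e | e | e | e
  · subst e
    rw [if_neg (lt_irrefl _)] at h1 h2
    rcases h1.eq_or_lt with rfl | h3
    · rw [(gq ρ m).alt]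
      simp
    · rw [B_same hm hj h3 h2]
      split_ifs <;> omega
  · subst e
    rw [if_neg (by omega)] at h1 h2
    rw [B_up hm hj h1 h2]
    split_ifs <;> omega
  · subst e
    rw [if_pos (by omega)] at h1 h2
    rw [B_down hm h0 h1 (by omega)]
    split_ifs <;> omega
  · rw [B_far hm h0 hj e]
    split_ifs <;> omega

lemma X_ch (hρ : 0 < ρ) (hm : 0 < m) (t : ℕ) {j : ℕ} (hj : j < ρ) (i : ℕ) :
    (gq ρ m).B (X ρ m t) (ch ρ m j (tau ρ t j) i) =
      if i = 0 then (if j = t % ρ + 1 then 1 else 0) - if j = t % ρ then 1 else 0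
      else if i ≤ m then (if j = t % ρ ∧ i = 1 then -1 else 0)
      else (if j = t % ρ then 1 else 0) - if j + 1 = t % ρ then 1 else 0 := by
  unfold ch
  by_cases h0 : i = 0
  · rw [if_pos h0, if_pos h0, X_w hρ hm t hj.le]
  · rw [if_neg h0, if_neg h0]
    by_cases h1 : i ≤ m
    · rw [if_pos h1, if_pos h1, X_U hρ hm t hj (by omega) (by omega)]
      refine if_congr (and_congr_right fun h => ?_) rfl rfl
      rw [h, tau_self]
      generalize t / ρ = b
      omega
    · rw [if_neg h1, if_neg h1, X_w hρ hm t (i := j + 1) hj]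
      simp only [Nat.add_right_cancel_iff]

lemma X_same (hρ : 0 < ρ) (hm : 2 ≤ m) (t : ℕ) {i : ℕ} (h0 : 0 < i) (hi : i ≤ m) :
    (gq ρ m).B (X ρ m t) (ch ρ m (t % ρ) (t / ρ) (i + 1) - ch ρ m (t % ρ) (t / ρ) i) =
      if i = 1 ∨ i = m then 1 else 0 := by
  have h1 := X_ch hρ (by omega : 0 < m) t (Nat.mod_lt t hρ) (i + 1)
  have h2 := X_ch hρ (by omega : 0 < m) t (Nat.mod_lt t hρ) i
  rw [tau_self] at h1 h2
  rw [map_sub, h1, h2]
  generalize t % ρ = a
  split_ifs <;> first | contradiction | omega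

lemma X_ne (hρ : 0 < ρ) (hm : 0 < m) (t : ℕ) {j : ℕ} (hj : j < ρ) (h : j ≠ t % ρ) {i : ℕ}
    (hi : i ≤ m) :
    (gq ρ m).B (X ρ m t) (ch ρ m j (tau ρ t j) (i + 1) - ch ρ m j (tau ρ t j) i) ≤ 0 := by
  rw [map_sub, X_ch hρ hm t hj, X_ch hρ hm t hj]
  generalize t % ρ = a at h ⊢
  split_ifs <;> first | contradiction | omega

/-- The rotation of the faces of level `j`. -/
def rot (ρ m j : ℕ) : Equiv.Perm (Ix ρ m) :=
  Equiv.optionCongr (Equiv.prodCongrRight fun j' =>
    if (j' : ℕ) = j then finRotate (m + 1) else Equiv.refl _)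

/-- The first face of the level mutated at time `t`. -/
def k0 (hρ : 0 < ρ) (m t : ℕ) : Ix ρ m := some (⟨t % ρ, Nat.mod_lt t hρ⟩, 0)

lemma F_k0 (hρ : 0 < ρ) (hm : 0 < m) (t : ℕ) : F (tau ρ t) (k0 hρ m t) = X ρ m t := by
  show ch ρ m (t % ρ) _ (0 + 1) - ch ρ m (t % ρ) _ 0 = _
  rw [ch_mid _ _ hm, ch_zero, tau_self, add_zero, X]

lemma F_step (hρ : 0 < ρ) (hm : 2 ≤ m) (t : ℕ) (c : Ix ρ m) :
    F (tau ρ (t + 1)) c = if rot ρ m (t % ρ) c = k0 hρ m t then -X ρ m t else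
      F (tau ρ t) (rot ρ m (t % ρ) c) +
        max ((gq ρ m).B (X ρ m t) (F (tau ρ t) (rot ρ m (t % ρ) c))) 0 • X ρ m t := by
  have hm0 : 0 < m := by omega
  rcases c with _ | ⟨j, i⟩
  · have e : rot ρ m (t % ρ) none = none := rfl
    rw [e, if_neg (by simp [k0])]
    simp only [F, X_w hρ hm0 t (Nat.zero_le _)]
    rw [max_eq_right (by split_ifs <;> first | contradiction | omega), zero_smul, add_zero]
  by_cases hj : (j : ℕ) = t % ρ
  · have e : rot ρ m (t % ρ) (some (j, i)) = some (j, finRotate (m + 1) i) := by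
      simp [rot, hj]
    have ej : j = ⟨t % ρ, Nat.mod_lt t hρ⟩ := Fin.ext hj
    have h1 : tau ρ (t + 1) j = t / ρ + 1 := by rw [tau_succ hρ t j.2, if_pos hj]
    have h2 : tau ρ t j = t / ρ := by rw [hj, tau_self]
    rw [e]
    by_cases hi : i = Fin.last m
    · subst hi
      rw [finRotate_last, if_pos (by rw [k0, ej])]
      obtain ⟨n, rfl⟩ : ∃ n, m = n + 1 := ⟨m - 1, by omega⟩
      simp only [F, Fin.val_last]
      rw [ch_last, ch_mid _ _ (Nat.lt_succ_self n), h1, add_assoc, add_comm 1 n, U_add hm0, X, hj]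
      abel
    · have h3 := coe_finRotate_of_ne_last hi
      have h4 : (i : ℕ) < m := Fin.val_lt_last hi
      rw [if_neg (by
        intro h
        have := congrArg Fin.val (Prod.mk.inj (Option.some.inj h)).2
        rw [h3] at this
        exact Nat.succ_ne_zero _ this)]
      simp only [F, h3]
      rw [h1, h2, hj, X_same hρ hm t (Nat.succ_pos _) h4, ch_mid _ _ h4, ch_mid _ _ h4]
      by_cases h5 : (i : ℕ) = 0
      · rw [h5, if_pos (Or.inl rfl), ch_zero, ch_mid _ _ (by omega : 0 + 1 < m), X]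
        simp only [add_zero, zero_add, zero_le_one, sup_of_le_left, one_smul]
        abel
      · obtain ⟨n, hn⟩ : ∃ n, (i : ℕ) = n + 1 := ⟨i - 1, by omega⟩
        rw [hn] at h4 ⊢
        rw [ch_mid _ _ (by omega : n < m), show t / ρ + 1 + n = t / ρ + (n + 1) by omega]
        by_cases h6 : n + 2 = m
        · subst h6
          rw [ch_last, if_pos (Or.inr rfl),
            show t / ρ + 1 + (n + 1) = t / ρ + (n + 2) by omega, U_add hm0, X]
          simp only [zero_le_one, sup_of_le_left, one_smul]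
          abel
        · rw [ch_mid _ _ (by omega : n + 1 + 1 < m), if_neg (by omega), max_self,
            zero_smul, add_zero, show t / ρ + 1 + (n + 1) = t / ρ + (n + 1 + 1) by omega]
  · have e : rot ρ m (t % ρ) (some (j, i)) = some (j, i) := by simp [rot, hj]
    rw [e, if_neg (by
      intro h
      exact hj (congrArg Fin.val (Prod.mk.inj (Option.some.inj h)).1))]
    simp only [F]
    rw [max_eq_right (X_ne hρ hm0 t j.2 hj (Nat.le_of_lt_succ i.2)), zero_smul, add_zero,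
      tau_succ hρ t j.2, if_neg hj]

lemma exists_basis (hm : 0 < m) : ∃ e : Basis (Ix ρ m) ℤ (GV ρ m → ℤ), ∀ c, e c = F (tau ρ 0) c := by
  refine ⟨basisOfTopLeSpanOfCardEqFinrank (F (tau ρ 0)) ?_ (by
    simp [Fintype.card_option, Fintype.card_sum, mul_add]; ring), fun c => by
      rw [coe_basisOfTopLeSpanOfCardEqFinrank]⟩
  have hM : ∀ c : Ix ρ m, F (tau ρ 0) c ∈
      (Submodule.span ℤ (Set.range (F (ρ := ρ) (m := m) (tau ρ 0)))).toAddSubmonoid :=
    fun c => Submodule.subset_span ⟨c, rfl⟩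
  rw [← (Pi.basisFun ℤ (GV ρ m)).span_eq, Submodule.span_le]
  rintro _ ⟨a, rfl⟩
  rw [Pi.basisFun_apply]
  rcases a with a | ⟨j, r⟩
  · have := w_mem hM (Nat.le_of_lt_succ a.2)
    rwa [w, dif_pos a.2] at this
  · have := U_mem hm hM j.2 (s := r) (by simp [tau])
    rwa [U_lt j.2 r.2] at this

/-- The relabelling at time `t`. -/
def lab (ρ m : ℕ) : ℕ → Equiv.Perm (Ix ρ m)
  | 0 => Equiv.refl _
  | t + 1 => (rot ρ m (t % ρ)).trans (lab ρ m t)

lemma lab_none : ∀ t, lab ρ m t none = none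
  | 0 => rfl
  | t + 1 => lab_none t

/-- The mutation sequence. -/
def bs (hρ : 0 < ρ) (e : Basis (Ix ρ m) ℤ (GV ρ m → ℤ)) : ℕ → Basis (Ix ρ m) ℤ (GV ρ m → ℤ)
  | 0 => e
  | t + 1 => mutB (gq ρ m) (bs hρ e t) (lab ρ m t (k0 hρ m t))

lemma bs_lab (hρ : 0 < ρ) (hm : 2 ≤ m) {e : Basis (Ix ρ m) ℤ (GV ρ m → ℤ)}
    (he : ∀ c, e c = F (tau ρ 0) c) (t : ℕ) : ∀ c, bs hρ e t (lab ρ m t c) = F (tau ρ t) c := by
  induction t with
  | zero => exact he
  | succ t ih =>
    intro c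
    rw [F_step hρ hm, bs, lab, Equiv.trans_apply]
    split_ifs with h
    · rw [h, mutB_self, ih, F_k0 hρ (by omega)]
    · rw [mutB_ne _ _ ((lab ρ m t).injective.ne h), ih, ih, F_k0 hρ (by omega)]

end Vale.Agent.P066.GC
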