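import Vale.Agent.P066.GDefs
import Vale.Agent.P066.Calc
import Vale.Agent.P066.GridCAux2

/-! Construction of the grid. -/

set_option linter.unusedSectionVars false

noncomputable section
open scoped Classical
open Module

namespace Vale.Agent.P066

namespace GC

variable {ρ m : ℕ}

/-- The vertex replaced at time `t`. -/
def a0 (hρ : 0 < ρ) (hm : 0 < m) (t : ℕ) : GV ρ m :=
  .inr (⟨t % ρ, Nat.mod_lt t hρ⟩, ⟨t / ρ % m, Nat.mod_lt _ hm⟩)

/-- The vertices at time `t`. -/
def vx (hρ : 0 < ρ) (hm : 0 < m) : ℕ → GV ρ m → GV ρ m → ℤ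
  | 0 => fun a => Pi.single a 1
  | t + 1 => Function.update (vx hρ hm t) (a0 hρ hm t) (U ρ m (t % ρ) (t / ρ + m))

lemma vx_inl (hρ : 0 < ρ) (hm : 0 < m) (i : Fin (ρ + 1)) : ∀ t, vx hρ hm t (.inl i) = w ρ m i
  | 0 => by rw [w, dif_pos i.2]; rfl
  | t + 1 => by rw [vx, Function.update_of_ne (by simp [a0]), vx_inl hρ hm i t]

lemma eq_of_mod {s s' : ℕ} (hm : 0 < m) (h1 : s ≤ s') (h2 : s' < s + m) (h : s' % m = s % m) :
    s' = s := by
  rcases divmod_near hm h1 h2.le with ⟨_, a⟩ | ⟨_, a⟩ <;> omega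

lemma vx_inr (hρ : 0 < ρ) (hm : 0 < m) (j : Fin ρ) (r : Fin m) : ∀ t, ∃ s, tau ρ t j ≤ s ∧
    s < tau ρ t j + m ∧ s % m = r ∧ vx hρ hm t (.inr (j, r)) = U ρ m j s
  | 0 => ⟨r, by simp [tau], by simp [tau], Nat.mod_eq_of_lt r.2, (U_lt j.2 r.2).symm⟩
  | t + 1 => by
    obtain ⟨s, h1, h2, h3, h4⟩ := vx_inr hρ hm j r t
    rw [tau_succ hρ t j.2]
    by_cases h : .inr (j, r) = a0 hρ hm t
    · obtain ⟨rfl, rfl⟩ := Prod.mk.inj (Sum.inr.inj h)
      exact ⟨t / ρ + m, by rw [if_pos rfl]; omega, by rw [if_pos rfl]; omega,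
        Nat.add_mod_right _ _, Function.update_self _ _ _⟩
    · refine ⟨s, ?_, ?_, h3, by rw [vx, Function.update_of_ne h, h4]⟩
      · split_ifs with hj
        · rw [hj, tau_self] at h1
          refine lt_of_le_of_ne h1 fun e => h ?_
          rw [a0, Sum.inr.injEq, Prod.mk.injEq]
          exact ⟨Fin.ext hj, Fin.ext (by rw [← h3, ← e])⟩
        · exact h1
      · split_ifs with hj
        · rw [hj, tau_self] at h2
          omega
        · exact h2

lemma vx_a0 (hρ : 0 < ρ) (hm : 0 < m) (t : ℕ) :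
    vx hρ hm t (a0 hρ hm t) = U ρ m (t % ρ) (t / ρ) := by
  obtain ⟨s, h1, h2, h3, h4⟩ := vx_inr hρ hm ⟨t % ρ, Nat.mod_lt t hρ⟩ ⟨t / ρ % m, Nat.mod_lt _ hm⟩ t
  simp only [tau_self] at h1 h2 h3
  rw [a0, h4, eq_of_mod hm h1 h2 h3]

lemma ch_add (hm : 0 < m) (j T i : ℕ) : ch ρ m j (T + m) i = ch ρ m j T i +
    (if 0 < i ∧ i ≤ m then 1 else 0 : ℤ) • (w ρ m (j + 1) - w ρ m j) := by
  unfold ch
  by_cases h0 : i = 0
  · simp [h0]
  · by_cases h1 : i ≤ m
    · rw [if_neg h0, if_neg h0, if_pos h1, if_pos h1, if_pos ⟨by omega, h1⟩, one_smul, ← U_add hm,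
        show T + m + i - 1 = T + i - 1 + m by omega]
    · simp [h0, h1]

lemma sg_ch (hm : 0 < m) (j : ℕ) {j' : ℕ} (hj : j' < ρ) (T i : ℕ) :
    sg ρ m j (ch ρ m j' T i) = if j' = j ∧ 0 < i ∧ i ≤ m then 1 else 0 := by
  unfold ch
  split_ifs <;> first | exact sg_w _ _ | omega | (rw [sg_U hm _ hj]; split_ifs <;> omega)

lemma delta_eq (T : ℕ → ℕ) (j : Fin ρ) :
    w ρ m (j + 1) - w ρ m j = ∑ i : Fin (m + 1), F T (some (j, i)) := by
  simp only [F]
  rw [Fin.sum_univ_eq_sum_range (fun i => ch ρ m j (T j) (i + 1) - ch ρ m j (T j) i),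
    Finset.sum_range_sub, ch_last, ch_zero]

section Bas

variable {T : ℕ → ℕ} {e : Basis (Ix ρ m) ℤ (GV ρ m → ℤ)} {p : Equiv.Perm (Ix ρ m)}

lemma repr_F (h : ∀ c, e (p c) = F T c) (c d : Ix ρ m) :
    e.repr (F T c) (p d) = if c = d then 1 else 0 := by
  rw [← h, e.repr_self, Finsupp.single_apply]
  simp

lemma repr_delta (h : ∀ c, e (p c) = F T c) (j j' : Fin ρ) (i : Fin (m + 1)) :
    e.repr (w ρ m (j' + 1) - w ρ m j') (p (some (j, i))) = if j' = j then 1 else 0 := by
  rw [delta_eq T, map_sum, Finsupp.finsetSum_apply]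
  simp only [repr_F h]
  by_cases hj : j' = j <;> simp [hj]

lemma F_mem (h : ∀ c, e (p c) = F T c) (c : Ix ρ m) : F T c ∈ cone e :=
  h c ▸ basis_mem_cone e _

end Bas

end GC

open GC in
theorem exists_grid (ρ m : ℕ) (hρ : 0 < ρ) (hm : 2 ≤ m) :
    ∃ (ι J : Type) (_ : Fintype ι) (_ : Fintype J) (q : QT (GV ρ m → ℤ))
      (G : Grid q ι (GV ρ m) J), (∀ a, G.v 0 a = Pi.single a 1) ∧
      (∀ a, a ∈ G.W ↔ ∃ i, a = Sum.inl i) ∧
      ∀ x x' : Fin ρ × Fin m, (x.1 : ℕ) * m + x.2 < (x'.1 : ℕ) * m + x'.2 →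
        q.B (Pi.single (Sum.inr x) 1) (Pi.single (Sum.inr x') 1) =
          if (x'.1 : ℕ) * m + x'.2 < (x.1 : ℕ) * m + x.2 + m then 1 else 0 := by
  have hm0 : 0 < m := by omega
  obtain ⟨e, he⟩ := exists_basis (ρ := ρ) hm0
  have hb := bs_lab hρ hm he
  have hX : ∀ t, bs hρ e t (lab ρ m t (k0 hρ m t)) = X ρ m t := fun t => by
    rw [hb, F_k0 hρ hm0]
  have hj : ∀ t, t % ρ < ρ := fun t => Nat.mod_lt t hρ
  have hM : ∀ t c, F (tau ρ t) c ∈ cone (bs hρ e t) := fun t => F_mem (hb t)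
  refine ⟨Ix ρ m, Fin ρ, inferInstance, inferInstance, gq ρ m,
    { e := bs hρ e
      k := fun t => lab ρ m t (k0 hρ m t)
      U := Finset.univ.erase none
      kU := fun t => Finset.mem_erase.2 ⟨fun h => by
        have := (lab ρ m t).injective (h.trans (lab_none t).symm)
        simp [k0] at this, Finset.mem_univ _⟩
      step := fun _ => rfl
      v := vx hρ hm0
      a0 := a0 hρ hm0
      a1 := fun t => .inl ⟨t % ρ, Nat.lt_succ_of_lt (hj t)⟩
      a2 := fun t => .inl ⟨t % ρ + 1, Nat.succ_lt_succ (hj t)⟩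
      ne01 := fun t => by simp [a0]
      ne02 := fun t => by simp [a0]
      ne12 := fun t => by simp
      hX := fun t => by rw [hX, vx_a0, vx_inl, X]
      v0 := fun t => by
        rw [hX, vx, Function.update_self, vx_inl, X, U_add hm0]
        abel
      vne := fun t a h => Function.update_of_ne h _ _
      b1 := fun t => by
        rw [hX, vx_inl, X_w hρ hm0 t (hj t).le]
        simp
      b2 := fun t => by
        rw [hX, vx_inl, X_w hρ hm0 t (i := t % ρ + 1) (hj t)]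
        simp
      b0 := fun t a h0 h1 h2 => ?b0
      b12 := fun t => by rw [vx_inl, vx_inl, B_ww (hj t).le]
      vmem := fun t s a hts => ?vmem
      Xmem := fun t s hts => by
        rw [hX]
        exact up_mem hm0 (hM t) (hj s) _ ((tau_mono hρ (hj s) hts).trans (tau_self s).le)
      nXmem := fun t s hts => ?nX
      M := m * ρ
      σ := fun j => sg ρ m j
      η := fun t j => ((bs hρ e t).coord (lab ρ m t (some (j, Fin.last m)))).toAddMonoidHom
      η0 := fun t j n hn => hn _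
      η1 := fun t j n hn => repr_le_deg hn _
      ηM := fun t j n => ?eta
      σX := fun s j => by
        rw [hX, X, map_sub, sg_w, sg_U hm0 _ (hj s)]
        split_ifs <;> simp
      σX1 := fun s => ⟨⟨s % ρ, hj s⟩, by
        rw [hX, X, map_sub, sg_w, sg_U hm0 _ (hj s)]
        simp⟩
      conc := fun t p hp j => ?conc
      W := Finset.univ.filter fun a => ∃ i, a = Sum.inl i
      vW := fun t a ha => by
        obtain ⟨i, rfl⟩ := (Finset.mem_filter.1 ha).2
        rw [vx_inl, vx_inl]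
      σW := fun j a ha => by
        obtain ⟨i, rfl⟩ := (Finset.mem_filter.1 ha).2
        rw [vx_inl, sg_w]
      BW := fun a n ha hn => ?BW
      far := fun t N a ha => ?far }, fun _ => rfl, fun a => by simp, B_init⟩
  case b0 =>
    rw [hX]
    rcases a with i | ⟨j, r⟩
    · rw [vx_inl, X_w hρ hm0 t (Nat.le_of_lt_succ i.2), if_neg fun h => h2 (congrArg _ (Fin.ext h)),
        if_neg fun h => h1 (congrArg _ (Fin.ext h)), sub_zero]
    · obtain ⟨s, a1, a2, a3, a4⟩ := vx_inr hρ hm0 j r t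
      rw [a4, X_U hρ hm0 t j.2 a1 a2, if_neg]
      rintro ⟨b1, b2⟩
      refine h0 ?_
      rw [a0, Sum.inr.injEq, Prod.mk.injEq]
      exact ⟨Fin.ext b1, Fin.ext (by rw [← a3, b2])⟩
  case vmem =>
    rcases a with i | ⟨j, r⟩
    · rw [vx_inl]
      exact w_mem (hM t) (Nat.le_of_lt_succ i.2)
    · obtain ⟨s', a1, -, -, a4⟩ := vx_inr hρ hm0 j r s
      rw [a4]
      exact U_mem hm0 (hM t) j.2 ((tau_mono hρ j.2 hts).trans a1)
  case nX =>
    have h1 : tau ρ (s + 1) (s % ρ) ≤ tau ρ t (s % ρ) := tau_mono hρ (hj s) hts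
    rw [tau_succ hρ s (hj s), if_pos rfl] at h1
    rw [hX, X, neg_sub]
    exact down_mem hm0 (hM t) (hj s) (tau ρ t (s % ρ) - (s / ρ + 1)) _ (by omega)
  case eta =>
    have : (bs hρ e (t + m * ρ)).coord (lab ρ m (t + m * ρ) (some (j, Fin.last m))) =
        (bs hρ e t).coord (lab ρ m t (some (j, Fin.last m))) - (sg ρ m j).toIntLinearMap := by
      refine (bs hρ e (t + m * ρ)).ext fun c => ?_
      obtain ⟨c, rfl⟩ := (lab ρ m (t + m * ρ)).surjective c
      rw [hb, LinearMap.sub_apply, Basis.coord_apply, Basis.coord_apply, repr_F (hb _),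
        AddMonoidHom.coe_toIntLinearMap]
      rcases c with _ | ⟨j', i⟩
      · have := repr_F (hb t) none (some (j, Fin.last m))
        simp only [F] at this ⊢
        rw [this, sg_w]
        simp
      · have h1 := repr_F (hb t) (some (j', i)) (some (j, Fin.last m))
        have h2 := repr_delta (hb t) j j' (Fin.last m)
        have h3 : F (tau ρ (t + m * ρ)) (some (j', i)) = F (tau ρ t) (some (j', i)) +
            ((if 0 < (i : ℕ) + 1 ∧ (i : ℕ) + 1 ≤ m then 1 else 0 : ℤ) -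
              if 0 < (i : ℕ) ∧ (i : ℕ) ≤ m then 1 else 0) • (w ρ m (j' + 1) - w ρ m j') := by
          simp only [F, tau_add hρ, ch_add hm0, sub_smul]
          abel
        have h4 : sg ρ m j (F (tau ρ (t + m * ρ)) (some (j', i))) =
            ((if 0 < (i : ℕ) + 1 ∧ (i : ℕ) + 1 ≤ m then 1 else 0 : ℤ) -
              if 0 < (i : ℕ) ∧ (i : ℕ) ≤ m then 1 else 0) * if j' = j then 1 else 0 := by
          simp only [F, map_sub, sg_ch hm0 _ j'.2, Fin.val_inj]
          by_cases h : j' = j <;> simp [h]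
        rw [h4, h3, map_add, map_zsmul, Finsupp.add_apply, Finsupp.smul_apply, h1, h2, smul_eq_mul,
          add_sub_cancel_right]
    exact congrArg (fun f => f n) this
  case conc =>
    have h1 : ∀ i < ρ, (gq ρ m).B (w ρ m (i + 1) - w ρ m i) p ≤ 0 := by
      intro i hi
      by_contra hc
      have h2 : ∀ N : ℕ, (gq ρ m).B (U ρ m i t - w ρ m i) p +
          N * (gq ρ m).B (w ρ m (i + 1) - w ρ m i) p ≤ 0 := by
        intro N
        have h3 := hp (i + (t + N * m) * ρ) (by nlinarith [Nat.zero_le (N * m * ρ)])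
        rw [hX, X, Nat.add_mul_mod_self_right, Nat.add_mul_div_right _ _ hρ, Nat.mod_eq_of_lt hi,
          Nat.div_eq_of_lt hi, zero_add, U_add_mul hm0, add_sub_right_comm, map_add, map_nsmul,
          AddMonoidHom.add_apply, AddMonoidHom.nsmul_apply, nsmul_eq_mul] at h3
        exact h3
      have h3 := h2 ((gq ρ m).B (U ρ m i t - w ρ m i) p).natAbs.succ
      have h4 := neg_abs_le ((gq ρ m).B (U ρ m i t - w ρ m i) p)
      have h5 := abs_nonneg ((gq ρ m).B (U ρ m i t - w ρ m i) p)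
      push_cast at h3
      nlinarith
    have := concave_nonneg (S := fun i => if i = 0 then 0 else sg ρ m (i - 1) p) (n := ρ) (by simp)
      (by simp [sg_top]) (fun i hi => by
        have h2 := h1 i hi
        rw [map_sub, AddMonoidHom.sub_apply, B_w (i := i + 1) hi, B_w hi.le] at h2
        simpa using h2) (k := j + 1) j.2
    simpa using this
  case BW =>
    obtain ⟨i, rfl⟩ := (Finset.mem_filter.1 ha).2
    have h1 : ∀ j, sg ρ m j n = 0 := fun j => by
      by_cases h : j < ρ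
      · exact hn ⟨j, h⟩
      · exact sg_top (by omega) n
    rw [vx_inl, B_w (Nat.le_of_lt_succ i.2)]
    simp [h1]
  case far =>
    rcases a with i | ⟨j, r⟩
    · exact absurd (Finset.mem_filter.2 ⟨Finset.mem_univ _, i, rfl⟩) ha
    obtain ⟨s, a1, -, -, a4⟩ := vx_inr hρ hm0 j r (t + N * (m * ρ))
    rw [← mul_assoc, tau_add hρ] at a1
    obtain ⟨s', rfl⟩ : ∃ s', s = s' + N * m := ⟨s - N * m, by omega⟩
    have h1 := deg_nonneg (U_mem hm0 (hM t) j.2 (s := s') (by omega))
    have h2 := repr_le_deg (delta_mem (hM t) j.2) (lab ρ m t (some (j, Fin.last m)))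
    rw [repr_delta (hb t), if_pos rfl] at h2
    rw [a4, U_add_mul hm0, map_add, map_nsmul, nsmul_eq_mul]
    nlinarith [Int.natCast_nonneg N]

end Vale.Agent.P066
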