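import Vale.Agent.P066.GDefs
import Vale.Agent.P066.Calc

/-! The lattice of the grid. -/

noncomputable section
open scoped Classical
open Module

namespace Vale.Agent.P066.GC

variable {ρ m : ℕ}

/-- The arrows of the grid quiver. -/
def arr : GV ρ m → GV ρ m → ℕ
  | .inl _, .inl _ => 0
  | .inl i, .inr x => if (i : ℕ) = x.1 then 1 else 0
  | .inr x, .inl i => if (i : ℕ) = x.1 + 1 then 1 else 0
  | .inr x, .inr y =>
      if ((x.1 : ℕ) = y.1 ∧ (x.2 : ℕ) < y.2) ∨ ((y.1 : ℕ) = x.1 + 1 ∧ (y.2 : ℕ) < x.2) then 1 else 0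

/-- The form of the grid. -/
abbrev gq (ρ m : ℕ) : QT (GV ρ m → ℤ) := qq arr

lemma B_single (a b : GV ρ m) :
    (gq ρ m).B (Pi.single a 1) (Pi.single b 1) = (arr a b : ℤ) - arr b a := by
  simp [qq_B, kz, Pi.single_apply]

lemma hom_ext {V : Type} [Fintype V] [DecidableEq V] {f g : (V → ℤ) →+ ℤ}
    (h : ∀ a, f (Pi.single a 1) = g (Pi.single a 1)) : f = g :=
  AddMonoidHom.functions_ext ℤ f g fun a x => by
    have e : (Pi.single a x : V → ℤ) = x • Pi.single a 1 := by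
      rw [← Pi.single_smul, smul_eq_mul, mul_one]
    rw [e, map_zsmul, map_zsmul, h]

/-- The background vectors. -/
def w (ρ m i : ℕ) : GV ρ m → ℤ := if h : i < ρ + 1 then Pi.single (.inl ⟨i, h⟩) 1 else 0

/-- The initial vectors of the levels. -/
def u (ρ m j r : ℕ) : GV ρ m → ℤ :=
  if h : j < ρ ∧ r < m then Pi.single (.inr (⟨j, h.1⟩, ⟨r, h.2⟩)) 1 else 0

/-- The vector of level `j` and round `s`. -/
def U (ρ m j s : ℕ) : GV ρ m → ℤ := u ρ m j (s % m) + (s / m) • (w ρ m (j + 1) - w ρ m j)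

/-- The level sums. -/
def sg (ρ m j : ℕ) : (GV ρ m → ℤ) →+ ℤ where
  toFun n := ∑ x : Fin ρ × Fin m, if (x.1 : ℕ) = j then n (.inr x) else 0
  map_zero' := by simp
  map_add' a b := by
    rw [← Finset.sum_add_distrib]
    refine Finset.sum_congr rfl fun x _ => ?_
    split_ifs <;> simp

lemma sg_inl (j : ℕ) (i : Fin (ρ + 1)) : sg ρ m j (Pi.single (.inl i) 1) = 0 := by
  simp [sg]

lemma sg_inr (j : ℕ) (x : Fin ρ × Fin m) :
    sg ρ m j (Pi.single (.inr x) 1) = if (x.1 : ℕ) = j then 1 else 0 := by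
  simp only [sg, AddMonoidHom.coe_mk, ZeroHom.coe_mk]
  rw [Finset.sum_eq_single x (fun y _ hy => by simp [hy]) (by simp)]
  simp

lemma sg_top {j : ℕ} (hj : ρ ≤ j) (n : GV ρ m → ℤ) : sg ρ m j n = 0 :=
  Finset.sum_eq_zero fun x _ => if_neg (by have := x.1.2; omega)

lemma sg_w (j i : ℕ) : sg ρ m j (w ρ m i) = 0 := by
  unfold w
  split_ifs
  · exact sg_inl _ _
  · exact map_zero _

lemma sg_U (hm : 0 < m) (j : ℕ) {j' : ℕ} (hj : j' < ρ) (s : ℕ) :
    sg ρ m j (U ρ m j' s) = if j' = j then 1 else 0 := by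
  rw [U, map_add, map_nsmul, map_sub, sg_w, sg_w, u, dif_pos ⟨hj, Nat.mod_lt _ hm⟩, sg_inr]
  simp

lemma B_w {i : ℕ} (hi : i ≤ ρ) (n : GV ρ m → ℤ) :
    (gq ρ m).B (w ρ m i) n = sg ρ m i n - if i = 0 then 0 else sg ρ m (i - 1) n := by
  have : (gq ρ m).B (w ρ m i) = sg ρ m i - if i = 0 then 0 else sg ρ m (i - 1) := by
    refine hom_ext fun a => ?_
    rw [w, dif_pos (by omega), B_single]
    rcases a with a | a
    · split_ifs <;> simp [arr, sg_inl]
    · by_cases h : i = 0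
      · simp [arr, sg_inr, h, eq_comm]
      · simp only [arr, if_neg h, AddMonoidHom.sub_apply, sg_inr]
        split_ifs <;> omega
  rw [this]
  split_ifs <;> simp

lemma B_ww {i : ℕ} (hi : i ≤ ρ) (i' : ℕ) : (gq ρ m).B (w ρ m i) (w ρ m i') = 0 := by
  simp [B_w hi, sg_w]

lemma B_wU (hm : 0 < m) {i j : ℕ} (hi : i ≤ ρ) (hj : j < ρ) (s : ℕ) :
    (gq ρ m).B (w ρ m i) (U ρ m j s) = (if i = j then 1 else 0) - if i = j + 1 then 1 else 0 := by
  simp only [B_w hi, sg_U hm _ hj]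
  split_ifs <;> omega

lemma U_add (hm : 0 < m) (j s : ℕ) : U ρ m j (s + m) = U ρ m j s + (w ρ m (j + 1) - w ρ m j) := by
  rw [U, U, Nat.add_mod_right, Nat.add_div_right _ hm, succ_nsmul, add_assoc]

lemma U_add_mul (hm : 0 < m) (j s N : ℕ) :
    U ρ m j (s + N * m) = U ρ m j s + N • (w ρ m (j + 1) - w ρ m j) := by
  induction N with
  | zero => simp
  | succ N ih => rw [Nat.succ_mul, ← add_assoc, U_add hm, ih, succ_nsmul, add_assoc]

lemma U_lt {j r : ℕ} (hj : j < ρ) (hr : r < m) :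
    U ρ m j r = Pi.single (.inr (⟨j, hj⟩, ⟨r, hr⟩)) 1 := by
  rw [U, Nat.mod_eq_of_lt hr, Nat.div_eq_of_lt hr, zero_smul, add_zero, u, dif_pos ⟨hj, hr⟩]

lemma B_UU (hm : 0 < m) {j j' : ℕ} (hj : j < ρ) (hj' : j' < ρ) (s s' : ℕ) :
    (gq ρ m).B (U ρ m j s) (U ρ m j' s') =
      (if (j = j' ∧ s % m < s' % m) ∨ (j' = j + 1 ∧ s' % m < s % m) then 1 else 0) -
      (if (j' = j ∧ s' % m < s % m) ∨ (j = j' + 1 ∧ s % m < s' % m) then 1 else 0) +
      (((s / m : ℕ) : ℤ) - (s' / m : ℕ)) *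
        ((if j + 1 = j' then 1 else 0) - (if j = j' then 2 else 0) + if j = j' + 1 then 1 else 0) := by
  have e : ∀ j s, U ρ m j s = U ρ m j (s % m) + (s / m) • (w ρ m (j + 1) - w ρ m j) := fun j s => by
    rw [← U_add_mul hm, mul_comm, Nat.mod_add_div]
  have h1 : ∀ {j j' : ℕ}, j < ρ → j' < ρ → ∀ s, (gq ρ m).B (w ρ m (j + 1) - w ρ m j) (U ρ m j' s) =
      (if j + 1 = j' then 1 else 0) - (if j = j' then 2 else 0) + if j = j' + 1 then 1 else 0 := by
    intro j j' hj hj' s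
    rw [map_sub, AddMonoidHom.sub_apply, B_wU hm hj hj', B_wU hm hj.le hj']
    split_ifs <;> omega
  rw [e j s, map_add, map_nsmul, AddMonoidHom.add_apply, AddMonoidHom.nsmul_apply, h1 hj hj',
    e j' s', map_add, map_nsmul, (gq ρ m).swap _ (_ - _), h1 hj' hj, U_lt hj (Nat.mod_lt _ hm),
    U_lt hj' (Nat.mod_lt _ hm), B_single]
  simp only [arr, nsmul_eq_mul, Nat.cast_ite, Nat.cast_one, Nat.cast_zero]
  have h2 : ((if j' + 1 = j then 1 else 0) - (if j' = j then 2 else 0) +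
      if j' = j + 1 then 1 else 0 : ℤ) =
      (if j + 1 = j' then 1 else 0) - (if j = j' then 2 else 0) + if j = j' + 1 then 1 else 0 := by
    split_ifs <;> omega
  rw [h2]
  ring

lemma divmod_near (hm : 0 < m) {s s' : ℕ} (h1 : s ≤ s') (h2 : s' ≤ s + m) :
    (s' / m = s / m ∧ s' % m + s = s % m + s') ∨
      (s' / m = s / m + 1 ∧ s' % m + s + m = s % m + s') := by
  have a1 := Nat.div_le_div_right (c := m) h1
  have a2 := Nat.div_le_div_right (c := m) h2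
  rw [Nat.add_div_right _ hm] at a2
  have a3 := Nat.mod_add_div s m
  have a4 := Nat.mod_add_div s' m
  rcases (show s' / m = s / m ∨ s' / m = s / m + 1 by omega) with h | h
  · rw [h] at a4
    exact Or.inl ⟨h, by omega⟩
  · rw [h, Nat.mul_succ] at a4
    exact Or.inr ⟨h, by omega⟩

lemma B_same (hm : 0 < m) {j : ℕ} (hj : j < ρ) {s s' : ℕ} (h1 : s < s') (h2 : s' < s + m) :
    (gq ρ m).B (U ρ m j s) (U ρ m j s') = 1 := by
  rw [B_UU hm hj hj]
  rcases divmod_near hm h1.le h2.le with ⟨a1, a2⟩ | ⟨a1, a2⟩ <;> rw [a1] <;>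
    split_ifs <;> omega

lemma B_up (hm : 0 < m) {j : ℕ} (hj : j + 1 < ρ) {s s' : ℕ} (h1 : s ≤ s') (h2 : s' < s + m) :
    (gq ρ m).B (U ρ m j s) (U ρ m (j + 1) s') = 0 := by
  rw [B_UU hm (by omega) hj]
  rcases divmod_near hm h1 h2.le with ⟨a1, a2⟩ | ⟨a1, a2⟩ <;> rw [a1] <;>
    split_ifs <;> omega

lemma B_down (hm : 0 < m) {j : ℕ} (hj : j + 1 < ρ) {s s' : ℕ} (h1 : s < s') (h2 : s' ≤ s + m) :
    (gq ρ m).B (U ρ m (j + 1) s) (U ρ m j s') = -1 := by
  rw [B_UU hm hj (by omega)]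
  rcases divmod_near hm h1.le h2 with ⟨a1, a2⟩ | ⟨a1, a2⟩ <;> rw [a1] <;>
    split_ifs <;> omega

lemma B_far (hm : 0 < m) {j j' : ℕ} (hj : j < ρ) (hj' : j' < ρ) (h : j + 2 ≤ j' ∨ j' + 2 ≤ j)
    (s s' : ℕ) : (gq ρ m).B (U ρ m j s) (U ρ m j' s') = 0 := by
  rw [B_UU hm hj hj']
  split_ifs <;> omega

lemma B_init (x x' : Fin ρ × Fin m) (h : (x.1 : ℕ) * m + x.2 < (x'.1 : ℕ) * m + x'.2) :
    (gq ρ m).B (Pi.single (Sum.inr x) 1) (Pi.single (Sum.inr x') 1) =
      if (x'.1 : ℕ) * m + x'.2 < (x.1 : ℕ) * m + x.2 + m then 1 else 0 := by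
  have h1 := x.2.2
  have h2 := x'.2.2
  rw [B_single]
  simp only [arr, Nat.cast_ite, Nat.cast_one, Nat.cast_zero]
  generalize (x.1 : ℕ) = a at h ⊢
  generalize (x'.1 : ℕ) = b at h ⊢
  rcases (show b < a ∨ b = a ∨ b = a + 1 ∨ a + 2 ≤ b by omega) with e | e | e | e
  · have := Nat.mul_le_mul_right m (Nat.succ_le_of_lt e)
    rw [Nat.succ_mul] at this
    omega
  · subst e
    split_ifs <;> omega
  · subst e
    rw [Nat.succ_mul] at h ⊢
    split_ifs <;> omega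
  · have := Nat.mul_le_mul_right m e
    rw [Nat.add_mul] at this
    split_ifs <;> omega

lemma concave_nonneg {S : ℕ → ℤ} {n : ℕ} (h0 : S 0 = 0) (h1 : S (n + 1) = 0)
    (h : ∀ j < n, S (j + 2) - S (j + 1) ≤ S (j + 1) - S j) {k : ℕ} (hk : k ≤ n) : 0 ≤ S k := by
  have a : ∀ i i', i ≤ i' → i' ≤ n → S (i' + 1) - S i' ≤ S (i + 1) - S i := by
    intro i i' h1 h2
    induction h1 with
    | refl => exact le_rfl
    | step _ ih => exact (h _ h2).trans (ih (Nat.le_of_succ_le h2))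
  by_cases hD : S (k + 1) - S k ≤ 0
  · have : ∀ i, k ≤ i → i ≤ n + 1 → S i ≤ S k := by
      intro i h1 h2
      induction h1 with
      | refl => exact le_rfl
      | step h3 ih =>
        have := a _ _ h3 (Nat.le_of_succ_le_succ h2)
        have := ih (Nat.le_of_succ_le h2)
        simp only [Nat.succ_eq_add_one]
        omega
    exact h1 ▸ this (n + 1) (by omega) le_rfl
  · have : ∀ i, i ≤ k → 0 ≤ S i := by
      intro i hi
      induction i with
      | zero => exact h0.ge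
      | succ i ih =>
        have := a i k (by omega) hk
        have := ih (by omega)
        omega
    exact this k le_rfl

/-- The number of mutations at level `j` before time `t`. -/
def tau (ρ t j : ℕ) : ℕ := if j < t % ρ then t / ρ + 1 else t / ρ

lemma tau_succ (hρ : 0 < ρ) (t : ℕ) {j : ℕ} (hj : j < ρ) :
    tau ρ (t + 1) j = if j = t % ρ then t / ρ + 1 else tau ρ t j := by
  have h1 := Nat.mod_lt t hρ
  have h2 := Nat.mod_lt (t + 1) hρ
  unfold tau
  rcases divmod_near hρ (by omega : t ≤ t + 1) (by omega : t + 1 ≤ t + ρ) with ⟨a1, a2⟩ | ⟨a1, a2⟩ <;>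
    rw [a1] <;> split_ifs <;> omega

lemma tau_self (t : ℕ) : tau ρ t (t % ρ) = t / ρ := if_neg (lt_irrefl _)

lemma tau_mono (hρ : 0 < ρ) {j : ℕ} (hj : j < ρ) : Monotone fun t => tau ρ t j :=
  monotone_nat_of_le_succ fun t => by
    rw [tau_succ hρ t hj]
    split_ifs with h
    · rw [h, tau_self]; omega
    · exact le_rfl

lemma tau_add (hρ : 0 < ρ) (t N j : ℕ) : tau ρ (t + N * ρ) j = tau ρ t j + N := by
  unfold tau
  rw [Nat.add_mul_mod_self_right, Nat.add_mul_div_right _ _ hρ]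
  split_ifs <;> omega

end Vale.Agent.P066.GC
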