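import Vale.Agent.P066.DBasic

/-! Contractions, homogeneous bases and dimension counts. -/

set_option linter.unusedSectionVars false

noncomputable section
open scoped Classical
open MvPolynomial Equiv

namespace Vale.Agent.P066

variable {Λ I : Type} [Fintype Λ] [Fintype I]

lemma kun_ind {p : Pl Λ → Prop} (h0 : p 0) (hadd : ∀ f g, p f → p g → p (f + g)) {f : Pl Λ}
    (hm : ∀ u ∈ f.support, p (monomial u (coeff u f))) : p f := by
  rw [f.as_sum]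
  exact Finset.sum_induction _ p hadd h0 hm
lemma kun_split (S : Finset Λ) (u : Λ →₀ ℕ) (r : ℂ) : (monomial u r : Pl Λ) =
    monomial (u.filter (· ∈ S)) r * monomial (u.filter (· ∉ S)) 1 := by
  rw [monomial_mul, Finsupp.filter_add_filter_not, mul_one]
lemma monomial_mem_sup {A : Finset Λ} {u : Λ →₀ ℕ} (h : ∀ a ∈ u.support, a ∈ A) (r : ℂ) :
    (monomial u r : Pl Λ) ∈ sup A := mem_sup_iff.mpr fun v hv => by
  rwa [Finset.mem_singleton.mp (support_monomial_subset hv)]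
lemma kun_in (S : Finset Λ) {A : Finset Λ} {f : Pl Λ} (hf : f ∈ sup A) {u : Λ →₀ ℕ}
    (hu : u ∈ f.support) (r : ℂ) : (monomial (u.filter (· ∈ S)) r : Pl Λ) ∈ sup (A ∩ S) :=
  monomial_mem_sup (fun a ha => by
    rw [Finsupp.support_filter, Finset.mem_filter] at ha
    exact Finset.mem_inter.mpr ⟨mem_sup_iff.mp hf u hu a ha.1, ha.2⟩) r
lemma kun_out (S : Finset Λ) {A : Finset Λ} {f : Pl Λ} (hf : f ∈ sup A) {u : Λ →₀ ℕ}
    (hu : u ∈ f.support) (r : ℂ) : (monomial (u.filter (· ∉ S)) r : Pl Λ) ∈ sup (A \ S) :=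
  monomial_mem_sup (fun a ha => by
    rw [Finsupp.support_filter, Finset.mem_filter] at ha
    exact Finset.mem_sdiff.mpr ⟨mem_sup_iff.mp hf u hu a ha.1, ha.2⟩) r

/-- Every polynomial in the variables of `A` is a sum of products across a cut. -/
lemma sup_cut (S : Finset Λ) {A : Finset Λ} {p : Pl Λ → Prop} (h0 : p 0)
    (hadd : ∀ f g, p f → p g → p (f + g))
    (hmul : ∀ f ∈ sup (A ∩ S), ∀ g ∈ sup (A \ S), p (f * g)) {f : Pl Λ} (hf : f ∈ sup A) :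
    p f :=   kun_ind h0 hadd fun u hu => by
    rw [kun_split S]
    exact hmul _ (kun_in S hf hu _) _ (kun_out S hf hu _)
lemma sup_cut_homog (S : Finset Λ) {A : Finset Λ} {m : ℕ} {p : Pl Λ → Prop} (h0 : p 0)
    (hadd : ∀ f g, p f → p g → p (f + g))
    (hmul : ∀ m1 m2, m1 + m2 = m → ∀ f ∈ sup (A ∩ S), ∀ g ∈ sup (A \ S), f.IsHomogeneous m1 →
      g.IsHomogeneous m2 → p (f * g)) {f : Pl Λ} (hf : f ∈ sup A) (hm : f.IsHomogeneous m) :
    p f :=   kun_ind h0 hadd fun u hu => by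
    rw [kun_split S]
    refine hmul _ _ ?_ _ (kun_in S hf hu _) _ (kun_out S hf hu _) (isHomogeneous_monomial _ rfl)
      (isHomogeneous_monomial _ rfl)
    rw [← map_add, Finsupp.filter_add_filter_not]
    by_contra h
    exact mem_support_iff.mp hu (hm.coeff_eq_zero h)
lemma kun_cut (S : Finset Λ) {p : Pl Λ → Prop} (h0 : p 0) (hadd : ∀ f g, p f → p g → p (f + g))
    (hmul : ∀ f ∈ sup S, ∀ g ∈ sup Sᶜ, p (f * g)) (f : Pl Λ) : p f :=
  sup_cut S h0 hadd (fun f hf g hg => hmul f (sup_mono Finset.inter_subset_right hf) g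
    (by rwa [Finset.compl_eq_univ_sdiff])) (sup_univ f)
lemma Phi_monomial (S : Finset Λ) (ℓ : Pl Λ →ₗ[ℂ] ℂ) (u : Λ →₀ ℕ) (r : ℂ) :
    Phi S ℓ (monomial u r) =
      r • ℓ (monomial (u.filter (· ∈ S)) 1) • monomial (u.filter (· ∉ S)) 1 := by
  rw [← mul_one r, ← smul_eq_mul, ← smul_monomial, map_smul, smul_eq_mul, mul_one]
  congr 1
  exact (basisMonomials Λ ℂ).constr_basis ℂ _ u
lemma Phi_of_mem (S : Finset Λ) (ℓ : Pl Λ →ₗ[ℂ] ℂ) {f : Pl Λ} (hf : f ∈ sup S) :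
    Phi S ℓ f = ℓ f • 1 := by
  refine kun_ind (p := fun f => Phi S ℓ f = ℓ f • 1) (by simp)
    (fun p q hp hq => by rw [map_add, map_add, hp, hq, add_smul]) fun u hu => ?_
  have h := mem_sup_iff.mp hf u hu
  rw [Phi_monomial, (Finsupp.filter_eq_self_iff _ _).mpr fun a ha => h a (Finsupp.mem_support_iff.mpr ha),
    (Finsupp.filter_eq_zero_iff _ _).mpr fun a ha => Finsupp.notMem_support_iff.mp fun h' =>
      ha (h a h'), smul_smul, ← smul_eq_mul, ← ℓ.map_smul, smul_monomial (coeff u f), smul_eq_mul, mul_one]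
  rfl
lemma Phi_mul_right' (S : Finset Λ) (ℓ : Pl Λ →ₗ[ℂ] ℂ) (f : Pl Λ) {g : Pl Λ} (hg : g ∈ sup Sᶜ) :
    Phi S ℓ (f * g) = Phi S ℓ f * g := by
  refine kun_ind (p := fun g => Phi S ℓ (f * g) = Phi S ℓ f * g) (by simp)
    (fun p q hp hq => by rw [mul_add, map_add, hp, hq, mul_add]) fun v hv => ?_
  have h := fun a ha => Finset.mem_compl.mp (mem_sup_iff.mp hg v hv a ha)
  generalize coeff v g = r
  induction f using MvPolynomial.induction_on' with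
  | monomial u t =>
    rw [monomial_mul, Phi_monomial, Phi_monomial, Finsupp.filter_add, Finsupp.filter_add,
      (Finsupp.filter_eq_self_iff _ v).mpr fun a ha => h a (Finsupp.mem_support_iff.mpr ha),
      (Finsupp.filter_eq_zero_iff _ v).mpr fun a ha => Finsupp.notMem_support_iff.mp fun h' =>
        h a h' ha, add_zero]
    simp only [smul_monomial, monomial_mul, smul_eq_mul]
    congr 1
    ring
  | add p q hp hq => rw [add_mul, map_add, hp, hq, map_add, add_mul]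
lemma Phi_mul (S : Finset Λ) (ℓ : Pl Λ →ₗ[ℂ] ℂ) {f g : Pl Λ} (hf : f ∈ sup S)
    (hg : g ∈ sup Sᶜ) : Phi S ℓ (f * g) = ℓ f • g := by
  rw [Phi_mul_right' S ℓ f hg, Phi_of_mem S ℓ hf, smul_mul_assoc, one_mul]
lemma Phi_mul_right (S : Finset Λ) (ℓ : Pl Λ →ₗ[ℂ] ℂ) (f : Pl Λ) {g : Pl Λ} (hg : g ∈ sup Sᶜ) :
    Phi S ℓ (f * g) = Phi S ℓ f * g := Phi_mul_right' S ℓ f hg
lemma Phi_mem_sup (S : Finset Λ) (ℓ : Pl Λ →ₗ[ℂ] ℂ) {A : Finset Λ} {f : Pl Λ} (hf : f ∈ sup A) :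
    Phi S ℓ f ∈ sup (A \ S) :=   sup_cut S (p := fun f => Phi S ℓ f ∈ sup (A \ S)) (by simp)
    (fun f g hf hg => by rw [map_add]; exact add_mem hf hg) (fun f hf g hg => by
      rw [Phi_mul S ℓ (sup_mono Finset.inter_subset_right hf)
        (sup_mono (fun a ha => Finset.mem_compl.mpr (Finset.mem_sdiff.mp ha).2) hg)]
      exact Subalgebra.smul_mem _ hg _) hf
lemma Phi_kill {S : Finset Λ} {ℓ : Pl Λ →ₗ[ℂ] ℂ} {J : Ideal (Pl Λ)} (hJ : GenIn J S)
    (hℓ : ∀ f ∈ J, ℓ f = 0) {f : Pl Λ} (hf : f ∈ J) : Phi S ℓ f = 0 := by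
  obtain ⟨G, hG, rfl⟩ := hJ
  have key : ∀ p, Phi S ℓ (f * p) = 0 := by
    induction hf using Submodule.span_induction with
    | mem g hg =>
      refine kun_cut S (by simp) (fun p q hp hq => by rw [mul_add, map_add, hp, hq, add_zero])
        fun p hp q hq => ?_
      rw [← mul_assoc, Phi_mul S ℓ (mul_mem (hG g hg) hp) hq,
        hℓ _ (Ideal.mul_mem_right _ _ (Ideal.subset_span hg)), zero_smul]
    | zero => simp
    | add f g _ _ hf hg => intro p; rw [add_mul, map_add, hf, hg, add_zero]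
    | smul r f _ hf => intro p; rw [smul_eq_mul, mul_comm r, mul_assoc]; exact hf _
  simpa using key 1
lemma Phi_stab {S : Finset Λ} (ℓ : Pl Λ →ₗ[ℂ] ℂ) {J : Ideal (Pl Λ)} (hJ : GenIn J Sᶜ)
    {f : Pl Λ} (hf : f ∈ J) : Phi S ℓ f ∈ J := by
  obtain ⟨G, hG, rfl⟩ := hJ
  have key : ∀ p, Phi S ℓ (p * f) ∈ Ideal.span G := by
    induction hf using Submodule.span_induction with
    | mem g hg =>
      intro p
      rw [Phi_mul_right S ℓ p (hG g hg)]
      exact Ideal.mul_mem_left _ _ (Ideal.subset_span hg)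
    | zero => simp
    | add f g _ _ hf hg => intro p; rw [mul_add, map_add]; exact add_mem (hf p) (hg p)
    | smul r f _ hf => intro p; rw [smul_eq_mul, ← mul_assoc]; exact hf _
  simpa using key 1
lemma Phi_rename (S : Finset Λ) (ℓ : Pl Λ →ₗ[ℂ] ℂ) {σ : Perm Λ} (hσ : ∀ a ∈ S, σ a = a)
    (f : Pl Λ) : Phi S ℓ (rename σ f) = rename σ (Phi S ℓ f) := by
  refine kun_cut S (p := fun f => Phi S ℓ (rename σ f) = rename σ (Phi S ℓ f)) (by simp)
    (fun p q hp hq => by simp only [map_add, hp, hq]) (fun p hp q hq => ?_) f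
  have h1 : rename σ q ∈ sup Sᶜ := sup_mono (Finset.image_subset_iff.mpr fun a ha =>
    Finset.mem_compl.mpr fun h => Finset.mem_compl.mp ha (σ.injective (hσ _ h) ▸ h))
    (rename_mem_sup σ hq)
  rw [map_mul, rename_of_fix hσ hp, Phi_mul S ℓ hp h1, Phi_mul S ℓ hp hq, map_smul]
lemma Phi_fubini (S : Finset Λ) (ℓ ℓ' : Pl Λ →ₗ[ℂ] ℂ) (f : Pl Λ) :
    ℓ' (Phi S ℓ f) = ℓ (Phi Sᶜ ℓ' f) := by
  refine kun_cut S (p := fun f => ℓ' (Phi S ℓ f) = ℓ (Phi Sᶜ ℓ' f)) (by simp)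
    (fun p q hp hq => by simp only [map_add, hp, hq]) (fun p hp q hq => ?_) f
  rw [Phi_mul S ℓ hp hq, mul_comm p, Phi_mul Sᶜ ℓ' hq (by rwa [compl_compl]), map_smul, map_smul,
    smul_eq_mul, smul_eq_mul, mul_comm]
theorem exists_HB' (U : Submodule ℂ (Pl Λ)) [Module.Finite ℂ U] (J : Ideal (Pl Λ)) :
    ∃ b : Fin (Module.finrank ℂ (U.map (Ideal.Quotient.mkₐ ℂ J).toLinearMap)) → Pl Λ,
      (∀ v, b v ∈ U) ∧ (∀ f ∈ U, ∃ r : _ → ℂ, f - ∑ v, r v • b v ∈ J) ∧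
      ∀ v, ∃ ℓ : Pl Λ →ₗ[ℂ] ℂ, (∀ f ∈ J, ℓ f = 0) ∧ ∀ w, ℓ (b w) = if w = v then 1 else 0 := by
  let π := (Ideal.Quotient.mkₐ ℂ J).toLinearMap
  have hπ : ∀ f, π f = 0 ↔ f ∈ J := fun f => Ideal.Quotient.eq_zero_iff_mem
  let e := Module.finBasis ℂ (U.map π)
  choose b hb hb' using fun v => (e v).2
  refine ⟨b, hb, fun f hf => ⟨e.repr ⟨π f, f, hf, rfl⟩, (hπ _).mp ?_⟩, fun v => ?_⟩
  · have := congrArg Subtype.val (e.sum_repr ⟨π f, f, hf, rfl⟩)
    simp only [Submodule.coe_sum, Submodule.coe_smul] at this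
    simp only [map_sub, map_sum, map_smul, hb']
    exact sub_eq_zero.mpr this.symm
  · obtain ⟨g, hg⟩ := (e.coord v).exists_extend
    refine ⟨g ∘ₗ π, fun f hf => by rw [LinearMap.comp_apply, (hπ f).mpr hf, map_zero],
      fun w => ?_⟩
    have := LinearMap.congr_fun hg (e w)
    rw [LinearMap.comp_apply, hb']
    simpa [Finsupp.single_apply] using this
/-- Membership in a sum of ideals is detected by contractions. -/
theorem Phi_sep {S : Finset Λ} {J1 J2 : Ideal (Pl Λ)} (h2 : GenIn J2 S) {f : Pl Λ}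
    (h : ∀ ℓ : Pl Λ →ₗ[ℂ] ℂ, (∀ g ∈ J2, ℓ g = 0) → Phi S ℓ f ∈ J1) : f ∈ J1 ⊔ J2 := by
  have _ := h2
  let U := Submodule.span ℂ ((f.support.image fun u =>
    (monomial (u.filter (· ∈ S)) 1 : Pl Λ) : Finset (Pl Λ)) : Set (Pl Λ))
  obtain ⟨b, -, h3, h4⟩ := exists_HB' U J2
  choose ℓ h5 h6 using h4
  have h9 : ∀ u ∈ f.support, (monomial (u.filter (· ∈ S)) 1 : Pl Λ) ∈ U := fun u hu =>
    Submodule.subset_span (Finset.mem_coe.mpr (Finset.mem_image_of_mem _ hu))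
  have key : f - ∑ v, b v * Phi S (ℓ v) f ∈ J2 := by
    refine kun_ind (p := fun f => f - ∑ v, b v * Phi S (ℓ v) f ∈ J2) (by simp)
      (fun p q hp hq => ?_) fun u hu => ?_
    · simp only [map_add, mul_add, Finset.sum_add_distrib]
      rw [add_sub_add_comm]
      exact add_mem hp hq
    · obtain ⟨r, hr⟩ := h3 _ (h9 u hu)
      have h7 : ∀ v, ℓ v (monomial (u.filter (· ∈ S)) 1) = r v := fun v => by
        have := h5 v _ hr
        simpa [h6, sub_eq_zero] using this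
      have h8 := J2.mul_mem_right (monomial (u.filter (· ∉ S)) (coeff u f)) hr
      rw [sub_mul, monomial_mul, Finsupp.filter_add_filter_not, one_mul, Finset.sum_mul] at h8
      simp only [Phi_monomial, h7]
      refine (congrArg (· ∈ J2) (congrArg _ (Finset.sum_congr rfl fun v _ => ?_))).mp h8
      simp [smul_monomial, ← mul_smul_comm, mul_comm]
  rw [← add_sub_cancel (∑ v, b v * Phi S (ℓ v) f) f]
  exact Submodule.add_mem_sup (sum_mem fun v _ => J1.mul_mem_left _ (h _ (h5 v))) key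
theorem mem_of_functionals {J : Submodule ℂ (Pl Λ)} {f : Pl Λ}
    (h : ∀ ℓ : Pl Λ →ₗ[ℂ] ℂ, (∀ g ∈ J, ℓ g = 0) → ℓ f = 0) : f ∈ J := by
  by_contra hf
  obtain ⟨ℓ, h1, h2⟩ := Submodule.exists_le_ker_of_notMem hf
  exact h1 (h ℓ h2)
theorem exists_fun_two {S T : Finset Λ} (hd : Disjoint S T) {J1 J2 : Ideal (Pl Λ)}
    (h1 : GenIn J1 S) (h2 : GenIn J2 T) {ℓ1 ℓ2 : Pl Λ →ₗ[ℂ] ℂ} (k1 : ∀ f ∈ J1, ℓ1 f = 0)
    (k2 : ∀ f ∈ J2, ℓ2 f = 0) :
    ∃ ℓ : Pl Λ →ₗ[ℂ] ℂ, (∀ f ∈ J1 ⊔ J2, ℓ f = 0) ∧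
      ∀ f ∈ sup S, ∀ g ∈ sup T, ℓ (f * g) = ℓ1 f * ℓ2 g := by
  have hT : T ⊆ Sᶜ := fun a ha => Finset.mem_compl.mpr (Finset.disjoint_right.mp hd ha)
  refine ⟨ℓ2 ∘ₗ Phi S ℓ1, fun f hf => ?_, fun f hf g hg => ?_⟩
  · obtain ⟨p, hp, q, hq, rfl⟩ := Submodule.mem_sup.mp hf
    rw [LinearMap.comp_apply, map_add, Phi_kill h1 k1 hp, zero_add]
    exact k2 _ (Phi_stab ℓ1 (h2.mono hT) hq)
  · rw [LinearMap.comp_apply, Phi_mul S ℓ1 hf (sup_mono hT hg), map_smul, smul_eq_mul]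
theorem exists_fun_prod (s : Finset ℕ) {B : ℕ → Finset Λ}
    (hd : ∀ l ∈ s, ∀ l' ∈ s, l ≠ l' → Disjoint (B l) (B l')) {J : ℕ → Ideal (Pl Λ)}
    (hJ : ∀ l ∈ s, GenIn (J l) (B l)) {ℓ : ℕ → Pl Λ →ₗ[ℂ] ℂ}
    (hk : ∀ l ∈ s, ∀ f ∈ J l, ℓ l f = 0) :
    ∃ ℓ0 : Pl Λ →ₗ[ℂ] ℂ, (∀ f ∈ ⨆ l ∈ s, J l, ℓ0 f = 0) ∧
      ∀ f : ℕ → Pl Λ, (∀ l ∈ s, f l ∈ sup (B l)) → ℓ0 (∏ l ∈ s, f l) = ∏ l ∈ s, ℓ l (f l) := by
  induction s using Finset.induction_on with
  | empty => exact ⟨lcoeff ℂ 0, by simp, by simp⟩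
  | insert l s hl ih =>
    have hs := fun l' (h : l' ∈ s) => Finset.mem_insert_of_mem (b := l) h
    have h0 := Finset.mem_insert_self l s
    obtain ⟨ℓ1, k1, k2⟩ := ih (fun a ha b hb => hd a (hs a ha) b (hs b hb))
      (fun a ha => hJ a (hs a ha)) fun a ha => hk a (hs a ha)
    obtain ⟨ℓ0, k3, k4⟩ := exists_fun_two (S := B l) (T := s.biUnion B)
      ((Finset.disjoint_biUnion_right _ _ _).mpr fun a ha => hd l h0 a (hs a ha)
        fun h => hl (h ▸ ha)) (hJ l h0)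
      (GenIn.iSup s fun a ha => (hJ a (hs a ha)).mono (Finset.subset_biUnion_of_mem B ha))
      (hk l h0) k1
    refine ⟨ℓ0, by rwa [Finset.iSup_insert], fun f hf => ?_⟩
    rw [Finset.prod_insert hl, Finset.prod_insert hl, k4 _ (hf l h0) _ (prod_mem fun a ha =>
      sup_mono (Finset.subset_biUnion_of_mem B ha) (hf a (hs a ha))), k2 f fun a ha => hf a (hs a ha)]

/-- A basis modulo an ideal with dual functionals. -/
theorem exists_HB (U : Submodule ℂ (Pl Λ)) [Module.Finite ℂ U] (J : Ideal (Pl Λ)) :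
    ∃ b : Fin (Module.finrank ℂ (U.map (Ideal.Quotient.mkₐ ℂ J).toLinearMap)) → Pl Λ,
      (∀ v, b v ∈ U) ∧ (∀ f ∈ U, ∃ r : _ → ℂ, f - ∑ v, r v • b v ∈ J) ∧
      ∀ v, ∃ ℓ : Pl Λ →ₗ[ℂ] ℂ, (∀ f ∈ J, ℓ f = 0) ∧ ∀ w, ℓ (b w) = if w = v then 1 else 0 :=   exists_HB' U J

theorem finrank_eq_card (U : Submodule ℂ (Pl Λ)) (J : Ideal (Pl Λ)) {α : Type*} (s : Finset α)
    (x : α → Pl Λ) (hx : ∀ v ∈ s, x v ∈ U)
    (hspan : ∀ f ∈ U, ∃ r : α → ℂ, f - ∑ v ∈ s, r v • x v ∈ J)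
    (hind : ∀ r : α → ℂ, ∑ v ∈ s, r v • x v ∈ J → ∀ v ∈ s, r v = 0) :
    Module.finrank ℂ (U.map (Ideal.Quotient.mkₐ ℂ J).toLinearMap) = s.card := by
  let π := (Ideal.Quotient.mkₐ ℂ J).toLinearMap
  have hπ : ∀ f, π f = 0 ↔ f ∈ J := fun f => Ideal.Quotient.eq_zero_iff_mem
  have h1 : LinearIndependent ℂ fun v : s => π (x v) := by
    refine Fintype.linearIndependent_iff.mpr fun r hr v => ?_
    have := hind (fun a => if h : a ∈ s then r ⟨a, h⟩ else 0) ((hπ _).mp (by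
      rw [← hr, map_sum, ← Finset.sum_coe_sort]
      exact Finset.sum_congr rfl fun a _ => by simp)) v v.2
    simpa using this
  have h2 : U.map π = Submodule.span ℂ (Set.range fun v : s => π (x v)) := by
    refine le_antisymm ?_ (Submodule.span_le.mpr ?_)
    · rintro _ ⟨f, hf, rfl⟩
      obtain ⟨r, hr⟩ := hspan f hf
      rw [← hπ, map_sub, sub_eq_zero, map_sum] at hr
      rw [hr]
      refine sum_mem fun v hv => ?_
      rw [map_smul]
      exact Submodule.smul_mem _ _ (Submodule.subset_span ⟨⟨v, hv⟩, rfl⟩)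
    · rintro _ ⟨v, rfl⟩
      exact ⟨_, hx v v.2, rfl⟩
  rw [h2, finrank_span_eq_card h1, Fintype.card_coe]

namespace Dat

variable (D : Dat Λ I)

theorem hdim_transport (pr : Pr) {S S' : Finset Λ} (h : D.typ S = D.typ S') (m : ℕ) :
    D.hdim (D.Id pr S) S m = D.hdim (D.Id pr S') S' m := by
  obtain ⟨σ, hσ, rfl⟩ := D.exists_perm (Finset.subset_univ S) (Finset.subset_univ S') h
  have h0 := D.Gam_GG hσ
  have e : (S.image σ).image (σ⁻¹ :) = S := by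
    rw [Finset.image_image, ← Perm.coe_mul, inv_mul_cancel, Perm.coe_one, Finset.image_id]
  obtain ⟨b, h1, h2, h3⟩ := exists_HB (D.W S m) (D.Id pr S)
  refine ((finrank_eq_card _ _ Finset.univ (fun v => rename σ (b v))
    (fun v _ => D.rename_mem_W (h1 v) h0) (fun f hf => ?_) fun r hr v _ => ?_).trans
    (Finset.card_fin _)).symm
  · obtain ⟨r, hr⟩ := h2 _ (e ▸ D.rename_mem_W hf (inv_mem h0))
    have := D.rename_mem_Id h0 hr
    rw [map_sub, ← rename_mul_perm, mul_inv_cancel, Perm.coe_one, rename_id_apply, map_sum] at this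
    exact ⟨r, by simpa only [map_smul] using this⟩
  · have := D.rename_mem_Id (inv_mem h0) hr
    simp only [e, map_sum, map_smul, ← rename_mul_perm, inv_mul_cancel, Perm.coe_one,
      rename_id_apply] at this
    obtain ⟨ℓ, h4, h5⟩ := h3 v
    simpa [h5] using h4 _ this
theorem hd_typ (pr : Pr) (S : Finset Λ) (m : ℕ) :
    D.hd pr (D.typ S) m = D.hdim (D.Id pr S) S m := by
  have h : ∃ T, D.typ T = D.typ S := ⟨S, rfl⟩
  rw [hd, dif_pos h]
  exact D.hdim_transport pr h.choose_spec m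
lemma hdim_top (A : Finset Λ) (m : ℕ) : D.hdim ⊤ A m = 0 :=   finrank_eq_card _ _ (∅ : Finset Unit) (fun _ => 0) (by simp) (by simp) (by simp)
lemma hd_zero {pr : Pr} (h : ¬ pr (0, 0) (0, 0)) (m : ℕ) :
    D.hd pr 0 m = if m = 0 then 1 else 0 := by
  rw [← D.typ_empty, hd_typ, D.Id_empty h]
  split_ifs with hm
  · subst hm
    refine finrank_eq_card _ _ (Finset.univ : Finset Unit) (fun _ => 1)
      (fun _ _ => ⟨one_mem _, isHomogeneous_one _ _, fun σ hσ => ?_⟩) (fun f hf => ?_)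
      fun r hr v _ => by simpa using hr
    · have : σ = 1 := Equiv.ext fun a => (D.mem_Gam.mp hσ).2 a (by simp)
      simp [this, D.eta_one]
    · obtain ⟨r, rfl⟩ := mem_sup_empty hf.1
      exact ⟨fun _ => r, by simp [C_eq_smul_one]⟩
  · refine finrank_eq_card _ _ (∅ : Finset Unit) (fun _ => 0) (by simp) (fun f hf => ?_) (by simp)
    obtain ⟨r, rfl⟩ := mem_sup_empty hf.1
    have := hf.2.1.coeff_eq_zero (d := 0) (by simpa using Ne.symm hm)
    simpa using this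
lemma hd_top {pr : Pr} {d : I → ℕ} (m : ℕ) (h : ∀ S, D.typ S = d → D.Id pr S = ⊤) :
    D.hd pr d m = 0 := by
  rw [hd]
  split_ifs with h1
  · rw [h _ h1.choose_spec, hdim_top]
  · rfl
lemma hd_prB {d : I → ℕ} (h0 : d ≠ 0) (h : 0 ≤ D.pd d) (m : ℕ) : D.hd prB d m = 0 :=   D.hd_top m fun S hS => D.Id_eq_top_left ⟨fun h1 => h0 (hS ▸ D.typ_eq_zero.mpr
    (Finset.card_eq_zero.mp h1)), by rwa [← hS, ← ph_eq] at h⟩
lemma hd_prC {d : I → ℕ} (h0 : d ≠ 0) (h : D.pd d ≤ 0) (m : ℕ) : D.hd prC d m = 0 :=   D.hd_top m fun S hS => D.Id_eq_top_right ⟨fun h1 => h0 (hS ▸ D.typ_eq_zero.mpr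
    (Finset.card_eq_zero.mp h1)), by rwa [← hS, ← ph_eq] at h⟩
lemma hd_prK {d : I → ℕ} (h : D.pd d ≠ 0) (m : ℕ) : D.hd prK d m = 0 :=   D.hd_top m fun S hS => D.KK_eq_top (by rwa [← hS, ← ph_eq] at h)

end Dat

end Vale.Agent.P066
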