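import Vale.Agent.P066.Ev

/-! Transfer of series between cones and lattices. -/

set_option linter.unusedSectionVars false

noncomputable section
open scoped Classical
open Module

namespace Vale.Agent.P066

variable {L : Type} [AddCommGroup L] {ι : Type} [Fintype ι] {q : QT L} {e : Basis ι ℤ L}
variable {L' : Type} [AddCommGroup L'] {ι' : Type} [Fintype ι'] {q' : QT L'} {e' : Basis ι' ℤ L'}

/-- The map preserves the forms. -/
def Iso (q : QT L) (q' : QT L') (Φ : L ≃+ L') : Prop := ∀ a b, q'.B (Φ a) (Φ b) = q.B a b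

lemma iso_refl (q : QT L) : Iso q q (AddEquiv.refl L) := fun _ _ => rfl

lemma rel_refl_iff {f : Ser q e} {ι' : Type} [Fintype ι'] {e' : Basis ι' ℤ L} {f' : Ser q e'} :
    Rel (AddEquiv.refl L) f f' ↔ ∀ n, f' n = f n := Iff.rfl

variable {Φ : L ≃+ L'}

theorem exists_rel (q' : QT L') (e' : Basis ι' ℤ L') {f : Ser q e}
    (h : ∀ n, f n ≠ 0 → Φ n ∈ cone e') : ∃ f' : Ser q' e', Rel Φ f f' :=
  ⟨⟨fun n => f (Φ.symm n), fun n hn => by simpa using h _ hn⟩, fun n => by simp⟩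
lemma Rel.symm {f : Ser q e} {f' : Ser q' e'} (h : Rel Φ f f') : Rel Φ.symm f' f :=
  fun n => by rw [← h, AddEquiv.apply_symm_apply]
lemma Rel.unique {f : Ser q e} {f' g' : Ser q' e'} (h : Rel Φ f f') (h' : Rel Φ f g') :
    f' = g' :=
  Ser.ext' fun n => by rw [← h.symm n, ← h'.symm n]
lemma Rel.zero_apply {f : Ser q e} {f' : Ser q' e'} (h : Rel Φ f f') : f' 0 = f 0 := by rw [← h 0, map_zero]
lemma rel_one : Rel Φ (1 : Ser q e) (1 : Ser q' e') :=
  fun n => by simp [Ser.one_apply]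
lemma Rel.add {f g : Ser q e} {f' g' : Ser q' e'} (h1 : Rel Φ f f') (h2 : Rel Φ g g') :
    Rel Φ (f + g) (f' + g') :=
  fun n => by rw [Ser.add_apply, Ser.add_apply, h1, h2]
lemma Rel.sum {α : Type*} (s : Finset α) {f : α → Ser q e} {f' : α → Ser q' e'}
    (h : ∀ x ∈ s, Rel Φ (f x) (f' x)) : Rel Φ (∑ x ∈ s, f x) (∑ x ∈ s, f' x) :=
  fun n => by
    rw [Ser.sum_apply, Ser.sum_apply]
    exact Finset.sum_congr rfl fun x hx => h x hx n
lemma Rel.mul (hΦ : Iso q q' Φ) {f g : Ser q e} {f' g' : Ser q' e'} (h1 : Rel Φ f f')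
    (h2 : Rel Φ g g') : Rel Φ (f * g) (f' * g') :=
  fun n => by
    rw [Ser.mul_cv, Ser.mul_cv, cv, cv, ← finsum_comp_equiv Φ.toEquiv]
    refine finsum_congr fun a => ?_
    rw [← hΦ, ← h1, ← h2, map_sub]
    rfl
lemma Rel.list_prod (hΦ : Iso q q' Φ) {α : Type*} (l : List α) {f : α → Ser q e}
    {f' : α → Ser q' e'} (h : ∀ x ∈ l, Rel Φ (f x) (f' x)) :
    Rel Φ (l.map f).prod (l.map f').prod := by
  induction l with
  | nil => exact rel_one
  | cons x l ih =>
    rw [List.map_cons, List.map_cons, List.prod_cons, List.prod_cons]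
    exact (h x (by simp)).mul hΦ (ih fun y hy => h y (List.mem_cons_of_mem _ hy))
lemma Rel.sp_comap {f : Ser q e} {f' : Ser q' e'} (h : Rel Φ f f') :
    Sp Set.univ f ((cone e').comap Φ.toAddMonoidHom) := fun n _ h0 => f'.sp (Φ n) (by rwa [h n])

lemma Rel.sp {f : Ser q e} {f' : Ser q' e'} (h : Rel Φ f f') {M : Set L} {M' : Set L'}
    (hs : Sp Set.univ f M) (hM : ∀ n ∈ M, Φ n ∈ M') : Sp Set.univ f' M' := fun n _ h0 => by
  have := hM _ (hs (Φ.symm n) trivial (by rwa [h.symm n]))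
  rwa [AddEquiv.apply_symm_apply] at this

lemma Rel.inv (hΦ : Iso q q' Φ) {f : Ser q e} {f' : Ser q' e'} (hf : f 0 = 1) (h : Rel Φ f f') :
    Rel Φ (inv f) (inv f') := by
  obtain ⟨g, hg⟩ := exists_rel (Φ := Φ) q' e' (f := P066.inv f) fun n h0 =>
    h.sp_comap.inv low_univ hf n trivial h0
  have := h.mul hΦ hg
  rw [mul_inv hf] at this
  rwa [inv_eq_of_mul (h.zero_apply.trans hf) (this.unique rel_one)]
theorem Rel.fac (hΦ : Iso q q' Φ) {f : Ser q e} {f' : Ser q' e'} (hf : f 0 = 1) (h : Rel Φ f f')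
    {θ : L →+ ℚ} {θ' : L' →+ ℚ} (hθ : ∀ n, θ' (Φ n) = θ n) :
    Rel Φ (neg θ f) (neg θ' f') ∧ Rel Φ (zer θ f) (zer θ' f') ∧ Rel Φ (pos θ f) (pos θ' f') := by
  obtain ⟨h1, h2, h3⟩ := fac_sp low_univ θ hf h.sp_comap
  obtain ⟨a, ha⟩ := exists_rel (Φ := Φ) q' e' (f := neg θ f) fun n h0 => h1 n trivial h0
  obtain ⟨b, hb⟩ := exists_rel (Φ := Φ) q' e' (f := zer θ f) fun n h0 => h2 n trivial h0
  obtain ⟨c, hc⟩ := exists_rel (Φ := Φ) q' e' (f := pos θ f) fun n h0 => h3 n trivial h0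
  have s := fac_spec θ hf
  have k := (ha.mul hΦ hb).mul hΦ hc
  rw [← fac_eq θ hf] at k
  obtain ⟨k1, k2, k3⟩ := IsFac.unique low_univ (θ := θ') (h.zero_apply.trans hf)
    ⟨ha.zero_apply.trans s.a0, hb.zero_apply.trans s.b0, hc.zero_apply.trans s.c0,
      ha.sp s.spa fun n hn => hn.imp (fun x => by rw [x, map_zero]) fun x => by rwa [hθ],
      hb.sp s.spb fun n hn => (hθ n).trans hn,
      hc.sp s.spc fun n hn => hn.imp (fun x => by rw [x, map_zero]) fun x => by rwa [hθ],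
      cong_univ.2 (h.unique k)⟩
  rw [cong_univ.1 k1, cong_univ.1 k2, cong_univ.1 k3]
  exact ⟨ha, hb, hc⟩
theorem Rel.lg (hΦ : Iso q q' Φ) {f : Ser q e} {f' : Ser q' e'} (hf : f 0 = 1) (h : Rel Φ f f')
    {n : L} (hs : Sp Set.univ f (ZerS (th q n))) : lg f' (Φ n) = lg f n := by
  have h1 : Rel Φ (Dr ((deg e').comp Φ.toAddMonoidHom) f) (Dr (deg e') f') := fun x => by
    rw [Dr_apply, Dr_apply, h]; rfl
  rw [P066.lg, (h.inv hΦ hf).mul hΦ h1 n, lg_indep hf hs]
  by_cases h0 : P066.lg f n = 0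
  · rw [h0, mul_zero, zero_div]
  have hn : n ≠ 0 := fun x => h0 (by rw [x, lg_zero])
  have h2 : n ∈ (cone e').comap Φ.toAddMonoidHom := lg_mem low_univ trivial hf h.sp_comap h0
  have h3 : (deg e' (Φ n) : R) ≠ 0 := deg_cast_ne h2 ((map_ne_zero_iff Φ Φ.injective).2 hn)
  exact mul_div_cancel_left₀ _ h3
lemma rel_mono {m : L} (hm : m ∈ cone e) (hm' : Φ m ∈ cone e') (a : R) :
    Rel Φ (mono q e m a) (mono q' e' (Φ m) a) :=
  fun n => by simp only [mono_apply hm, mono_apply hm', Φ.injective.eq_iff]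
lemma rel_ev {m : L} (hm : m ∈ cone e) (hm' : Φ m ∈ cone e') (φ : PowerSeries R) :
    Rel Φ (ev q e m φ) (ev q' e' (Φ m) φ) :=
  fun n => by
    simp only [ev_apply hm, ev_apply hm', evf, ← map_nsmul, Φ.injective.eq_iff]
lemma rel_Ez {m : L} (hm : m ∈ cone e) (hm' : Φ m ∈ cone e') :
    Rel Φ (Ez q e m) (Ez q' e' (Φ m)) := rel_ev hm hm' _
lemma rel_HP {ι' : Type} [Fintype ι'] {e' : Basis ι' ℤ L} {V : Type} {v : V → L} {W : Finset V}
    (h : ∀ a ∈ W, v a ∈ cone e) (h' : ∀ a ∈ W, v a ∈ cone e') (ks : List ℕ) :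
    Rel (AddEquiv.refl L) (HP q e v W ks) (HP q e' v W ks) :=
  Rel.list_prod (iso_refl q) ks fun _ _ => Rel.sum _ fun S hS => by
    simp only [Finset.mem_filter, Finset.mem_powersetCard] at hS
    have := hS.1.1
    exact rel_mono (sum_mem fun a ha => h a (this ha)) (sum_mem fun a ha => h' a (this ha)) 1

namespace Push

variable (P : Push q e q' e')

lemma deg_le {d : L} (hd : d ∈ cone e) : deg e d ≤ deg e' (P.γ d) :=
  hom_le_of_basis (deg e) ((deg e').comp P.γ)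
    (fun i => by rw [deg_basis]; exact deg_pos (P.mem i) (P.ne i)) hd
lemma map_ne {d : L} (hd : d ∈ cone e) (h0 : d ≠ 0) : P.γ d ≠ 0 :=
  fun h => by
    have := P.deg_le hd
    have := deg_pos hd h0
    rw [h, map_zero] at *
    omega
lemma mem_ins {D : ℕ} {d : L} : d ∈ insert 0 (NF e D) ↔ d ∈ cone e ∧ deg e d ≤ D := by
  rw [Finset.mem_insert, mem_NF]
  constructor
  · rintro (rfl | h)
    · exact ⟨zero_mem _, by simp⟩
    · exact ⟨h.1, h.2.2⟩
  · intro h
    by_cases h0 : d = 0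
    · exact Or.inl h0
    · exact Or.inr ⟨h.1, h0, h.2⟩

lemma app_apply (f : Ser q e) (n : L') {D : ℕ} (hD : deg e' n ≤ D) :
    P.app f n = ∑ d ∈ insert 0 (NF e D), if P.γ d = n then tp (P.jj d) * f d else 0 := by
  refine finsum_eq_sum_of_support_subset _ fun d hd => ?_
  by_cases h1 : P.γ d = n
  · rw [Function.mem_support, if_pos h1] at hd
    have h2 := f.sp d (right_ne_zero_of_mul hd)
    exact Finset.mem_coe.2 (mem_ins.2 ⟨h2, (P.deg_le h2).trans (h1 ▸ hD)⟩)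
  · exact absurd (if_neg h1) hd
lemma app_mono {m : L} (hm : m ∈ cone e) (a : R) :
    P.app (mono q e m a) = mono q' e' (P.γ m) (tp (P.jj m) * a) := by
  refine Ser.ext' fun n => ?_
  show (∑ᶠ d, if P.γ d = n then tp (P.jj d) * mono q e m a d else 0) = _
  rw [finsum_eq_single _ m, mono_apply hm, mono_apply (P.map_cone hm), if_pos rfl]
  · exact if_congr eq_comm rfl rfl
  · intro d hd
    rw [mono_apply hm, if_neg hd, mul_zero, ite_self]

lemma app_one : P.app 1 = 1 := by rw [← mono_zero_one, P.app_mono (zero_mem _), map_zero, map_zero, tp_zero, one_mul, mono_zero_one]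
lemma app_mul (f g : Ser q e) : P.app (f * g) = P.app f * P.app g := by
  refine Ser.ext' fun n => ?_
  by_cases hn : n ∈ cone e'
  swap
  · rw [Ser.eq_zero _ hn, Ser.eq_zero _ hn]
  obtain ⟨D, hD⟩ : ∃ D : ℕ, deg e' n ≤ D := ⟨_, Int.self_le_toNat _⟩
  have e1 : (P.app f * P.app g) n = ∑ a ∈ insert 0 (NF e D), ∑ b ∈ insert 0 (NF e D),
      if P.γ (a + b) = n then tp (P.jj (a + b)) * (tp (q.B a b) * f a * g b) else 0 := by
    have e2 : ∀ x ∈ box e' n, tp (q'.B x n) * P.app f x * P.app g (n - x) =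
        ∑ a ∈ insert 0 (NF e D), tp (q'.B x n) * ∑ b ∈ insert 0 (NF e D),
          (if P.γ a = x then tp (P.jj a) * f a else 0) *
            if P.γ b = n - x then tp (P.jj b) * g b else 0 := fun x hx => by
      have h1 := deg_nonneg (mem_box.1 hx).1
      have h2 := deg_nonneg (mem_box.1 hx).2
      rw [map_sub] at h2
      rw [P.app_apply f x (D := D) (by omega), P.app_apply g (n - x) (D := D) (by
        rw [map_sub]; omega), mul_assoc, Finset.sum_mul_sum, Finset.mul_sum]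
    rw [Ser.mul_apply, Finset.sum_congr rfl e2, Finset.sum_comm]
    refine Finset.sum_congr rfl fun a ha => ?_
    simp only [Finset.mul_sum]
    rw [Finset.sum_comm]
    refine Finset.sum_congr rfl fun b hb => ?_
    rw [Finset.sum_eq_single (P.γ a), if_pos rfl]
    · by_cases h : P.γ (a + b) = n
      · rw [if_pos h, if_pos (by rw [← h]; simp), ← h, P.form, map_add, map_add, q.alt, zero_add,
          tp_add]
        ring
      · rw [if_neg h, if_neg (fun x => h (by rw [map_add, x]; simp)), mul_zero, mul_zero]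
    · intro x _ hx
      rw [if_neg (Ne.symm hx), zero_mul, mul_zero]
    · intro h
      rw [if_neg (c := P.γ b = n - P.γ a) fun x => h (mem_box.2
        ⟨P.map_cone (mem_ins.1 ha).1, x ▸ P.map_cone (mem_ins.1 hb).1⟩), mul_zero, mul_zero]
  rw [e1, P.app_apply _ n hD, Finset.sum_sigma']
  simp only [Ser.mul_apply, Finset.mul_sum, Finset.ite_sum_zero]
  rw [Finset.sum_sigma']
  refine Finset.sum_bij_ne_zero (fun x _ _ => ⟨x.2, x.1 - x.2⟩) ?_ ?_ ?_ ?_
  · rintro ⟨d, a⟩ h -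
    simp only [Finset.mem_sigma, mem_ins, mem_box] at h ⊢
    have h1 := deg_nonneg h.2.1
    have h2 := deg_nonneg h.2.2
    have h3 := h.1.2
    rw [map_sub] at h2
    exact ⟨⟨h.2.1, by omega⟩, h.2.2, by rw [map_sub]; omega⟩
  · rintro ⟨d, a⟩ - - ⟨d', a'⟩ - - h
    obtain ⟨rfl, h2⟩ : a = a' ∧ HEq (d - a) (d' - a') := Sigma.mk.inj_iff.1 h
    rw [sub_left_inj.1 (eq_of_heq h2)]
  · rintro ⟨a, b⟩ h h0
    simp only [Finset.mem_sigma, mem_ins] at h
    have h1 : P.γ (a + b) = n := by by_contra x; exact h0 (if_neg x)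
    have h2 := add_mem h.1.1 h.2.1
    refine ⟨⟨a + b, a⟩, ?_, ?_, by simp⟩
    · simp only [Finset.mem_sigma, mem_ins, mem_box]
      exact ⟨⟨h2, (P.deg_le h2).trans (h1 ▸ hD)⟩, h.1.1, by simpa using h.2.1⟩
    · simpa [q.alt] using h0
  · rintro ⟨d, a⟩ - -
    simp [q.alt]
lemma app_zero_apply (f : Ser q e) : P.app f 0 = f 0 := by
  rw [P.app_apply f 0 (D := 0) (by simp), Finset.sum_eq_single 0]
  · simp
  · intro d hd h0
    exact if_neg (P.map_ne (mem_ins.1 hd).1 h0)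
  · simp
lemma app_cong {D : ℕ} {f g : Ser q e} (h : Cong (ND e D) f g) :
    Cong (ND e' D) (P.app f) (P.app g) :=
  fun n hn => by
    rw [P.app_apply f n hn, P.app_apply g n hn]
    exact Finset.sum_congr rfl fun d hd => by rw [h d (mem_ins.1 hd).2]
lemma app_sp {M : Set L} {M' : Set L'} {f : Ser q e} (h : Sp Set.univ f M)
    (hM : ∀ d ∈ M, d ∈ cone e → P.γ d ∈ M') : Sp Set.univ (P.app f) M' :=
  fun n _ h0 => by
    rw [P.app_apply f n (Int.self_le_toNat _)] at h0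
    obtain ⟨d, hd, h1⟩ := Finset.exists_ne_zero_of_sum_ne_zero h0
    have h2 : P.γ d = n := by by_contra x; exact h1 (if_neg x)
    rw [if_pos h2] at h1
    exact h2 ▸ hM d (h d trivial (right_ne_zero_of_mul h1)) (mem_ins.1 hd).1
/-- Image of a factor. -/
def fac (f : Fac L) : Fac L' := ⟨f.ε, f.j + P.jj f.m, P.γ f.m⟩
lemma app_Fz {f : Fac L} (hm : f.m ∈ cone e) (hm0 : f.m ≠ 0) :
    P.app (Fz q e f) = Fz q' e' (P.fac f) := by
  refine eq_of_mulM (m := P.γ f.m) (P.app_sp (sp_ev _ _ _) ?_) (sp_ev _ _ _) fun k => ?_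
  · rintro _ ⟨k, rfl⟩ -
    exact ⟨k, (map_nsmul _ _ _).symm⟩
  show (∑ᶠ d, if P.γ d = k • P.γ f.m then tp (P.jj d) * Fz q e f d else 0) = _
  rw [finsum_eq_single _ (k • f.m), if_pos (map_nsmul _ _ _), Fz, Fz, ev_nsmul hm hm0]
  · erw [ev_nsmul (P.map_cone hm) (P.map_ne hm hm0)]
    simp only [Fps, PowerSeries.coeff_mk, fac, map_nsmul, nsmul_eq_mul]
    rw [← mul_assoc, ← tp_add]
    ring_nf
  · intro d hd
    split_ifs with h
    · by_contra x
      obtain ⟨j, rfl⟩ := sp_ev Set.univ _ _ d trivial (right_ne_zero_of_mul x)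
      rw [map_nsmul] at h
      exact hd (by rw [nsmul_inj e' (P.map_ne hm hm0) h])
    · rfl
lemma app_FP {l : List (Fac L)} (hl : OkL e l) :
    P.app (FP q e l) = FP q' e' (l.map P.fac) := by
  induction l with
  | nil => exact P.app_one
  | cons f l ih =>
    rw [List.map_cons, FP_cons, FP_cons, app_mul, P.app_Fz (hl f (by simp)).1 (hl f (by simp)).2,
      ih fun x hx => hl x (List.mem_cons_of_mem _ hx)]
lemma okL {l : List (Fac L)} (hl : OkL e l) : OkL e' (l.map P.fac) := by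
  intro f hf
  obtain ⟨g, hg, rfl⟩ := List.mem_map.1 hf
  exact ⟨P.map_cone (hl g hg).1, P.map_ne (hl g hg).1 (hl g hg).2⟩

end Push

end Vale.Agent.P066
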