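import Vale.Agent.P066.BT
import Vale.Agent.P066.Trans

/-! The rank two theorem. -/

set_option linter.unusedSectionVars false

noncomputable section
open scoped Classical
open Module

namespace Vale.Agent.P066

section Quiver

variable {I : Type} [Fintype I] (arr : I → I → ℕ) (fer : I → Bool)

lemma lt_cone {d : I → ℤ} : d ∈ cone (e0 I) ↔ ∀ i, 0 ≤ d i := by
  simp [mem_cone, e0]

/-- The part of the total series supported on `s`. -/
def ltTotS (s : Finset I) : Ser (qq arr) (e0 I) := trunc {d | ∀ i, i ∉ s → d i = 0} (tot arr fer)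

lemma ltTotS_apply (s : Finset I) (d : I → ℤ) : ltTotS arr fer s d =
    if d ∈ cone (e0 I) ∧ ∀ i, i ∉ s → d i = 0 then
      tp (- kz arr d d) * ∏ i, Fc (fer i) (d i).toNat else 0 := by
  rw [ltTotS, trunc_apply]
  by_cases h1 : ∀ i, i ∉ s → d i = 0 <;> by_cases h2 : d ∈ cone (e0 I) <;> simp [tot, h1, h2]

lemma ltTotS_univ : ltTotS arr fer Finset.univ = tot arr fer :=
  Ser.ext' fun d => by simp [ltTotS, trunc_apply]

lemma ltTotS_ne {s : Finset I} {d : I → ℤ} (h : ltTotS arr fer s d ≠ 0) :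
    d ∈ cone (e0 I) ∧ ∀ i, i ∉ s → d i = 0 := by
  by_contra h'
  rw [ltTotS_apply, if_neg h'] at h
  exact h rfl

lemma ltTotS_zero (s : Finset I) : ltTotS arr fer s 0 = 1 := by
  rw [ltTotS_apply, if_pos ⟨zero_mem _, fun _ _ => rfl⟩]
  simp [kz, Fc]

lemma lt_kz_add_left (a b c : I → ℤ) : kz arr (a + b) c = kz arr a c + kz arr b c := by
  simp only [kz, Pi.add_apply, mul_add, add_mul, Finset.sum_add_distrib]

lemma lt_kz_add_right (a b c : I → ℤ) : kz arr a (b + c) = kz arr a b + kz arr a c := by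
  simp only [kz, Pi.add_apply, mul_add, Finset.sum_add_distrib]

lemma lt_kz_eq_zero {s1 s2 : Finset I} (h : ∀ i ∈ s1, ∀ j ∈ s2, arr i j = 0) {a b : I → ℤ}
    (ha : ∀ i, i ∉ s1 → a i = 0) (hb : ∀ i, i ∉ s2 → b i = 0) : kz arr a b = 0 := by
  refine Finset.sum_eq_zero fun i _ => Finset.sum_eq_zero fun j _ => ?_
  by_cases hi : i ∈ s1
  · by_cases hj : j ∈ s2
    · simp [h i hi j hj]
    · simp [hb j hj]
  · simp [ha i hi]

lemma ltTotS_add {s1 s2 : Finset I} (hd : Disjoint s1 s2) (h : ∀ i ∈ s1, ∀ j ∈ s2, arr i j = 0)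
    {a b : I → ℤ} (ha : a ∈ cone (e0 I) ∧ ∀ i, i ∉ s1 → a i = 0)
    (hb : b ∈ cone (e0 I) ∧ ∀ i, i ∉ s2 → b i = 0) :
    ltTotS arr fer (s1 ∪ s2) (a + b) =
      tp ((qq arr).B a (a + b)) * ltTotS arr fer s1 a * ltTotS arr fer s2 b := by
  have hab : a + b ∈ cone (e0 I) ∧ ∀ i, i ∉ s1 ∪ s2 → (a + b) i = 0 := by
    refine ⟨add_mem ha.1 hb.1, fun i hi => ?_⟩
    rw [Finset.mem_union, not_or] at hi
    simp [ha.2 i hi.1, hb.2 i hi.2]
  rw [ltTotS_apply, ltTotS_apply, ltTotS_apply, if_pos hab, if_pos ha, if_pos hb]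
  have h0 := lt_kz_eq_zero arr h ha.2 hb.2
  have h1 : - kz arr (a + b) (a + b) = (qq arr).B a (a + b) + - kz arr a a + - kz arr b b := by
    rw [qq_B]
    simp only [lt_kz_add_left, lt_kz_add_right, h0]; ring
  have h2 : ∏ i, Fc (fer i) ((a + b) i).toNat =
      (∏ i, Fc (fer i) (a i).toNat) * ∏ i, Fc (fer i) (b i).toNat := by
    rw [← Finset.prod_mul_distrib]
    refine Finset.prod_congr rfl fun i _ => ?_
    by_cases hi : i ∈ s1
    · simp [hb.2 i (Finset.disjoint_left.1 hd hi), Fc]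
    · simp [ha.2 i hi, Fc]
  rw [h1, h2, tp_add, tp_add]; ring

lemma ltTotS_union {s1 s2 : Finset I} (hd : Disjoint s1 s2) (h : ∀ i ∈ s1, ∀ j ∈ s2, arr i j = 0) :
    ltTotS arr fer (s1 ∪ s2) = ltTotS arr fer s1 * ltTotS arr fer s2 := by
  refine Ser.ext' fun d => ?_
  rw [Ser.mul_cv, cv, finsum_eq_single _ (fun i => if i ∈ s1 then d i else 0)]
  · set a : I → ℤ := fun i => if i ∈ s1 then d i else 0 with hadef
    by_cases hd' : d ∈ cone (e0 I) ∧ ∀ i, i ∉ s1 ∪ s2 → d i = 0
    · have h1 : d = a + (d - a) := by abel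
      have ha : a ∈ cone (e0 I) ∧ ∀ i, i ∉ s1 → a i = 0 := by
        refine ⟨lt_cone.2 fun i => ?_, fun i hi => by simp [hadef, hi]⟩
        by_cases hi : i ∈ s1
        · simpa [hadef, hi] using lt_cone.1 hd'.1 i
        · simp [hadef, hi]
      have hb : d - a ∈ cone (e0 I) ∧ ∀ i, i ∉ s2 → (d - a) i = 0 := by
        refine ⟨lt_cone.2 fun i => ?_, fun i hi => ?_⟩
        · by_cases hi : i ∈ s1
          · simp [hadef, hi]
          · simpa [hadef, hi] using lt_cone.1 hd'.1 i
        · by_cases hi1 : i ∈ s1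
          · simp [hadef, hi1]
          · simpa [hadef, hi1] using hd'.2 i (by simp [hi, hi1])
      have h2 := ltTotS_add arr fer hd h ha hb
      rwa [← h1] at h2
    · rw [ltTotS_apply, if_neg hd']
      by_contra h0
      have h1 := ltTotS_ne arr fer (right_ne_zero_of_mul (left_ne_zero_of_mul (Ne.symm h0)))
      have h2 := ltTotS_ne arr fer (right_ne_zero_of_mul (Ne.symm h0))
      refine hd' ⟨by simpa using add_mem h1.1 h2.1, fun i hi => ?_⟩
      rw [Finset.mem_union, not_or] at hi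
      simpa [h1.2 i hi.1] using h2.2 i hi.2
  · intro a ha
    by_contra h0
    have h1 := ltTotS_ne arr fer (right_ne_zero_of_mul (left_ne_zero_of_mul h0))
    have h2 := ltTotS_ne arr fer (right_ne_zero_of_mul h0)
    refine ha (funext fun i => ?_)
    by_cases hi : i ∈ s1
    · have := h2.2 i (Finset.disjoint_left.1 hd hi)
      rw [Pi.sub_apply, sub_eq_zero] at this
      rw [if_pos hi, this]
    · rw [if_neg hi, h1.2 i hi]

lemma lt_kz_basis (i j : I) : kz arr (e0 I i) (e0 I j) = arr i j := by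
  simp [kz, e0, Pi.single_apply]

lemma ltTotS_orth {s : Finset I} (h : ∀ i ∈ s, ∀ j ∈ s, arr i j = 0) :
    ltTotS arr fer s = FP (qq arr) (e0 I) (s.toList.map fun i => ⟨fer i, 0, e0 I i⟩) := by
  refine Ser.ext' fun d => ?_
  rw [FP_basis _ fer s fun i hi j hj => by
    rw [qq_B, lt_kz_basis, lt_kz_basis, h i hi j hj, h j hj i hi, sub_self], ltTotS_apply]
  split_ifs with h1
  · rw [lt_kz_eq_zero arr h h1.2 h1.2, neg_zero, tp_zero, one_mul]
    refine (Finset.prod_subset (Finset.subset_univ s) fun i _ hi => ?_).symm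
    simp [h1.2 i hi, Fc]
  · rfl

end Quiver

variable {L : Type} [AddCommGroup L] {ι : Type} [Fintype ι] {q : QT L} {e : Basis ι ℤ L}

/-- The arrows attached to a family of factors. -/
def ltArr (q : QT L) {I : Type} (F : I → Fac L) (i j : I) : ℕ := (q.B (F i).m (F j).m).toNat

/-- The push forward attached to a family of factors. -/
def ltPush (q : QT L) (e : Basis ι ℤ L) {I : Type} [Fintype I] (F : I → Fac L)
    (hF : ∀ i, (F i).m ∈ cone e ∧ (F i).m ≠ 0) : Push (qq (ltArr q F)) (e0 I) q e where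
  γ := AddMonoidHom.mk' (fun d => ∑ i, d i • (F i).m)
    (fun a b => by simp [add_smul, Finset.sum_add_distrib])
  jj := AddMonoidHom.mk' (fun d => ∑ i, d i * (F i).j)
    (fun a b => by simp [add_mul, Finset.sum_add_distrib])
  mem i := by simpa [e0, Pi.single_apply] using (hF i).1
  ne i := by simpa [e0, Pi.single_apply] using (hF i).2
  form a b := by
    rw [qq_B]
    simp only [AddMonoidHom.mk'_apply, map_sum, map_zsmul, AddMonoidHom.finsetSum_apply,
      AddMonoidHom.smul_apply, smul_eq_mul, kz]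
    rw [Finset.sum_comm (s := Finset.univ) (t := Finset.univ)
      (f := fun i j => (ltArr q F i j : ℤ) * a i * b j), ← Finset.sum_sub_distrib]
    refine Finset.sum_congr rfl fun j _ => ?_
    rw [← Finset.sum_sub_distrib, Finset.mul_sum]
    refine Finset.sum_congr rfl fun i _ => ?_
    have h := Int.toNat_sub_toNat_neg (q.B (F i).m (F j).m)
    rw [← q.swap] at h
    simp only [ltArr]
    linear_combination (-(a i * b j)) * h

section Main

variable {I : Type} [Fintype I] {F : I → Fac L} {hF : ∀ i, (F i).m ∈ cone e ∧ (F i).m ≠ 0}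

lemma ltPush_γ (d : I → ℤ) : (ltPush q e F hF).γ d = ∑ i, d i • (F i).m := rfl

lemma ltPush_mem {M : AddSubmonoid L} {s : Finset I} (h : ∀ i ∈ s, (F i).m ∈ M) {d : I → ℤ}
    (hd : d ∈ cone (e0 I)) (hs : ∀ i, i ∉ s → d i = 0) : (ltPush q e F hF).γ d ∈ M := by
  rw [ltPush_γ]
  refine sum_mem fun i _ => ?_
  by_cases hi : i ∈ s
  · rw [← Int.toNat_of_nonneg (lt_cone.1 hd i), natCast_zsmul]
    exact nsmul_mem (h i hi) _
  · rw [hs i hi, zero_smul]; exact zero_mem _

lemma ltPush_sp (fer : I → Bool) {M : AddSubmonoid L} {s : Finset I} (h : ∀ i ∈ s, (F i).m ∈ M) :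
    Sp Set.univ ((ltPush q e F hF).app (ltTotS (ltArr q F) fer s)) M :=
  Push.app_sp _ (sp_trunc _ _ _) fun _ hs hd => ltPush_mem h hd hs

lemma ltPush_fac (i : I) : (ltPush q e F hF).fac ⟨(F i).ε, 0, e0 I i⟩ = F i := by
  simp [Push.fac, ltPush, e0, Pi.single_apply]

lemma lt_att (S : AddSubmonoid L)
    (hP : ∀ a ∈ S, ∀ b ∈ S, ∀ c ∈ S,
      q.B a b * deg e c + q.B b c * deg e a + q.B c a * deg e b = 0)
    (hS : ∀ i, (F i).m ∈ S) {m : L} (hm : m ∈ cone e) (hm0 : m ≠ 0) :
    att ((ltPush q e F hF).app (tot (ltArr q F) fun i => (F i).ε)) m = ∑ i, lgF (F i) m := by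
  set P := ltPush q e F hF with hPdef
  set fer : I → Bool := fun i => (F i).ε with hfer
  have hg : P.app (tot (ltArr q F) fer) 0 = 1 := by
    rw [P.app_zero_apply, ← ltTotS_univ, ltTotS_zero]
  by_cases hmS : m ∈ S
  swap
  · have h1 : att (P.app (tot (ltArr q F) fer)) m = 0 := by
      by_contra h
      refine hmS (att_mem low_univ (Set.mem_univ m) hg ?_ h)
      rw [← ltTotS_univ]
      exact ltPush_sp fer fun i _ => hS i
    rw [h1]
    refine (Finset.sum_eq_zero fun i _ => ?_).symm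
    by_contra h
    obtain ⟨k, -, hk⟩ := lgF_ne h
    exact hmS (hk ▸ nsmul_mem (hS i) k)
  set s1 := Finset.univ.filter fun i => q.B (F i).m m < 0 with hs1
  set s2 := Finset.univ.filter fun i => q.B (F i).m m = 0 with hs2
  set s3 := Finset.univ.filter fun i => 0 < q.B (F i).m m with hs3
  have harr : ∀ i j, q.B (F i).m m ≤ 0 → 0 ≤ q.B (F j).m m → ltArr q F i j = 0 := by
    intro i j hi hj
    have h1 := hP _ (hS i) _ (hS j) _ hmS
    rw [q.swap m] at h1
    have h2 := deg_pos hm hm0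
    have h3 := deg_nonneg (hF i).1
    have h4 := deg_nonneg (hF j).1
    rw [ltArr, Int.toNat_eq_zero]
    have h5 : q.B (F i).m (F j).m * deg e m ≤ 0 := by nlinarith
    by_contra h6
    exact absurd h5 (not_le.2 (mul_pos (not_le.1 h6) h2))
  have hu : Finset.univ = s1 ∪ (s2 ∪ s3) := by
    ext i
    simp only [hs1, hs2, hs3, Finset.mem_univ, Finset.mem_union, Finset.mem_filter, true_and,
      true_iff]
    exact lt_trichotomy _ _
  have d1 : Disjoint s1 (s2 ∪ s3) := by
    rw [Finset.disjoint_left]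
    intro i h1 h2
    simp only [hs1, hs2, hs3, Finset.mem_univ, Finset.mem_union, Finset.mem_filter,
      true_and] at h1 h2
    omega
  have d2 : Disjoint s2 s3 := by
    rw [Finset.disjoint_left]
    intro i h1 h2
    simp only [hs2, hs3, Finset.mem_univ, Finset.mem_filter, true_and] at h1 h2
    omega
  have ht : tot (ltArr q F) fer =
      ltTotS (ltArr q F) fer s1 * ltTotS (ltArr q F) fer s2 * ltTotS (ltArr q F) fer s3 := by
    rw [← ltTotS_univ, hu, ltTotS_union _ _ d1, ltTotS_union _ _ d2, mul_assoc]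
    · intro i hi j hj
      simp only [hs2, hs3, Finset.mem_univ, Finset.mem_filter, true_and] at hi hj
      exact harr i j hi.le hj.le
    · intro i hi j hj
      simp only [hs1, hs2, hs3, Finset.mem_univ, Finset.mem_union, Finset.mem_filter,
        true_and] at hi hj
      exact harr i j hi.le (by omega)
  have hfac : IsFac Set.univ (th q m) (P.app (tot (ltArr q F) fer))
      (P.app (ltTotS (ltArr q F) fer s1)) (P.app (ltTotS (ltArr q F) fer s2))
      (P.app (ltTotS (ltArr q F) fer s3)) := by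
    refine ⟨by rw [P.app_zero_apply, ltTotS_zero], by rw [P.app_zero_apply, ltTotS_zero],
      by rw [P.app_zero_apply, ltTotS_zero], ltPush_sp (M := negM (th q m)) fer fun i hi => ?_,
      ltPush_sp (M := zerM (th q m)) fer fun i hi => ?_,
      ltPush_sp (M := posM (th q m)) fer fun i hi => ?_, ?_⟩
    · refine Or.inr ?_
      rw [th_apply]
      exact_mod_cast (Finset.mem_filter.1 hi).2
    · change th q m _ = 0
      rw [th_apply]
      exact_mod_cast (Finset.mem_filter.1 hi).2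
    · refine Or.inr ?_
      rw [th_apply]
      exact_mod_cast (Finset.mem_filter.1 hi).2
    · rw [ht, P.app_mul, P.app_mul]; exact Cong.refl _ _
  have hz := cong_univ.1 (hfac.unique low_univ hg).2.1
  have hok : OkL (e0 I) (s2.toList.map fun i => (⟨fer i, 0, e0 I i⟩ : Fac (I → ℤ))) := by
    intro f hf
    obtain ⟨i, -, rfl⟩ := List.mem_map.1 hf
    exact ⟨basis_mem_cone _ i, (e0 I).ne_zero i⟩
  have hl : (s2.toList.map fun i => (⟨fer i, 0, e0 I i⟩ : Fac (I → ℤ))).map P.fac =
      s2.toList.map F := by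
    rw [List.map_map]
    exact List.map_congr_left fun i _ => ltPush_fac i
  rw [att, hz, ltTotS_orth _ _ fun i hi j hj =>
    harr i j (Finset.mem_filter.1 hi).2.le (Finset.mem_filter.1 hj).2.ge, P.app_FP hok, hl,
    lg_FP (fun f hf => by obtain ⟨i, -, rfl⟩ := List.mem_map.1 hf; exact hF i)
      (fun f hf => by
        obtain ⟨i, hi, rfl⟩ := List.mem_map.1 hf
        exact (Finset.mem_filter.1 (Finset.mem_toList.1 hi)).2),
    lgL, List.map_map, Finset.sum_map_toList]
  refine Finset.sum_subset (Finset.subset_univ _) fun i _ hi => ?_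
  by_contra h
  obtain ⟨k, -, hk⟩ := lgF_ne h
  refine hi (Finset.mem_filter.2 ⟨Finset.mem_univ _, ?_⟩)
  rw [hk, map_nsmul, q.alt, smul_zero]

end Main

theorem LT (S : AddSubmonoid L)
    (hP : ∀ a ∈ S, ∀ b ∈ S, ∀ c ∈ S,
      q.B a b * deg e c + q.B b c * deg e a + q.B c a * deg e b = 0)
    (hN : ∀ a ∈ S, ∀ b ∈ S, a ∈ cone e → b ∈ cone e → q.B a b = 0 → Par e a b)
    {N : Set L} (hL : Low e N) {D : ℕ} (hD : N ⊆ ND e D) {G : Ser q e} (hG : G 0 = 1)
    {l0 : List (Fac L)} (hl0 : OkL e l0) (hS : ∀ f ∈ l0, f.m ∈ S)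
    (hatt : ∀ m ∈ N, att G m = lgL l0 m) {n : L} (hn : n ∈ cone e) (hn0 : n ≠ 0) (hnS : n ∈ S) :
    ∃ l, OkL e l ∧ (∀ f ∈ l, Par e f.m n) ∧ Cong N (zer (-th q n) G) (FP q e l) := by
  have hF : ∀ i, (l0.get i).m ∈ cone e ∧ (l0.get i).m ≠ 0 := fun i => hl0 _ (l0.get_mem i)
  have hFS : ∀ i, (l0.get i).m ∈ S := fun i => hS _ (l0.get_mem i)
  set P := ltPush q e l0.get hF with hPdef
  set fer : Fin l0.length → Bool := fun i => (l0.get i).ε with hfer
  have hg : P.app (tot (ltArr q l0.get) fer) 0 = 1 := by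
    rw [P.app_zero_apply, ← ltTotS_univ, ltTotS_zero]
  have hc : Cong N G (P.app (tot (ltArr q l0.get) fer)) := by
    refine att_unique hL hG hg fun m hm hmc hm0 => ?_
    rw [hatt m hm, lt_att S hP hFS hmc hm0, lgL, ← List.sum_ofFn]
    congr 1
    conv_lhs => rw [← List.ofFn_get l0]
    rw [List.map_ofFn]
    rfl
  have hγ : ∀ d ∈ cone (e0 (Fin l0.length)), P.γ d ∈ S := fun d hd =>
    ltPush_mem (s := Finset.univ) (fun i _ => hFS i) hd fun i hi => (hi (Finset.mem_univ i)).elim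
  obtain ⟨a1, a2, l, h1, h2, s1, s2, hl, hφ, hcong⟩ := BT (ltArr q l0.get) fer
    ((q.B.flip n).comp P.γ) (fun d hd d' hd' h h' => by
      simp only [AddMonoidHom.comp_apply, AddMonoidHom.flip_apply] at h h'
      have h3 := hP _ (hγ d hd) _ (hγ d' hd') _ hnS
      rw [q.swap n, h, h', P.form] at h3
      have h4 := deg_pos hn hn0
      simp only [zero_mul, neg_zero, add_zero] at h3
      exact (mul_eq_zero.1 h3).resolve_right h4.ne') D
  have hφ' : ∀ f ∈ l.map P.fac, q.B f.m n = 0 := by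
    intro f hf
    obtain ⟨f', hf', rfl⟩ := List.mem_map.1 hf
    exact hφ f' hf'
  have hok := P.okL hl
  have hfac : IsFac N (-th q n) G (P.app a1) (FP q e (l.map P.fac)) (P.app a2) := by
    refine ⟨by rw [P.app_zero_apply, h1], FP_zero hok, by rw [P.app_zero_apply, h2], ?_,
      sp_FP (M := zerM (-th q n)) N fun f hf => ?_, ?_, ?_⟩
    · refine (P.app_sp (M' := NegS (-th q n)) s1 fun d hd _ => ?_).mono (Set.subset_univ _)
        fun _ _ _ h => h
      rcases hd with rfl | hd
      · exact Or.inl (map_zero _)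
      · refine Or.inr ?_
        rw [AddMonoidHom.neg_apply, th_apply, neg_lt_zero]
        exact_mod_cast hd
    · change (-th q n) _ = 0
      rw [AddMonoidHom.neg_apply, th_apply, hφ' f hf]; simp
    · refine (P.app_sp (M' := PosS (-th q n)) s2 fun d hd _ => ?_).mono (Set.subset_univ _)
        fun _ _ _ h => h
      rcases hd with rfl | hd
      · exact Or.inl (map_zero _)
      · refine Or.inr ?_
        rw [AddMonoidHom.neg_apply, th_apply, neg_pos]
        exact_mod_cast hd
    · have h3 := (P.app_cong hcong).mono hD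
      rw [P.app_mul, P.app_mul, P.app_FP hl] at h3
      exact hc.trans h3
  refine ⟨l.map P.fac, hok, fun f hf => ?_, (hfac.unique hL hG).2.1⟩
  refine hN _ ?_ _ hnS (hok f hf).1 hn (hφ' f hf)
  obtain ⟨f', hf', rfl⟩ := List.mem_map.1 hf
  exact hγ _ (hl f' hf').1

end Vale.Agent.P066
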