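import Vale.Agent.P066.Fac

/-! Logarithm coefficients and attractor invariants. -/

set_option linter.unusedSectionVars false

noncomputable section
open scoped Classical
open Module

namespace Vale.Agent.P066

variable {L : Type} [AddCommGroup L] {ι : Type} [Fintype ι] {q : QT L} {e : Basis ι ℤ L}

lemma Dr_apply (δ : L →+ ℤ) (f : Ser q e) (n : L) : Dr δ f n = (δ n : R) * f n := rfl
lemma Dr_mul (δ : L →+ ℤ) (f g : Ser q e) : Dr δ (f * g) = Dr δ f * g + f * Dr δ g := by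
  refine Ser.ext' fun n => ?_
  rw [Dr_apply, Ser.add_apply, Ser.mul_apply, Ser.mul_apply, Ser.mul_apply, Finset.mul_sum,
    ← Finset.sum_add_distrib]
  refine Finset.sum_congr rfl fun a _ => ?_
  rw [Dr_apply, Dr_apply, map_sub]
  push_cast
  ring
lemma Dr_one (δ : L →+ ℤ) : Dr δ (1 : Ser q e) = 0 := Ser.ext' fun n => by
  rw [Dr_apply, Ser.one_apply]
  split_ifs with h <;> simp [h]

lemma Cong.dr {N : Set L} (δ : L →+ ℤ) {f g : Ser q e} (h : Cong N f g) :
    Cong N (Dr δ f) (Dr δ g) := fun n hn => by rw [Dr_apply, Dr_apply, h n hn]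

lemma Sp.dr {N M : Set L} (δ : L →+ ℤ) {f : Ser q e} (h : Sp N f M) : Sp N (Dr δ f) M :=
  fun n hn h0 => h n hn (right_ne_zero_of_mul h0)

lemma Dr_inv (δ : L →+ ℤ) {f : Ser q e} (hf : f 0 = 1) :
    Dr δ (inv f) = -(inv f * Dr δ f * inv f) := by
  have := Dr_mul δ (inv f) f
  rw [inv_mul hf, Dr_one] at this
  rw [← mul_one (Dr δ (inv f)), ← mul_inv hf, ← mul_assoc, eq_neg_of_add_eq_zero_left this.symm,
    neg_mul]

lemma charZero_R : CharZero R := algebraRat.charZero R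

lemma deg_cast_ne {n : L} (hn : n ∈ cone e) (h0 : n ≠ 0) : (deg e n : R) ≠ 0 :=
  have := charZero_R
  Int.cast_ne_zero.2 (deg_pos hn h0).ne'

lemma lg_zero (f : Ser q e) : lg f 0 = 0 := by simp [lg]
lemma lg_one (n : L) : lg (1 : Ser q e) n = 0 := by simp [lg, Dr_one]
lemma lg_of_not_mem (f : Ser q e) {n : L} (hn : n ∉ cone e) : lg f n = 0 := by rw [lg, Ser.eq_zero _ hn, zero_div]
lemma att_zero (f : Ser q e) : att f 0 = 0 :=
  lg_zero _
lemma att_of_not_mem (f : Ser q e) {n : L} (hn : n ∉ cone e) : att f n = 0 :=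
  lg_of_not_mem _ hn
lemma lg_congr {N : Set L} (hN : Low e N) {n : L} (hn : n ∈ N) {f g : Ser q e} (hf : f 0 = 1)
    (hg : g 0 = 1) (h : Cong N f g) : lg f n = lg g n := by rw [lg, lg, (h.inv hN hf hg).mul hN (h.dr _) n hn]
lemma att_congr {N : Set L} (hN : Low e N) {n : L} (hn : n ∈ N) {f g : Ser q e} (hf : f 0 = 1)
    (hg : g 0 = 1) (h : Cong N f g) : att f n = att g n :=
  lg_congr hN hn (zer_zero_apply _ hf) (zer_zero_apply _ hg) (fac_congr hN _ hf hg h).2.1
lemma lg_mem {N : Set L} (hN : Low e N) {n : L} (hn : n ∈ N) {M : AddSubmonoid L} {f : Ser q e}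
    (hf : f 0 = 1) (h : Sp N f M) (h0 : lg f n ≠ 0) : n ∈ M :=
  (h.inv hN hf).mulM hN (h.dr (deg e)) n hn fun x => h0 (by rw [lg, x, zero_div])
lemma att_mem {N : Set L} (hN : Low e N) {n : L} (hn : n ∈ N) {M : AddSubmonoid L} {f : Ser q e}
    (hf : f 0 = 1) (h : Sp N f M) (h0 : att f n ≠ 0) : n ∈ M :=
  lg_mem hN hn (zer_zero_apply _ hf) (fac_sp hN _ hf h).2.1 h0
theorem lg_mul {N : Set L} (hN : Low e N) {n : L} (hn : n ∈ N) {f g : Ser q e} (hf : f 0 = 1)
    (hg : g 0 = 1) (h : Sp N g (ZerS (th q n))) : lg (f * g) n = lg f n + lg g n := by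
  have : inv (f * g) * Dr (deg e) (f * g) =
      inv g * (inv f * Dr (deg e) f) * g + inv g * Dr (deg e) g := by
    rw [inv_mul_rev hf hg, Dr_mul, mul_add, ← mul_assoc _ f, mul_assoc _ _ f, inv_mul hf, mul_one]
    simp only [mul_assoc]
  rw [lg, this, Ser.add_apply, conj_trace hN hn hg h, add_div, lg, lg]
theorem lg_indep {n : L} {f : Ser q e} (hf : f 0 = 1) (h : Sp Set.univ f (ZerS (th q n)))
    (δ : L →+ ℤ) : (inv f * Dr δ f) n = (δ n : R) * lg f n := by
  by_cases hn : n ∈ cone e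
  swap
  · rw [lg_of_not_mem _ hn, Ser.eq_zero _ hn, mul_zero]
  by_cases h0 : n = 0
  · rw [h0, mul_zero_apply, Dr_apply]; simp
  have hd := deg_cast_ne hn h0
  let d : L →+ ℤ := deg e n • δ - δ n • deg e
  have hdn : d n = 0 := by simp [d, mul_comm]
  have c : Dr (deg e) (Dr d f) = Dr d (Dr (deg e) f) := Ser.ext' fun x => by
    simp only [Dr_apply]; ring
  have h1 : Dr (deg e) (inv f * Dr d f) - Dr d (inv f * Dr (deg e) f) =
      (inv f * Dr d f) * (inv f * Dr (deg e) f) - (inv f * Dr (deg e) f) * (inv f * Dr d f) := by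
    rw [Dr_mul, Dr_mul, Dr_inv _ hf, Dr_inv _ hf, c]
    noncomm_ring
  have h2 := congrArg (fun x : Ser q e => x n) h1
  simp only [Ser.sub_apply, Dr_apply, hdn, Int.cast_zero, zero_mul, sub_zero] at h2
  rw [trace low_univ trivial (Sp.mulM low_univ (M := zerM (th q n))
    (Sp.inv low_univ (M := zerM (th q n)) hf h) (h.dr d)), sub_self] at h2
  have h3 : (inv f * Dr d f) n =
      deg e n * (inv f * Dr δ f) n - δ n * (inv f * Dr (deg e) f) n := by
    simp only [Ser.mul_apply, Finset.mul_sum, ← Finset.sum_sub_distrib, Dr_apply]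
    refine Finset.sum_congr rfl fun a _ => ?_
    simp only [d, AddMonoidHom.sub_apply, AddMonoidHom.smul_apply, smul_eq_mul]
    push_cast
    ring
  rw [(mul_eq_zero.1 h2).resolve_left hd] at h3
  rw [lg, ← mul_div_assoc, eq_div_iff hd]
  linear_combination -h3
theorem lg_sub {f g : Ser q e} (hf : f 0 = 1) (hg : g 0 = 1) {n : L} (hn0 : n ≠ 0)
    (h : ∀ a ∈ cone e, n - a ∈ cone e → a ≠ n → f a = g a) : lg f n - lg g n = f n - g n := by
  by_cases hn : n ∈ cone e
  swap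
  · simp [lg_of_not_mem _ hn, Ser.eq_zero _ hn]
  have hd := deg_cast_ne hn hn0
  have hc := cong_prp h
  have h1 := hc.inv (low_prp n) hf hg
  have z : ∀ u : Ser q e, (1 + Dr (deg e) u) 0 = 1 := fun u => by
    simp [Dr_apply, one_zero_apply]
  have := tri2 (inv_zero_apply hf) (inv_zero_apply hg) (z f) (z g) hn0
    (fun x _ a b => h1 x ⟨a, b⟩) (fun x _ a b => (Cong.refl _ 1).add (hc.dr _) x ⟨a, b⟩)
  simp only [mul_add, mul_one, Ser.add_apply, Dr_apply] at this
  rw [lg, lg, ← sub_div, div_eq_iff hd]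
  linear_combination this
theorem att_sub {f g : Ser q e} (hf : f 0 = 1) (hg : g 0 = 1) {n : L} (hn0 : n ≠ 0)
    (h : ∀ a ∈ cone e, n - a ∈ cone e → a ≠ n → f a = g a) :
    att f n - att g n = f n - g n := by
  rw [att, att, lg_sub (zer_zero_apply _ hf) (zer_zero_apply _ hg) hn0 fun x _ a b =>
    (fac_congr (low_prp n) _ hf hg (cong_prp h)).2.1 x ⟨a, b⟩]
  exact fac_sub _ hf hg (by simp [q.alt]) h
theorem lg_unique {N : Set L} (hN : Low e N) {f g : Ser q e} (hf : f 0 = 1) (hg : g 0 = 1)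
    (h : ∀ n ∈ N, n ∈ cone e → n ≠ 0 → lg f n = lg g n) : Cong N f g := by
  have key : ∀ n ∈ cone e, n ∈ N → f n = g n := by
    refine cone_ind fun n hc ih hn => ?_
    by_cases h0 : n = 0
    · rw [h0, hf, hg]
    have := lg_sub hf hg h0 fun x a b c => ih x a b c (hN x (n - x) a b (by rwa [add_sub_cancel]))
    rw [h n hn hc h0, sub_self] at this
    exact (sub_eq_zero.1 this.symm)
  exact Cong.of_cone fun n a b => key n b a
theorem att_unique {N : Set L} (hN : Low e N) {f g : Ser q e} (hf : f 0 = 1) (hg : g 0 = 1)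
    (h : ∀ n ∈ N, n ∈ cone e → n ≠ 0 → att f n = att g n) : Cong N f g := by
  have key : ∀ n ∈ cone e, n ∈ N → f n = g n := by
    refine cone_ind fun n hc ih hn => ?_
    by_cases h0 : n = 0
    · rw [h0, hf, hg]
    have := att_sub hf hg h0 fun x a b c => ih x a b c (hN x (n - x) a b (by rwa [add_sub_cancel]))
    rw [h n hn hc h0, sub_self] at this
    exact (sub_eq_zero.1 this.symm)
  exact Cong.of_cone fun n a b => key n b a
theorem exists_att (q : QT L) (e : Basis ι ℤ L) (a : L → R) :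
    ∃ g : Ser q e, g 0 = 1 ∧ ∀ n ∈ cone e, n ≠ 0 → att g n = a n :=
  exists_tri att (fun _ _ h h' _ hn hc => att_sub h h' hn fun x _ a b => hc x ⟨a, b⟩) a
/-- The attractor invariant is read off any finer factorization. -/
theorem att_eq_lg {N : Set L} (hN : Low e N) {n : L} (hn : n ∈ N) {g : Ser q e} (hg : g 0 = 1)
    {θ : L →+ ℚ} (hθ : θ n = 0)
    (h : ∀ m ∈ N, m ∈ cone e → (q.B m n < 0 → θ m < 0) ∧ (0 < q.B m n → 0 < θ m)) :
    att g n = lg (zer θ g) n := by
  by_cases h0 : n = 0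
  · rw [h0, att_zero, lg_zero]
  have s := fac_specN N (th q n) hg
  have s' := fac_specN N θ s.b0
  obtain ⟨-, h2, h3⟩ := fac_sp hN θ (M := zerM (th q n)) s.b0 s.spb
  rw [lg_congr hN hn (zer_zero_apply _ hg) s'.b0 (fac_refine hN (θ := th q n) hg fun m a b =>
      ⟨fun x => (h m a b).1 (Int.cast_lt_zero.1 x), fun x => (h m a b).2 (Int.cast_pos.1 x)⟩).2.1,
    att, lg_congr hN hn s.b0 (mul_zero_one (mul_zero_one s'.a0 s'.b0) s'.c0) s'.eq,
    lg_mul hN hn (mul_zero_one s'.a0 s'.b0) s'.c0 h3, lg_mul hN hn s'.a0 s'.b0 h2,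
    not_not.1 fun x => (lg_mem hN hn (M := negM θ) s'.a0 s'.spa x).elim h0 (by simp [hθ]),
    not_not.1 fun x => (lg_mem hN hn (M := posM θ) s'.c0 s'.spc x).elim h0 (by simp [hθ]),
    zero_add, add_zero]

end Vale.Agent.P066
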