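import Vale.Agent.P066.Conj
import Vale.Agent.P066.Trans

/-! Mutation invariance. -/

set_option linter.unusedSectionVars false

noncomputable section
open scoped Classical
open Module

namespace Vale.Agent.P066

variable {L : Type} [AddCommGroup L] {ι : Type} [Fintype ι] {q : QT L} {e : Basis ι ℤ L}

section general

variable {L' : Type} [AddCommGroup L'] {ι' : Type} [Fintype ι'] {q' : QT L'} {e' : Basis ι' ℤ L'}
  {Φ : L ≃+ L'}

lemma mi_th (hΦ : Iso q q' Φ) (p n : L) : th q' (Φ p) (Φ n) = th q p n := by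
  simp only [th_apply, hΦ n p]

lemma mi_rel_att (hΦ : Iso q q' Φ) {f : Ser q e} {f' : Ser q' e'} (hf : f 0 = 1) (h : Rel Φ f f')
    (n : L) : att f' (Φ n) = att f n :=
  Rel.lg hΦ (zer_zero_apply _ hf) (Rel.fac hΦ hf h (mi_th hΦ n)).2.1 (sp_zer _ _ hf)

lemma mi_rel_alpha (hΦ : Iso q q' Φ) {g f : Ser q e} {g' f' : Ser q' e'} (hg : g 0 = 1)
    (h : Rel Φ g g') (h' : Rel Φ f f') (p : L) : alpha g' f' (Φ p) = alpha g f p := by
  have h1 := (Rel.fac hΦ hg h (mi_th hΦ p)).1
  exact ((Rel.inv hΦ (neg_zero_apply _ hg) h1).mul hΦ h').mul hΦ h1 p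

lemma mi_lgF_equiv (Φ : L ≃+ L') (ε : Bool) (j : ℤ) (m n : L) :
    lgF ⟨ε, j, Φ m⟩ (Φ n) = lgF ⟨ε, j, m⟩ n := by
  simp only [lgF, evf]
  apply finsum_congr
  intro k
  have : Φ n = k • Φ m ↔ n = k • m := by
    rw [← map_nsmul, Φ.injective.eq_iff]
  simp only [this]

end general

lemma mi_lgF_zero {X n : L} (h : q.B X n ≠ 0) (ε : Bool) (j : ℤ) : lgF ⟨ε, j, X⟩ n = 0 := by
  by_contra h0
  obtain ⟨k, -, rfl⟩ := lgF_ne h0
  simp [q.alt] at h

lemma mi_att_E_mul {X : L} (hm : X ∈ cone e) (hm0 : X ≠ 0) {h : Ser q e} (hh : h 0 = 1) {n : L}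
    (hc : q.B X n ≤ 0) : att (Ez q e X * h) n = lgF ⟨true, 1, X⟩ n + att h n := by
  have hE := Ez_zero (q := q) hm hm0
  rcases hc.lt_or_eq with hc | hc
  · have h1 : X ∈ negM (th q n) := Or.inr (by rw [th_apply]; exact_mod_cast hc)
    rw [att, zer_neg_mul hE hh (sp_Ez _ h1), mi_lgF_zero hc.ne, zero_add, att]
  · have h1 : X ∈ zerM (th q n) := by
      change th q n X = 0
      rw [th_apply, hc]; simp
    rw [att, zer_mul_left hE hh (sp_Ez _ h1),
      lg_mul low_univ (Set.mem_univ _) hE (zer_zero_apply _ hh) (sp_zer _ _ hh), att]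
    congr 1
    exact lg_Fz (f := ⟨true, 1, X⟩) hm hm0 n

lemma mi_att_mul_E {X : L} (hm : X ∈ cone e) (hm0 : X ≠ 0) {h : Ser q e} (hh : h 0 = 1) {n : L}
    (hc : 0 ≤ q.B X n) : att (h * Ez q e X) n = lgF ⟨true, 1, X⟩ n + att h n := by
  have hE := Ez_zero (q := q) hm hm0
  rcases hc.lt_or_eq with hc | hc
  · have h1 : X ∈ posM (th q n) := Or.inr (by rw [th_apply]; exact_mod_cast hc)
    rw [att, zer_mul_pos hE hh (sp_Ez _ h1), mi_lgF_zero hc.ne', zero_add, att]
  · have h1 : X ∈ zerM (th q n) := by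
      change th q n X = 0
      rw [th_apply, ← hc]; simp
    rw [att, zer_mul_right hE hh (sp_Ez _ h1),
      lg_mul low_univ (Set.mem_univ _) (zer_zero_apply _ hh) hE (sp_Ez _ h1), att, add_comm]
    congr 1
    exact lg_Fz (f := ⟨true, 1, X⟩) hm hm0 n

lemma mi_neg_le (θ : L →+ ℚ) {h : Ser q e} (hh : h 0 = 1) : Sp Set.univ (neg θ h) (leM θ) :=
  (sp_neg _ θ hh).mono subset_rfl (by
    rintro n - - (rfl | h)
    · exact zero_mem _
    · exact h.le)

lemma mi_zp_ge (θ : L →+ ℚ) {h : Ser q e} (hh : h 0 = 1) :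
    Sp Set.univ (zer θ h * pos θ h) (geM θ) :=
  Sp.mulM low_univ ((sp_zer _ θ hh).mono subset_rfl (fun _ _ _ h => le_of_eq (Eq.symm h)))
    ((sp_pos _ θ hh).mono subset_rfl (by
      rintro n - - (rfl | h)
      · exact zero_mem _
      · exact h.le))

lemma mi_alpha_E_mul {X : L} (hm : X ∈ cone e) (hm0 : X ≠ 0) {h : Ser q e} (hh : h 0 = 1) {p : L}
    (hc : q.B X p ≤ 0) (f : Ser q e) :
    alpha (Ez q e X * h) f p = alpha h (inv (Ez q e X) * f * Ez q e X) p := by
  have hE := Ez_zero (q := q) hm hm0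
  have hn := neg_zero_apply (th q p) hh
  have h1 : X ∈ leM (th q p) := by
    change th q p X ≤ 0
    rw [th_apply]; exact_mod_cast hc
  rw [alpha_eq low_univ (Set.mem_univ p) (a := Ez q e X * neg (th q p) h)
    (b := zer (th q p) h * pos (th q p) h) (by rw [mul_zero_apply, hE, hh, one_mul])
    (by rw [mul_zero_apply, hE, hn, one_mul])
    (by rw [mul_zero_apply, zer_zero_apply _ hh, pos_zero_apply _ hh, one_mul])
    (cong_univ.2 (by (conv_lhs => rw [fac_eq (th q p) hh]); simp only [mul_assoc]))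
    (Sp.mulM low_univ (sp_Ez _ h1) (mi_neg_le _ hh)) (mi_zp_ge _ hh), inv_mul_rev hE hn]
  simp only [alpha, Ac, mul_assoc]

lemma mi_alpha_mul_E {X : L} (hm : X ∈ cone e) (hm0 : X ≠ 0) {h : Ser q e} (hh : h 0 = 1) {p : L}
    (hc : 0 ≤ q.B X p) (f : Ser q e) : alpha (h * Ez q e X) f p = alpha h f p := by
  have hE := Ez_zero (q := q) hm hm0
  have hn := neg_zero_apply (th q p) hh
  have h1 : X ∈ geM (th q p) := by
    change 0 ≤ th q p X
    rw [th_apply]; exact_mod_cast hc
  rw [alpha_eq low_univ (Set.mem_univ p) (a := neg (th q p) h)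
    (b := zer (th q p) h * pos (th q p) h * Ez q e X) (by rw [mul_zero_apply, hE, hh, one_mul]) hn
    (by rw [mul_zero_apply, mul_zero_apply, zer_zero_apply _ hh, pos_zero_apply _ hh, hE]; simp)
    (cong_univ.2 (by (conv_lhs => rw [fac_eq (th q p) hh]); simp only [mul_assoc]))
    (mi_neg_le _ hh) (Sp.mulM low_univ (mi_zp_ge _ hh) (sp_Ez _ h1))]
  rfl

/-- The shear along `X`. -/
def miSh (q : QT L) (X : L) : L ≃+ L where
  toFun n := n + q.B X n • X
  invFun n := n - q.B X n • X
  left_inv n := by simp [q.alt]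
  right_inv n := by simp [q.alt]
  map_add' a b := by simp only [map_add, add_smul]; abel

lemma miSh_apply (X n : L) : miSh q X n = n + q.B X n • X := rfl

lemma miSh_iso (X : L) : Iso q q (miSh q X) := by
  intro a b
  simp only [miSh_apply, map_add, map_zsmul, AddMonoidHom.add_apply, AddMonoidHom.zsmul_apply,
    q.alt, smul_eq_mul, q.swap a X]
  ring

lemma miSh_c (X n : L) : q.B X (miSh q X n) = q.B X n := by simp [miSh_apply, q.alt]

variable (q e) in
/-- Positive part of the pairing with `e k`. -/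
def miAp (k : ι) : L →ₗ[ℤ] ℤ := e.constr ℤ fun i => max (q.B (e k) (e i)) 0

variable (q e) in
/-- Negative part of the pairing with `e k`. -/
def miAm (k : ι) : L →ₗ[ℤ] ℤ := e.constr ℤ fun i => max (-q.B (e k) (e i)) 0

lemma miAp_basis (k i : ι) : miAp q e k (e i) = max (q.B (e k) (e i)) 0 := by
  rw [miAp, Basis.constr_basis]

lemma miAm_basis (k i : ι) : miAm q e k (e i) = max (-q.B (e k) (e i)) 0 := by
  rw [miAm, Basis.constr_basis]

lemma miAp_self (k : ι) : miAp q e k (e k) = 0 := by simp [miAp_basis, q.alt]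
lemma miAm_self (k : ι) : miAm q e k (e k) = 0 := by simp [miAm_basis, q.alt]

lemma mi_c_eq (k : ι) (n : L) : q.B (e k) n = miAp q e k n - miAm q e k n := by
  have : (q.B (e k)).toIntLinearMap = miAp q e k - miAm q e k := by
    apply e.ext
    intro i
    simp only [AddMonoidHom.coe_toIntLinearMap, LinearMap.sub_apply, miAp_basis, miAm_basis]
    omega
  exact LinearMap.congr_fun this n

lemma mi_repr (k : ι) (n : L) : (mutB q e k).repr n = e.repr (mutMap q e k n) := by
  simp [mutB]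

lemma mi_repr_ne {k i : ι} (h : i ≠ k) (n : L) : (mutB q e k).repr n i = e.repr n i := by
  rw [mi_repr]
  have : (e.coord i).comp (mutMap q e k) = e.coord i := by
    apply e.ext
    intro j
    by_cases hj : j = k
    · subst hj; simp [mutMap_self, h.symm]
    · simp [mutMap_ne q e hj, Finsupp.single_apply, h.symm]
  exact LinearMap.congr_fun this n

lemma mi_repr_self (k : ι) (n : L) : (mutB q e k).repr n k = miAp q e k n - e.repr n k := by
  rw [mi_repr]
  have : (e.coord k).comp (mutMap q e k) = miAp q e k - e.coord k := by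
    apply e.ext
    intro j
    by_cases hj : j = k
    · subst hj; simp [mutMap_self, miAp_self]
    · simp [mutMap_ne q e hj, hj, miAp_basis]
  exact LinearMap.congr_fun this n

lemma mi_mem_cone' {k : ι} {n : L} (hn : n ∈ cone e) (h : e.repr n k ≤ miAp q e k n) :
    n ∈ cone (mutB q e k) := by
  intro i
  by_cases hi : i = k
  · subst hi; rw [mi_repr_self]; omega
  · rw [mi_repr_ne hi]; exact hn i

lemma mi_sh_mem_cone' {k : ι} {n : L} (hn : n ∈ cone e) (h : e.repr n k ≤ miAm q e k n) :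
    miSh q (e k) n ∈ cone (mutB q e k) := by
  intro i
  by_cases hi : i = k
  · subst hi
    rw [mi_repr_self, miSh_apply]
    simp only [map_add, map_zsmul, miAp_self, Finsupp.add_apply, Finsupp.smul_apply,
      Basis.repr_self, Finsupp.single_eq_same, smul_eq_mul]
    have := mi_c_eq (q := q) (e := e) i n
    omega
  · rw [mi_repr_ne hi, miSh_apply]
    simp only [map_add, map_zsmul, Finsupp.add_apply, Finsupp.smul_apply,
      Basis.repr_self, Finsupp.single_apply, if_neg (Ne.symm hi), smul_zero, add_zero]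
    exact hn i

variable (e) in
/-- The points whose `k`-th coordinate is at most `δ`. -/
def miK (k : ι) (δ : L →ₗ[ℤ] ℤ) : AddSubmonoid L where
  carrier := {n | e.repr n k ≤ δ n}
  add_mem' := by
    intro a b ha hb
    simp only [Set.mem_ofPred_eq, map_add, Finsupp.add_apply] at *
    omega
  zero_mem' := by simp

lemma mi_basis_ne (i : ι) : e i ≠ 0 := e.ne_zero i

lemma mi_att_cl {U : Finset ι} {k : ι} (hk : k ∈ U) {g : Ser q e} (hg : IsCl U g)
    {δ : L →ₗ[ℤ] ℤ} (hδ : ∀ i, 0 ≤ δ (e i)) {n : L} (hn : n ∉ miK e k δ) :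
    att g n = lgF ⟨true, 1, e k⟩ n := by
  rw [hg.2, Finset.sum_eq_single_of_mem k hk]
  intro i _ hi
  by_contra h0
  obtain ⟨j, -, rfl⟩ := lgF_ne h0
  apply hn
  change e.repr (j • e i) k ≤ δ (j • e i)
  simp only [map_nsmul, Finsupp.smul_apply, Basis.repr_self, Finsupp.single_apply, if_neg hi,
    smul_zero, nsmul_eq_mul]
  have := hδ i
  positivity

lemma mi_first {h : Ser q e} (hh : h 0 = 1) {M : AddSubmonoid L} {n : L} (hn : n ∉ M)
    (ih : ∀ a ∈ cone e, n - a ∈ cone e → a ≠ n → h a ≠ 0 → a ∈ M) : h n = att h n := by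
  have h0 : n ≠ 0 := by rintro rfl; exact hn (zero_mem _)
  have hK0 : trunc (M : Set L) h 0 = 1 := by
    rw [trunc_apply, if_pos (SetLike.mem_coe.2 (zero_mem M)), hh]
  have h1 := att_sub hh hK0 h0 (fun a ha hna hne => by
    rw [trunc_apply]
    split_ifs with hM
    · rfl
    · by_contra h2
      exact hM (ih a ha hna hne h2))
  have h2 : att (trunc (M : Set L) h) n = 0 := by
    by_contra h2
    exact hn (att_mem low_univ (Set.mem_univ n) hK0 (sp_trunc _ _ _) h2)
  rw [h2, trunc_apply, if_neg (fun h => hn (SetLike.mem_coe.1 h)), sub_zero, sub_zero] at h1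
  exact h1.symm

lemma mi_string {k : ι} {f : Ser q e} {n : L} {c : ℕ} {δ : L →ₗ[ℤ] ℤ} (hδ : δ (e k) = 0)
    (h0 : f n ≠ 0 → n ∈ miK e k δ)
    (ih : ∀ a ∈ cone e, n - a ∈ cone e → a ≠ n → f a ≠ 0 → a ∈ miK e k δ)
    (h : ∑ j ∈ Finset.range (c + 1), gb c j * f (n - j • e k) ≠ 0) : e.repr n k ≤ δ n + c := by
  obtain ⟨j, hj, h1⟩ := Finset.exists_ne_zero_of_sum_ne_zero h
  have h2 : f (n - j • e k) ≠ 0 := right_ne_zero_of_mul h1
  have h3 : n - j • e k ∈ miK e k δ := by
    by_cases h4 : n - j • e k = n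
    · rw [h4] at h2 ⊢; exact h0 h2
    · refine ih _ (f.sp _ h2) ?_ h4 h2
      rw [sub_sub_cancel]
      exact nsmul_mem (basis_mem_cone e k) j
  have h5 : e.repr (n - j • e k) k ≤ δ (n - j • e k) := h3
  simp only [map_sub, map_nsmul, Finsupp.sub_apply, Finsupp.smul_apply, Basis.repr_self,
    Finsupp.single_eq_same, hδ, nsmul_eq_mul, mul_one, mul_zero, sub_zero] at h5
  have := Finset.mem_range.1 hj
  omega

theorem mi_support {U : Finset ι} {k : ι} (hk : k ∈ U) {g h ht : Ser q e} (hg : IsCl U g)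
    (hh : h 0 = 1) (hht : ht 0 = 1) (h1 : g = Ez q e (e k) * h) (h2 : g = ht * Ez q e (e k)) :
    ∀ n ∈ cone e, (h n ≠ 0 → n ∈ miK e k (miAp q e k)) ∧ (ht n ≠ 0 → n ∈ miK e k (miAm q e k)) := by
  have hX := basis_mem_cone e k
  have hX0 := mi_basis_ne (e := e) k
  have hE := Ez_zero (q := q) hX hX0
  have e1 : ht = Ez q e (e k) * h * inv (Ez q e (e k)) := by
    rw [← h1, h2, mul_assoc, mul_inv hE, mul_one]
  have e2 : h = inv (Ez q e (e k)) * ht * Ez q e (e k) := by
    rw [mul_assoc, ← h2, h1, ← mul_assoc, inv_mul hE, one_mul]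
  apply cone_ind
  intro n _ ih
  have hc := mi_c_eq (q := q) (e := e) k n
  rcases le_total (q.B (e k) n) 0 with hn | hn
  · have A : h n ≠ 0 → n ∈ miK e k (miAp q e k) := by
      intro h0
      by_contra hK
      apply h0
      rw [mi_first hh hK (fun a ha hna hne => (ih a ha hna hne).1)]
      have h3 := mi_att_E_mul hX hX0 hh hn
      rw [← h1, mi_att_cl hk hg (fun i => by rw [miAp_basis]; exact le_max_right _ _) hK] at h3
      simpa using h3
    refine ⟨A, fun h0 => ?_⟩
    obtain ⟨c, hc'⟩ := Int.exists_eq_neg_ofNat hn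
    rw [e1, conjE_neg hX hX0 h hc'] at h0
    have := mi_string (miAp_self k) A (fun a ha hna hne => (ih a ha hna hne).1) h0
    change e.repr n k ≤ miAm q e k n
    omega
  · have A : ht n ≠ 0 → n ∈ miK e k (miAm q e k) := by
      intro h0
      by_contra hK
      apply h0
      rw [mi_first hht hK (fun a ha hna hne => (ih a ha hna hne).2)]
      have h3 := mi_att_mul_E hX hX0 hht hn
      rw [← h2, mi_att_cl hk hg (fun i => by rw [miAm_basis]; exact le_max_right _ _) hK] at h3
      simpa using h3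
    refine ⟨fun h0 => ?_, A⟩
    obtain ⟨c, hc'⟩ := Int.eq_ofNat_of_zero_le hn
    rw [e2, conjE_pos hX hX0 ht hc'] at h0
    have := mi_string (miAm_self k) A (fun a ha hna hne => (ih a ha hna hne).2) h0
    change e.repr n k ≤ miAp q e k n
    omega

/-- The points pairing negatively with `X`. -/
lemma mi_shear {ι' : Type} [Fintype ι'] {e' : Basis ι' ℤ L} {X : L} (hX : X ∈ cone e) (hX0 : X ≠ 0)
    (hY : -X ∈ cone e') {f f1 : Ser q e} {f' fs : Ser q e'} (h1 : ∀ n, f' n = f1 n)
    (h2 : Rel (miSh q X) f fs) (h : Ez q e X * f1 = f * Ez q e X) :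
    inv (Ez q e' (-X)) * f' * Ez q e' (-X) = fs := by
  have hY0 : -X ≠ 0 := neg_ne_zero.2 hX0
  have hE := Ez_zero (q := q) hX hX0
  have hE' := Ez_zero (q := q) hY hY0
  have e1 : f = Ez q e X * f1 * inv (Ez q e X) := by rw [h, mul_assoc, mul_inv hE, mul_one]
  have e2 : f1 = inv (Ez q e X) * f * Ez q e X := by
    rw [mul_assoc, ← h, ← mul_assoc, inv_mul hE, one_mul]
  have hfs : ∀ n, fs n = f (n - q.B X n • X) := fun n => by
    have := h2 ((miSh q X).symm n)
    rw [AddEquiv.apply_symm_apply] at this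
    exact this
  have A : ∀ n, 0 ≤ q.B X n → (Ez q e' (-X) * fs * inv (Ez q e' (-X))) n = f' n := by
    intro n hn
    obtain ⟨c, hc⟩ := Int.eq_ofNat_of_zero_le hn
    rw [conjE_neg hY hY0 fs (c := c) (by simp [hc]), h1, e2, conjE_pos hX hX0 f hc,
      ← Finset.sum_range_reflect]
    apply Finset.sum_congr rfl
    intro j hj
    have hj' : j ≤ c := Nat.lt_succ_iff.1 (Finset.mem_range.1 hj)
    rw [hfs, show c + 1 - 1 - j = c - j by omega, gb_symm hj']
    congr 2
    simp only [map_sub, map_nsmul, map_neg, q.alt, hc, neg_zero, smul_zero, sub_zero]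
    rw [← natCast_zsmul, ← natCast_zsmul, Nat.cast_sub hj']
    module
  apply Ser.ext'
  intro n
  rcases le_or_gt (q.B X n) 0 with hn | hn
  · obtain ⟨c, hc⟩ := Int.exists_eq_neg_ofNat hn
    rw [conjE_pos hY hY0 f' (c := c) (by simp [hc]), hfs, e1,
      conjE_neg hX hX0 f1 (c := c) (by simp [hc, q.alt]), ← Finset.sum_range_reflect]
    apply Finset.sum_congr rfl
    intro j hj
    have hj' : j ≤ c := Nat.lt_succ_iff.1 (Finset.mem_range.1 hj)
    rw [h1, show c + 1 - 1 - j = c - j by omega, gb_symm hj']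
    congr 2
    rw [hc, ← natCast_zsmul, ← natCast_zsmul, Nat.cast_sub hj']
    module
  · have B0 : ∀ N, Sp N (Ez q e' (-X)) (zerM ((Int.castAddHom ℚ).comp (q.B X))) := fun N =>
      sp_Ez N (by change ((q.B X (-X) : ℤ) : ℚ) = 0; simp [q.alt])
    have B1 : Sp Set.univ (f' - Ez q e' (-X) * fs * inv (Ez q e' (-X))) {m | q.B X m < 0} := by
      intro m _ hm
      by_contra h3
      exact hm (by rw [Ser.sub_apply, A m (not_lt.1 h3), sub_self])
    have B2 : Sp Set.univ (inv (Ez q e' (-X)) * (f' - Ez q e' (-X) * fs * inv (Ez q e' (-X))) *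
        Ez q e' (-X)) {m | q.B X m < 0} := by
      refine Sp.mul low_univ (M1 := {m | q.B X m < 0}) (Sp.mul low_univ
        (Sp.inv low_univ hE' (B0 _)) B1 ?_) (B0 _) ?_
      · intro a ha b hb _ _
        have ha' : ((q.B X a : ℤ) : ℚ) = 0 := ha
        have ha'' : q.B X a = 0 := by exact_mod_cast ha'
        have hb' : q.B X b < 0 := hb
        change q.B X (a + b) < 0
        rw [map_add]; omega
      · intro a ha b hb _ _
        have hb' : ((q.B X b : ℤ) : ℚ) = 0 := hb
        have hb'' : q.B X b = 0 := by exact_mod_cast hb'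
        have ha' : q.B X a < 0 := ha
        change q.B X (a + b) < 0
        rw [map_add]; omega
    have B3 : inv (Ez q e' (-X)) * (f' - Ez q e' (-X) * fs * inv (Ez q e' (-X))) * Ez q e' (-X) =
        inv (Ez q e' (-X)) * f' * Ez q e' (-X) - fs := by
      rw [mul_sub, sub_mul]
      congr 1
      rw [← mul_assoc, ← mul_assoc, inv_mul hE', one_mul, mul_assoc, inv_mul hE', mul_one]
    rw [B3] at B2
    by_contra h4
    have h5 : q.B X n < 0 := B2 n (Set.mem_univ n) (by rw [Ser.sub_apply]; exact sub_ne_zero.2 h4)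
    omega

theorem MI {U : Finset ι} {k : ι} (hk : k ∈ U) {g : Ser q e} (hg : IsCl U g) :
    ∃ (h : Ser q e) (h' : Ser q (mutB q e k)), (∀ n, h' n = h n) ∧ h 0 = 1 ∧
      g = Ez q e (e k) * h ∧ IsCl U (h' * Ez q (mutB q e k) (- e k)) ∧
      ∀ (f f1 : Ser q e) (f' : Ser q (mutB q e k)), (∀ n, f' n = f1 n) →
        Ez q e (e k) * f1 = f * Ez q e (e k) →
        (∀ n, f n ≠ 0 → n + q.B (e k) n • e k ∈ cone (mutB q e k)) →
        ∀ p, alpha g f p =
          alpha (h' * Ez q (mutB q e k) (- e k)) f' (p + max (q.B (e k) p) 0 • e k) := by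
  have hX := basis_mem_cone e k
  have hX0 := mi_basis_ne (e := e) k
  have hE := Ez_zero (q := q) hX hX0
  have hY : - e k ∈ cone (mutB q e k) := by rw [← mutB_self q e k]; exact basis_mem_cone _ k
  have hY0 : - e k ≠ 0 := neg_ne_zero.2 hX0
  have hE' := Ez_zero (q := q) hY hY0
  set h := inv (Ez q e (e k)) * g with hdef
  set ht := g * inv (Ez q e (e k)) with htdef
  have hh : h 0 = 1 := by rw [hdef, mul_zero_apply, inv_zero_apply hE, hg.1, one_mul]
  have hht : ht 0 = 1 := by rw [htdef, mul_zero_apply, inv_zero_apply hE, hg.1, one_mul]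
  have h1 : g = Ez q e (e k) * h := by rw [hdef, ← mul_assoc, mul_inv hE, one_mul]
  have h2 : g = ht * Ez q e (e k) := by rw [htdef, mul_assoc, inv_mul hE, mul_one]
  have hs := mi_support hk hg hh hht h1 h2
  obtain ⟨h', r1⟩ := exists_rel (Φ := AddEquiv.refl L) q (mutB q e k) (f := h)
    (fun n hn => mi_mem_cone' (h.sp n hn) ((hs n (h.sp n hn)).1 hn))
  obtain ⟨hs', r2⟩ := exists_rel (Φ := miSh q (e k)) q (mutB q e k) (f := ht)
    (fun n hn => mi_sh_mem_cone' (ht.sp n hn) ((hs n (ht.sp n hn)).2 hn))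
  have hh' : h' 0 = 1 := by rw [r1.zero_apply, hh]
  have hhs' : hs' 0 = 1 := by rw [r2.zero_apply, hht]
  have h3 : h' * Ez q (mutB q e k) (- e k) = Ez q (mutB q e k) (- e k) * hs' := by
    rw [← mi_shear hX hX0 hY r1 r2 (h1.symm.trans h2), ← mul_assoc, ← mul_assoc, mul_inv hE',
      one_mul]
  refine ⟨h, h', r1, hh, h1, ⟨by rw [mul_zero_apply, hh', hE', one_mul], fun n => ?_⟩, ?_⟩
  · rw [← Finset.add_sum_erase U _ hk, mutB_self]
    rcases le_or_gt (q.B (e k) n) 0 with hn | hn
    · rw [mi_att_mul_E hY hY0 hh' (by simpa using hn)]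
      congr 1
      have a1 := mi_rel_att (iso_refl q) hh r1 n
      have a2 := mi_att_E_mul hX hX0 hh hn
      rw [← h1, hg.2, ← Finset.add_sum_erase U _ hk] at a2
      rw [AddEquiv.refl_apply] at a1
      rw [a1, ← add_left_cancel a2]
      apply Finset.sum_congr rfl
      intro i hi
      have hik := Finset.ne_of_mem_erase hi
      rw [mutB_ne q e hik]
      rcases le_or_gt (q.B (e k) (e i)) 0 with hc | hc
      · rw [max_eq_right hc, zero_smul, add_zero]
      · have z1 : ∀ m, q.B (e k) m = q.B (e k) (e i) → lgF ⟨true, 1, m⟩ n = 0 := by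
          intro m hm
          by_contra h0
          obtain ⟨j, hj, rfl⟩ := lgF_ne h0
          rw [map_nsmul, hm, nsmul_eq_mul] at hn
          have : (0 : ℤ) < j := by exact_mod_cast hj
          nlinarith
        rw [z1 _ rfl, z1 _ (by simp [q.alt])]
    · obtain ⟨n, rfl⟩ := (miSh q (e k)).surjective n
      rw [miSh_c] at hn
      rw [h3, mi_att_E_mul hY hY0 hhs' (by simpa [miSh_c] using hn.le)]
      congr 1
      have a1 := mi_rel_att (miSh_iso (e k)) hht r2 n
      have a2 := mi_att_mul_E hX hX0 hht hn.le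
      rw [← h2, hg.2, ← Finset.add_sum_erase U _ hk] at a2
      rw [a1, ← add_left_cancel a2]
      apply Finset.sum_congr rfl
      intro i hi
      have hik := Finset.ne_of_mem_erase hi
      rw [mutB_ne q e hik]
      rcases le_or_gt 0 (q.B (e k) (e i)) with hc | hc
      · rw [max_eq_left hc, ← miSh_apply, mi_lgF_equiv]
      · have z1 : ∀ n', q.B (e k) n' = q.B (e k) n → lgF ⟨true, 1, e i⟩ n' = 0 := by
          intro n' hn'
          by_contra h0
          obtain ⟨j, hj, rfl⟩ := lgF_ne h0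
          rw [map_nsmul, nsmul_eq_mul] at hn'
          have : (0 : ℤ) < j := by exact_mod_cast hj
          nlinarith
        rw [max_eq_right hc.le, zero_smul, add_zero, z1 _ rfl, z1 _ (miSh_c _ _)]
  · intro f f1 f' r3 hf hsp p
    rcases le_or_gt (q.B (e k) p) 0 with hn | hn
    · rw [max_eq_right hn, zero_smul, add_zero, mi_alpha_mul_E hY hY0 hh' (by simpa using hn), h1,
        mi_alpha_E_mul hX hX0 hh hn, mul_assoc, ← hf, ← mul_assoc, inv_mul hE, one_mul]
      exact (mi_rel_alpha (iso_refl q) hh r1 r3 p).symm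
    · obtain ⟨fs, r4⟩ := exists_rel (Φ := miSh q (e k)) q (mutB q e k) (f := f) hsp
      rw [max_eq_left hn.le, ← miSh_apply, h3,
        mi_alpha_E_mul hY hY0 hhs' (by simpa [miSh_c] using hn.le), mi_shear hX hX0 hY r3 r4 hf,
        mi_rel_alpha (miSh_iso (e k)) hht r2 r4, h2, mi_alpha_mul_E hX hX0 hht hn.le]

end Vale.Agent.P066
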