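import Vale.Agent.P066.Filt

/-! Ordered monomials and the weight filtration. -/

set_option linter.unusedSectionVars false

noncomputable section
open scoped Classical
open MvPolynomial Equiv

namespace Vale.Agent.P066

variable {Λ I : Type} [Fintype Λ] [Fintype I]

lemma coeff_TT_top (ρ : Λ → ℕ) {m : ℕ} {f : Pl Λ} (hf : f.IsHomogeneous m) {β : ℕ →₀ ℕ}
    (hβ : β.degree = m) : coeff β (TT ρ f) = C (coeff β (rename ρ f)) := by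
  have h1 := (coeff_TT_homog ρ hf β).1 hβ.le
  rw [hβ, Nat.sub_self] at h1
  have h2 : (mapAlgHom (aeval fun _ => 0 : Pl Λ →ₐ[ℂ] ℂ)).comp (TT ρ) = rename ρ := by
    ext1 a
    simp [TT_X]
  rw [← h2, AlgHom.comp_apply, mapAlgHom_apply, coeff_map,
    ← homogeneousComponent_eq_self h1, homogeneousComponent_zero]
  simp

lemma Le_of_rename (J : Ideal (Pl Λ)) (ρ : Λ → ℕ) {m : ℕ} {f : Pl Λ} (hf : f.IsHomogeneous m)
    (h : rename ρ f = 0) : f ∈ Le J ρ (m - 1) := fun β hβ => by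
  by_cases h1 : β.degree = m
  · rw [coeff_TT_top ρ hf h1, h]
    simp
  · rw [(coeff_TT_homog ρ hf β).2 (by omega)]
    exact J.zero_mem

lemma Refines.trans {A : Finset Λ} {ρ2 ρ1 ρ0 : Λ → ℕ} (h : Refines A ρ2 ρ1)
    (h' : Refines A ρ1 ρ0) : Refines A ρ2 ρ0 :=
  fun a ha b hb hab => h' a ha b hb (h a ha b hb hab)

lemma Refines.prod_eq {A : Finset Λ} {ρ ρ' : Λ → ℕ} (h1 : Refines A ρ ρ') (h2 : Refines A ρ' ρ)
    {G M : Type*} [CommMonoid M] {γ γ' : ℕ → G} (h3 : ∀ a ∈ A, γ' (ρ' a) = γ (ρ a))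
    (F : Finset Λ → G → M) :
    ∏ l ∈ lab A ρ', F (blk A ρ' l) (γ' l) = ∏ l ∈ lab A ρ, F (blk A ρ l) (γ l) := by
  obtain ⟨g, hg, hl⟩ := h1.exists_map
  rw [hl, Finset.prod_image]
  · refine Finset.prod_congr rfl fun l hl => ?_
    obtain ⟨a, ha, rfl⟩ := mem_lab.1 hl
    rw [hg a ha, h3 a ha, h1.blk_eq h2 ha]
  · intro l hl l' hl' h
    obtain ⟨a, ha, rfl⟩ := mem_lab.1 hl
    obtain ⟨b, hb, rfl⟩ := mem_lab.1 hl'
    rw [hg a ha, hg b hb] at h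
    exact h2 a ha b hb h

namespace Dat

variable {D : Dat Λ I}

/-- Number of arrows whose order is inverted. -/
def invs (D : Dat Λ I) (A : Finset Λ) (ρ ρ' : Λ → ℕ) : ℕ :=
  ∑ a ∈ A, ∑ b ∈ A, if ρ a < ρ b ∧ ρ' b < ρ' a then D.arr (D.c a) (D.c b) else 0

/-- Kernel of a set of pairs. -/
def KE (D : Dat Λ I) (E : Finset (Λ × Λ)) : Pl Λ :=
  ∏ p ∈ E, (X p.2 - X p.1) ^ D.arr (D.c p.1) (D.c p.2)

lemma K_eq_KE (S T : Finset Λ) : D.K S T = D.KE (S ×ˢ T) := (Finset.prod_product' _ _ _).symm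

lemma KP_eq_KE (A : Finset Λ) (ρ : Λ → ℕ) :
    D.KP A ρ = D.KE ((A ×ˢ A).filter fun p => ρ p.1 < ρ p.2) := by
  rw [KE, Finset.prod_filter, Finset.prod_product]
  rfl

lemma KE_homog (E : Finset (Λ × Λ)) :
    (D.KE E).IsHomogeneous (∑ p ∈ E, D.arr (D.c p.1) (D.c p.2)) :=
  IsHomogeneous.prod _ _ _ fun p _ => by
    simpa using ((isHomogeneous_X ℂ p.2).sub (isHomogeneous_X ℂ p.1)).pow _

lemma TT_KE {ρ : Λ → ℕ} {E : Finset (Λ × Λ)} (h : ∀ p ∈ E, ρ p.1 = ρ p.2) :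
    TT ρ (D.KE E) = C (D.KE E) := by
  simp only [KE, map_prod, map_pow, map_sub, TT_X]
  refine Finset.prod_congr rfl fun p hp => ?_
  rw [h p hp, add_sub_add_right_eq_sub]

lemma KE_dvd {E E1 E2 : Finset (Λ × Λ)} (h : E ⊆ E1 ∪ E2) : D.KE E ∣ D.KE E1 * D.KE E2 := by
  rw [KE, KE, KE, ← Finset.prod_union_inter]
  exact (Finset.prod_dvd_prod_of_subset _ _ _ h).mul_right _

/-- Either the kernel lies in the ideal, or all initial segments of blocks have slope zero. -/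
lemma mmon_dichotomy {A : Finset Λ} {ρ : Λ → ℕ} (h : D.Adm A ρ) (ρ0 : Λ → ℕ) :
    D.KP A ρ ∈ D.LL A ρ0 ∨ ∀ r l0, D.ph (blk (A.filter fun a => ρ a < r) ρ0 l0) = 0 := by
  by_cases hc : ∃ r, ∃ l0 ∈ lab A ρ0, 0 < D.ph (blk (A.filter fun a => ρ a < r) ρ0 l0)
  · obtain ⟨r, l0, hl0, hp⟩ := hc
    refine .inl (Ideal.mem_of_dvd _ ?_ (D.KK_le_LL_blk hl0 (D.K_mem_Id
      (Finset.filter_subset_filter _ (Finset.filter_subset _ _)) (.inl hp))))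
    rw [K_eq_KE, KP_eq_KE]
    refine Finset.prod_dvd_prod_of_subset _ _ _ fun p hp => ?_
    simp only [Finset.mem_product, Finset.mem_filter, Finset.mem_sdiff, mem_blk] at hp ⊢
    obtain ⟨⟨⟨h1, h2⟩, -⟩, ⟨h3, h4⟩, h5⟩ := hp
    exact ⟨⟨h1, h3⟩, h2.trans_le (not_lt.1 fun h6 => h5 ⟨⟨h3, h6⟩, h4⟩)⟩
  · refine .inr fun r l0 => ?_
    by_cases hl0 : l0 ∈ lab A ρ0
    · have h1 : D.ph (A.filter fun a => ρ a < r) = 0 := by
        rw [D.ph_eq_sum_blk (Finset.filter_subset _ A) ρ]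
        refine Finset.sum_eq_zero fun l _ => ?_
        by_cases hl : l < r
        · rw [← h l]
          refine congrArg _ (Finset.ext fun a => ?_)
          simp only [mem_blk, Finset.mem_filter]
          exact ⟨fun h => ⟨h.1.1, h.2⟩, fun h => ⟨⟨h.1, h.2 ▸ hl⟩, h.2⟩⟩
        · rw [blk_eq_empty, D.ph_empty]
          simp only [mem_lab, Finset.mem_filter]
          rintro ⟨a, ⟨-, h1⟩, rfl⟩
          exact hl h1
      rw [D.ph_eq_sum_blk (Finset.filter_subset _ A) ρ0, Finset.sum_eq_zero_iff_of_nonpos] at h1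
      · exact h1 l0 hl0
      · exact fun l hl => not_lt.1 fun h2 => hc ⟨r, l, hl, h2⟩
    · rw [blk_eq_empty (mt (fun h => lab_mono (Finset.filter_subset _ A) ρ0 h) hl0), D.ph_empty]

lemma mmon_adm {A : Finset Λ} {ρ ρ0 : Λ → ℕ}
    (h : ∀ r l0, D.ph (blk (A.filter fun a => ρ a < r) ρ0 l0) = 0) :
    D.Adm A fun a => Nat.pair (ρ a) (ρ0 a) := fun l1 => by
  obtain ⟨⟨l, l0⟩, rfl⟩ := Nat.pairEquiv.surjective l1
  have h1 : blk A (fun a => Nat.pair (ρ a) (ρ0 a)) (Nat.pairEquiv (l, l0)) =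
      blk (A.filter fun a => ρ a < l + 1) ρ0 l0 \ blk (A.filter fun a => ρ a < l) ρ0 l0 := by
    ext a
    simp only [mem_blk, Finset.mem_filter, Finset.mem_sdiff, Nat.pairEquiv_apply,
      Function.uncurry, Nat.pair_eq_pair]
    constructor
    · rintro ⟨h1, rfl, rfl⟩
      simp [h1]
    · rintro ⟨⟨⟨h1, h2⟩, h3⟩, h4⟩
      exact ⟨h1, by by_contra h5; exact h4 ⟨⟨h1, by omega⟩, h3⟩, h3⟩
  rw [h1, D.ph_sdiff, h, h, sub_zero]
  exact Finset.filter_subset_filter _ (Finset.monotone_filter_right _ fun a _ => by omega)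

lemma mmon_inner {A : Finset Λ} {ρ ρ0 : Λ → ℕ}
    (h : ∀ r l0, D.ph (blk (A.filter fun a => ρ a < r) ρ0 l0) = 0) {f : Pl Λ}
    (hf : f ∈ D.LL A fun a => Nat.pair (ρ a) (ρ0 a)) :
    D.KE ((A ×ˢ A).filter fun p => ρ p.1 < ρ p.2 ∧ ρ0 p.1 = ρ0 p.2) * f ∈ D.LL A ρ0 := by
  rw [mul_comm, ← smul_eq_mul, ← Submodule.mem_colon_singleton]
  refine (iSup₂_le fun l1 hl1 => Ideal.span_le.2 ?_ : D.LL A _ ≤ _) hf
  rintro _ ⟨S, hS, hp, rfl⟩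
  obtain ⟨c, hc, rfl⟩ := mem_lab.1 hl1
  have hS' : ∀ a ∈ S, a ∈ A ∧ ρ a = ρ c ∧ ρ0 a = ρ0 c := fun a ha => by
    simpa only [mem_blk, Nat.pair_eq_pair] using hS ha
  have h1 : 0 < D.ph S := by
    rcases hp with hp | hp
    · exact hp
    · have h2 := D.ph_sdiff hS
      rw [mmon_adm h] at h2
      change D.ph _ < 0 at hp
      omega
  have h2 : Disjoint (blk (A.filter fun a => ρ a < ρ c) ρ0 (ρ0 c)) S :=
    Finset.disjoint_left.2 fun a ha ha' =>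
      (Finset.mem_filter.1 (mem_blk.1 ha).1).2.ne (hS' a ha').2.1
  have h3 : blk (A.filter fun a => ρ a < ρ c) ρ0 (ρ0 c) ∪ S ⊆ blk A ρ0 (ρ0 c) :=
    Finset.union_subset (Finset.filter_subset_filter _ (Finset.filter_subset _ _))
      fun a ha => mem_blk.2 ⟨(hS' a ha).1, (hS' a ha).2.2⟩
  rw [SetLike.mem_coe, Submodule.mem_colon_singleton, smul_eq_mul]
  refine Ideal.mem_of_dvd _ ?_ (D.KK_le_LL_blk (mem_lab_self ρ0 hc) (D.K_mem_Id h3 (.inl ?_)))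
  · rw [K_eq_KE, K_eq_KE]
    refine KE_dvd fun p hp => ?_
    simp only [Finset.mem_product, Finset.mem_filter, Finset.mem_sdiff, Finset.mem_union,
      mem_blk, Nat.pair_eq_pair, not_or, not_and] at hp ⊢
    obtain ⟨h4, ⟨h5, h6⟩, h7, h8⟩ := hp
    have h9 : ρ c ≤ ρ p.2 := not_lt.1 fun h9 => h7 ⟨h5, h9⟩ h6
    rcases h4 with ⟨⟨h10, h11⟩, h12⟩ | h4
    · exact .inr ⟨⟨h10, h5⟩, h11.trans_le h9, h12.trans h6.symm⟩
    · obtain ⟨h10, h11, h12⟩ := hS' _ h4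
      rcases h9.eq_or_lt with h9 | h9
      · exact .inl ⟨h4, ⟨h5, h9.symm, h6⟩, h8⟩
      · exact .inr ⟨⟨h10, h5⟩, h11.trans_lt h9, h12.trans h6.symm⟩
  · change 0 < D.ph _
    rwa [D.ph_union h2, h, zero_add]

lemma mmon_sym (hS : D.Sym) {A : Finset Λ} {ρ : Λ → ℕ} (h : D.Adm A ρ) {M : Type*}
    [CommMonoid M] (G : ℕ → ℕ → M) :
    ∏ a ∈ A, ∏ b ∈ A, G (ρ a) (ρ b) ^ D.arr (D.c a) (D.c b) =
      ∏ a ∈ A, ∏ b ∈ A, G (ρ b) (ρ a) ^ D.arr (D.c a) (D.c b) := by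
  rw [prod_blk₂ A ρ fun l l' a b => G l l' ^ D.arr (D.c a) (D.c b),
    prod_blk₂ A ρ fun l l' a b => G l' l ^ D.arr (D.c a) (D.c b), Finset.prod_comm]
  simp only [Finset.prod_pow_eq_pow_sum]
  exact Finset.prod_congr rfl fun l _ => Finset.prod_congr rfl fun l' _ =>
    congrArg _ (D.kap_symm hS (h l') (h l))

lemma mmon_rename (hS : D.Sym) {A : Finset Λ} {ρ0 ρ ρ' : Λ → ℕ} (h0 : D.Adm A ρ0)
    (hr : Refines A ρ0 ρ) (h1 : Refines A ρ ρ') (h2 : Refines A ρ' ρ) :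
    rename ρ0 (D.KP A ρ - (-1 : ℂ) ^ D.invs A ρ ρ' • D.KP A ρ') = 0 := by
  obtain ⟨g, hg, -⟩ := hr.exists_map
  obtain ⟨g', hg', -⟩ := (hr.trans h1).exists_map
  let G : ℕ → ℕ → MvPolynomial ℕ ℂ := fun l l' =>
    if g l' < g l ∧ g' l < g' l' then X l' - X l else 1
  let F : Λ → Λ → MvPolynomial ℕ ℂ := fun a b =>
    if ρ a < ρ b ∧ ρ' a < ρ' b then (X (ρ0 b) - X (ρ0 a)) ^ D.arr (D.c a) (D.c b) else 1
  have e1 : rename ρ0 (D.KP A ρ) = (-1) ^ D.invs A ρ ρ' * ((∏ a ∈ A, ∏ b ∈ A, F a b) *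
      ∏ a ∈ A, ∏ b ∈ A, G (ρ0 b) (ρ0 a) ^ D.arr (D.c a) (D.c b)) := by
    simp only [invs, KP, map_prod, ← Finset.prod_pow_eq_pow_sum, ← Finset.prod_mul_distrib]
    refine Finset.prod_congr rfl fun a ha => Finset.prod_congr rfl fun b hb => ?_
    simp only [F, G, hg a ha, hg b hb, hg' a ha, hg' b hb]
    by_cases h3 : ρ a < ρ b
    · rcases lt_or_gt_of_ne (mt (h2 a ha b hb) h3.ne) with h4 | h4
      · simp [h3, h4, h4.not_gt]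
      · simp [h3, h4, h4.not_gt, ← mul_pow]
    · simp [h3]
  have e2 : rename ρ0 (D.KP A ρ') = (∏ a ∈ A, ∏ b ∈ A, F a b) *
      ∏ a ∈ A, ∏ b ∈ A, G (ρ0 a) (ρ0 b) ^ D.arr (D.c a) (D.c b) := by
    simp only [KP, map_prod, ← Finset.prod_mul_distrib]
    refine Finset.prod_congr rfl fun a ha => Finset.prod_congr rfl fun b hb => ?_
    simp only [F, G, hg a ha, hg b hb, hg' a ha, hg' b hb]
    by_cases h3 : ρ' a < ρ' b
    · rcases lt_or_gt_of_ne (mt (h1 a ha b hb) h3.ne) with h4 | h4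
      · simp [h3, h4, h4.not_gt]
      · simp [h3, h4, h4.not_gt]
    · simp [h3]
  rw [map_sub, map_smul, e1, e2, mmon_sym hS h0 G, smul_eq_C_mul]
  simp

namespace VData

variable (V : D.VData) {A : Finset Λ} {ρ : Λ → ℕ} {γ : ℕ → V.Gen × ℕ}

lemma Val.adm (h : V.Val A ρ γ) : D.Adm A ρ := fun l => by
  by_cases hl : l ∈ lab A ρ
  · rw [D.ph_eq, h l hl, V.ty_pd]
  · rw [blk_eq_empty hl, D.ph_empty]
lemma bb_mem_sup (h : V.Val A ρ γ) : V.bb A ρ γ ∈ sup A :=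
  prod_mem fun l hl => sup_mono (blk_subset A ρ l) (V.memW _ _ (h l hl)).1
lemma sg_prod_mem_sup (A : Finset Λ) (ρ : Λ → ℕ) (n : ℕ → ℕ) :
    ∏ l ∈ lab A ρ, sg (blk A ρ l) ^ n l ∈ sup A :=
  prod_mem fun l _ => pow_mem (sup_mono (blk_subset A ρ l) (sg_mem_sup _)) _
lemma sg_prod_homog (A : Finset Λ) (ρ : Λ → ℕ) (n : ℕ → ℕ) :
    (∏ l ∈ lab A ρ, sg (blk A ρ l) ^ n l).IsHomogeneous (∑ l ∈ lab A ρ, n l) :=
  IsHomogeneous.prod _ _ _ fun l _ => by simpa using (sg_homog (blk A ρ l)).pow (n l)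
lemma mm_mem_sup (h : V.Val A ρ γ) : V.mm A ρ γ ∈ sup A :=
  mul_mem (mul_mem (D.KP_mem_sup A ρ) (V.bb_mem_sup h)) (sg_prod_mem_sup A ρ _)
lemma mm_homog (h : V.Val A ρ γ) : (V.mm A ρ γ).IsHomogeneous (V.dgm A ρ γ) := by
  rw [dgm, Finset.sum_add_distrib, ← add_assoc]
  exact ((D.KP_homog A ρ).mul (IsHomogeneous.prod _ _ _ fun l hl =>
    (V.memW _ _ (h l hl)).2.1)).mul (sg_prod_homog A ρ _)
lemma sy_homog (A : Finset Λ) (ρ : Λ → ℕ) (γ : ℕ → V.Gen × ℕ) :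
    (V.sy A ρ γ).IsHomogeneous (D.kk A ρ + ∑ l ∈ lab A ρ, (γ l).2) :=
  (D.Del_homog A ρ).mul (IsHomogeneous.prod _ _ _ fun l _ => by
    simpa using (isHomogeneous_C_mul_X ((blk A ρ l).card : ℂ) l).pow (γ l).2)
lemma wt_eq (A : Finset Λ) (ρ : Λ → ℕ) (γ : ℕ → V.Gen × ℕ) :
    V.wt A ρ γ = ∑ l ∈ lab A ρ, (γ l).2 + (lab A ρ).card := by
  simp [wt, Finset.sum_add_distrib]

lemma bb_mem_Le (h : V.Val A ρ γ) {ρ1 : Λ → ℕ} (h1 : D.Adm A ρ1) (hr : Refines A ρ1 ρ) :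
    V.bb A ρ γ ∈ Le (D.LL A ρ1) ρ1
      (∑ l ∈ lab A ρ, D.kk (blk A ρ l) ρ1 + (lab A ρ).card - (lab A ρ1).card) := by
  have h2 := Le_prod (J := D.LL A ρ1) (lab A ρ) fun l hl =>
    Le_mono (D.LL_refine hr ▸ le_iSup₂_of_le l hl le_rfl) ρ1 le_rfl
      (D.mem_FF.1 (V.memF _ _ (h l hl)) ρ1 (Adm.blk D h1 hr l))
  rw [card_lab_refine hr]
  simpa [bb, Finset.sum_add_distrib, Finset.sum_sub_distrib] using h2

lemma bb_sg_mem_Le (hS : D.Sym) (h : V.Val A ρ γ) {ρ1 : Λ → ℕ} (h1 : D.Adm A ρ1)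
    (hr : Refines A ρ1 ρ) :
    V.bb A ρ γ * ∏ l ∈ lab A ρ, sg (blk A ρ l) ^ (γ l).2 ∈ Le (D.LL A ρ1) ρ1
      (D.kk A ρ1 - D.kk A ρ + V.wt A ρ γ - (lab A ρ1).card) := by
  refine Le_mono le_rfl ρ1 (le_of_eq ?_)
    (Le_mul (V.bb_mem_Le h h1 hr) (Le_of_homog _ ρ1 (sg_prod_homog A ρ _)))
  rw [D.kk_refine hS h1 hr, wt_eq]
  push_cast
  ring

lemma mm_core (hS : D.Sym) (h : V.Val A ρ γ) {ρ0 : Λ → ℕ} :
    V.mm A ρ γ ∈ Le (D.LL A ρ0) ρ0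
      (D.kk A ρ0 + V.wt A ρ γ - (lab A fun a => Nat.pair (ρ a) (ρ0 a)).card) := by
  rcases mmon_dichotomy h.adm ρ0 with hc | hc
  · exact (D.stab_LL (.rfl A ρ0)).mem_Le
      (Ideal.mul_mem_right _ _ (Ideal.mul_mem_right _ _ hc)) _
  have h1 := mmon_adm hc
  have hr : Refines A (fun a => Nat.pair (ρ a) (ρ0 a)) ρ := fun _ _ _ _ h =>
    (Nat.pair_eq_pair.1 h).1
  have hr0 : Refines A (fun a => Nat.pair (ρ a) (ρ0 a)) ρ0 := fun _ _ _ _ h =>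
    (Nat.pair_eq_pair.1 h).2
  have h2 := Le_mul (Le_of_homog _ ρ0 (D.KE_homog ((A ×ˢ A).filter fun p =>
    ρ p.1 < ρ p.2 ∧ ¬ ρ0 p.1 = ρ0 p.2))) (Le_fix_mul
      (TT_KE fun p hp => (Finset.mem_filter.1 hp).2.2) (fun f => mmon_inner hc)
      (Le_coarsen hr0 (mul_mem (V.bb_mem_sup h) (sg_prod_mem_sup A ρ _))
        (V.bb_sg_mem_Le hS h h1 hr)))
  rw [← mul_assoc, KE, KE, mul_comm (Finset.prod _ _), ← Finset.filter_filter,
    ← Finset.filter_filter, Finset.prod_filter_mul_prod_filter_not, ← KE, ← KP_eq_KE,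
    ← mul_assoc] at h2
  refine Le_mono le_rfl ρ0 (le_of_eq ?_) h2
  have h3 : ∀ l ∈ lab A ρ0, D.kk (blk A ρ0 l) (fun a => Nat.pair (ρ a) (ρ0 a)) =
      D.kk (blk A ρ0 l) ρ := fun l _ => D.kk_congr hS (Adm.blk D h1 hr0 l)
    (fun _ _ _ _ h => (Nat.pair_eq_pair.1 h).1)
    (fun a ha b hb h => by rw [h, (mem_blk.1 ha).2, (mem_blk.1 hb).2])
  have h4 : D.kk A ρ = ∑ l ∈ lab A ρ0, D.kk (blk A ρ0 l) ρ + ∑ p ∈ ((A ×ˢ A).filter fun p =>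
      ρ p.1 < ρ p.2).filter fun p => ¬ ρ0 p.1 = ρ0 p.2, D.arr (D.c p.1) (D.c p.2) := by
    simp only [kk]
    rw [← sum_blk_diag, Finset.sum_filter, Finset.sum_filter, Finset.sum_product,
      ← Finset.sum_add_distrib]
    refine Finset.sum_congr rfl fun a _ => ?_
    rw [← Finset.sum_add_distrib]
    refine Finset.sum_congr rfl fun b _ => ?_
    by_cases h5 : ρ0 a = ρ0 b <;> simp [h5]
  rw [D.kk_refine hS h1 hr0, Finset.sum_congr rfl h3, h4]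
  push_cast
  ring

theorem mm_mem (hS : D.Sym) (h : V.Val A ρ γ) : V.mm A ρ γ ∈ D.FF A (V.wt A ρ γ) :=
  D.mem_FF.2 fun ρ0 _ => by
    have := Refines.card_le (A := A) (ρ1 := fun a => Nat.pair (ρ a) (ρ0 a)) (ρ0 := ρ0)
      fun _ _ _ _ h => (Nat.pair_eq_pair.1 h).2
    exact Le_mono le_rfl ρ0 (by omega) (V.mm_core hS h)

theorem mm_notref (hS : D.Sym) (h : V.Val A ρ γ) {ρ0 : Λ → ℕ} (h0 : D.Adm A ρ0)
    (hn : ¬ Refines A ρ0 ρ) :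
    V.mm A ρ γ ∈ Le (D.LL A ρ0) ρ0 (D.kk A ρ0 + V.wt A ρ γ - 1 - (lab A ρ0).card) := by
  have := mt (fun h1 => (Refines.symm_of_card (A := A) (ρ1 := fun a => Nat.pair (ρ a) (ρ0 a))
    (ρ0 := ρ0) (fun _ _ _ _ h => (Nat.pair_eq_pair.1 h).2) h1).trans
      fun _ _ _ _ h => (Nat.pair_eq_pair.1 h).1) hn
  exact Le_mono le_rfl ρ0 (by omega) (V.mm_core hS h)

theorem mm_reorder (hS : D.Sym) (h : V.Val A ρ γ) {ρ' : Λ → ℕ} {γ' : ℕ → V.Gen × ℕ}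
    (h1 : Refines A ρ ρ') (h2 : Refines A ρ' ρ) (h3 : ∀ a ∈ A, γ' (ρ' a) = γ (ρ a)) :
    V.Val A ρ' γ' ∧ V.wt A ρ' γ' = V.wt A ρ γ ∧
      V.mm A ρ γ - (-1 : ℂ) ^ D.invs A ρ ρ' • V.mm A ρ' γ' ∈ D.FF A (V.wt A ρ γ - 1) := by
  have h' : V.Val A ρ' γ' := fun l hl => by
    obtain ⟨a, ha, rfl⟩ := mem_lab.1 hl
    rw [h3 a ha, ← h1.blk_eq h2 ha, h _ (mem_lab_self ρ ha)]
  have hw : V.wt A ρ' γ' = V.wt A ρ γ :=
    h1.prod_eq h2 h3 fun _ x => Multiplicative.ofAdd (x.2 + 1)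
  refine ⟨h', hw, D.mem_FF.2 fun ρ0 h0 => ?_⟩
  by_cases hr : Refines A ρ0 ρ
  · have e1 : V.bb A ρ' γ' = V.bb A ρ γ := h1.prod_eq h2 h3 fun B x => V.b B x.1
    have e2 := h1.prod_eq h2 h3 fun B x => sg B ^ x.2
    rw [mm, mm, e1, e2, mul_assoc, mul_assoc, ← smul_mul_assoc, ← sub_mul]
    refine Le_mono le_rfl ρ0 (le_of_eq ?_) (Le_mul (Le_of_rename _ ρ0 (m := D.kk A ρ) ?_
      (mmon_rename hS h0 hr h1 h2)) (V.bb_sg_mem_Le hS h h0 hr))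
    · ring
    · refine (D.KP_homog A ρ).sub ((homogeneousSubmodule Λ ℂ _).smul_mem _ ?_)
      rw [D.kk_congr hS h.adm h1 h2]
      exact D.KP_homog A ρ'
  · rw [← add_sub_assoc]
    refine sub_mem (V.mm_notref hS h h0 hr) (Submodule.smul_mem _ _ ?_)
    exact hw ▸ V.mm_notref hS h' h0 fun h4 => hr (h4.trans h2)

theorem mm_top (h : V.Val A ρ γ) {β : ℕ →₀ ℕ}
    (hβ : β.degree = D.kk A ρ + ∑ l ∈ lab A ρ, (γ l).2) :
    coeff β (TT ρ (V.mm A ρ γ)) - coeff β (V.sy A ρ γ) • V.bb A ρ γ ∈ D.LL A ρ := by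
  have h1 := V.bb_mem_Le h h.adm (.rfl A ρ)
  have h2 : ∑ l ∈ lab A ρ, D.kk (blk A ρ l) ρ = 0 := Finset.sum_eq_zero fun l _ =>
    Finset.sum_eq_zero fun a ha => Finset.sum_eq_zero fun b hb => by
      rw [(mem_blk.1 ha).2, (mem_blk.1 hb).2, if_neg (lt_irrefl _)]
  have h3 : TT ρ (V.bb A ρ γ) - C (V.bb A ρ γ) ∈ (D.LL A ρ).map C := mem_map_C_iff.2 fun α => by
    rw [coeff_sub, coeff_C]
    split_ifs with h4
    · rw [← h4, coeff_zero_TT, sub_self]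
      exact Ideal.zero_mem _
    · have := mt (Finsupp.degree_eq_zero_iff α).1 (Ne.symm h4)
      rw [sub_zero]
      exact h1 α (by omega)
  have h4 : rename ρ (D.KP A ρ * ∏ l ∈ lab A ρ, sg (blk A ρ l) ^ (γ l).2) = V.sy A ρ γ := by
    simp only [KP, sg, map_mul, map_prod, map_pow, map_sum, rename_X, apply_ite (rename ρ),
      map_sub, map_one]
    refine congrArg _ (Finset.prod_congr rfl fun l _ => congrArg (· ^ _) ?_)
    rw [Finset.sum_congr rfl fun a ha => congrArg X (mem_blk.1 ha).2]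
    simp
  have h5 := mem_map_C_iff.1 (Ideal.mul_mem_right
    (TT ρ (D.KP A ρ * ∏ l ∈ lab A ρ, sg (blk A ρ l) ^ (γ l).2)) _ h3) β
  rwa [sub_mul, coeff_sub, coeff_C_mul,
    coeff_TT_top ρ ((D.KP_homog A ρ).mul (sg_prod_homog A ρ _)) hβ, h4, ← map_mul,
    mul_left_comm, ← mul_assoc, mul_comm _ (C _), ← smul_eq_C_mul] at h5

theorem tops_mm (h : V.Val A ρ γ) {ℓ : Pl Λ →ₗ[ℂ] ℂ} (hℓ : ∀ f ∈ D.LL A ρ, ℓ f = 0) :
    tops ρ ℓ (D.kk A ρ + ∑ l ∈ lab A ρ, (γ l).2) (V.mm A ρ γ) =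
      ℓ (V.bb A ρ γ) • V.sy A ρ γ := by
  ext β
  rw [coeff_tops, coeff_smul, smul_eq_mul]
  split_ifs with h1
  · have h2 := hℓ _ (V.mm_top h h1)
    rwa [map_sub, map_smul, sub_eq_zero, smul_eq_mul, mul_comm] at h2
  · rw [(V.sy_homog A ρ γ).coeff_eq_zero h1, mul_zero]

theorem bb_dual (h : V.Val A ρ γ) :
    ∃ ℓ : Pl Λ →ₗ[ℂ] ℂ, (∀ f ∈ D.LL A ρ, ℓ f = 0) ∧ ∀ γ', V.Val A ρ γ' →
      ℓ (V.bb A ρ γ') = if ∀ l ∈ lab A ρ, (γ' l).1 = (γ l).1 then 1 else 0 := by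
  choose! ℓ h1 h2 using fun l hl => V.dual _ _ (h l hl)
  obtain ⟨ℓ0, h3, h4⟩ := exists_fun_prod (lab A ρ) (fun _ _ _ _ => blk_disjoint A ρ)
    (fun l _ => D.genIn_Id prK _) h1
  refine ⟨ℓ0, h3, fun γ' h' => ?_⟩
  rw [bb, h4 _ fun l hl => (V.memW _ _ (h' l hl)).1,
    Finset.prod_congr rfl fun l hl => h2 l hl _ (h' l hl).symm, Finset.prod_boole]

theorem act_mm (h : V.Val A ρ γ) {σ : Perm Λ} (hσ : σ ∈ D.Gam A) :
    V.Val A (ρ ∘ σ.symm) γ ∧ V.wt A (ρ ∘ σ.symm) γ = V.wt A ρ γ ∧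
      ∃ ε : ℂ, (ε = 1 ∨ ε = -1) ∧ rename σ (V.mm A ρ γ) = ε • V.mm A (ρ ∘ σ.symm) γ := by
  have h1 := blk_image A ρ σ
  have h2 := lab_image A ρ σ
  have h3 := D.rename_KP (D.Gam_GG hσ) A ρ
  rw [D.Gam_image hσ] at h1 h2 h3
  choose! ε h4 h5 using fun l hl => V.act σ (D.Gam_GG hσ) _ _ (h l hl)
  refine ⟨fun l hl => ?_, by rw [wt, wt, h2], ∏ l ∈ lab A ρ, ε l, ?_, ?_⟩
  · rw [h1, D.typ_image (D.Gam_GG hσ), h l (h2 ▸ hl)]
  · refine Finset.prod_induction _ (fun x => x = 1 ∨ x = -1) ?_ (.inl rfl) h4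
    rintro _ _ (rfl | rfl) (rfl | rfl) <;> simp
  · simp only [mm, bb, map_mul, map_prod, map_pow, rename_sg, h1, h2, h3]
    rw [Finset.prod_congr rfl h5, Finset.prod_smul, mul_smul_comm, smul_mul_assoc]

theorem act_mm_stab (h : V.Val A ρ γ) {σ : Perm Λ} (hσ : σ ∈ D.Gam A)
    (hρ : ∀ a ∈ A, ρ (σ a) = ρ a) : rename σ (V.mm A ρ γ) = D.eta σ • V.mm A ρ γ := by
  have h0 : ∀ a ∈ A, (ρ ∘ σ.symm) a = ρ a := fun a ha => by
    simpa using (hρ (σ.symm a) ((D.Gam_mem hσ).1 (by simpa using ha))).symm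
  have h1 : ∀ l, (blk A ρ l).image σ = blk A ρ l := fun l => by
    rw [← blk_image, D.Gam_image hσ]
    exact Finset.filter_congr fun a ha => by rw [h0 a ha]
  have h2 : rename σ (D.KP A ρ) = D.KP A ρ := by
    rw [D.rename_KP (D.Gam_GG hσ), D.Gam_image hσ]
    exact Finset.prod_congr rfl fun a ha => Finset.prod_congr rfl fun b hb => by
      rw [h0 a ha, h0 b hb]
  rw [mm, map_mul, map_mul, h2, bb, D.rename_prod_blk hσ hρ
    (fun l hl => (V.memW _ _ (h l hl)).1) fun l hl => (V.memW _ _ (h l hl)).2.2]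
  simp only [map_prod, map_pow, rename_sg, h1, mul_smul_comm, smul_mul_assoc]

end VData

end Dat

end Vale.Agent.P066
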