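import Vale.Agent.P066.Filt

/-! Leading coefficients lie in the tensor product of the primitive parts. -/

set_option linter.unusedSectionVars false

noncomputable section
open scoped Classical
open MvPolynomial Equiv

namespace Vale.Agent.P066

variable {Λ I : Type} [Fintype Λ] [Fintype I]

/-- Contraction commutes with the coefficients of the translate away from the contracted labels. -/
lemma mv_Phi_coeff (S : Finset Λ) (ℓ : Pl Λ →ₗ[ℂ] ℂ) {A : Finset Λ} {ρ : Λ → ℕ} {β : ℕ →₀ ℕ}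
    (hβ : ∀ l ∈ β.support, l ∉ lab (A ∩ S) ρ) {g : Pl Λ} (hg : g ∈ sup A) :
    Phi S ℓ (coeff β (TT ρ g)) = coeff β (TT ρ (Phi S ℓ g)) := by
  refine sup_cut S (p := fun g => Phi S ℓ (coeff β (TT ρ g)) = coeff β (TT ρ (Phi S ℓ g)))
    (by simp) (fun f g hf hg => by simp only [map_add, coeff_add, hf, hg]) ?_ hg
  intro f hf h hh
  have hfS : f ∈ sup S := sup_mono Finset.inter_subset_right hf
  have hsub : A \ S ⊆ Sᶜ := fun a ha => Finset.mem_compl.2 (Finset.mem_sdiff.1 ha).2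
  have e : coeff β (TT ρ (f * h)) = f * coeff β (TT ρ h) := by
    rw [map_mul, coeff_mul, Finset.sum_eq_single (0, β)]
    · rw [coeff_zero_TT]
    · rintro ⟨β1, β2⟩ h1 h2
      rw [Finset.HasAntidiagonal.mem_antidiagonal] at h1
      have h3 : β1 ≠ 0 := by
        rintro rfl
        rw [zero_add] at h1
        exact h2 (by rw [← h1])
      obtain ⟨l, hl⟩ := Finsupp.support_nonempty_iff.2 h3
      have h4 : l ∈ β.support := by
        rw [Finsupp.mem_support_iff] at hl ⊢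
        have h5 : β1 l + β2 l = β l := by rw [← h1]; rfl
        omega
      rw [coeff_TT_eq_zero hf hl (hβ l h4), zero_mul]
    · intro h1
      exact absurd (Finset.HasAntidiagonal.mem_antidiagonal.2 (zero_add β)) h1
  show Phi S ℓ (coeff β (TT ρ (f * h))) = coeff β (TT ρ (Phi S ℓ (f * h)))
  rw [e, Phi_mul S ℓ hfS (sup_mono hsub (coeff_TT_mem_sup ρ hh β)),
    Phi_mul S ℓ hfS (sup_mono hsub hh), map_smul, coeff_smul]

lemma mv_refines_of_lt {A : Finset Λ} {ρ ρ' : Λ → ℕ}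
    (h : ∀ a ∈ A, ∀ b ∈ A, ρ a < ρ b ↔ ρ' a < ρ' b) : Refines A ρ ρ' := by
  intro a ha b hb e
  have h1 := h a ha b hb
  have h2 := h b hb a ha
  omega

lemma mv_card_of_lt {A : Finset Λ} {ρ ρ' : Λ → ℕ}
    (h : ∀ a ∈ A, ∀ b ∈ A, ρ a < ρ b ↔ ρ' a < ρ' b) : (lab A ρ).card = (lab A ρ').card :=
  le_antisymm (mv_refines_of_lt fun a ha b hb => (h a ha b hb).symm).card_le
    (mv_refines_of_lt h).card_le

lemma mv_blk_sdiff {A : Finset Λ} {ρ : Λ → ℕ} {l l' : ℕ} (h : l' ≠ l) :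
    blk (A \ blk A ρ l) ρ l' = blk A ρ l' := by
  ext a
  simp only [mem_blk, Finset.mem_sdiff]
  constructor
  · rintro ⟨⟨h1, -⟩, h2⟩
    exact ⟨h1, h2⟩
  · rintro ⟨h1, h2⟩
    exact ⟨⟨h1, fun h3 => h (h2.symm.trans h3.2)⟩, h2⟩

lemma mv_not_mem_lab (A : Finset Λ) (ρ : Λ → ℕ) (l : ℕ) : l ∉ lab (A \ blk A ρ l) ρ := by
  rw [mem_lab]
  rintro ⟨a, ha, e⟩
  rw [Finset.mem_sdiff, mem_blk] at ha
  exact ha.2 ⟨ha.1, e⟩

lemma mv_lab_insert {A : Finset Λ} {ρ : Λ → ℕ} {l : ℕ} (hl : l ∈ lab A ρ) :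
    lab A ρ = insert l (lab (A \ blk A ρ l) ρ) := by
  ext x
  rw [Finset.mem_insert, mem_lab, mem_lab]
  constructor
  · rintro ⟨a, ha, e⟩
    by_cases hx : x = l
    · exact Or.inl hx
    · exact Or.inr ⟨a, Finset.mem_sdiff.2 ⟨ha, fun h => hx (e.symm.trans (mem_blk.1 h).2)⟩, e⟩
  · rintro (rfl | ⟨a, ha, e⟩)
    · exact mem_lab.1 hl
    · exact ⟨a, (Finset.mem_sdiff.1 ha).1, e⟩

namespace Dat

variable {D : Dat Λ I}

lemma mv_kk_of_lt {A : Finset Λ} {ρ ρ' : Λ → ℕ}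
    (h : ∀ a ∈ A, ∀ b ∈ A, ρ a < ρ b ↔ ρ' a < ρ' b) : D.kk A ρ = D.kk A ρ' :=
  Finset.sum_congr rfl fun a ha => Finset.sum_congr rfl fun b hb => by
    simp only [h a ha b hb]

lemma mv_LL_split (S : Finset Λ) {A : Finset Λ} {ρ : Λ → ℕ}
    (hd : ∀ a ∈ A ∩ S, ∀ b ∈ A \ S, ρ a ≠ ρ b) :
    D.LL A ρ ≤ D.LL (A ∩ S) ρ ⊔ D.LL (A \ S) ρ := by
  refine iSup₂_le fun l hl => ?_
  obtain ⟨a, ha, e⟩ := mem_lab.1 hl
  by_cases haS : a ∈ S
  · have h1 : blk A ρ l = blk (A ∩ S) ρ l := by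
      ext b
      simp only [mem_blk, Finset.mem_inter]
      refine ⟨fun h => ⟨⟨h.1, ?_⟩, h.2⟩, fun h => ⟨h.1.1, h.2⟩⟩
      by_contra hb
      exact hd a (Finset.mem_inter.2 ⟨ha, haS⟩) b (Finset.mem_sdiff.2 ⟨h.1, hb⟩)
        (e.trans h.2.symm)
    rw [h1]
    exact le_sup_of_le_left (D.KK_le_LL_blk (mem_lab.2 ⟨a, Finset.mem_inter.2 ⟨ha, haS⟩, e⟩))
  · have h1 : blk A ρ l = blk (A \ S) ρ l := by
      ext b
      simp only [mem_blk, Finset.mem_sdiff]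
      refine ⟨fun h => ⟨⟨h.1, fun hb => ?_⟩, h.2⟩, fun h => ⟨h.1.1, h.2⟩⟩
      exact hd b (Finset.mem_inter.2 ⟨h.1, hb⟩) a (Finset.mem_sdiff.2 ⟨ha, haS⟩)
        (h.2.trans e.symm)
    rw [h1]
    exact le_sup_of_le_right (D.KK_le_LL_blk (mem_lab.2 ⟨a, Finset.mem_sdiff.2 ⟨ha, haS⟩, e⟩))

/-- Contraction preserves the translation degree. -/
lemma mv_Phi_Le (S : Finset Λ) {ℓ : Pl Λ →ₗ[ℂ] ℂ} {A : Finset Λ} {ρ : Λ → ℕ}
    (hd : ∀ a ∈ A ∩ S, ∀ b ∈ A \ S, ρ a ≠ ρ b) (hℓ : ∀ f ∈ D.LL (A ∩ S) ρ, ℓ f = 0) {n : ℤ}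
    {g : Pl Λ} (hg : g ∈ sup A) (hle : g ∈ Le (D.LL A ρ) ρ n) :
    Phi S ℓ g ∈ Le (D.LL (A \ S) ρ) ρ n := by
  intro β hβ
  by_cases h : ∀ l ∈ β.support, l ∉ lab (A ∩ S) ρ
  · rw [← mv_Phi_coeff S ℓ h hg]
    obtain ⟨x, hx, y, hy, e⟩ := Submodule.mem_sup.1 (mv_LL_split S hd (hle β hβ))
    rw [← e, map_add, Phi_kill ((D.genIn_LL _ ρ).mono Finset.inter_subset_right) hℓ hx, zero_add]
    exact Phi_stab ℓ ((D.genIn_LL _ ρ).mono
      fun a ha => Finset.mem_compl.2 (Finset.mem_sdiff.1 ha).2) hy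
  · push Not at h
    obtain ⟨l, hl, hl'⟩ := h
    rw [coeff_TT_eq_zero (Phi_mem_sup S ℓ hg) hl]
    · exact zero_mem _
    · obtain ⟨a, ha, e⟩ := mem_lab.1 hl'
      intro h2
      obtain ⟨b, hb, e'⟩ := mem_lab.1 h2
      exact hd a ha b hb (e.trans e'.symm)

lemma mv_adm_union {A B : Finset Λ} (hB : B ⊆ A) {ρ : Λ → ℕ} (h1 : D.Adm B ρ)
    (h2 : D.Adm (A \ B) ρ) : D.Adm A ρ := by
  intro l
  have e : blk A ρ l = blk B ρ l ∪ blk (A \ B) ρ l := by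
    ext a
    simp only [mem_blk, Finset.mem_union, Finset.mem_sdiff]
    constructor
    · rintro ⟨h3, h4⟩
      by_cases h5 : a ∈ B
      · exact Or.inl ⟨h5, h4⟩
      · exact Or.inr ⟨⟨h3, h5⟩, h4⟩
    · rintro (⟨h3, h4⟩ | ⟨h3, h4⟩)
      · exact ⟨hB h3, h4⟩
      · exact ⟨h3.1, h4⟩
  rw [e, D.ph_union, h1 l, h2 l, add_zero]
  exact Finset.disjoint_of_subset_left (blk_subset _ _ _)
    (Finset.disjoint_of_subset_right (blk_subset _ _ _) Finset.disjoint_sdiff)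

lemma mv_adm_sdiff {A : Finset Λ} {ρ : Λ → ℕ} (h : D.Adm A ρ) (l : ℕ) :
    D.Adm (A \ blk A ρ l) ρ := by
  intro l'
  by_cases e : l' = l
  · have : blk (A \ blk A ρ l) ρ l' = ∅ := by
      rw [← Finset.not_nonempty_iff_eq_empty, blk_nonempty, e]
      exact mv_not_mem_lab A ρ l
    rw [this, D.ph_empty]
  · rw [mv_blk_sdiff e]
    exact h l'

/-- Bookkeeping when one block is split off. -/
lemma mv_split (hS : D.Sym) {A : Finset Λ} {ρ ρ1 : Λ → ℕ} {l : ℕ} (hl : l ∈ lab A ρ)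
    (h1 : D.Adm A ρ1) (h1' : D.Adm (A \ blk A ρ l) ρ1) (hr : Refines A ρ1 ρ) :
    (D.kk A ρ1 : ℤ) - D.kk A ρ + (lab A ρ).card - (lab A ρ1).card =
      (D.kk (blk A ρ l) ρ1 + 1 - (lab (blk A ρ l) ρ1).card) +
        ((D.kk (A \ blk A ρ l) ρ1 : ℤ) - D.kk (A \ blk A ρ l) ρ + (lab (A \ blk A ρ l) ρ).card -
          (lab (A \ blk A ρ l) ρ1).card) := by
  have hr' : Refines (A \ blk A ρ l) ρ1 ρ := fun a ha b hb =>
    hr a (Finset.mem_sdiff.1 ha).1 b (Finset.mem_sdiff.1 hb).1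
  have a1 := D.kk_refine hS h1 hr
  have a2 := D.kk_refine hS h1' hr'
  have a3 := card_lab_refine hr
  have a4 := card_lab_refine hr'
  have hn := mv_not_mem_lab A ρ l
  have hne : ∀ x ∈ lab (A \ blk A ρ l) ρ, x ≠ l := fun x hx e => hn (e ▸ hx)
  have a5 : (lab A ρ).card = (lab (A \ blk A ρ l) ρ).card + 1 := by
    conv_lhs => rw [mv_lab_insert hl]
    exact Finset.card_insert_of_notMem hn
  rw [mv_lab_insert hl, Finset.sum_insert hn] at a1 a3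
  rw [Finset.sum_congr rfl fun x hx => by rw [mv_blk_sdiff (hne x hx)]] at a2 a4
  rw [a1, a2, a3, a4, a5]
  push_cast
  ring

lemma mv_LL_sdiff (A : Finset Λ) (ρ : Λ → ℕ) (l : ℕ) : D.LL (A \ blk A ρ l) ρ ≤ D.LL A ρ := by
  refine iSup₂_le fun x hx => ?_
  have hne : x ≠ l := fun e => mv_not_mem_lab A ρ l (e ▸ hx)
  rw [mv_blk_sdiff hne]
  obtain ⟨a, ha, e⟩ := mem_lab.1 hx
  exact D.KK_le_LL_blk (mem_lab.2 ⟨a, (Finset.mem_sdiff.1 ha).1, e⟩)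

/-- The contraction to one block is primitive. -/
lemma mv_block (hS : D.Sym) {A : Finset Λ} {ρ : Λ → ℕ} (hρ : D.Adm A ρ) {g : Pl Λ}
    (hs : g ∈ sup A)
    (hle : ∀ ρ1, D.Adm A ρ1 → Refines A ρ1 ρ → g ∈ Le (D.LL A ρ1) ρ1
      ((D.kk A ρ1 : ℤ) - D.kk A ρ + (lab A ρ).card - (lab A ρ1).card))
    {l : ℕ} (hl : l ∈ lab A ρ) {ℓ : Pl Λ →ₗ[ℂ] ℂ} (hℓ : ∀ f ∈ D.LL (A \ blk A ρ l) ρ, ℓ f = 0) :
    Phi (blk A ρ l)ᶜ ℓ g ∈ D.FF (blk A ρ l) 1 := by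
  set B := blk A ρ l with hB
  have hBA : B ⊆ A := blk_subset _ _ _
  rw [mem_FF]
  intro ρ' hρ'
  set ρ1 : Λ → ℕ := fun a => if a ∈ B then 2 * ρ' a + 1 else 2 * ρ a with hρ1
  have c1 : ∀ a ∈ B, ρ1 a = 2 * ρ' a + 1 := fun a ha => if_pos ha
  have c2 : ∀ a ∈ A \ B, ρ1 a = 2 * ρ a := fun a ha => if_neg (Finset.mem_sdiff.1 ha).2
  have o1 : ∀ a ∈ B, ∀ b ∈ B, ρ' a < ρ' b ↔ ρ1 a < ρ1 b := fun a ha b hb => by
    rw [c1 a ha, c1 b hb]; omega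
  have o2 : ∀ a ∈ A \ B, ∀ b ∈ A \ B, ρ a < ρ b ↔ ρ1 a < ρ1 b := fun a ha b hb => by
    rw [c2 a ha, c2 b hb]; omega
  have d2 : D.Adm (A \ B) ρ1 := (mv_adm_sdiff hρ l).coarsen D (mv_refines_of_lt o2)
  have d1 : D.Adm A ρ1 := mv_adm_union hBA (hρ'.coarsen D (mv_refines_of_lt o1)) d2
  have hr : Refines A ρ1 ρ := by
    intro a ha b hb e
    by_cases h1 : a ∈ B <;> by_cases h2 : b ∈ B
    · rw [(mem_blk.1 h1).2, (mem_blk.1 h2).2]
    · rw [c1 a h1, c2 b (Finset.mem_sdiff.2 ⟨hb, h2⟩)] at e; omega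
    · rw [c1 b h2, c2 a (Finset.mem_sdiff.2 ⟨ha, h1⟩)] at e; omega
    · rw [c2 a (Finset.mem_sdiff.2 ⟨ha, h1⟩), c2 b (Finset.mem_sdiff.2 ⟨hb, h2⟩)] at e; omega
  have h3 := hle ρ1 d1 hr
  rw [mv_split hS hl d1 d2 hr, ← hB, ← mv_kk_of_lt o1, ← mv_kk_of_lt o2, ← mv_card_of_lt o1,
    ← mv_card_of_lt o2] at h3
  have e1 : A ∩ Bᶜ = A \ B := by ext a; simp
  have e2 : A \ Bᶜ = B := by
    ext a
    simp only [Finset.mem_sdiff, Finset.mem_compl, not_not]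
    exact ⟨fun h => h.2, fun h => ⟨hBA h, h⟩⟩
  have h4 := mv_Phi_Le (D := D) Bᶜ (ℓ := ℓ) (A := A) (ρ := ρ1) ?_ ?_ hs h3
  · have h5 := Phi_mem_sup Bᶜ ℓ hs
    rw [e2] at h4 h5
    refine Le_mono (D.LL_le_LL (mv_refines_of_lt o1)) ρ' (le_of_eq (by ring))
      (Le_coarsen (mv_refines_of_lt fun a ha b hb => (o1 a ha b hb).symm) h5 h4)
  · rw [e1, e2]
    intro a ha b hb e
    rw [c2 a ha, c1 b hb] at e
    omega
  · rw [e1]
    exact fun f hf => hℓ f (D.LL_le_LL (mv_refines_of_lt o2) hf)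

/-- The contraction along one block satisfies the hypothesis on the remaining blocks. -/
lemma mv_rest (hS : D.Sym) {A : Finset Λ} {ρ : Λ → ℕ} (hρ : D.Adm A ρ) {g : Pl Λ}
    (hs : g ∈ sup A)
    (hle : ∀ ρ1, D.Adm A ρ1 → Refines A ρ1 ρ → g ∈ Le (D.LL A ρ1) ρ1
      ((D.kk A ρ1 : ℤ) - D.kk A ρ + (lab A ρ).card - (lab A ρ1).card))
    {l : ℕ} (hl : l ∈ lab A ρ) {ℓ : Pl Λ →ₗ[ℂ] ℂ} (hℓ : ∀ f ∈ D.KK (blk A ρ l), ℓ f = 0)
    (ρ' : Λ → ℕ) (hρ' : D.Adm (A \ blk A ρ l) ρ') (hr' : Refines (A \ blk A ρ l) ρ' ρ) :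
    Phi (blk A ρ l) ℓ g ∈ Le (D.LL (A \ blk A ρ l) ρ') ρ'
      ((D.kk (A \ blk A ρ l) ρ' : ℤ) - D.kk (A \ blk A ρ l) ρ + (lab (A \ blk A ρ l) ρ).card -
        (lab (A \ blk A ρ l) ρ').card) := by
  set B := blk A ρ l with hB
  have hBA : B ⊆ A := blk_subset _ _ _
  set ρ1 : Λ → ℕ := fun a => if a ∈ B then 0 else ρ' a + 1 with hρ1
  have c1 : ∀ a ∈ B, ρ1 a = 0 := fun a ha => if_pos ha
  have c2 : ∀ a ∈ A \ B, ρ1 a = ρ' a + 1 := fun a ha => if_neg (Finset.mem_sdiff.1 ha).2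
  have o1 : ∀ a ∈ B, ∀ b ∈ B, (fun _ : Λ => (0 : ℕ)) a < (fun _ : Λ => (0 : ℕ)) b ↔ ρ1 a < ρ1 b :=
    fun a ha b hb => by rw [c1 a ha, c1 b hb]
  have o2 : ∀ a ∈ A \ B, ∀ b ∈ A \ B, ρ' a < ρ' b ↔ ρ1 a < ρ1 b := fun a ha b hb => by
    rw [c2 a ha, c2 b hb]; omega
  have d2 : D.Adm (A \ B) ρ1 := hρ'.coarsen D (mv_refines_of_lt o2)
  have d1 : D.Adm A ρ1 :=
    mv_adm_union hBA ((D.adm_const (hρ l) 0).coarsen D (mv_refines_of_lt o1)) d2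
  have hr : Refines A ρ1 ρ := by
    intro a ha b hb e
    by_cases h1 : a ∈ B <;> by_cases h2 : b ∈ B
    · rw [(mem_blk.1 h1).2, (mem_blk.1 h2).2]
    · rw [c1 a h1, c2 b (Finset.mem_sdiff.2 ⟨hb, h2⟩)] at e; omega
    · rw [c1 b h2, c2 a (Finset.mem_sdiff.2 ⟨ha, h1⟩)] at e; omega
    · rw [c2 a (Finset.mem_sdiff.2 ⟨ha, h1⟩), c2 b (Finset.mem_sdiff.2 ⟨hb, h2⟩)] at e
      exact hr' a (Finset.mem_sdiff.2 ⟨ha, h1⟩) b (Finset.mem_sdiff.2 ⟨hb, h2⟩) (by omega)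
  have h3 := hle ρ1 d1 hr
  have k0 : D.kk B (fun _ => 0) = 0 := by simp [kk]
  have k1 : (lab B (fun _ => 0)).card = 1 := by
    rw [lab, Finset.image_const (blk_nonempty.2 hl), Finset.card_singleton]
  rw [mv_split hS hl d1 d2 hr, ← hB, ← mv_kk_of_lt o1, ← mv_kk_of_lt o2, ← mv_card_of_lt o1,
    ← mv_card_of_lt o2, k0, k1] at h3
  have e1 : A ∩ B = B := Finset.inter_eq_right.2 hBA
  have h4 := mv_Phi_Le (D := D) B (ℓ := ℓ) (A := A) (ρ := ρ1) ?_ ?_ hs h3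
  · refine Le_mono (D.LL_le_LL (mv_refines_of_lt o2)) ρ' (le_of_eq (by push_cast; ring))
      (Le_coarsen (mv_refines_of_lt fun a ha b hb => (o2 a ha b hb).symm) (Phi_mem_sup B ℓ hs) h4)
  · rw [e1]
    intro a ha b hb e
    rw [c1 a ha, c2 b hb] at e
    omega
  · rw [e1]
    intro f hf
    apply hℓ f
    rw [← D.LL_const (hρ l) 0]
    exact D.LL_le_LL (mv_refines_of_lt o1) hf

lemma VData.mv_mul (V : D.VData) {A : Finset Λ} {ρ : Λ → ℕ} {l : ℕ} (hl : l ∈ lab A ρ)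
    {v : V.Gen} (hv : V.ty v = D.typ (blk A ρ l)) {u : Pl Λ}
    (hu : u ∈ Submodule.span ℂ
      {f | ∃ γ, V.Val (A \ blk A ρ l) ρ γ ∧ f = V.bb (A \ blk A ρ l) ρ γ}) :
    V.b (blk A ρ l) v * u ∈ Submodule.span ℂ {f | ∃ γ, V.Val A ρ γ ∧ f = V.bb A ρ γ} := by
  have hn := mv_not_mem_lab A ρ l
  have hne : ∀ x ∈ lab (A \ blk A ρ l) ρ, x ≠ l := fun x hx e => hn (e ▸ hx)
  induction hu using Submodule.span_induction with
  | mem f hf =>
    obtain ⟨γ, hγ, rfl⟩ := hf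
    refine Submodule.subset_span ⟨Function.update γ l (v, 0), ?_, ?_⟩
    · intro x hx
      by_cases e : x = l
      · rw [e, Function.update_self, hv]
      · rw [Function.update_of_ne e, ← mv_blk_sdiff e]
        apply hγ
        rw [mv_lab_insert hl] at hx
        exact (Finset.mem_insert.1 hx).resolve_left e
    · unfold VData.bb
      conv_rhs => rw [mv_lab_insert hl]
      rw [Finset.prod_insert hn, Function.update_self]
      congr 1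
      refine Finset.prod_congr rfl fun x hx => ?_
      rw [Function.update_of_ne (hne x hx), mv_blk_sdiff (hne x hx)]
  | zero => rw [mul_zero]; exact zero_mem _
  | add f f' _ _ h1 h2 => rw [mul_add]; exact add_mem h1 h2
  | smul r f _ h1 => rw [mul_smul_comm]; exact Submodule.smul_mem _ r h1

lemma VData.mv_aux (V : D.VData) (hS : D.Sym) (ρ : Λ → ℕ) (n : ℕ) :
    ∀ (A : Finset Λ) (g : Pl Λ), (lab A ρ).card = n → (A.Nonempty ∨ Nonempty V.Gen) →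
      D.Adm A ρ → g ∈ sup A →
      (∀ σ ∈ D.Gam A, (∀ a ∈ A, ρ (σ a) = ρ a) → rename σ g = D.eta σ • g) →
      (∀ ρ1, D.Adm A ρ1 → Refines A ρ1 ρ → g ∈ Le (D.LL A ρ1) ρ1
        ((D.kk A ρ1 : ℤ) - D.kk A ρ + (lab A ρ).card - (lab A ρ1).card)) →
      ∃ u ∈ Submodule.span ℂ {f | ∃ γ, V.Val A ρ γ ∧ f = V.bb A ρ γ}, g - u ∈ D.LL A ρ := by
  induction n with
  | zero =>
    intro A g hc hA _ hs _ _
    have hA0 : A = ∅ := Finset.image_eq_empty.1 (Finset.card_eq_zero.1 hc)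
    subst hA0
    obtain ⟨v⟩ := hA.resolve_left Finset.not_nonempty_empty
    obtain ⟨r, rfl⟩ := mem_sup_empty hs
    refine ⟨C r, ?_, by rw [sub_self]; exact zero_mem _⟩
    have e : (C r : Pl Λ) = r • V.bb ∅ ρ (fun _ => (v, 0)) := by
      simp [VData.bb, lab, smul_eq_C_mul]
    rw [e]
    exact Submodule.smul_mem _ r
      (Submodule.subset_span ⟨fun _ => (v, 0), fun l hl => by simp [lab] at hl, rfl⟩)
  | succ n ih =>
    intro A g hc _ hρ hs hi hle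
    obtain ⟨l, hl⟩ : (lab A ρ).Nonempty := Finset.card_pos.1 (by omega)
    have hcard : (lab (A \ blk A ρ l) ρ).card = n := by
      rw [mv_lab_insert hl, Finset.card_insert_of_notMem (mv_not_mem_lab A ρ l)] at hc
      omega
    have hBA : blk A ρ l ⊆ A := blk_subset _ _ _
    have hdual : ∀ v : V.Gen, ∃ ℓ : Pl Λ →ₗ[ℂ] ℂ, (∀ f ∈ D.KK (blk A ρ l), ℓ f = 0) ∧
        (V.ty v = D.typ (blk A ρ l) → ∀ w, V.ty w = D.typ (blk A ρ l) →
          ℓ (V.b (blk A ρ l) w) = if w = v then 1 else 0) := by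
      intro v
      by_cases hv : V.ty v = D.typ (blk A ρ l)
      · obtain ⟨ℓ, h1, h2⟩ := V.dual _ v hv.symm
        exact ⟨ℓ, h1, fun _ => h2⟩
      · exact ⟨0, fun _ _ => rfl, fun h => absurd h hv⟩
    choose ℓ hℓ1 hℓ2 using hdual
    have hrest : ∀ v : V.Gen, ∃ u ∈ Submodule.span ℂ
        {f | ∃ γ, V.Val (A \ blk A ρ l) ρ γ ∧ f = V.bb (A \ blk A ρ l) ρ γ},
        Phi (blk A ρ l) (ℓ v) g - u ∈ D.LL (A \ blk A ρ l) ρ := by
      intro v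
      refine ih _ _ hcard (Or.inr ⟨v⟩) (mv_adm_sdiff hρ l) (Phi_mem_sup _ _ hs) ?_
        (mv_rest hS hρ hs hle hl (hℓ1 v))
      intro σ hσ hσρ
      have hfix : ∀ a, a ∉ A \ blk A ρ l → σ a = a := (D.mem_Gam.1 hσ).2
      rw [← Phi_rename _ _ (fun a ha => hfix a fun h => (Finset.mem_sdiff.1 h).2 ha),
        hi σ (D.Gam_mono Finset.sdiff_subset hσ), map_smul]
      intro a ha
      by_cases h : a ∈ A \ blk A ρ l
      · exact hσρ a h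
      · rw [hfix a h]
    choose u hu1 hu2 using hrest
    have hsep : g - ∑ v with V.ty v = D.typ (blk A ρ l),
        V.b (blk A ρ l) v * Phi (blk A ρ l) (ℓ v) g ∈
          D.KK (blk A ρ l) ⊔ D.LL (A \ blk A ρ l) ρ := by
      have hsub : A \ blk A ρ l ⊆ (blk A ρ l)ᶜ :=
        fun a ha => Finset.mem_compl.2 (Finset.mem_sdiff.1 ha).2
      refine Phi_sep ((D.genIn_LL _ ρ).mono hsub) fun ℓ' hℓ' => ?_
      have hsB : Phi (blk A ρ l)ᶜ ℓ' g ∈ sup (blk A ρ l) :=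
        sup_mono (fun a ha => by simpa using (Finset.mem_sdiff.1 ha).2) (Phi_mem_sup _ ℓ' hs)
      have hinv : D.Inv (blk A ρ l) (Phi (blk A ρ l)ᶜ ℓ' g) := by
        intro σ hσ
        have hfix : ∀ a, a ∉ blk A ρ l → σ a = a := (D.mem_Gam.1 hσ).2
        rw [← Phi_rename _ _ (fun a ha => hfix a (Finset.mem_compl.1 ha)),
          hi σ (D.Gam_mono hBA hσ), map_smul]
        intro a _
        by_cases h : a ∈ blk A ρ l
        · rw [(mem_blk.1 h).2, (mem_blk.1 ((D.Gam_mem hσ).2 h)).2]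
        · rw [hfix a h]
      obtain ⟨r, hr⟩ := V.span _ _ (blk_nonempty.2 hl) (hρ l) hsB hinv
        (mv_block hS hρ hs hle hl hℓ')
      have hrv : ∀ w, V.ty w = D.typ (blk A ρ l) → r w = ℓ' (Phi (blk A ρ l) (ℓ w) g) := by
        intro w hw
        have h1 := hℓ1 w _ hr
        rw [map_sub, map_sum, Finset.sum_eq_single w] at h1
        · rw [map_smul, hℓ2 w hw w hw, if_pos rfl, smul_eq_mul, mul_one, sub_eq_zero] at h1
          rw [Phi_fubini, h1]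
        · intro w' hw' hne
          rw [map_smul, hℓ2 w hw w' (Finset.mem_filter.1 hw').2, if_neg hne, smul_zero]
        · intro h2
          exact absurd (Finset.mem_filter.2 ⟨Finset.mem_univ w, hw⟩) h2
      rw [map_sub, map_sum]
      convert hr using 2
      refine Finset.sum_congr rfl fun w hw => ?_
      have hw' := (Finset.mem_filter.1 hw).2
      rw [mul_comm, Phi_mul _ ℓ' (sup_mono hsub (Phi_mem_sup _ _ hs)), hrv w hw']
      rw [compl_compl]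
      exact (V.memW _ w hw'.symm).1
    refine ⟨∑ v with V.ty v = D.typ (blk A ρ l), V.b (blk A ρ l) v * u v,
      Submodule.sum_mem _ fun v hv => V.mv_mul hl (Finset.mem_filter.1 hv).2 (hu1 v), ?_⟩
    have e : g - ∑ v with V.ty v = D.typ (blk A ρ l), V.b (blk A ρ l) v * u v =
        (g - ∑ v with V.ty v = D.typ (blk A ρ l), V.b (blk A ρ l) v * Phi (blk A ρ l) (ℓ v) g) +
          ∑ v with V.ty v = D.typ (blk A ρ l),
            V.b (blk A ρ l) v * (Phi (blk A ρ l) (ℓ v) g - u v) := by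
      simp only [mul_sub, Finset.sum_sub_distrib]
      ring
    rw [e]
    refine add_mem (sup_le (D.KK_le_LL_blk hl) (mv_LL_sdiff A ρ l) hsep) ?_
    exact Ideal.sum_mem _ fun v _ => Ideal.mul_mem_left _ _ (mv_LL_sdiff A ρ l (hu2 v))

theorem VData.mv (V : D.VData) (hS : D.Sym) {A : Finset Λ} (hA : A.Nonempty) {ρ : Λ → ℕ}
    (hρ : D.Adm A ρ) {g : Pl Λ} (hs : g ∈ sup A)
    (hi : ∀ σ ∈ D.Gam A, (∀ a ∈ A, ρ (σ a) = ρ a) → rename σ g = D.eta σ • g)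
    (hle : ∀ ρ1, D.Adm A ρ1 → Refines A ρ1 ρ → g ∈ Le (D.LL A ρ1) ρ1
      ((D.kk A ρ1 : ℤ) - D.kk A ρ + (lab A ρ).card - (lab A ρ1).card)) :
    ∃ u ∈ Submodule.span ℂ {f | ∃ γ, V.Val A ρ γ ∧ f = V.bb A ρ γ}, g - u ∈ D.LL A ρ :=
  V.mv_aux hS ρ _ A g rfl (Or.inl hA) hρ hs hi hle

end Dat

end Vale.Agent.P066
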