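import Vale.Agent.P066.PT
import Vale.Agent.P066.Conj

/-! Positive expansion of coefficients. -/

set_option linter.unusedSectionVars false

noncomputable section
open scoped Classical
open Module

namespace Vale.Agent.P066

variable {L : Type} [AddCommGroup L] {ι : Type} [Fintype ι] {q : QT L} {e : Basis ι ℤ L}

/-- The functional `A` is a positive combination of the `alpha g · x`. -/
def PTFExp (g : Ser q e) (A : Ser q e → R) : Prop :=
  ∃ β : L →₀ R, (∀ x, Pos (β x)) ∧ ∀ F : Ser q e, A F = β.sum fun x b => b * alpha g F x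

lemma ptf_sum_eq (β : L →₀ R) (a : L → R) :
    (β.sum fun x b => b * a x) = Finsupp.linearCombination R a β := by
  rw [Finsupp.linearCombination_apply]; rfl

lemma ptf_comb {g : Ser q e} (β0 : L →₀ R) (h0 : ∀ x, Pos (β0 x)) (A : L → Ser q e → R)
    (h : ∀ x ∈ β0.support, PTFExp g (A x)) :
    PTFExp g fun F => β0.sum fun x b => b * A x F := by
  choose! β hβ hA using h
  refine ⟨∑ x ∈ β0.support, β0 x • β x, fun y => ?_, fun F => ?_⟩
  · rw [Finsupp.finsetSum_apply]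
    refine Pos.sum _ fun x hx => ?_
    rw [Finsupp.smul_apply, smul_eq_mul]
    exact (h0 x).mul (hβ x hx y)
  · rw [ptf_sum_eq _ (alpha g F), map_sum]
    change ∑ x ∈ β0.support, β0 x * A x F = _
    refine Finset.sum_congr rfl fun x hx => ?_
    rw [map_smul, smul_eq_mul, hA x hx F, ptf_sum_eq]

lemma ptf_zero {g : Ser q e} {A : Ser q e → R} (h : ∀ F, A F = 0) : PTFExp g A :=
  ⟨0, fun _ => by simpa using Pos.zero, fun F => by simp [h F]⟩

lemma ptf_congr {g : Ser q e} {A A' : Ser q e → R} (h : ∀ F, A F = A' F) (h' : PTFExp g A') :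
    PTFExp g A := by
  obtain ⟨β, h1, h2⟩ := h'
  exact ⟨β, h1, fun F => (h F).trans (h2 F)⟩

lemma ptf_mem_NF {D : ℕ} {n : L} (hn : n ∈ ND e D) (hc : n ∈ cone e) (h0 : n ≠ 0) :
    n ∈ NF e D := mem_NF.2 ⟨hc, h0, hn⟩

lemma ptf_ne_zero {θ : L →+ ℚ} {n : L} (h : θ n ≠ 0) : n ≠ 0 := by
  rintro rfl; exact h (map_zero θ)

lemma ptf_nobad {g : Ser q e} (hg : g 0 = 1) {D : ℕ} {p : L} (hp : deg e p ≤ D) {θ : L →+ ℚ}
    (hθ : ∀ m ∈ NF e D, θ m ≠ 0) (hb : ∀ m ∈ NF e D, ¬ θ m * (q.B m p : ℚ) < 0) :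
    PTFExp g fun F => Ac θ g F p := by
  have hN := low_ND (e := e) D
  have spa : Sp (ND e D) (neg θ g) (leM (th q p)) := by
    refine (sp_neg (ND e D) θ hg).mono subset_rfl fun n hn hc h => ?_
    change th q p n ≤ 0
    rcases h with rfl | h
    · simp
    · have := hb n (ptf_mem_NF hn hc (ptf_ne_zero h.ne))
      rw [th_apply]
      by_contra hlt
      exact this (mul_neg_of_neg_of_pos h (not_le.1 hlt))
  have spb : Sp (ND e D) (zer θ g * pos θ g) (geM (th q p)) := by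
    have h1 : Sp (ND e D) (zer θ g * pos θ g) (geM θ) := by
      refine Sp.mulM hN ((sp_zer _ θ hg).mono subset_rfl fun n _ _ h => ?_)
        ((sp_pos _ θ hg).mono subset_rfl fun n _ _ h => ?_)
      · change 0 ≤ θ n
        exact (Eq.symm h).le
      · change 0 ≤ θ n
        rcases h with rfl | h
        · simp
        · exact h.le
    refine h1.mono subset_rfl fun n hn hc h => ?_
    change 0 ≤ th q p n
    by_cases h0 : n = 0
    · subst h0; simp
    · have hm := ptf_mem_NF hn hc h0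
      have h2 : 0 < θ n := lt_of_le_of_ne h (hθ n hm).symm
      rw [th_apply]
      by_contra hlt
      exact hb n hm (mul_neg_of_pos_of_neg h2 (not_le.1 hlt))
  have hb0 : (zer θ g * pos θ g) 0 = 1 := by
    rw [mul_zero_apply, zer_zero_apply θ hg, pos_zero_apply θ hg, one_mul]
  have hc : Cong (ND e D) g (neg θ g * (zer θ g * pos θ g)) := by
    rw [← mul_assoc, ← fac_eq θ hg]; exact Cong.refl _ _
  refine ⟨Finsupp.single p 1, fun x => ?_, fun F => ?_⟩
  · rw [Finsupp.single_apply]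
    split_ifs
    · exact Pos.one
    · exact Pos.zero
  · rw [Finsupp.sum_single_index (by simp), one_mul,
      alpha_eq hN hp hg (neg_zero_apply θ hg) hb0 hc spa spb F]
    rfl

/-- Refinement of `θ0` positive on the kernel. -/
lemma ptf_neg_pos {g : Ser q e} (hg : g 0 = 1) {D : ℕ} {θ0 θ : L →+ ℚ}
    (h1 : ∀ m ∈ NF e D, θ0 m ≠ 0 → 0 < θ0 m * θ m) (h2 : ∀ m ∈ NF e D, θ0 m = 0 → 0 < θ m) :
    Cong (ND e D) (neg θ g) (neg θ0 g) := by
  have hN := low_ND (e := e) D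
  have hr := (fac_refine hN (θ := θ0) (θ' := θ) hg fun n hn hc =>
    ⟨fun h => neg_of_mul_pos_right (h1 n (ptf_mem_NF hn hc (ptf_ne_zero h.ne)) h.ne) h.le,
      fun h => (pos_iff_pos_of_mul_pos (h1 n (ptf_mem_NF hn hc (ptf_ne_zero h.ne')) h.ne')).1 h⟩).1
  have hs : Sp (ND e D) (zer θ0 g) (PosS θ) := by
    refine (sp_zer _ θ0 hg).mono subset_rfl fun n hn hc h => ?_
    by_cases h0 : n = 0
    · exact Or.inl h0
    · exact Or.inr (h2 n (ptf_mem_NF hn hc h0) h)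
  have h3 := (fac_of_pos hN (zer_zero_apply θ0 hg) hs).1
  have h4 := hr.trans (Cong.mul hN (Cong.refl _ _) h3)
  rwa [mul_one] at h4

/-- Refinement of `θ0` negative on the kernel. -/
lemma ptf_neg_neg {g : Ser q e} (hg : g 0 = 1) {D : ℕ} {θ0 θ : L →+ ℚ}
    (h1 : ∀ m ∈ NF e D, θ0 m ≠ 0 → 0 < θ0 m * θ m) (h2 : ∀ m ∈ NF e D, θ0 m = 0 → θ m < 0) :
    Cong (ND e D) (neg θ g) (neg θ0 g * zer θ0 g) := by
  have hN := low_ND (e := e) D
  have hr := (fac_refine hN (θ := θ0) (θ' := θ) hg fun n hn hc =>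
    ⟨fun h => neg_of_mul_pos_right (h1 n (ptf_mem_NF hn hc (ptf_ne_zero h.ne)) h.ne) h.le,
      fun h => (pos_iff_pos_of_mul_pos (h1 n (ptf_mem_NF hn hc (ptf_ne_zero h.ne')) h.ne')).1 h⟩).1
  have hs : Sp (ND e D) (zer θ0 g) (NegS θ) := by
    refine (sp_zer _ θ0 hg).mono subset_rfl fun n hn hc h => ?_
    by_cases h0 : n = 0
    · exact Or.inl h0
    · exact Or.inr (h2 n (ptf_mem_NF hn hc h0) h)
  have h3 := (fac_of_neg hN (zer_zero_apply θ0 hg) hs).1
  exact hr.trans (Cong.mul hN (Cong.refl _ _) h3)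

lemma ptf_conj {N : Set L} (hN : Low e N) {a b r : Ser q e} (ha : a 0 = 1) (hb : b 0 = 1)
    (hr : r 0 = 1) (h : Cong N b (a * r)) (F : Ser q e) :
    Cong N (inv b * F * b) (inv r * (inv a * F * a) * r) := by
  have har : (a * r) 0 = 1 := by rw [mul_zero_apply, ha, hr, one_mul]
  have h1 := Cong.mul hN (Cong.mul hN (Cong.inv hN hb har h) (Cong.refl N F)) h
  rw [inv_mul_rev ha hr] at h1
  have h2 : inv r * inv a * F * (a * r) = inv r * (inv a * F * a) * r := by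
    simp only [mul_assoc]
  rwa [h2] at h1

lemma ptf_conj' {N : Set L} (hN : Low e N) {a b r : Ser q e} (ha : a 0 = 1) (hb : b 0 = 1)
    (hr : r 0 = 1) (h : Cong N b (a * r)) (F : Ser q e) :
    Cong N (inv a * F * a) (r * (inv b * F * b) * inv r) := by
  have h1 := Cong.mul hN (Cong.mul hN (Cong.refl N r) (ptf_conj hN ha hb hr h F))
    (Cong.refl N (inv r))
  have h2 : r * (inv r * (inv a * F * a) * r) * inv r = inv a * F * a := by
    calc r * (inv r * (inv a * F * a) * r) * inv r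
        = (r * inv r) * (inv a * F * a) * (r * inv r) := by simp only [mul_assoc]
      _ = inv a * F * a := by rw [mul_inv hr, one_mul, mul_one]
  rw [h2] at h1
  exact h1.symm

lemma ptf_par_sign {m n p : L} (hm : m ∈ cone e) (hm0 : m ≠ 0) (hn : n ∈ cone e) (hn0 : n ≠ 0)
    (h : Par e m n) : (q.B n p < 0 → q.B m p < 0) ∧ (0 < q.B n p → 0 < q.B m p) := by
  have h1 := h.mapZ (q.B.flip p)
  simp only [AddMonoidHom.flip_apply] at h1
  have h2 := deg_pos hm hm0
  have h3 := deg_pos hn hn0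
  constructor
  · intro h4
    have : deg e n * q.B m p < 0 := h1 ▸ mul_neg_of_pos_of_neg h2 h4
    exact neg_of_mul_neg_right this h3.le
  · intro h4
    have : 0 < deg e n * q.B m p := h1 ▸ mul_pos h2 h4
    exact (pos_iff_pos_of_mul_pos this).1 h3

lemma ptf_step {g : Ser q e} {D : ℕ} {p : L} (hp : deg e p ≤ D) {θ1 : L →+ ℚ}
    (h1 : ∀ m ∈ NF e D, θ1 m ≠ 0)
    (ih : ∀ D' < D, ∀ x : L, deg e x ≤ D' → ∀ θ : L →+ ℚ, (∀ m ∈ NF e D', θ m ≠ 0) →
      PTFExp g fun F => Ac θ g F x)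
    (hp1 : PTFExp g fun F => Ac θ1 g F p) {β : L →₀ R} (hβ : ∀ x, Pos (β x))
    (hs : ∀ x ∈ β.support, p - x ∈ cone e) :
    PTFExp g fun F => β.sum fun x b => b * Ac θ1 g F x := by
  refine ptf_comb β hβ (fun x F => Ac θ1 g F x) fun x hx => ?_
  by_cases hxp : x = p
  · rw [hxp]; exact hp1
  by_cases hc : x ∈ cone e
  · have h2 := deg_pos (hs x hx) (sub_ne_zero.2 (Ne.symm hxp))
    rw [map_sub] at h2
    have h3 := deg_nonneg hc
    refine ih (deg e x).toNat (by omega) x (by omega) θ1 fun m hm => h1 m ?_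
    obtain ⟨a, b, c⟩ := mem_NF.1 hm
    exact mem_NF.2 ⟨a, b, by omega⟩
  · exact ptf_zero fun F => Ser.eq_zero _ hc

theorem ptf_main {g : Ser q e} (hg : g 0 = 1) {l0 : List (Fac L)} (hl0 : OkL e l0)
    (hatt : ∀ n, att g n = lgL l0 n) (D : ℕ) : ∀ p : L, deg e p ≤ D → ∀ θ : L →+ ℚ,
      (∀ m ∈ NF e D, θ m ≠ 0) → PTFExp g fun F => Ac θ g F p := by
  induction D using Nat.strong_induction_on with
  | _ D ih =>
  intro p hp
  have hN := low_ND (e := e) D
  suffices H : ∀ c : ℕ, ∀ θ : L →+ ℚ,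
      ((NF e D).filter fun m => θ m * (q.B.flip p m : ℚ) < 0).card = c →
      (∀ m ∈ NF e D, θ m ≠ 0) → PTFExp g fun F => Ac θ g F p from fun θ hθ => H _ θ rfl hθ
  intro c
  induction c using Nat.strong_induction_on with
  | _ c ihc =>
  intro θ hc hθ
  by_cases hbad : ∃ m ∈ NF e D, θ m * (q.B.flip p m : ℚ) < 0
  swap
  · push Not at hbad
    exact ptf_nobad hg hp hθ fun m hm => not_lt.2 (hbad m hm)
  obtain ⟨θ0, θ1, n', hn', hb', -, -, h0', H1, H2, hcard⟩ :=
    cross e (NF e D) θ (q.B.flip p) 0 (map_zero _) (map_zero _)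
      (fun m hm h => (hθ m hm h).elim) hbad
  simp only [AddMonoidHom.flip_apply] at hb' H2
  obtain ⟨hc', hn0', -⟩ := mem_NF.1 hn'
  have hη : q.B n' p ≠ 0 := by
    intro h; rw [h] at hb'; simp at hb'
  have H3 : ∀ m ∈ NF e D, θ0 m = 0 →
      θ m * (q.B m p : ℚ) < 0 ∧ 0 < θ1 m * (q.B m p : ℚ) ∧ Par e m n' := by
    intro m hm h
    rcases H2 m hm h with h | ⟨a, b, c⟩
    · exact ((mem_NF.1 hm).2.1 ((dep_zero_iff e).1 h)).elim
    · refine ⟨a, b, (par_iff_dep hc' hn0').2 ⟨q.B n' p, q.B m p, hη, ?_⟩⟩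
      exact (sub_eq_zero.1 ((dep_zero_iff e).1 c)).symm
  obtain ⟨l, hl, hpar, hz⟩ := PT hg hl0 hatt D hc' hn0' h0' fun m hm h => (H3 m hm h).2.2
  have h1 : ∀ m ∈ NF e D, θ1 m ≠ 0 := by
    intro m hm h
    by_cases h0 : θ0 m = 0
    · have := (H3 m hm h0).2.1
      rw [h] at this; simp at this
    · have := (H1 m hm h0).2
      rw [h] at this; simp at this
  have hp1 := ihc _ (hc ▸ hcard) θ1 rfl h1
  have ho : ∀ f ∈ l, ∀ f' ∈ l, q.B f.m f'.m = 0 := fun f hf f' hf' =>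
    (Par.trans hc' hn0' (hpar f hf) (hpar f' hf').symm).form_zero (hl f' hf').1 (hl f' hf').2
  have hsg : ∀ m ∈ NF e D, θ0 m = 0 →
      (q.B n' p < 0 → q.B m p < 0) ∧ (0 < q.B n' p → 0 < q.B m p) := fun m hm h =>
    ptf_par_sign (mem_NF.1 hm).1 (mem_NF.1 hm).2.1 hc' hn0' (H3 m hm h).2.2
  have hF0 := FP_zero (q := q) hl
  rcases lt_or_gt_of_ne hη with hlt | hgt
  · have e1 := ptf_neg_pos hg (θ := θ) (fun m hm h => (H1 m hm h).1) fun m hm h => by
      have h2 : (q.B m p : ℚ) < 0 := by exact_mod_cast (hsg m hm h).1 hlt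
      exact pos_of_mul_neg_left (H3 m hm h).1 h2.le
    have e2 := ptf_neg_neg hg (θ := θ1) (fun m hm h => (H1 m hm h).2) fun m hm h => by
      have h2 : (q.B m p : ℚ) < 0 := by exact_mod_cast (hsg m hm h).1 hlt
      exact neg_of_mul_pos_left (H3 m hm h).2.1 h2.le
    have e3 := e2.trans (Cong.mul hN e1.symm hz)
    obtain ⟨β, hβ, hs, hβ'⟩ := posAct_neg hl ho (p := p) fun f hf =>
      (ptf_par_sign (hl f hf).1 (hl f hf).2 hc' hn0' (hpar f hf)).1 hlt
    refine ptf_congr (fun F => ?_) (ptf_step hp h1 ih hp1 hβ hs)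
    rw [← hβ' (Ac θ1 g F)]
    exact ptf_conj' hN (neg_zero_apply θ hg) (neg_zero_apply θ1 hg) hF0 e3 F p hp
  · have e1 := ptf_neg_neg hg (θ := θ) (fun m hm h => (H1 m hm h).1) fun m hm h => by
      have h2 : (0 : ℚ) < q.B m p := by exact_mod_cast (hsg m hm h).2 hgt
      exact neg_of_mul_neg_left (H3 m hm h).1 h2.le
    have e2 := ptf_neg_pos hg (θ := θ1) (fun m hm h => (H1 m hm h).2) fun m hm h => by
      have h2 : (0 : ℚ) < q.B m p := by exact_mod_cast (hsg m hm h).2 hgt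
      exact (pos_iff_pos_of_mul_pos (H3 m hm h).2.1).2 h2
    have e3 := e1.trans (Cong.mul hN e2.symm hz)
    obtain ⟨β, hβ, hs, hβ'⟩ := posAct_pos hl ho (p := p) fun f hf =>
      (ptf_par_sign (hl f hf).1 (hl f hf).2 hc' hn0' (hpar f hf)).2 hgt
    refine ptf_congr (fun F => ?_) (ptf_step hp h1 ih hp1 hβ hs)
    rw [← hβ' (Ac θ1 g F)]
    exact ptf_conj hN (neg_zero_apply θ1 hg) (neg_zero_apply θ hg) hF0 e3 F p hp

theorem PTF {g : Ser q e} (hg : g 0 = 1) {l0 : List (Fac L)} (hl0 : OkL e l0)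
    (hatt : ∀ n, att g n = lgL l0 n) (p : L) :
    ∃ β : L →₀ R, (∀ x, Pos (β x)) ∧
      ∀ F : Ser q e, F p = β.sum fun x b => b * alpha g F x := by
  let θ : L →+ ℚ := (Int.castAddHom ℚ).comp (deg e)
  have hθ : ∀ m ∈ cone e, m ≠ 0 → 0 < θ m := fun m hm h0 => by
    change (0 : ℚ) < (deg e m : ℤ)
    exact_mod_cast deg_pos hm h0
  have h1 : neg θ g = 1 := by
    refine cong_univ.1 (fac_of_pos low_univ hg ?_).1
    refine (sp_cone _ g).mono subset_rfl fun n _ hc _ => ?_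
    by_cases h0 : n = 0
    · exact Or.inl h0
    · exact Or.inr (hθ n hc h0)
  refine ptf_congr (A := fun F => F p) (fun F => ?_)
    (ptf_main hg hl0 hatt (deg e p).toNat p (by omega) θ fun m hm =>
      (hθ m (mem_NF.1 hm).1 (mem_NF.1 hm).2.1).ne')
  simp only [Ac, h1, inv_one, one_mul, mul_one]

end Vale.Agent.P066
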