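import Vale.Agent.P066.Coef
import Vale.Agent.P066.GridC
import Vale.Agent.P066.Ana
import Vale.Agent.P066.PTF

/-! The positive expansion. -/

noncomputable section
open scoped Classical
open Module

namespace Vale.Agent.P066

lemma main_cnt_part {n : ℕ} (μ : Multiset ℕ) {u : ℕ →₀ ℕ} (hu : u.degree = n) :
    (cnt μ u : R) = ∑ p : Nat.Partition n,
      if μ.filter (· ≠ 0) = p.parts then (cnt p.parts u : R) else 0 := by
  by_cases h : μ.sum = n
  · let p0 : Nat.Partition n := ⟨μ.filter (· ≠ 0), fun {i} hi =>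
      Nat.pos_of_ne_zero (Multiset.mem_filter.1 hi).2, by
        rw [← h]
        conv_rhs => rw [← Multiset.filter_add_not (· ≠ 0) μ, Multiset.sum_add]
        have : (μ.filter fun a => ¬ a ≠ 0).sum = 0 :=
          Multiset.sum_eq_zero fun x hx => by simpa using (Multiset.mem_filter.1 hx).2
        rw [this, add_zero]⟩
    rw [Finset.sum_eq_single p0]
    · rw [if_pos rfl]; exact congrArg _ (cnt_filter μ u).symm
    · intro p _ hp
      rw [if_neg]
      intro h1
      exact hp (Nat.Partition.ext h1.symm)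
    · intro h1; exact (h1 (Finset.mem_univ _)).elim
  · rw [cnt_eq_zero (by rw [hu]; exact fun h1 => h h1.symm), Nat.cast_zero]
    symm
    apply Finset.sum_eq_zero
    intro p _
    split_ifs with h1
    · rw [← h1, cnt_filter, cnt_eq_zero (by rw [hu]; exact fun h1 => h h1.symm), Nat.cast_zero]
    · rfl

theorem main_series {n : ℕ} (h : Fin n → Fin n) (hm : Monotone h) (hl : ∀ i, i ≤ h i) :
    ∃ β : Nat.Partition n → R, (∀ p, Pos (β p)) ∧ ∀ u : ℕ →₀ ℕ,
      ∑ f ∈ colS h u, tp (2 * asc h f) = ∑ p, β p * (cnt p.parts u : R) := by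
  obtain ⟨m, y, hm2, hy, hyh⟩ := semiorder h hm hl
  have hm0 : 0 < m := by omega
  set ρ := (Finset.univ.sup y) / m + 1 with hρ
  obtain ⟨ι, J, _, _, q, G, hv, hW, hB⟩ := exists_grid ρ m (Nat.succ_pos _) hm2
  have hlt : ∀ a, y a / m < ρ := fun a =>
    Nat.lt_succ_of_le (Nat.div_le_div_right (Finset.le_sup (f := y) (Finset.mem_univ a)))
  let Z : Fin n → Fin ρ × Fin m := fun a => (⟨y a / m, hlt a⟩, ⟨y a % m, Nat.mod_lt _ hm0⟩)
  have hZ : ∀ a, ((Z a).1 : ℕ) * m + (Z a).2 = y a := fun a => Nat.div_add_mod' (y a) m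
  let Y : Fin n → GV ρ m := fun a => Sum.inr (Z a)
  have hY : Function.Injective Y := by
    intro a b hab
    apply hy.injective
    rw [← hZ a, ← hZ b, Sum.inr_injective hab]
  have hv' : ∀ a, G.v 0 a = @Pi.single (GV ρ m) (fun _ => ℤ) _
      (fun a b => Classical.propDecidable (a = b)) a 1 := fun a => by
    rw [hv a]
    funext b
    simp only [Pi.single_apply]
    split_ifs <;> rfl
  have hBY : ∀ a b, a < b → q.B (G.v 0 (Y a)) (G.v 0 (Y b)) = if b ≤ h a then 1 else 0 := by
    intro a b hab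
    rw [hv, hv, hB _ _ (by rw [hZ, hZ]; exact hy hab), hZ, hZ]
    simp only [hyh a b hab]
  obtain ⟨g, hg⟩ := exists_cl q (G.e 0) G.U
  obtain ⟨l0, hl0, hatt⟩ := hg.list
  obtain ⟨β, hβ, hF⟩ := PTF hg.1 hl0 hatt (∑ a, G.v 0 (Y a))
  have hc : ∀ a, G.v 0 a ∈ cone (G.e 0) := fun a => G.vmem 0 0 a le_rfl
  have key : ∀ x, ∃ o : Option (Multiset ℕ), ∀ (u : ℕ →₀ ℕ) (N : ℕ), (∀ i ∈ u.support, i < N) →
      alpha g (HP q (G.e 0) (G.v 0) Finset.univ (List.ofFn fun c : Fin N => u c)) x =
        o.elim 0 fun μ => (cnt μ u : R) := by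
    intro x
    rcases ana G hg x with h0 | ⟨p', h0⟩
    · exact ⟨none, fun u N _ => h0 _⟩
    · rcases coef_W (q := q) hv' hc G.W
        (fun a ha b hb => G.BW a _ ha fun j => G.σW j b hb) p' with h1 | ⟨μ, h1⟩
      · exact ⟨none, fun u N _ => by rw [h0, h1]; rfl⟩
      · exact ⟨some μ, fun u N hN => by rw [h0, h1 u N hN]; rfl⟩
  choose o ho using key
  refine ⟨fun p => tp (nE h) * ∑ x ∈ β.support,
    (o x).elim 0 fun μ => if μ.filter (· ≠ 0) = p.parts then β x else 0, fun p => ?_, fun u => ?_⟩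
  · refine (Pos.tp _).mul (Pos.sum _ fun x _ => ?_)
    cases o x with
    | none => exact Pos.zero
    | some μ =>
      simp only [Option.elim]
      split_ifs
      · exact hβ x
      · exact Pos.zero
  by_cases hu : u.degree = n
  · set N := u.support.sup id + 1 with hN
    have hN' : ∀ i ∈ u.support, i < N := fun i hi =>
      Nat.lt_succ_of_le (Finset.le_sup (f := id) hi)
    have h1 := coef_graph (q := q) hv' hc h hY hBY u hN' hu
    rw [hF, Finsupp.sum] at h1
    have h2 : ∑ f ∈ colS h u, tp (2 * asc h f) =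
        tp (nE h) * ∑ f ∈ colS h u, tp (2 * asc h f - nE h) := by
      rw [Finset.mul_sum]
      refine Finset.sum_congr rfl fun f _ => ?_
      rw [← tp_add]; congr 1; ring
    rw [h2, ← h1]
    simp only [mul_assoc, ← Finset.mul_sum]
    congr 1
    simp only [Finset.sum_mul]
    rw [Finset.sum_comm]
    refine Finset.sum_congr rfl fun x _ => ?_
    rw [ho x u N hN']
    cases o x with
    | none => simp
    | some μ =>
      simp only [Option.elim]
      rw [main_cnt_part μ hu, Finset.mul_sum]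
      refine Finset.sum_congr rfl fun p _ => ?_
      split_ifs <;> simp
  · rw [colS_eq_empty h hu, Finset.sum_empty]
    symm
    refine Finset.sum_eq_zero fun p _ => ?_
    rw [cnt_eq_zero (by rw [p.parts_sum]; exact hu), Nat.cast_zero, mul_zero]

lemma main_coeff_tp (a b : ℤ) : (tp a).coeff b = if b = a then 1 else 0 := by
  rw [tp, HahnSeries.coeff_single]
  split_ifs <;> rfl

lemma main_coeff_mul_nat (a : R) (k : ℕ) (b : ℤ) : (a * (k : R)).coeff b = a.coeff b * k := by
  rw [← nsmul_eq_mul', HahnSeries.coeff_nsmul, Pi.smul_apply, nsmul_eq_mul']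

theorem main_poly {n : ℕ} (h : Fin n → Fin n) (hm : Monotone h) (hl : ∀ i, i ≤ h i) :
    ∃ c : Nat.Partition n → Polynomial ℤ, (∀ p j, 0 ≤ (c p).coeff j) ∧
      chi h = ∑ p, MvPowerSeries.C (c p) * eP p := by
  obtain ⟨β, hβ, hs⟩ := main_series h hm hl
  choose k hk using hβ
  let c : Nat.Partition n → Polynomial ℤ := fun p =>
    ∑ j ∈ Finset.range (nE h + 1), Polynomial.monomial j (k p (2 * j) : ℤ)
  have hc : ∀ p j, (c p).coeff j = if j < nE h + 1 then (k p (2 * j) : ℤ) else 0 := by
    intro p j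
    simp only [c, Polynomial.finsetSum_coeff, Polynomial.coeff_monomial, Finset.sum_ite_eq',
      Finset.mem_range]
  refine ⟨c, fun p j => by rw [hc]; split_ifs <;> positivity, ?_⟩
  ext u j
  rw [coeff_chi, map_sum]
  simp only [MvPowerSeries.coeff_C_mul, eP, coeff_prod_esym, Polynomial.finsetSum_coeff,
    Polynomial.coeff_X_pow, Polynomial.coeff_mul_natCast, hc]
  by_cases hj : j < nE h + 1
  · simp only [if_pos hj]
    have h1 := congrArg (fun a : R => a.coeff (2 * (j : ℤ))) (hs u)
    simp only [HahnSeries.coeff_sum, main_coeff_tp, main_coeff_mul_nat, hk] at h1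
    have h2 : ∀ f : Fin n → ℕ, (2 * (j : ℤ) = 2 * (asc h f : ℤ)) ↔ j = asc h f := fun f => by omega
    simp only [h2] at h1
    exact_mod_cast h1
  · simp only [if_neg hj, zero_mul, Finset.sum_const_zero]
    refine Finset.sum_eq_zero fun f _ => if_neg ?_
    have := asc_le h f
    omega

end Vale.Agent.P066
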