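import Vale.Agent.P066.LT
import Vale.Agent.P066.Gen

/-! Positivity of all walls. -/

set_option linter.unusedSectionVars false

noncomputable section
open scoped Classical
open Module

namespace Vale.Agent.P066

variable {L : Type} [AddCommGroup L] {ι : Type} [Fintype ι] {q : QT L} {e : Basis ι ℤ L}

lemma pt_mem_NF {D : ℕ} {n : L} (hn : n ∈ ND e D) (hc : n ∈ cone e) (h0 : n ≠ 0) :
    n ∈ NF e D := mem_NF.2 ⟨hc, h0, hn⟩

lemma pt_ne_zero {θ : L →+ ℚ} {n : L} (h : θ n ≠ 0) : n ≠ 0 := by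
  rintro rfl; exact h (map_zero θ)

lemma pt_par_ker {m n : L} (hn : n ∈ cone e) (hn0 : n ≠ 0) (h : Par e m n) {θ : L →+ ℚ}
    (hθ : θ n = 0) : θ m = 0 := by
  have h1 := h.map θ
  have h2 : (deg e n : ℚ) ≠ 0 := by exact_mod_cast (deg_pos hn hn0).ne'
  rw [hθ, mul_zero] at h1
  exact (mul_eq_zero.1 h1.symm).resolve_left h2

lemma pt_par_sign {m n : L} (hm : m ∈ cone e) (hm0 : m ≠ 0) (hn : n ∈ cone e) (hn0 : n ≠ 0)
    (h : Par e m n) (x : L) : (q.B x m < 0 ↔ q.B x n < 0) ∧ (0 < q.B x m ↔ 0 < q.B x n) := by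
  have h1 := h.mapZ (q.B x)
  have h2 := deg_pos hm hm0
  have h3 := deg_pos hn hn0
  refine ⟨⟨fun h4 => ?_, fun h4 => ?_⟩, ⟨fun h4 => ?_, fun h4 => ?_⟩⟩
  · have : deg e m * q.B x n < 0 := h1 ▸ mul_neg_of_pos_of_neg h3 h4
    exact neg_of_mul_neg_right this h2.le
  · have : deg e n * q.B x m < 0 := h1 ▸ mul_neg_of_pos_of_neg h2 h4
    exact neg_of_mul_neg_right this h3.le
  · have : 0 < deg e m * q.B x n := h1 ▸ mul_pos h3 h4
    exact (pos_iff_pos_of_mul_pos this).1 h2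
  · have : 0 < deg e n * q.B x m := h1 ▸ mul_pos h2 h4
    exact (pos_iff_pos_of_mul_pos this).1 h3

lemma pt_par_of_nsmul {m x : L} {k : ℕ} (h : m = k • x) : Par e m x := by
  rw [h]; exact (Par.refl x).nsmul k

lemma pt_lgL_par {l : List (Fac L)} (hl : OkL e l) {m : L} (h : lgL l m ≠ 0) :
    m ∈ cone e ∧ m ≠ 0 ∧ ∃ f ∈ l, Par e m f.m := by
  obtain ⟨f, hf, k, hk, rfl⟩ := lgL_ne h
  refine ⟨nsmul_mem (hl f hf).1 k, fun h0 => ?_, f, hf, pt_par_of_nsmul rfl⟩
  have h1 := deg_pos (hl f hf).1 (hl f hf).2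
  have h2 := congrArg (deg e) h0
  rw [map_nsmul, map_zero, nsmul_eq_mul] at h2
  have h3 : (0 : ℤ) < k := by exact_mod_cast hk
  nlinarith

lemma pt_lgL_filter (l : List (Fac L)) (p : Fac L → Prop) (m : L)
    (h : ∀ f ∈ l, ¬ p f → lgF f m = 0) : lgL (l.filter fun f => decide (p f)) m = lgL l m := by
  induction l with
  | nil => rfl
  | cons f l ih =>
    have ih' := ih fun f hf => h f (List.mem_cons_of_mem _ hf)
    by_cases hp : p f
    · rw [List.filter_cons_of_pos (by simpa using hp), lgL_cons, lgL_cons, ih']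
    · rw [List.filter_cons_of_neg (by simpa using hp), lgL_cons, ih',
        h f List.mem_cons_self hp, zero_add]

lemma pt_sp_par {g : Ser q e} (hg : g 0 = 1) {D : ℕ} {n : L} {θ : L →+ ℚ}
    (hker : ∀ m ∈ NF e D, θ m = 0 → Par e m n) : Sp (ND e D) (zer θ g) (parM e n) := by
  refine (sp_zer _ θ hg).mono subset_rfl fun m hm hc h => ?_
  by_cases h0 : m = 0
  · rw [h0]; exact zero_mem (parM e n)
  · exact hker m (pt_mem_NF hm hc h0) h

lemma pt_nobad {g : Ser q e} (hg : g 0 = 1) {l0 : List (Fac L)} (hl0 : OkL e l0)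
    (hatt : ∀ n, att g n = lgL l0 n) {D : ℕ} {n : L} (hn : n ∈ cone e) (hn0 : n ≠ 0)
    {θ : L →+ ℚ} (hθ : θ n = 0) (hker : ∀ m ∈ NF e D, θ m = 0 → Par e m n)
    (hb : ∀ m ∈ NF e D, ¬ θ m * (q.B m n : ℚ) < 0) :
    ∃ l, OkL e l ∧ (∀ f ∈ l, Par e f.m n) ∧ Cong (ND e D) (zer θ g) (FP q e l) := by
  have hN := low_ND (e := e) D
  set l := l0.filter fun f => decide (Par e f.m n) with hl
  have hok : OkL e l := fun f hf => hl0 f (List.mem_filter.1 hf).1
  have hpar : ∀ f ∈ l, Par e f.m n := fun f hf => by simpa using (List.mem_filter.1 hf).2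
  have hsg : ∀ x ∈ ND e D, x ∈ cone e → (q.B x n < 0 → θ x < 0) ∧ (0 < q.B x n → 0 < θ x) := by
    intro x hx hc
    by_cases h0 : x = 0
    · subst h0; simp
    have hm := pt_mem_NF hx hc h0
    have h1 : q.B x n ≠ 0 → θ x ≠ 0 := fun h h' => h ((hker x hm h').form_zero hn hn0)
    constructor
    · intro h
      have h2 : (q.B x n : ℚ) < 0 := by exact_mod_cast h
      rcases lt_or_gt_of_ne (h1 h.ne) with h3 | h3
      · exact h3
      · exact (hb x hm (mul_neg_of_pos_of_neg h3 h2)).elim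
    · intro h
      have h2 : (0 : ℚ) < q.B x n := by exact_mod_cast h
      rcases lt_or_gt_of_ne (h1 h.ne') with h3 | h3
      · exact (hb x hm (mul_neg_of_neg_of_pos h3 h2)).elim
      · exact h3
  refine ⟨l, hok, hpar, lg_unique hN (zer_zero_apply θ hg) (FP_zero hok) fun m hm hc h0 => ?_⟩
  by_cases hp : Par e m n
  · rw [← att_eq_lg hN hm hg (pt_par_ker hn hn0 hp hθ) fun x hx hxc =>
      ⟨fun h => (hsg x hx hxc).1 ((pt_par_sign hc h0 hn hn0 hp x).1.1 h),
        fun h => (hsg x hx hxc).2 ((pt_par_sign hc h0 hn hn0 hp x).2.1 h)⟩,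
      lg_FP hok fun f hf => (Par.trans hn hn0 (hpar f hf) hp.symm).form_zero hc h0, hatt, hl,
      pt_lgL_filter l0 (fun f => Par e f.m n) m]
    intro f _ hf
    by_contra h
    obtain ⟨k, -, hk⟩ := lgF_ne h
    exact hf (Par.trans hc h0 (pt_par_of_nsmul hk).symm hp)
  · have h1 : lg (zer θ g) m = 0 := by
      by_contra h
      exact hp (lg_mem hN hm (zer_zero_apply θ hg) (pt_sp_par hg hker) h)
    have h2 : lg (FP q e l) m = 0 := by
      by_contra h
      exact hp (lg_mem hN hm (M := parM e n) (FP_zero hok) (sp_FP _ hpar) h)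
    rw [h1, h2]

/-- The rational plane spanned by `n'` and `n`. -/
def ptS (q : QT L) (n n' : L) : AddSubmonoid L where
  carrier := {m | q.B n' n • m = q.B m n • n' + q.B n' m • n}
  add_mem' := by
    intro a b ha hb
    simp only [Set.mem_ofPred_eq] at *
    rw [smul_add, ha, hb, map_add, map_add, AddMonoidHom.add_apply, add_smul, add_smul]
    abel
  zero_mem' := by simp

lemma mem_ptS {n n' m : L} : m ∈ ptS q n n' ↔ q.B n' n • m = q.B m n • n' + q.B n' m • n :=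
  Iff.rfl

lemma ptS_hom {n n' a : L} (ha : a ∈ ptS q n n') (δ : L →+ ℤ) :
    q.B n' n * δ a = q.B a n * δ n' + q.B n' a * δ n := by
  have := congrArg δ (mem_ptS.1 ha)
  simpa only [map_add, map_zsmul, smul_eq_mul] using this

lemma ptS_form {n n' a : L} (ha : a ∈ ptS q n n') (b : L) :
    q.B n' n * q.B a b = q.B a n * q.B n' b - q.B n' a * q.B b n := by
  have := ptS_hom ha (q.B.flip b)
  simp only [AddMonoidHom.flip_apply] at this
  rw [this, q.swap n b]; ring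

lemma ptS_P {n n' : L} (hk : q.B n' n ≠ 0) : ∀ a ∈ ptS q n n', ∀ b ∈ ptS q n n',
    ∀ c ∈ ptS q n n', q.B a b * deg e c + q.B b c * deg e a + q.B c a * deg e b = 0 := by
  intro a ha b hb c hc
  refine mul_left_cancel₀ (mul_ne_zero hk hk) ?_
  have h1 := ptS_form ha b
  have h2 := ptS_form hb c
  have h3 := ptS_form hc a
  have h4 := ptS_hom ha (deg e)
  have h5 := ptS_hom hb (deg e)
  have h6 := ptS_hom hc (deg e)
  calc q.B n' n * q.B n' n * (q.B a b * deg e c + q.B b c * deg e a + q.B c a * deg e b)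
      = (q.B n' n * q.B a b) * (q.B n' n * deg e c) + (q.B n' n * q.B b c) * (q.B n' n * deg e a)
        + (q.B n' n * q.B c a) * (q.B n' n * deg e b) := by ring
    _ = q.B n' n * q.B n' n * 0 := by rw [h1, h2, h3, h4, h5, h6]; ring

lemma ptS_N {n n' : L} (hk : q.B n' n ≠ 0) : ∀ a ∈ ptS q n n', ∀ b ∈ ptS q n n',
    a ∈ cone e → b ∈ cone e → q.B a b = 0 → Par e a b := by
  intro a ha b hb _ _ h
  have h1 := ptS_form ha b
  rw [h, mul_zero] at h1
  have h4 := ptS_hom ha (deg e)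
  have h5 := ptS_hom hb (deg e)
  refine zsmul_cancel e (mul_ne_zero hk hk) ?_
  have e1 : (q.B n' n * q.B n' n) • deg e a • b = (q.B n' n * deg e a) • q.B n' n • b := by
    rw [smul_smul, smul_smul]; congr 1; ring
  have e2 : (q.B n' n * q.B n' n) • deg e b • a = (q.B n' n * deg e b) • q.B n' n • a := by
    rw [smul_smul, smul_smul]; congr 1; ring
  rw [e1, e2, mem_ptS.1 ha, mem_ptS.1 hb, h4, h5, smul_add, smul_add, smul_smul, smul_smul,
    smul_smul, smul_smul]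
  congr 2
  · linear_combination (deg e n) * h1
  · linear_combination (-deg e n') * h1

lemma ptS_sat (e : Basis ι ℤ L) {n n' v m : L} {a b : ℤ} (ha : a ≠ 0) (h : a • v = b • m)
    (hm : m ∈ ptS q n n') : v ∈ ptS q n n' := by
  refine zsmul_cancel e ha ?_
  have h1 : a * q.B v n = b * q.B m n := by
    have := congrArg (q.B.flip n) h
    simpa only [map_zsmul, smul_eq_mul, AddMonoidHom.flip_apply] using this
  have h2 : a * q.B n' v = b * q.B n' m := by
    have := congrArg (q.B n') h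
    simpa only [map_zsmul, smul_eq_mul] using this
  rw [smul_comm, h, smul_comm, mem_ptS.1 hm, smul_add, smul_add, smul_smul, smul_smul, smul_smul,
    smul_smul, h1, h2]

lemma ptS_self (n n' : L) : n ∈ ptS q n n' := by
  rw [mem_ptS, q.alt, zero_smul, zero_add]

lemma ptS_dep (e : Basis ι ℤ L) {n n' m : L} (hk : q.B n' n ≠ 0)
    (h : Dep (q.B m n • n' - q.B n' n • m) n) : m ∈ ptS q n n' := by
  obtain ⟨a, b, ha, h⟩ := h
  have h1 := congrArg (q.B n') h
  simp only [map_zsmul, map_sub, smul_eq_mul, q.alt, mul_zero, zero_sub] at h1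
  have h2 : b = -(a * q.B n' m) := mul_right_cancel₀ hk (by linear_combination -h1)
  rw [h2, neg_smul, mul_smul, ← smul_neg] at h
  have h3 := zsmul_cancel e ha h
  rw [mem_ptS, ← neg_neg (q.B n' m • n), ← h3]; abel

lemma pt_att_of_cong {N : Set L} (hN : Low e N) {G : Ser q e} (hG : G 0 = 1) {n m : L}
    (hn : n ∈ cone e) (hn0 : n ≠ 0) (hm : m ∈ cone e) (hm0 : m ≠ 0) (hmN : m ∈ N) (hp : Par e m n)
    {l : List (Fac L)} (hl : OkL e l) (hpar : ∀ f ∈ l, Par e f.m n)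
    (h : Cong N (zer (th q n) G) (FP q e l)) : att G m = lgL l m := by
  have h1 := (fac_sign hN (θ := th q m) (θ' := th q n) hG (sp_cone N G) fun x _ _ _ => by
    simp only [th_apply]
    exact_mod_cast pt_par_sign hm hm0 hn hn0 hp x).2.1
  rw [att, lg_congr hN hmN (zer_zero_apply _ hG) (FP_zero hl) (h1.trans h),
    lg_FP hl fun f hf => (Par.trans hn hn0 (hpar f hf) hp.symm).form_zero hm hm0]

lemma pt_glue (a : L → R) (T : Finset L) : (∀ m ∈ T, m ∈ cone e ∧ m ≠ 0) →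
    (∀ m ∈ T, ∃ l, OkL e l ∧ (∀ f ∈ l, Par e f.m m) ∧
      ∀ m' ∈ T, Par e m' m → a m' = lgL l m') →
    ∃ l, OkL e l ∧ (∀ f ∈ l, ∃ m ∈ T, Par e f.m m) ∧ ∀ m' ∈ T, a m' = lgL l m' := by
  induction T using Finset.strongInduction with
  | H T ih =>
  intro hT h
  rcases T.eq_empty_or_nonempty with rfl | ⟨m, hm⟩
  · exact ⟨[], fun _ h => by simp at h, fun _ h => by simp at h, fun _ h => by simp at h⟩
  obtain ⟨l1, hl1, hp1, ha1⟩ := h m hm
  have hsub : T.filter (fun x => ¬ Par e x m) ⊂ T :=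
    Finset.filter_ssubset.2 ⟨m, hm, not_not.2 (Par.refl m)⟩
  obtain ⟨l2, hl2, hp2, ha2⟩ := ih _ hsub (fun x hx => hT x (Finset.mem_filter.1 hx).1)
    fun x hx => by
      obtain ⟨l, h1, h2, h3⟩ := h x (Finset.mem_filter.1 hx).1
      exact ⟨l, h1, h2, fun y hy => h3 y (Finset.mem_filter.1 hy).1⟩
  refine ⟨l1 ++ l2, fun f hf => ?_, fun f hf => ?_, fun x hx => ?_⟩
  · rcases List.mem_append.1 hf with hf | hf
    exacts [hl1 f hf, hl2 f hf]
  · rcases List.mem_append.1 hf with hf | hf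
    · exact ⟨m, hm, hp1 f hf⟩
    · obtain ⟨y, hy, hy'⟩ := hp2 f hf
      exact ⟨y, (Finset.mem_filter.1 hy).1, hy'⟩
  · rw [lgL_append]
    by_cases hp : Par e x m
    · have : lgL l2 x = 0 := by
        by_contra h0
        obtain ⟨hc, hx0, f, hf, hxf⟩ := pt_lgL_par hl2 h0
        obtain ⟨y, hy, hy'⟩ := hp2 f hf
        exact (Finset.mem_filter.1 hy).2 (Par.trans hc hx0
          (Par.trans (hl2 f hf).1 (hl2 f hf).2 hxf hy').symm hp)
      rw [this, add_zero, ha1 x hx hp]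
    · have : lgL l1 x = 0 := by
        by_contra h0
        obtain ⟨-, -, f, hf, hxf⟩ := pt_lgL_par hl1 h0
        exact hp (Par.trans (hl1 f hf).1 (hl1 f hf).2 hxf (hp1 f hf))
      rw [this, zero_add, ha2 x (Finset.mem_filter.2 ⟨hx, hp⟩)]

lemma pt_refine {g : Ser q e} (hg : g 0 = 1) {D : ℕ} {θ0 θ : L →+ ℚ}
    (h1 : ∀ m ∈ NF e D, θ0 m ≠ 0 → 0 < θ0 m * θ m) :
    Cong (ND e D) (zer θ g) (zer θ (zer θ0 g)) :=
  (fac_refine (low_ND D) (θ := θ0) (θ' := θ) hg fun n hn hc =>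
    ⟨fun h => neg_of_mul_pos_right (h1 n (pt_mem_NF hn hc (pt_ne_zero h.ne)) h.ne) h.le,
      fun h => (pos_iff_pos_of_mul_pos
        (h1 n (pt_mem_NF hn hc (pt_ne_zero h.ne')) h.ne')).1 h⟩).2.1

lemma pt_sign {g : Ser q e} (hg : g 0 = 1) {D : ℕ} {θ0 θ θ' : L →+ ℚ}
    (h : ∀ m ∈ NF e D, θ0 m = 0 → (θ m = 0 ∧ θ' m = 0) ∨ 0 < θ m * θ' m) :
    Cong (ND e D) (zer θ (zer θ0 g)) (zer θ' (zer θ0 g)) := by
  refine (fac_sign (low_ND D) (M := zerM θ0) (zer_zero_apply θ0 hg) (sp_zer _ θ0 hg)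
    fun m hm hc h0 => ?_).2.1
  by_cases hm0 : m = 0
  · subst hm0; simp
  rcases h m (pt_mem_NF hm hc hm0) h0 with ⟨h1, h2⟩ | h1
  · simp [h1, h2]
  · exact ⟨neg_iff_neg_of_mul_pos h1, pos_iff_pos_of_mul_pos h1⟩

lemma pt_low (D : ℕ) (n : L) :
    Low e {x | deg e x < D ∨ (deg e x ≤ D ∧ Par e x n)} := by
  intro a b ha hb h
  have h1 := deg_nonneg hb
  by_cases h0 : b = 0
  · rwa [h0, add_zero] at h
  · have h2 := deg_pos hb h0
    left
    rcases h with h | ⟨h, -⟩ <;> rw [map_add] at h <;> omega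

theorem pt_main {g : Ser q e} (hg : g 0 = 1) {l0 : List (Fac L)} (hl0 : OkL e l0)
    (hatt : ∀ n, att g n = lgL l0 n) (D : ℕ) : ∀ n ∈ cone e, n ≠ 0 → ∀ θ : L →+ ℚ, θ n = 0 →
    (∀ m ∈ NF e D, θ m = 0 → Par e m n) →
    ∃ l, OkL e l ∧ (∀ f ∈ l, Par e f.m n) ∧ Cong (ND e D) (zer θ g) (FP q e l) := by
  induction D using Nat.strong_induction_on with
  | _ D ih =>
  intro n hn hn0
  have hN := low_ND (e := e) D
  suffices H : ∀ c : ℕ, ∀ θ : L →+ ℚ,
      ((NF e D).filter fun m => θ m * (q.B.flip n m : ℚ) < 0).card = c → θ n = 0 →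
      (∀ m ∈ NF e D, θ m = 0 → Par e m n) →
      ∃ l, OkL e l ∧ (∀ f ∈ l, Par e f.m n) ∧ Cong (ND e D) (zer θ g) (FP q e l) from
    fun θ => H _ θ rfl
  intro c
  induction c using Nat.strong_induction_on with
  | _ c ihc =>
  intro θ hc hθ hker
  by_cases hbad : ∃ m ∈ NF e D, θ m * (q.B.flip n m : ℚ) < 0
  swap
  · push Not at hbad
    exact pt_nobad hg hl0 hatt hn hn0 hθ hker fun m hm => not_lt.2 (hbad m hm)
  obtain ⟨θ0, θ1, n', hn', hb', h00, h10, h0', H1, H2, hcard⟩ :=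
    cross e (NF e D) θ (q.B.flip n) n hθ (q.alt n)
      (fun m hm h => (par_iff_dep hn hn0).1 (hker m hm h)) hbad
  simp only [AddMonoidHom.flip_apply] at hb' H2
  obtain ⟨hc', hn0', hd'⟩ := mem_NF.1 hn'
  have hk : q.B n' n ≠ 0 := by
    intro h; rw [h] at hb'; simp at hb'
  have hD : 0 < D := by have := deg_pos hc' hn0'; omega
  have hS : ∀ m ∈ NF e D, θ0 m = 0 → m ∈ ptS q n n' := by
    intro m hm h
    rcases H2 m hm h with ⟨a, b, ha, hab⟩ | ⟨-, -, h3⟩
    · exact ptS_sat e ha hab (ptS_self n n')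
    · exact ptS_dep e hk h3
  have hdep : ∀ m, Dep m n → Par e m n := fun m h => (par_iff_dep hn hn0).2 h
  have hth : ∀ m, Par e m n → th q n m = 0 := fun m h => pt_par_ker hn hn0 h (by simp [q.alt])
  set G := zer θ0 g with hGdef
  have hG : G 0 = 1 := zer_zero_apply θ0 hg
  have hGs : Sp Set.univ G (zerM θ0) := sp_zer _ θ0 hg
  have e1 : Cong (ND e D) (zer θ g) (zer (-th q n) G) := by
    refine (pt_refine hg fun m hm h => (H1 m hm h).1).trans (pt_sign hg fun m hm h => ?_)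
    rcases H2 m hm h with h3 | ⟨h3, -, -⟩
    · left
      exact ⟨pt_par_ker hn hn0 (hdep m h3) hθ, by rw [AddMonoidHom.neg_apply, hth m (hdep m h3),
        neg_zero]⟩
    · right
      rw [AddMonoidHom.neg_apply, th_apply]; linarith
  have e2 : Cong (ND e D) (zer θ1 g) (zer (th q n) G) := by
    refine (pt_refine hg fun m hm h => (H1 m hm h).2).trans (pt_sign hg fun m hm h => ?_)
    rcases H2 m hm h with h3 | ⟨-, h3, -⟩
    · exact Or.inl ⟨pt_par_ker hn hn0 (hdep m h3) h10, hth m (hdep m h3)⟩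
    · exact Or.inr h3
  obtain ⟨l1, hl1, hp1, hz1⟩ := ihc _ (hc ▸ hcard) θ1 rfl h10 fun m hm h => by
    by_cases h0 : θ0 m = 0
    · rcases H2 m hm h0 with h3 | ⟨-, h3, -⟩
      · exact hdep m h3
      · rw [h] at h3; simp at h3
    · have := (H1 m hm h0).2
      rw [h] at this; simp at this
  have hz1' := e2.symm.trans hz1
  have hsub : ∀ m ∈ NF e (D - 1), m ∈ NF e D := fun m hm => by
    obtain ⟨a, b, c⟩ := mem_NF.1 hm
    exact mem_NF.2 ⟨a, b, by omega⟩
  have hray : ∀ m ∈ NF e D, θ0 m = 0 → ∃ l, OkL e l ∧ (∀ f ∈ l, Par e f.m m) ∧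
      Cong (ND e (D - 1)) (zer (th q m) G) (FP q e l) := by
    intro m hm h0
    obtain ⟨hmc, hm0, -⟩ := mem_NF.1 hm
    obtain ⟨θ2, h21, ε, hε, h22⟩ := exists_lex (NF e D) θ0 (th q m)
    obtain ⟨l, hl, hp, hz⟩ := ih (D - 1) (by omega) m hmc hm0 θ2
      (by rw [h22 m h0]; simp [q.alt]) fun x hx h => by
        have hx' := hsub x hx
        have h3 : θ0 x = 0 := by
          by_contra h3
          have := h21 x hx' h3
          rw [h] at this; simp at this
        rw [h22 x h3, th_apply] at h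
        have h4 : q.B x m = 0 := by exact_mod_cast (mul_eq_zero.1 h).resolve_left hε.ne'
        exact ptS_N hk x (hS x hx' h3) m (hS m hm h0) (mem_NF.1 hx).1 hmc h4
    refine ⟨l, hl, hp, Cong.trans (Cong.symm ?_) hz⟩
    refine (pt_refine hg fun x hx h => h21 x (hsub x hx) h).trans (pt_sign hg fun x _ h => ?_)
    rw [h22 x h]
    by_cases h3 : th q m x = 0
    · left; simp only [h3, mul_zero, and_self]
    · right; rw [mul_assoc]; exact mul_pos hε (mul_self_pos.2 h3)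
  set N' : Set L := {x | deg e x < D ∨ (deg e x ≤ D ∧ Par e x n)} with hN'
  have hN'D : N' ⊆ ND e D := by
    rintro x (h | ⟨h, -⟩)
    · exact le_of_lt h
    · exact h
  set T := (NF e D).filter fun x => θ0 x = 0 ∧ x ∈ N' with hT
  obtain ⟨l, hl, hlT, hal⟩ := pt_glue (e := e) (att G) T
    (fun m hm => ⟨(mem_NF.1 (Finset.mem_filter.1 hm).1).1, (mem_NF.1 (Finset.mem_filter.1 hm).1).2.1⟩)
    fun m hm => by
      obtain ⟨hm1, hm2, hm3⟩ := Finset.mem_filter.1 hm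
      obtain ⟨hmc, hm0, -⟩ := mem_NF.1 hm1
      by_cases hp : Par e m n
      · refine ⟨l1, hl1, fun f hf => Par.trans hn hn0 (hp1 f hf) hp.symm, fun x hx hxm => ?_⟩
        obtain ⟨hxc, hx0, hxd⟩ := mem_NF.1 (Finset.mem_filter.1 hx).1
        exact pt_att_of_cong hN hG hn hn0 hxc hx0 hxd (Par.trans hmc hm0 hxm hp) hl1 hp1 hz1'
      · obtain ⟨l2, hl2, hp2, hz2⟩ := hray m hm1 hm2
        refine ⟨l2, hl2, hp2, fun x hx hxm => ?_⟩
        obtain ⟨hx1, -, hx3⟩ := Finset.mem_filter.1 hx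
        obtain ⟨hxc, hx0, -⟩ := mem_NF.1 hx1
        refine pt_att_of_cong (low_ND _) hG hmc hm0 hxc hx0 ?_ hxm hl2 hp2 hz2
        rcases hx3 with h | ⟨-, h⟩
        · change deg e x ≤ ((D - 1 : ℕ) : ℤ)
          omega
        · exact (hp (Par.trans hxc hx0 hxm.symm h)).elim
  have hTk : ∀ f ∈ l, θ0 f.m = 0 ∧ f.m ∈ ptS q n n' := by
    intro f hf
    obtain ⟨m, hm, hfm⟩ := hlT f hf
    obtain ⟨hm1, hm2, -⟩ := Finset.mem_filter.1 hm
    obtain ⟨hmc, hm0, -⟩ := mem_NF.1 hm1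
    exact ⟨pt_par_ker hmc hm0 hfm hm2,
      ptS_sat e (deg_pos hmc hm0).ne' (Eq.symm hfm) (hS m hm1 hm2)⟩
  obtain ⟨l2, hl2, hp2, hz2⟩ := LT (ptS q n n') (ptS_P hk) (ptS_N hk) (pt_low D n) hN'D hG hl
    (fun f hf => (hTk f hf).2) (fun m hm => by
      by_cases hmT : m ∈ T
      · exact hal m hmT
      have h1 : att G m = 0 := by
        by_contra h
        have hmc : m ∈ cone e := by
          by_contra hmc; exact h (att_of_not_mem G hmc)
        have hm0 : m ≠ 0 := by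
          rintro rfl; exact h (att_zero G)
        exact hmT (Finset.mem_filter.2 ⟨pt_mem_NF (hN'D hm) hmc hm0,
          att_mem low_univ (Set.mem_univ m) hG hGs h, hm⟩)
      have h2 : lgL l m = 0 := by
        by_contra h
        obtain ⟨hmc, hm0, f, hf, hmf⟩ := pt_lgL_par hl h
        exact hmT (Finset.mem_filter.2 ⟨pt_mem_NF (hN'D hm) hmc hm0,
          pt_par_ker (hl f hf).1 (hl f hf).2 hmf (hTk f hf).1, hm⟩)
      rw [h1, h2]) hn hn0 (ptS_self n n')
  refine ⟨l2, hl2, hp2, fun x hx => ?_⟩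
  by_cases hxN : x ∈ N'
  · exact (e1 x hx).trans (hz2 x hxN)
  · have hp : ¬ Par e x n := fun h => hxN (Or.inr ⟨hx, h⟩)
    have h1 : zer θ g x = 0 := by
      by_contra h; exact hp (pt_sp_par hg hker x hx h)
    have h2 : FP q e l2 x = 0 := by
      by_contra h; exact hp (sp_FP (M := parM e n) (ND e D) hp2 x hx h)
    rw [h1, h2]

theorem PT {g : Ser q e} (hg : g 0 = 1) {l0 : List (Fac L)} (hl0 : OkL e l0)
    (hatt : ∀ n, att g n = lgL l0 n) (D : ℕ) {n : L} (hn : n ∈ cone e) (hn0 : n ≠ 0)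
    {θ : L →+ ℚ} (hθ : θ n = 0) (hker : ∀ m ∈ NF e D, θ m = 0 → Par e m n) :
    ∃ l, OkL e l ∧ (∀ f ∈ l, Par e f.m n) ∧ Cong (ND e D) (zer θ g) (FP q e l) :=
  pt_main hg hl0 hatt D n hn hn0 θ hθ hker

end Vale.Agent.P066
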