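import Vale.Agent.P066.MMon

/-! Exchange of two blocks with the same generator. -/

set_option linter.unusedSectionVars false

noncomputable section
open scoped Classical
open MvPolynomial Equiv

namespace Vale.Agent.P066

variable {Λ I : Type} [Fintype Λ] [Fintype I]

lemma refines_map_sgA {A : Finset Λ} {ρ ρ' : Λ → ℕ} (h : Refines A ρ ρ') :
    ∃ π : ℕ → ℕ, ∀ a ∈ A, ρ' a = π (ρ a) := by
  refine ⟨fun l => if hl : ∃ a ∈ A, ρ a = l then ρ' hl.choose else 0, fun a ha => ?_⟩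
  have hl : ∃ b ∈ A, ρ b = ρ a := ⟨a, ha, rfl⟩
  simp only [dif_pos hl]
  exact h a ha _ hl.choose_spec.1 hl.choose_spec.2.symm

lemma exists_match_sgA {α : Type*} (f g : ℕ → α) (s : Finset ℕ) : ∀ t : Finset ℕ,
    s.val.map f = t.val.map g →
      ∃ π : ℕ → ℕ, Set.InjOn π s ∧ s.image π = t ∧ ∀ l ∈ s, g (π l) = f l := by
  induction s using Finset.induction_on with
  | empty =>
    intro t h
    have : t = ∅ := by simpa using h.symm
    exact ⟨id, by simp, by simp [this], by simp⟩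
  | insert a s ha ih =>
    intro t h
    rw [Finset.insert_val_of_notMem ha, Multiset.map_cons] at h
    obtain ⟨b, hb, e⟩ := Multiset.mem_map.1 (h ▸ Multiset.mem_cons_self _ _ : f a ∈ t.val.map g)
    rw [← Multiset.cons_erase hb, Multiset.map_cons, e, Multiset.cons_inj_right,
      ← Finset.erase_val] at h
    obtain ⟨π, h1, h2, h3⟩ := ih _ h
    have h4 : ∀ l ∈ s, Function.update π a b l = π l := fun l hl =>
      Function.update_of_ne (ne_of_mem_of_not_mem hl ha) _ _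
    have h5 : ∀ l ∈ s, π l ≠ b := fun l hl =>
      Finset.ne_of_mem_erase (h2 ▸ Finset.mem_image_of_mem π hl)
    refine ⟨Function.update π a b, ?_, ?_, ?_⟩
    · intro x hx y hy e'
      rcases Finset.mem_insert.1 hx with rfl | hx' <;> rcases Finset.mem_insert.1 hy with rfl | hy'
      · rfl
      · rw [Function.update_self, h4 y hy'] at e'
        exact (h5 y hy' e'.symm).elim
      · rw [Function.update_self, h4 x hx'] at e'
        exact (h5 x hx' e').elim
      · rw [h4 x hx', h4 y hy'] at e'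
        exact h1 hx' hy' e'
    · rw [Finset.image_insert, Function.update_self, Finset.image_congr (g := π) h4, h2,
        Finset.insert_erase hb]
    · intro l hl
      rcases Finset.mem_insert.1 hl with rfl | hl
      · rw [Function.update_self, e]
      · rw [h4 l hl, h3 l hl]

lemma image_swap_sgA {B B' : Finset Λ} {τ : Perm Λ} (h2 : τ * τ = 1) (h : B.image τ = B') :
    B'.image τ = B := by
  rw [← h, Finset.image_image, ← Perm.coe_mul, h2, Perm.coe_one, Finset.image_id]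

lemma rho_swap_sgA {A : Finset Λ} {ρ : Λ → ℕ} {l l' : ℕ} {τ : Perm Λ}
    (h2 : τ * τ = 1) (h3 : (blk A ρ l).image τ = blk A ρ l')
    (h4 : ∀ a, a ∉ blk A ρ l → a ∉ blk A ρ l' → τ a = a) :
    ∀ a ∈ A, ρ (τ a) = Equiv.swap l l' (ρ a) := by
  intro a ha
  rw [Equiv.swap_apply_def]
  split_ifs with e1 e2
  · exact (mem_blk.1 (h3 ▸ Finset.mem_image_of_mem τ (mem_blk.2 ⟨ha, e1⟩))).2
  · exact (mem_blk.1 (image_swap_sgA h2 h3 ▸ Finset.mem_image_of_mem τ (mem_blk.2 ⟨ha, e2⟩))).2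
  · rw [h4 a (fun h => e1 (mem_blk.1 h).2) fun h => e2 (mem_blk.1 h).2]

lemma inv_sum_lt_sgA (s : Finset ℕ) (F : ℕ → ℕ → ℕ) {l l' : ℕ} (hlt : l < l') (hl : l ∈ s)
    (hl' : l' ∈ s) :
    (∑ x ∈ s, ∑ y ∈ s, if Equiv.swap l l' x < Equiv.swap l l' y ∧ y < x then F x y else 0) =
      F l' l + ∑ z ∈ s, if l < z ∧ z < l' then F z l + F l' z else 0 := by
  have h1 : ∀ x y, (if Equiv.swap l l' x < Equiv.swap l l' y ∧ y < x then F x y else 0) =
      (if y = l then (if x = l' then F x y else 0) else 0) +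
        (if y = l then (if l < x ∧ x < l' then F x y else 0) else 0) +
        (if x = l' then (if l < y ∧ y < l' then F x y else 0) else 0) := by
    intro x y
    simp only [Equiv.swap_apply_def]
    split_ifs <;> omega
  simp only [h1, Finset.sum_add_distrib, Finset.sum_ite_eq', hl, hl', if_true]
  rw [Finset.sum_comm (s := s) (t := s)]
  simp only [Finset.sum_ite_eq', hl', if_true]
  rw [add_assoc, ← Finset.sum_add_distrib]
  congr 1
  refine Finset.sum_congr rfl fun z _ => ?_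
  split_ifs <;> rfl

lemma inv_sum_sgA (s : Finset ℕ) (F : ℕ → ℕ → ℕ) {l l' : ℕ} (hne : l ≠ l') (hl : l ∈ s)
    (hl' : l' ∈ s) (h1 : ∀ x y, F x y = F y x) (h2 : ∀ y, F l y = F l' y) :
    ∃ n, (∑ x ∈ s, ∑ y ∈ s,
      if Equiv.swap l l' x < Equiv.swap l l' y ∧ y < x then F x y else 0) = F l l + 2 * n := by
  rcases lt_or_gt_of_ne hne with h | h
  · refine ⟨∑ z ∈ s, if l < z ∧ z < l' then F l z else 0, ?_⟩
    rw [inv_sum_lt_sgA s F h hl hl', ← h2, Finset.mul_sum]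
    congr 1
    refine Finset.sum_congr rfl fun z _ => ?_
    rw [h1 z l, ← h2]
    split_ifs <;> omega
  · refine ⟨∑ z ∈ s, if l' < z ∧ z < l then F l z else 0, ?_⟩
    rw [Equiv.swap_comm, inv_sum_lt_sgA s F h hl' hl, h1 l l', ← h2, Finset.mul_sum]
    congr 1
    refine Finset.sum_congr rfl fun z _ => ?_
    rw [h1 z l', ← h2]
    split_ifs <;> omega

namespace Dat

variable (D : Dat Λ I)

lemma exists_swap_sgA {σ : Perm Λ} (hσ : σ ∈ D.GG) {A B B' : Finset Λ} (hB : B ⊆ A)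
    (hB' : B' ⊆ A) (hd : Disjoint B B') (h : B.image σ = B') :
    ∃ τ ∈ D.Gam A, τ * τ = 1 ∧ B.image τ = B' ∧ ∀ a, a ∉ B → a ∉ B' → τ a = a := by
  have h1 : ∀ a ∈ B, σ a ∈ B' := fun a ha => h ▸ Finset.mem_image_of_mem σ ha
  have h2 : ∀ a ∈ B', σ⁻¹ a ∈ B := by
    intro a ha
    obtain ⟨b, hb, rfl⟩ := Finset.mem_image.1 (h ▸ ha)
    simpa using hb
  have h3 : ∀ a ∈ B', a ∉ B := fun a ha => Finset.disjoint_right.1 hd ha
  have hi : Function.Involutive
      fun a => if a ∈ B then σ a else if a ∈ B' then σ⁻¹ a else a := by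
    intro a
    by_cases ha : a ∈ B
    · simp [ha, h1 a ha, h3 _ (h1 a ha)]
    · by_cases ha' : a ∈ B'
      · have := h2 a ha'
        simp only [ha, ha', this, if_true, if_false]
        simp
      · simp [ha, ha']
  refine ⟨hi.toPerm _, D.mem_Gam.2 ⟨D.mem_GG.2 fun a => ?_, fun a ha => ?_⟩, ?_, ?_, ?_⟩
  · simp only [Function.Involutive.coe_toPerm]
    split_ifs
    · exact hσ a
    · exact D.GG.inv_mem hσ a
    · rfl
  · simp only [Function.Involutive.coe_toPerm]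
    rw [if_neg fun h' => ha (hB h'), if_neg fun h' => ha (hB' h')]
  · exact Equiv.ext fun a => hi a
  · exact (Finset.image_congr (g := σ) fun a ha => if_pos ha).trans h
  · intro a ha ha'
    simp only [Function.Involutive.coe_toPerm]
    rw [if_neg ha, if_neg ha']

lemma sum_arr_blk_sgA (A : Finset Λ) (ρ : Λ → ℕ) (p : ℕ → ℕ → Prop) [∀ x y, Decidable (p x y)] :
    (∑ a ∈ A, ∑ b ∈ A, if p (ρ a) (ρ b) then D.arr (D.c a) (D.c b) else 0) =
      ∑ x ∈ lab A ρ, ∑ y ∈ lab A ρ, if p x y then D.kap (blk A ρ x) (blk A ρ y) else 0 := by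
  rw [← sum_blk A ρ]
  refine Finset.sum_congr rfl fun x _ => ?_
  have : ∀ a ∈ blk A ρ x, (∑ b ∈ A, if p (ρ a) (ρ b) then D.arr (D.c a) (D.c b) else 0) =
      ∑ y ∈ lab A ρ, if p x y then ∑ b ∈ blk A ρ y, D.arr (D.c a) (D.c b) else 0 := by
    intro a ha
    rw [← sum_blk A ρ]
    refine Finset.sum_congr rfl fun y _ => ?_
    rw [(mem_blk.1 ha).2]
    split_ifs with h
    · exact Finset.sum_congr rfl fun b hb => by rw [(mem_blk.1 hb).2, if_pos h]
    · exact Finset.sum_eq_zero fun b hb => by rw [(mem_blk.1 hb).2, if_neg h]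
  rw [Finset.sum_congr rfl this, Finset.sum_comm]
  refine Finset.sum_congr rfl fun y _ => ?_
  split_ifs
  · rfl
  · simp

variable {D}

namespace VData

variable (V : D.VData) {A : Finset Λ} {ρ : Λ → ℕ} {γ : ℕ → V.Gen × ℕ}

lemma rename_swap_sgA (h : V.Val A ρ γ) {l l' : ℕ} (hl : l ∈ lab A ρ) (hl' : l' ∈ lab A ρ)
    (hne : l ≠ l') (e : γ l = γ l') {τ : Perm Λ} (hτ : τ ∈ D.Gam A) (h2 : τ * τ = 1)
    (h3 : (blk A ρ l).image τ = blk A ρ l')
    (h4 : ∀ a, a ∉ blk A ρ l → a ∉ blk A ρ l' → τ a = a) :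
    rename τ (V.mm A ρ γ) = V.mm A (ρ ∘ τ.symm) γ := by
  have e1 := lab_image A ρ τ
  have e2 := blk_image A ρ τ
  have e3 := D.rename_KP (D.Gam_GG hτ) A ρ
  rw [D.Gam_image hτ] at e1 e2 e3
  obtain ⟨ε, hε, h5⟩ := V.act τ (D.Gam_GG hτ) _ _ (h l hl)
  have h6 : ε * ε = 1 := by rcases hε with rfl | rfl <;> norm_num
  have h7 : rename τ (V.b (blk A ρ l') (γ l').1) =
      ε • V.b ((blk A ρ l').image τ) (γ l').1 := by
    have := congrArg (rename τ) h5
    rw [← rename_mul_perm, h2, map_smul, h3] at this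
    rw [image_swap_sgA h2 h3, ← e]
    have h8 : rename (1 : Perm Λ) (V.b (blk A ρ l) (γ l).1) = V.b (blk A ρ l) (γ l).1 := by
      simp
    rw [← h8, this, smul_smul, h6, one_smul]
  have h8 : rename τ (V.bb A ρ γ) = V.bb A (ρ ∘ τ.symm) γ := by
    rw [bb, bb, map_prod, e1, ← Finset.mul_prod_erase _ _ hl, ← Finset.mul_prod_erase _ _ hl,
      ← Finset.mul_prod_erase _ _ (Finset.mem_erase.2 ⟨hne.symm, hl'⟩),
      ← Finset.mul_prod_erase _ _ (Finset.mem_erase.2 ⟨hne.symm, hl'⟩), h5, h7, e2, e2,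
      ← mul_assoc, ← mul_assoc, smul_mul_smul_comm, h6, one_smul]
    congr 1
    refine Finset.prod_congr rfl fun x hx => ?_
    obtain ⟨hx1, hx2⟩ := Finset.mem_erase.1 hx
    obtain ⟨hx2, hx3⟩ := Finset.mem_erase.1 hx2
    have h9 : ∀ a ∈ blk A ρ x, τ a = a := fun a ha => h4 a
      (Finset.disjoint_left.1 (blk_disjoint A ρ hx2) ha)
      (Finset.disjoint_left.1 (blk_disjoint A ρ hx1) ha)
    rw [rename_of_fix h9 (D.mem_W.1 (V.memW _ _ (h x hx3))).1, e2,
      Finset.image_congr (g := id) h9, Finset.image_id]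
  rw [mm, mm, map_mul, map_mul, e3, h8, map_prod, e1]
  congr 1
  refine Finset.prod_congr rfl fun x _ => ?_
  rw [map_pow, rename_sg, e2]

theorem swap_sgA (hS : D.Sym) (h : V.Val A ρ γ) {l l' : ℕ} (hl : l ∈ lab A ρ)
    (hl' : l' ∈ lab A ρ) (hne : l ≠ l') (e : γ l = γ l') {τ : Perm Λ} (hτ : τ ∈ D.Gam A)
    (h2 : τ * τ = 1) (h3 : (blk A ρ l).image τ = blk A ρ l')
    (h4 : ∀ a, a ∉ blk A ρ l → a ∉ blk A ρ l' → τ a = a) :
    D.eta τ • rename τ (V.mm A ρ γ) -
      (-1 : ℂ) ^ (D.nf (V.ty (γ l).1) + D.kd (V.ty (γ l).1) (V.ty (γ l).1)) • V.mm A ρ γ ∈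
        D.FF A (V.wt A ρ γ - 1) := by
  have h5 : τ.symm = τ := inv_eq_of_mul_eq_one_right h2
  have h6 : ∀ a ∈ A, (ρ ∘ τ.symm) a = Equiv.swap l l' (ρ a) := by
    rw [h5]
    exact rho_swap_sgA h2 h3 h4
  obtain ⟨h7, h8, -⟩ := V.act_mm h hτ
  obtain ⟨-, -, h9⟩ := V.mm_reorder hS h7 (ρ' := ρ) (γ' := γ)
    (fun a ha b hb e' => by rwa [h6 a ha, h6 b hb, Equiv.apply_eq_iff_eq] at e')
    (fun a ha b hb e' => by rw [h6 a ha, h6 b hb, e'])
    (fun a ha => by
      rw [h6 a ha, Equiv.swap_apply_def]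
      split_ifs with e1 e2
      · rw [e1, e]
      · rw [e2, e]
      · rfl)
  have h10 : D.invs A (ρ ∘ τ.symm) ρ = ∑ x ∈ lab A ρ, ∑ y ∈ lab A ρ,
      if Equiv.swap l l' x < Equiv.swap l l' y ∧ y < x then D.kap (blk A ρ x) (blk A ρ y)
      else 0 := by
    rw [← D.sum_arr_blk_sgA A ρ fun x y => Equiv.swap l l' x < Equiv.swap l l' y ∧ y < x, invs]
    refine Finset.sum_congr rfl fun a ha => Finset.sum_congr rfl fun b hb => ?_
    rw [h6 a ha, h6 b hb]
  obtain ⟨n, hn⟩ := inv_sum_sgA (lab A ρ) (fun x y => D.kap (blk A ρ x) (blk A ρ y)) hne hl hl'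
    (fun x y => D.kap_symm hS (Val.adm V h x) (Val.adm V h y))
    (fun y => by simp only [D.kap_eq, h l hl, h l' hl', e])
  have h11 := D.eta_swap (D.Gam_GG hτ) h2 (B := blk A ρ l) (h3 ▸ blk_disjoint A ρ hne)
    (h3 ▸ h4)
  rw [h10, hn, D.kap_eq, h l hl, pow_add, pow_mul, h8] at h9
  rw [V.rename_swap_sgA h hl hl' hne e hτ h2 h3 h4, h11, h l hl, pow_add, mul_smul, ← smul_sub]
  refine Submodule.smul_mem _ _ ?_
  simpa using h9

end VData

end Dat

end Vale.Agent.P066
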