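import Vale.Agent.P066.MMon
import Vale.Agent.P066.SignAux

/-! Signs of permuted monomials. -/

set_option linter.unusedSectionVars false

noncomputable section
open scoped Classical
open MvPolynomial Equiv

namespace Vale.Agent.P066

variable {Λ I : Type} [Fintype Λ] [Fintype I]

namespace Dat

variable {D : Dat Λ I}

namespace VData

variable (V : D.VData)

/-- The multiset of generators of a monomial. -/
def mu (A : Finset Λ) (ρ : Λ → ℕ) (γ : ℕ → V.Gen × ℕ) : Multiset (V.Gen × ℕ) :=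
  (lab A ρ).val.map γ

variable {A : Finset Λ} {ρ : Λ → ℕ} {γ : ℕ → V.Gen × ℕ}

lemma mu_card (A : Finset Λ) (ρ : Λ → ℕ) (γ : ℕ → V.Gen × ℕ) :
    (V.mu A ρ γ).card = (lab A ρ).card := by
  simp [mu]

lemma mu_wt (A : Finset Λ) (ρ : Λ → ℕ) (γ : ℕ → V.Gen × ℕ) :
    V.wt A ρ γ = ((V.mu A ρ γ).map fun x => x.2 + 1).sum := by
  rw [mu, Multiset.map_map]
  rfl

lemma mu_ty (h : V.Val A ρ γ) : ((V.mu A ρ γ).map fun x => V.ty x.1).sum = D.typ A := by
  rw [mu, Multiset.map_map, ← D.typ_blk A ρ]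
  exact Finset.sum_congr rfl fun l hl => (h l hl).symm

lemma mu_deg (hS : D.Sym) (h : V.Val A ρ γ) :
    ((V.mu A ρ γ).map fun x => V.jj x.1 + 2 * (x.2 : ℤ)).sum =
      2 * (V.dgm A ρ γ : ℤ) - D.kd (D.typ A) (D.typ A) := by
  have h1 := D.kap_self hS (Val.adm V h)
  rw [D.kap_eq] at h1
  have h2 : ∑ l ∈ lab A ρ, D.kap (blk A ρ l) (blk A ρ l) =
      ∑ l ∈ lab A ρ, D.kd (V.ty (γ l).1) (V.ty (γ l).1) :=
    Finset.sum_congr rfl fun l hl => by rw [D.kap_eq, h l hl]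
  rw [mu, Multiset.map_map, h1, h2, dgm]
  change ∑ l ∈ lab A ρ, (V.jj (γ l).1 + 2 * ((γ l).2 : ℤ)) = _
  simp only [jj]
  push_cast
  simp only [Finset.sum_add_distrib, Finset.sum_sub_distrib, ← Finset.mul_sum]
  ring

lemma mu_congr {ρ' : Λ → ℕ} {γ' : ℕ → V.Gen × ℕ} (h1 : Refines A ρ ρ') (h2 : Refines A ρ' ρ)
    (h3 : ∀ a ∈ A, γ' (ρ' a) = γ (ρ a)) : V.mu A ρ' γ' = V.mu A ρ γ := by
  obtain ⟨π, hπ⟩ := refines_map_sgA h1
  have h4 : lab A ρ' = (lab A ρ).image π := by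
    rw [lab, lab, Finset.image_image]
    exact Finset.image_congr fun a ha => hπ a ha
  have h5 : Set.InjOn π (lab A ρ) := by
    intro l hl l' hl' e
    obtain ⟨a, ha, rfl⟩ := mem_lab.1 hl
    obtain ⟨b, hb, rfl⟩ := mem_lab.1 hl'
    exact h2 a ha b hb (by rw [hπ a ha, hπ b hb, e])
  rw [mu, mu, h4, Finset.image_val_of_injOn h5, Multiset.map_map]
  refine Multiset.map_congr rfl fun l hl => ?_
  obtain ⟨a, ha, rfl⟩ := mem_lab.1 hl
  rw [Function.comp_apply, ← hπ a ha, h3 a ha]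

lemma mu_act {σ : Perm Λ} (hσ : σ ∈ D.Gam A) : V.mu A (ρ ∘ σ.symm) γ = V.mu A ρ γ := by
  have := lab_image A ρ σ
  rw [D.Gam_image hσ] at this
  rw [mu, mu, this]


theorem exists_rep_sgB (x0 : V.Gen × ℕ) (μ : Multiset (V.Gen × ℕ)) : ∀ A : Finset Λ,
    (μ.map fun x => V.ty x.1).sum = D.typ A → ∃ ρ γ, V.Val A ρ γ ∧ V.mu A ρ γ = μ := by
  induction μ using Multiset.induction_on with
  | empty =>
    intro A h
    obtain rfl : A = ∅ := D.typ_eq_zero.1 (by simpa using h.symm)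
    exact ⟨fun _ => 0, fun _ => x0, fun l hl => by simp [lab] at hl, by simp [mu, lab]⟩
  | cons x μ ih =>
    intro A h
    rw [Multiset.map_cons, Multiset.sum_cons] at h
    obtain ⟨S, hS, hS'⟩ := D.exists_sub (A := A) (d := V.ty x.1) (h ▸ le_self_add)
    obtain ⟨ρ, γ, h1, h2⟩ := ih (A \ S) (by rw [D.typ_sdiff hS, hS', ← h, add_tsub_cancel_left])
    obtain ⟨a0, ha0⟩ : S.Nonempty := by
      rw [Finset.nonempty_iff_ne_empty]
      intro e
      exact V.ty_ne x.1 (by rw [← hS', e, D.typ_empty])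
    have e0 : blk A (fun a => if a ∈ S then 0 else ρ a + 1) 0 = S := by
      ext a
      rw [mem_blk]
      by_cases ha : a ∈ S <;> simp [ha]
      exact hS ha
    have e1 : ∀ l, blk A (fun a => if a ∈ S then 0 else ρ a + 1) (l + 1) = blk (A \ S) ρ l := by
      intro l
      ext a
      rw [mem_blk, mem_blk]
      by_cases ha : a ∈ S <;> simp [ha]
    have e2 : lab A (fun a => if a ∈ S then 0 else ρ a + 1) =
        insert 0 ((lab (A \ S) ρ).image Nat.succ) := by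
      ext l
      rcases l with _ | l
      · rw [← blk_nonempty, e0]
        simpa using ⟨a0, ha0⟩
      · rw [← blk_nonempty, e1, blk_nonempty]
        simp
    refine ⟨fun a => if a ∈ S then 0 else ρ a + 1, fun l => Nat.casesOn l x γ, ?_, ?_⟩
    · intro l hl
      rcases l with _ | l
      · rw [e0]
        exact hS'
      · rw [e1]
        rw [← blk_nonempty, e1, blk_nonempty] at hl
        exact h1 l hl
    · rw [mu, e2, Finset.insert_val_of_notMem (by simp), Multiset.map_cons,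
        Finset.image_val_of_injOn Nat.succ_injective.injOn, Multiset.map_map, ← h2]
      rfl

theorem exists_rep {A : Finset Λ} (hA : A.Nonempty) {μ : Multiset (V.Gen × ℕ)}
    (h : (μ.map fun x => V.ty x.1).sum = D.typ A) : ∃ ρ γ, V.Val A ρ γ ∧ V.mu A ρ γ = μ := by
  have h0 : μ ≠ 0 := by
    rintro rfl
    exact hA.ne_empty (D.typ_eq_zero.1 (by simpa using h.symm))
  obtain ⟨x, -⟩ := Multiset.exists_mem_of_ne_zero h0
  exact V.exists_rep_sgB x μ A h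


theorem mm_same_mu (hS : D.Sym) (h : V.Val A ρ γ) {ρ' : Λ → ℕ} {γ' : ℕ → V.Gen × ℕ}
    (h' : V.Val A ρ' γ') (hm : V.mu A ρ γ = V.mu A ρ' γ') :
    ∃ ε : ℂ, D.av A (V.mm A ρ γ) - ε • D.av A (V.mm A ρ' γ') ∈ D.FF A (V.wt A ρ γ - 1) := by
  obtain ⟨π, h1, h2, h3⟩ := exists_match_sgA γ γ' (lab A ρ) (lab A ρ') hm
  have hl : ∀ a ∈ A, ρ a ∈ lab A ρ := fun a ha => mem_lab.2 ⟨a, ha, rfl⟩
  have key : ∀ ρ2 : Λ → ℕ, (∀ a ∈ A, ρ2 a = π (ρ a)) → V.Val A ρ2 γ' ∧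
      V.mm A ρ γ - (-1 : ℂ) ^ D.invs A ρ ρ2 • V.mm A ρ2 γ' ∈ D.FF A (V.wt A ρ γ - 1) := by
    intro ρ2 e
    have := V.mm_reorder hS h (ρ' := ρ2) (γ' := γ')
      (fun a ha b hb e' => by rw [e a ha, e b hb, e'])
      (fun a ha b hb e' => h1 (hl a ha) (hl b hb) (by rw [← e a ha, ← e b hb, e']))
      (fun a ha => by rw [e a ha, h3 _ (hl a ha)])
    exact ⟨this.1, this.2.2⟩
  have h4 : lab A (π ∘ ρ) = lab A ρ' := by rw [← h2, lab, lab, Finset.image_image]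
  obtain ⟨σ, hσ, h5⟩ := D.exists_perm_blk (A := A) (ρ := π ∘ ρ) (ρ' := ρ') (by
    intro l
    by_cases hl' : l ∈ lab A ρ'
    · rw [h' l hl', (key (π ∘ ρ) fun _ _ => rfl).1 l (h4 ▸ hl')]
    · have e1 : blk A ρ' l = ∅ := by rwa [← blk_nonempty, Finset.not_nonempty_iff_eq_empty] at hl'
      have e2 : blk A (π ∘ ρ) l = ∅ := by
        rwa [← h4, ← blk_nonempty, Finset.not_nonempty_iff_eq_empty] at hl'
      rw [e1, e2])
  obtain ⟨-, -, ε, hε, h6⟩ := V.act_mm h' (D.inv_mem_Gam hσ)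
  have h7 := D.av_mem_FF (key (ρ' ∘ (σ⁻¹).symm) fun a ha => h5 a ha).2
  have h8 := D.av_rename (D.inv_mem_Gam hσ) (V.mm A ρ' γ')
  rw [h6, map_smul] at h8
  have h9 : ε * ε = 1 := by rcases hε with rfl | rfl <;> norm_num
  have h10 : D.av A (V.mm A (ρ' ∘ (σ⁻¹).symm) γ') = (ε * D.eta σ⁻¹) • D.av A (V.mm A ρ' γ') := by
    rw [mul_smul, ← h8, smul_smul, h9, one_smul]
  rw [map_sub, map_smul, h10, smul_smul] at h7
  exact ⟨_, h7⟩


theorem mm_bad (hS : D.Sym) (h : V.Val A ρ γ) (hb : ¬ Good V.par (V.mu A ρ γ)) :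
    D.av A (V.mm A ρ γ) ∈ D.FF A (V.wt A ρ γ - 1) := by
  simp only [Good, not_forall, not_le] at hb
  obtain ⟨x, hx, hc⟩ := hb
  rw [mu, Multiset.count_map, ← Finset.filter_val, Finset.card_val, Finset.one_lt_card] at hc
  obtain ⟨l, hl, l', hl', hne⟩ := hc
  rw [Finset.mem_filter] at hl hl'
  have e : γ l = γ l' := hl.2.symm.trans hl'.2
  obtain ⟨σ, hσ, h1⟩ := D.exists_perm (blk_subset A ρ l) (blk_subset A ρ l')
    (by rw [h l hl.1, h l' hl'.1, e])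
  obtain ⟨τ, hτ, h2, h3, h4⟩ := D.exists_swap_sgA (D.Gam_GG hσ) (blk_subset A ρ l)
    (blk_subset A ρ l') (blk_disjoint A ρ hne) h1
  have h5 := D.av_mem_FF (V.swap_sgA hS h hl.1 hl'.1 hne e hτ h2 h3 h4)
  have h6 : Odd (D.nf (V.ty (γ l).1) + D.kd (V.ty (γ l).1) (V.ty (γ l).1)) := by
    rw [← hl.2]
    simpa [par] using hx
  rw [h6.neg_one_pow, map_sub, map_smul, map_smul, D.av_rename hτ, smul_smul,
    D.eta_mul_self (D.Gam_GG hτ), ← sub_smul] at h5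
  have h7 := Submodule.smul_mem _ (1 / 2 : ℂ) h5
  rw [smul_smul] at h7
  norm_num at h7
  exact h7


theorem mm_good (hS : D.Sym) (h : V.Val A ρ γ) (hg : Good V.par (V.mu A ρ γ)) {σ : Perm Λ}
    (hσ : σ ∈ D.Gam A) (h1 : ∀ a ∈ A, ∀ b ∈ A, ρ (σ a) = ρ (σ b) ↔ ρ a = ρ b)
    (h2 : ∀ a ∈ A, γ (ρ (σ a)) = γ (ρ a)) :
    D.eta σ • rename σ (V.mm A ρ γ) - V.mm A ρ γ ∈ D.FF A (V.wt A ρ γ - 1) := by
  generalize hn : (A.filter fun a => ρ (σ a) ≠ ρ a).card = n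
  induction n using Nat.strong_induction_on generalizing σ with
  | _ n ih =>
  by_cases h0 : ∀ a ∈ A, ρ (σ a) = ρ a
  · rw [V.act_mm_stab h hσ h0, smul_smul, D.eta_mul_self (D.Gam_GG hσ), one_smul, sub_self]
    exact zero_mem _
  · simp only [not_forall] at h0
    obtain ⟨a0, ha0, hne⟩ := h0
    have ha1 : σ a0 ∈ A := (D.Gam_mem hσ).2 ha0
    have hl : ρ a0 ∈ lab A ρ := mem_lab.2 ⟨a0, ha0, rfl⟩
    have hl' : ρ (σ a0) ∈ lab A ρ := mem_lab.2 ⟨_, ha1, rfl⟩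
    have h3 : (blk A ρ (ρ a0)).image σ = blk A ρ (ρ (σ a0)) := by
      ext b
      rw [Finset.mem_image, mem_blk]
      constructor
      · rintro ⟨a, ha, rfl⟩
        rw [mem_blk] at ha
        exact ⟨(D.Gam_mem hσ).2 ha.1, (h1 a ha.1 a0 ha0).2 ha.2⟩
      · rintro ⟨hb, e⟩
        have hb' : σ⁻¹ b ∈ A := (D.Gam_mem (D.inv_mem_Gam hσ)).2 hb
        refine ⟨σ⁻¹ b, mem_blk.2 ⟨hb', (h1 _ hb' a0 ha0).1 ?_⟩, by simp⟩
        simpa using e
    obtain ⟨τ, hτ, h4, h5, h6⟩ := D.exists_swap_sgA (D.Gam_GG hσ) (blk_subset A ρ _)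
      (blk_subset A ρ _) (blk_disjoint A ρ (Ne.symm hne)) h3
    have h7 := rho_swap_sgA h4 h5 h6
    have h8 : ∀ a ∈ A, ρ ((τ * σ) a) = Equiv.swap (ρ a0) (ρ (σ a0)) (ρ (σ a)) := fun a ha =>
      h7 _ ((D.Gam_mem hσ).2 ha)
    have h9 : ∀ x, γ (Equiv.swap (ρ a0) (ρ (σ a0)) x) = γ x := by
      intro x
      rw [Equiv.swap_apply_def]
      split_ifs with e1 e2
      · rw [e1, h2 a0 ha0]
      · rw [e2, h2 a0 ha0]
      · rfl
    have h10 := ih _ (by
        rw [← hn]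
        refine Finset.card_lt_card ⟨fun a ha => ?_, fun hs => ?_⟩
        · rw [Finset.mem_filter] at ha ⊢
          refine ⟨ha.1, fun e => ha.2 ?_⟩
          rw [h8 a ha.1, Equiv.swap_apply_of_ne_of_ne, e]
          · intro e'
            exact hne (((h1 a ha.1 a0 ha0).2 (e.symm.trans e')).symm.trans e')
          · intro e'
            exact hne ((e'.symm.trans e).trans ((h1 a ha.1 a0 ha0).1 e'))
        · have := hs (Finset.mem_filter.2 ⟨ha0, hne⟩)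
          rw [Finset.mem_filter, h8 a0 ha0, Equiv.swap_apply_right] at this
          exact this.2 rfl)
      (D.mul_mem_Gam hτ hσ)
      (fun a ha b hb => by rw [h8 a ha, h8 b hb, Equiv.apply_eq_iff_eq, h1 a ha b hb])
      (fun a ha => by rw [h8 a ha, h9, h2 a ha]) rfl
    have h11 := V.swap_sgA hS h hl hl' (Ne.symm hne) (h2 a0 ha0).symm hτ h4 h5 h6
    have h12 : Even (D.nf (V.ty (γ (ρ a0)).1) + D.kd (V.ty (γ (ρ a0)).1) (V.ty (γ (ρ a0)).1)) := by
      by_contra hc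
      have h13 := hg (γ (ρ a0)) (by simpa [par] using hc)
      rw [mu, Multiset.count_map, ← Finset.filter_val, Finset.card_val, Finset.card_le_one] at h13
      exact hne (h13 _ (Finset.mem_filter.2 ⟨hl', (h2 a0 ha0).symm⟩) _
        (Finset.mem_filter.2 ⟨hl, rfl⟩))
    rw [h12.neg_one_pow, one_smul] at h11
    have h13 := D.rename_mem_FF (D.Gam_GG hτ) h10
    rw [D.Gam_image hτ, map_sub, map_smul, ← rename_mul_perm, ← mul_assoc, h4, one_mul] at h13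
    have h14 := add_mem (Submodule.smul_mem _ (D.eta τ) h13) h11
    rw [smul_sub, smul_smul, ← D.eta_mul (D.Gam_GG hτ) (D.Gam_GG (D.mul_mem_Gam hτ hσ)),
      ← mul_assoc, h4, one_mul, sub_add_sub_cancel] at h14
    exact h14


end VData

end Dat

end Vale.Agent.P066
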