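import Vale.Agent.P066.Span
import Vale.Agent.P066.Sign

/-! Spanning and independence of the averaged good monomials. -/

set_option linter.unusedSectionVars false

noncomputable section
open scoped Classical
open MvPolynomial Equiv

namespace Vale.Agent.P066

variable {Λ I : Type} [Fintype Λ] [Fintype I]

lemma prod_CX_pow_pb (s : Finset ℕ) (c : ℕ → ℂ) (e : ℕ → ℕ) :
    (∏ l ∈ s, (C (c l) * X l) ^ e l : MvPolynomial ℕ ℂ) =
      monomial (∑ l ∈ s, Finsupp.single l (e l)) (∏ l ∈ s, c l ^ e l) := by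
  induction s using Finset.induction_on with
  | empty => simp
  | insert a s ha ih =>
    rw [Finset.prod_insert ha, Finset.sum_insert ha, Finset.prod_insert ha, ih, mul_pow,
      ← C_pow, C_mul_X_pow_eq_monomial, monomial_mul]

lemma sum_single_inj_pb {s : Finset ℕ} {e e' : ℕ → ℕ}
    (h : ∑ l ∈ s, Finsupp.single l (e l) = ∑ l ∈ s, Finsupp.single l (e' l)) :
    ∀ l ∈ s, e l = e' l := by
  intro l hl
  have := DFunLike.congr_fun h l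
  simpa [Finsupp.finsetSum_apply, Finsupp.single_apply, hl] using this

/-- pairs (polynomial, coefficient of the quotient of its leading part) -/
def relS_pb (T : Pl Λ →ₗ[ℂ] MvPolynomial ℕ ℂ) (P : MvPolynomial ℕ ℂ) (i0 : ℕ →₀ ℕ) :
    Submodule ℂ (Pl Λ × ℂ) where
  carrier := {p | ∃ Q, T p.1 = P * Q ∧ coeff i0 Q = p.2}
  add_mem' := by
    rintro p q ⟨Q, h1, h2⟩ ⟨Q', h3, h4⟩
    exact ⟨Q + Q', by rw [Prod.fst_add, map_add, h1, h3, mul_add],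
      by rw [Prod.snd_add, coeff_add, h2, h4]⟩
  zero_mem' := ⟨0, by simp, by simp⟩
  smul_mem' := by
    rintro r p ⟨Q, h1, h2⟩
    exact ⟨r • Q, by rw [Prod.smul_fst, map_smul, h1, mul_smul_comm],
      by rw [Prod.smul_snd, coeff_smul, h2]⟩

lemma relS_of_eq_pb {T : Pl Λ →ₗ[ℂ] MvPolynomial ℕ ℂ} {P : MvPolynomial ℕ ℂ} {i0 : ℕ →₀ ℕ}
    {f g : Pl Λ} {c : ℂ} (h : T (f - g) = 0) (hg : (g, c) ∈ relS_pb T P i0) :
    (f, c) ∈ relS_pb T P i0 := by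
  obtain ⟨Q, h1, h2⟩ := hg
  rw [map_sub, sub_eq_zero] at h
  exact ⟨Q, h.trans h1, h2⟩

lemma relS_smul_zero_pb {T : Pl Λ →ₗ[ℂ] MvPolynomial ℕ ℂ} {P : MvPolynomial ℕ ℂ} {i0 : ℕ →₀ ℕ}
    {g : Pl Λ} (r : ℂ) (hg : (g, (0 : ℂ)) ∈ relS_pb T P i0) :
    (r • g, (0 : ℂ)) ∈ relS_pb T P i0 := by
  simpa using Submodule.smul_mem _ r hg

namespace Dat

variable {D : Dat Λ I}

lemma relS_av_pb {T : Pl Λ →ₗ[ℂ] MvPolynomial ℕ ℂ} {P : MvPolynomial ℕ ℂ} {i0 : ℕ →₀ ℕ}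
    {A : Finset Λ} {f : Pl Λ} {c : Perm Λ → ℂ}
    (h : ∀ σ ∈ D.Gam A, (D.eta σ • rename σ f, c σ) ∈ relS_pb T P i0) :
    (D.av A f, ((D.Gam A).card : ℂ)⁻¹ * ∑ σ ∈ D.Gam A, c σ) ∈ relS_pb T P i0 := by
  have := Submodule.smul_mem _ ((D.Gam A).card : ℂ)⁻¹ (Submodule.sum_mem _ h)
  obtain ⟨Q, h1, h2⟩ := this
  rw [Prod.smul_fst, Prod.fst_sum, ← av_apply] at h1
  rw [Prod.smul_snd, Prod.snd_sum] at h2
  exact ⟨Q, h1, h2⟩

namespace VData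

variable (V : D.VData) {A : Finset Λ}

theorem span_pb (hS : D.Sym) (hA : A.Nonempty) (hph : D.ph A = 0) {m : ℕ} {α : Type}
    {ρ : α → Λ → ℕ} {γ : α → ℕ → V.Gen × ℕ} (hv : ∀ v, V.Val A (ρ v) (γ v))
    (hd : ∀ v, V.dgm A (ρ v) (γ v) = m)
    (hall : ∀ ρ' γ', V.Val A ρ' γ' → V.dgm A ρ' γ' = m → Good V.par (V.mu A ρ' γ') →
      ∃ v, V.mu A ρ' γ' = V.mu A (ρ v) (γ v)) {f : Pl Λ} (hf : f ∈ D.W A m) :
    ∃ h ∈ Submodule.span ℂ (Set.range fun v => D.av A (V.mm A (ρ v) (γ v))), f - h ∈ D.KK A := by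
  set U := Submodule.span ℂ (Set.range fun v => D.av A (V.mm A (ρ v) (γ v))) with hU
  have hUW : U ≤ D.W A m := by
    rw [hU, Submodule.span_le]
    rintro _ ⟨v, rfl⟩
    exact D.av_mem_W (V.mm_mem_sup (hv v)) (hd v ▸ V.mm_homog (hv v))
  have step : ∀ ω : ℤ, ∀ g ∈ V.MS A ω, ∃ h ∈ U,
      homogeneousComponent m g - h ∈ D.FF A (ω - 1) := by
    intro ω g hg
    induction hg using Submodule.span_induction with
    | mem g hg =>
      obtain ⟨ρ', γ', h1, h2, rfl⟩ := hg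
      rw [D.hc_av, homogeneousComponent_of_mem (V.mm_homog h1)]
      split_ifs with h3
      · by_cases h4 : Good V.par (V.mu A ρ' γ')
        · obtain ⟨v, h5⟩ := hall ρ' γ' h1 h3.symm h4
          obtain ⟨ε, h6⟩ := V.mm_same_mu hS h1 (hv v) h5
          exact ⟨_, U.smul_mem ε (Submodule.subset_span ⟨v, rfl⟩), h2 ▸ h6⟩
        · exact ⟨0, zero_mem _, by rw [sub_zero]; exact h2 ▸ V.mm_bad hS h1 h4⟩
      · exact ⟨0, zero_mem _, by simp⟩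
    | zero => exact ⟨0, zero_mem _, by simp⟩
    | add g g' _ _ h1 h2 =>
      obtain ⟨h, h3, h4⟩ := h1
      obtain ⟨h', h5, h6⟩ := h2
      refine ⟨h + h', add_mem h3 h5, ?_⟩
      rw [map_add, add_sub_add_comm]
      exact add_mem h4 h6
    | smul r g _ h1 =>
      obtain ⟨h, h3, h4⟩ := h1
      refine ⟨r • h, U.smul_mem r h3, ?_⟩
      rw [map_smul, ← smul_sub]
      exact Submodule.smul_mem _ r h4
  have main : ∀ n : ℕ, ∀ f ∈ D.W A m, f ∈ D.FF A ((n : ℤ) - 1) → ∃ h ∈ U, f - h ∈ D.KK A := by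
    intro n
    induction n with
    | zero =>
      intro f _ h2
      exact ⟨0, zero_mem _, by rw [sub_zero]; exact D.mem_KK_of_FF hph (by norm_num) h2⟩
    | succ n ih =>
      intro f h1 h2
      obtain ⟨h3, h4, h5⟩ := D.mem_W.1 h1
      rw [Nat.cast_succ, add_sub_cancel_right] at h2
      obtain ⟨g, h6, h7⟩ := V.span_step hS hA h3 h5 h2
      obtain ⟨h, h8, h9⟩ := step n g h6
      have h10 := D.hc_mem_FF m h7
      rw [map_sub, homogeneousComponent_of_mem h4, if_pos rfl] at h10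
      have h11 := add_mem h10 h9
      rw [sub_add_sub_cancel] at h11
      obtain ⟨h', h12, h13⟩ := ih (f - h) (sub_mem h1 (hUW h8)) h11
      exact ⟨h + h', add_mem h8 h12, by rwa [← sub_sub]⟩
  refine main (m + A.card + 1) f hf ?_
  have := D.homog_mem_FF A (D.mem_W.1 hf).2.1
  push_cast
  rwa [add_sub_cancel_right]

variable {ρ0 : Λ → ℕ} {γ0 : ℕ → V.Gen × ℕ} {ℓ : Pl Λ →ₗ[ℂ] ℂ}

theorem kill_pb (hℓ : ∀ f ∈ D.LL A ρ0, ℓ f = 0) {f : Pl Λ}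
    (hf : f ∈ Le (D.LL A ρ0) ρ0 (D.kk A ρ0 + (V.wt A ρ0 γ0 - 1) - (lab A ρ0).card)) :
    topsL ρ0 ℓ (D.kk A ρ0 + ∑ l ∈ lab A ρ0, (γ0 l).2) f = 0 := by
  refine tops_eq_zero hℓ ?_
  rw [V.wt_eq] at hf
  refine Le_mono le_rfl ρ0 (le_of_eq ?_) hf
  push_cast
  ring

theorem killF_pb (h0 : V.Val A ρ0 γ0) (hℓ : ∀ f ∈ D.LL A ρ0, ℓ f = 0) {f : Pl Λ}
    (hf : f ∈ D.FF A (V.wt A ρ0 γ0 - 1)) :
    topsL ρ0 ℓ (D.kk A ρ0 + ∑ l ∈ lab A ρ0, (γ0 l).2) f = 0 :=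
  V.kill_pb hℓ (D.mem_FF.1 hf ρ0 (Val.adm V h0))

theorem key_pb (hS : D.Sym) (h0 : V.Val A ρ0 γ0) (hℓ : ∀ f ∈ D.LL A ρ0, ℓ f = 0)
    (hb : ∀ γ', V.Val A ρ0 γ' →
      ℓ (V.bb A ρ0 γ') = if ∀ l ∈ lab A ρ0, (γ' l).1 = (γ0 l).1 then 1 else 0)
    {ρ : Λ → ℕ} {γ : ℕ → V.Gen × ℕ} (h : V.Val A ρ γ) (hw : V.wt A ρ γ = V.wt A ρ0 γ0)
    (hc : (lab A ρ0).card ≤ (lab A ρ).card) :
    (V.mm A ρ γ, (0 : ℂ)) ∈ relS_pb (topsL ρ0 ℓ (D.kk A ρ0 + ∑ l ∈ lab A ρ0, (γ0 l).2))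
        (D.Del A ρ0) (∑ l ∈ lab A ρ0, Finsupp.single l (γ0 l).2) ∨
      (Refines A ρ ρ0 ∧ Refines A ρ0 ρ ∧ ∀ a ∈ A, γ0 (ρ0 a) = γ (ρ a)) := by
  by_cases h1 : Refines A ρ0 ρ
  · have h2 := h1.symm_of_card hc
    obtain ⟨π, hπ⟩ := refines_map_sgA h1
    obtain ⟨h3, h4, h5⟩ := V.mm_reorder hS h (γ' := γ ∘ π) h2 h1
      (fun a ha => by rw [Function.comp_apply, ← hπ a ha])
    by_cases h6 : ∀ l ∈ lab A ρ0, (γ ∘ π) l = γ0 l
    · refine Or.inr ⟨h2, h1, fun a ha => ?_⟩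
      rw [← h6 _ (mem_lab.2 ⟨a, ha, rfl⟩), Function.comp_apply, ← hπ a ha]
    · left
      rw [hw] at h5
      refine relS_of_eq_pb (V.killF_pb h0 hℓ h5) (relS_smul_zero_pb _ ?_)
      have h7 : ∑ l ∈ lab A ρ0, ((γ ∘ π) l).2 = ∑ l ∈ lab A ρ0, (γ0 l).2 := by
        rw [hw, V.wt_eq, V.wt_eq] at h4
        exact Nat.add_right_cancel h4
      have h8 := V.tops_mm h3 hℓ
      rw [h7, hb _ h3, sy, prod_CX_pow_pb, ← mul_smul_comm] at h8
      refine ⟨_, h8, ?_⟩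
      rw [coeff_smul, coeff_monomial]
      split_ifs with h9 h10
      · exact (h6 fun l hl => Prod.ext (h9 l hl) (sum_single_inj_pb h10 l hl)).elim
      · simp
      · simp
      · simp
  · left
    have h2 := V.mm_notref hS h (Val.adm V h0) h1
    rw [hw, add_sub_assoc] at h2
    exact ⟨0, by rw [mul_zero]; exact V.kill_pb hℓ h2, by simp⟩

theorem indep_pb (hS : D.Sym) {α : Type} [Fintype α]
    {ρ : α → Λ → ℕ} {γ : α → ℕ → V.Gen × ℕ} (hv : ∀ v, V.Val A (ρ v) (γ v))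
    (hg : ∀ v, Good V.par (V.mu A (ρ v) (γ v)))
    (hinj : ∀ v w, V.mu A (ρ v) (γ v) = V.mu A (ρ w) (γ w) → v = w) (r : α → ℂ)
    (hr : ∑ v, r v • D.av A (V.mm A (ρ v) (γ v)) ∈ D.KK A) (v : α) : r v = 0 := by
  by_contra hne
  obtain ⟨v1, h1, h2⟩ := Finset.exists_max_image (Finset.univ.filter fun w => r w ≠ 0)
    (fun w => V.wt A (ρ w) (γ w)) ⟨v, by simpa using hne⟩
  obtain ⟨v0, h3, h4⟩ := Finset.exists_min_image (Finset.univ.filter fun w => r w ≠ 0 ∧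
    V.wt A (ρ w) (γ w) = V.wt A (ρ v1) (γ v1)) (fun w => (lab A (ρ w)).card)
    ⟨v1, by simpa using h1⟩
  simp only [Finset.mem_filter, Finset.mem_univ, true_and] at h1 h2 h3 h4
  rw [← h3.2] at h2 h4
  obtain ⟨ℓ, hℓ, hb⟩ := V.bb_dual (hv v0)
  set T := topsL (ρ v0) ℓ (D.kk A (ρ v0) + ∑ l ∈ lab A (ρ v0), (γ v0 l).2) with hT
  set i0 := ∑ l ∈ lab A (ρ v0), Finsupp.single l (γ v0 l).2 with hi0
  set k0 : ℂ := ∏ l ∈ lab A (ρ v0), ((blk A (ρ v0) l).card : ℂ) ^ (γ v0 l).2 with hk0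
  have hk : k0 ≠ 0 := Finset.prod_ne_zero_iff.2 fun l hl =>
    pow_ne_zero _ (Nat.cast_ne_zero.2 (blk_nonempty.2 hl).card_pos.ne')
  have hcard : ∀ w, ∀ σ ∈ D.Gam A, lab A (ρ w ∘ σ.symm) = lab A (ρ w) := by
    intro w σ hσ
    have := lab_image A (ρ w) σ
    rwa [D.Gam_image hσ] at this
  have hmain : (V.mm A (ρ v0) (γ v0), k0) ∈ relS_pb T (D.Del A (ρ v0)) i0 := by
    have h8 := V.tops_mm (hv v0) hℓ
    rw [hb _ (hv v0), if_pos fun _ _ => rfl, one_smul, sy, prod_CX_pow_pb] at h8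
    exact ⟨_, h8, by rw [coeff_monomial, if_pos rfl]⟩
  have hother : ∀ w, w ≠ v0 → (r w • D.av A (V.mm A (ρ w) (γ w)), (0 : ℂ)) ∈
      relS_pb T (D.Del A (ρ v0)) i0 := by
    intro w hw
    by_cases h5 : r w = 0
    · rw [h5, zero_smul]
      exact zero_mem _
    refine relS_smul_zero_pb _ ?_
    rcases (h2 w h5).eq_or_lt with h6 | h6
    · have := relS_av_pb (D := D) (A := A) (f := V.mm A (ρ w) (γ w)) (c := fun _ => 0)
        (T := T) (P := D.Del A (ρ v0)) (i0 := i0) (by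
        intro σ hσ
        obtain ⟨h7, h8, ε, -, h9⟩ := V.act_mm (hv w) hσ
        rw [h9]
        refine relS_smul_zero_pb _ (relS_smul_zero_pb _ ?_)
        rcases V.key_pb hS (hv v0) hℓ hb h7 (h8.trans h6)
          (by rw [hcard w σ hσ]; exact h4 w ⟨h5, h6⟩) with h10 | ⟨h10, h11, h12⟩
        · exact h10
        · exact (hw (hinj w v0 ((V.mu_act hσ).symm.trans (V.mu_congr h10 h11 h12).symm))).elim)
      simpa using this
    · refine ⟨0, ?_, by simp⟩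
      rw [mul_zero]
      refine V.killF_pb (hv v0) hℓ (D.av_mem_FF (D.FF_mono A ?_ (V.mm_mem hS (hv w))))
      omega
  have hself : ∀ σ ∈ D.Gam A, ∃ n : ℕ, (D.eta σ • rename σ (V.mm A (ρ v0) (γ v0)), n * k0) ∈
      relS_pb T (D.Del A (ρ v0)) i0 ∧ (σ = 1 → n = 1) := by
    intro σ hσ
    by_cases h5 : σ = 1
    · refine ⟨1, ?_, fun _ => rfl⟩
      simpa [h5, D.eta_one] using hmain
    obtain ⟨h7, h8, ε, -, h9⟩ := V.act_mm (hv v0) hσ
    rcases V.key_pb hS (hv v0) hℓ hb h7 h8 (by rw [hcard v0 σ hσ]) with h10 | ⟨h10, h11, h12⟩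
    · refine ⟨0, ?_, fun e => (h5 e).elim⟩
      rw [h9, Nat.cast_zero, zero_mul]
      exact relS_smul_zero_pb _ (relS_smul_zero_pb _ h10)
    · refine ⟨1, ?_, fun _ => rfl⟩
      have hm : ∀ a ∈ A, σ a ∈ A := fun a ha => (D.Gam_mem hσ).2 ha
      have h13 := V.mm_good hS (hv v0) (hg v0) hσ
        (fun a ha b hb => ⟨fun e => by simpa using h11 _ (hm a ha) _ (hm b hb) e,
          fun e => h10 _ (hm a ha) _ (hm b hb) (by simpa using e)⟩)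
        (fun a ha => by simpa using h12 _ (hm a ha))
      rw [Nat.cast_one, one_mul]
      exact relS_of_eq_pb (V.killF_pb (hv v0) hℓ h13) hmain
  choose! n hn1 hn2 using hself
  have h5 := Submodule.smul_mem _ (r v0) (relS_av_pb hn1)
  have h6 := add_mem h5 (Submodule.sum_mem _ (t := Finset.univ.erase v0) fun w hw =>
    hother w (Finset.ne_of_mem_erase hw))
  obtain ⟨Q, h7, h8⟩ := h6
  rw [Prod.fst_add, Prod.fst_sum, Prod.smul_fst, Finset.add_sum_erase _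
    (fun w => r w • D.av A (V.mm A (ρ w) (γ w))) (Finset.mem_univ v0),
    V.killF_pb (hv v0) hℓ (D.mem_FF_of_KK hr _)] at h7
  rw [(mul_eq_zero.1 h7.symm).resolve_left (D.Del_ne_zero A _), Prod.snd_add, Prod.snd_sum,
    Prod.smul_snd, coeff_zero, ← Finset.sum_mul, ← Nat.cast_sum] at h8
  have h9 : (∑ σ ∈ D.Gam A, n σ) ≠ 0 := by
    have := Finset.single_le_sum (f := n) (fun _ _ => Nat.zero_le _) (D.one_mem_Gam A)
    rw [hn2 1 (D.one_mem_Gam A) rfl] at this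
    omega
  simp only [Finset.sum_const_zero, add_zero, smul_eq_mul] at h8
  exact mul_ne_zero h3.1 (mul_ne_zero (inv_ne_zero (D.card_Gam_ne A))
    (mul_ne_zero (Nat.cast_ne_zero.2 h9) hk)) h8.symm

end VData

end Dat

end Vale.Agent.P066
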