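import Vale.Agent.P066.Span
import Vale.Agent.P066.Sign
import Vale.Agent.P066.PbwAux

/-! The dimension count for the semistable part. -/

set_option linter.unusedSectionVars false

noncomputable section
open scoped Classical
open MvPolynomial Equiv

namespace Vale.Agent.P066

variable {Λ I : Type} [Fintype Λ] [Fintype I]

lemma card_le_pb {G : Type} {ty : G → I → ℕ} (hty : ∀ v, ty v ≠ 0) (μ : Multiset (G × ℕ)) :
    μ.card ≤ ∑ i, (μ.map fun x => ty x.1).sum i := by
  induction μ using Multiset.induction_on with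
  | empty => simp
  | cons x μ ih =>
    obtain ⟨i, hi⟩ := Function.ne_iff.1 (hty x.1)
    have h1 := Finset.single_le_sum (f := ty x.1) (fun _ _ => Nat.zero_le _) (Finset.mem_univ i)
    have h2 : ty x.1 i ≠ 0 := hi
    simp only [Multiset.card_cons, Multiset.map_cons, Multiset.sum_cons, Pi.add_apply,
      Finset.sum_add_distrib]
    omega

lemma sum_ge_pb {G : Type} {jj : G → ℤ} {J : ℕ} (hJ : ∀ v, -(J : ℤ) ≤ jj v)
    (μ : Multiset (G × ℕ)) : -((μ.card : ℤ) * J) ≤ (μ.map fun x => jj x.1 + 2 * (x.2 : ℤ)).sum := by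
  induction μ using Multiset.induction_on with
  | empty => simp
  | cons x μ ih =>
    have h1 := hJ x.1
    have h2 : (0 : ℤ) ≤ x.2 := Int.natCast_nonneg _
    simp only [Multiset.card_cons, Multiset.map_cons, Multiset.sum_cons]
    push_cast
    linarith

lemma eq_zero_pb {G : Type} {ty : G → I → ℕ} (hty : ∀ v, ty v ≠ 0) {μ : Multiset (G × ℕ)}
    (h : (μ.map fun x => ty x.1).sum = 0) : μ = 0 := by
  have := card_le_pb hty μ
  rw [h] at this
  simpa using this

lemma GM_finite {G : Type} [Fintype G] (par : G → Bool) {ty : G → I → ℕ} (hty : ∀ v, ty v ≠ 0)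
    (jj : G → ℤ) (d : I → ℕ) (k : ℤ) : (GM par ty jj d k).Finite := by
  set n := ∑ i, d i with hn
  set J := ∑ v, (jj v).natAbs with hJ
  have hJ' : ∀ v, -(J : ℤ) ≤ jj v := by
    intro v
    have := Finset.single_le_sum (f := fun v => (jj v).natAbs) (fun _ _ => Nat.zero_le _)
      (Finset.mem_univ v)
    omega
  refine (Set.finite_Icc 0
    (n • (Finset.univ ×ˢ Finset.range (k.natAbs + n * J + 1)).val)).subset ?_
  rintro μ ⟨-, h1, h2⟩
  refine ⟨Multiset.zero_le _, Multiset.le_iff_count.2 fun x => ?_⟩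
  have hc : μ.card ≤ n := by
    rw [hn, ← h1]
    exact card_le_pb hty μ
  by_cases hx : x ∈ μ
  · have h3 := sum_ge_pb hJ' (μ.erase x)
    rw [← Multiset.cons_erase hx, Multiset.map_cons, Multiset.sum_cons] at h2
    have h4 := Multiset.card_erase_add_one hx
    have h5 : ((μ.erase x).card + 1) * J ≤ n * J := Nat.mul_le_mul_right _ (h4 ▸ hc)
    have h6 := hJ' x.1
    have h7 : x.2 < k.natAbs + n * J + 1 := by
      zify at h5 ⊢
      have := le_abs_self k
      nlinarith
    rw [Multiset.count_nsmul, Multiset.count_eq_one_of_mem (Finset.nodup _)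
      (Finset.mem_product.2 ⟨Finset.mem_univ _, Finset.mem_range.2 h7⟩), mul_one]
    exact (Multiset.count_le_card _ _).trans hc
  · rw [Multiset.count_eq_zero_of_notMem hx]
    exact Nat.zero_le _


namespace Dat

variable {D : Dat Λ I}

lemma VData.pd_sum_pb (V : D.VData) (μ : Multiset (V.Gen × ℕ)) :
    D.pd (μ.map fun x => V.ty x.1).sum = 0 := by
  induction μ using Multiset.induction_on with
  | empty => simp [pd]
  | cons x μ ih => rw [Multiset.map_cons, Multiset.sum_cons, D.pd_add, ih, V.ty_pd, add_zero]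

theorem VData.pbw (V : D.VData) (hS : D.Sym) (A : Finset Λ) (m : ℕ) :
    D.hdim (D.KK A) A m =
      (GM V.par V.ty V.jj (D.typ A) (2 * m - D.kd (D.typ A) (D.typ A))).ncard := by
  rcases A.eq_empty_or_nonempty with rfl | hA
  · rw [← D.hd_typ, D.typ_empty, D.hd_zero (by simp [prK])]
    split_ifs with hm
    · have : GM V.par V.ty V.jj 0 (2 * m - D.kd 0 0) = {0} := by
        ext μ
        refine ⟨fun h => eq_zero_pb V.ty_ne h.2.1, ?_⟩
        rintro rfl
        exact ⟨fun x _ => by simp, by simp, by simp [hm, kd]⟩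
      rw [this, Set.ncard_singleton]
    · have : GM V.par V.ty V.jj 0 (2 * m - D.kd 0 0) = ∅ := by
        refine Set.eq_empty_of_forall_notMem fun μ h => ?_
        have h1 := h.2.2
        rw [eq_zero_pb V.ty_ne h.2.1] at h1
        simp [kd, hm] at h1
      rw [this, Set.ncard_empty]
  by_cases hph : D.ph A = 0
  swap
  · rw [D.KK_eq_top hph, D.hdim_top, Set.eq_empty_of_forall_notMem (s := GM _ _ _ _ _)
      fun μ h => hph (by rw [D.ph_eq, ← h.2.1, V.pd_sum_pb]), Set.ncard_empty]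
  set G := GM V.par V.ty V.jj (D.typ A) (2 * m - D.kd (D.typ A) (D.typ A)) with hG
  have : Fintype G := (GM_finite V.par V.ty_ne V.jj _ _).fintype
  choose ρ γ hv hm using fun μ : G => V.exists_rep hA μ.2.2.1
  have hd : ∀ μ, V.dgm A (ρ μ) (γ μ) = m := by
    intro μ
    have h1 := V.mu_deg hS (hv μ)
    rw [hm, μ.2.2.2] at h1
    omega
  rw [hdim, finrank_eq_card (D.W A m) (D.KK A) Finset.univ
    (fun μ : G => D.av A (V.mm A (ρ μ) (γ μ)))
    (fun μ _ => D.av_mem_W (V.mm_mem_sup (hv μ)) (hd μ ▸ V.mm_homog (hv μ))) ?_ ?_,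
    Finset.card_univ, ← Nat.card_eq_fintype_card, Nat.card_coe_set_eq]
  · intro f hf
    obtain ⟨h, h1, h2⟩ := V.span_pb hS hA hph hv hd (fun ρ' γ' h1 h2 h3 =>
      ⟨⟨V.mu A ρ' γ', h3, V.mu_ty h1, by rw [V.mu_deg hS h1, h2]⟩, by rw [hm]⟩) hf
    obtain ⟨r, rfl⟩ := (Submodule.mem_span_range_iff_exists_fun ℂ).1 h1
    exact ⟨r, h2⟩
  · intro r hr μ _
    exact V.indep_pb hS hv (fun μ => (hm μ).symm ▸ μ.2.1)
      (fun μ ν e => Subtype.ext (by rwa [hm, hm] at e)) r hr μ


theorem VData.GM_empty (V : D.VData) (hS : D.Sym) (A : Finset Λ) {k : ℤ}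
    (hk : ∀ m : ℕ, k ≠ 2 * m - D.kd (D.typ A) (D.typ A)) :
    GM V.par V.ty V.jj (D.typ A) k = ∅ := by
  refine Set.eq_empty_of_forall_notMem fun μ h => ?_
  obtain ⟨-, h1, h2⟩ := h
  rcases A.eq_empty_or_nonempty with rfl | hA
  · rw [D.typ_empty] at h1 hk
    rw [eq_zero_pb V.ty_ne h1] at h2
    exact hk 0 (by simpa [kd] using h2.symm)
  · obtain ⟨ρ, γ, h3, rfl⟩ := V.exists_rep hA h1
    exact hk _ (h2.symm.trans (V.mu_deg hS h3))


end Dat

end Vale.Agent.P066
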