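import Vale.Agent.P066.MMon
import Vale.Agent.P066.MV
import Vale.Agent.P066.Div

/-! The averaged monomials span the graded pieces. -/

set_option linter.unusedSectionVars false

noncomputable section
open scoped Classical
open MvPolynomial Equiv

namespace Vale.Agent.P066

variable {Λ I : Type} [Fintype Λ] [Fintype I]

lemma span_degree {s : Finset ℕ} {β : ℕ →₀ ℕ} (h : ∀ l ∈ β.support, l ∈ s) :
    ∑ l ∈ s, β l = β.degree := by
  rw [Finsupp.degree_apply]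
  exact (Finset.sum_subset h fun l _ hl => Finsupp.notMem_support_iff.1 hl).symm

lemma span_monomial {s : Finset ℕ} {β : ℕ →₀ ℕ} (h : ∀ l ∈ β.support, l ∈ s) (c : ℕ → ℂ) :
    ∏ l ∈ s, (C (c l) * X l : MvPolynomial ℕ ℂ) ^ β l = monomial β (∏ l ∈ s, c l ^ β l) := by
  rw [monomial_eq, Finsupp.prod_of_support_subset β h _ (fun _ _ => pow_zero _), map_prod,
    ← Finset.prod_mul_distrib]
  exact Finset.prod_congr rfl fun l _ => by rw [mul_pow, map_pow]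

namespace Dat

variable {D : Dat Λ I}

/-- A finite dual system for the products of basis elements. -/
lemma VData.span_dual (V : D.VData) {A : Finset Λ} (hA : A.Nonempty) (ρ : Λ → ℕ) :
    ∃ (G : Finset (lab A ρ → V.Gen)) (e : (lab A ρ → V.Gen) → ℕ → V.Gen × ℕ)
      (ℓ : (lab A ρ → V.Gen) → Pl Λ →ₗ[ℂ] ℂ), (∀ v ∈ G, V.Val A ρ (e v)) ∧
      (∀ v, ∀ f ∈ D.LL A ρ, ℓ v f = 0) ∧
      ∀ u ∈ Submodule.span ℂ {f | ∃ γ, V.Val A ρ γ ∧ f = V.bb A ρ γ},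
        ∑ v ∈ G, ℓ v u • V.bb A ρ (e v) = u := by
  obtain ⟨a0, ha0⟩ := hA
  have hl0 : ρ a0 ∈ lab A ρ := mem_lab.2 ⟨a0, ha0, rfl⟩
  set e : (lab A ρ → V.Gen) → ℕ → V.Gen × ℕ :=
    fun v l => (if h : l ∈ lab A ρ then v ⟨l, h⟩ else v ⟨_, hl0⟩, 0) with he
  have he1 : ∀ v l (h : l ∈ lab A ρ), (e v l).1 = v ⟨l, h⟩ := fun v l h => dif_pos h
  have hd : ∀ v, ∃ ℓ : Pl Λ →ₗ[ℂ] ℂ, (∀ f ∈ D.LL A ρ, ℓ f = 0) ∧ (V.Val A ρ (e v) →
      ∀ γ', V.Val A ρ γ' →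
        ℓ (V.bb A ρ γ') = if ∀ l ∈ lab A ρ, (γ' l).1 = (e v l).1 then 1 else 0) := by
    intro v
    by_cases hv : V.Val A ρ (e v)
    · obtain ⟨ℓ, h1, h2⟩ := V.bb_dual hv
      exact ⟨ℓ, h1, fun _ => h2⟩
    · exact ⟨0, fun _ _ => rfl, fun h => absurd h hv⟩
  choose ℓ hℓ1 hℓ2 using hd
  refine ⟨Finset.univ.filter fun v => V.Val A ρ (e v), e, ℓ,
    fun v hv => (Finset.mem_filter.1 hv).2, hℓ1, fun u hu => ?_⟩
  induction hu using Submodule.span_induction with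
  | mem f hf =>
    obtain ⟨γ, hγ, rfl⟩ := hf
    have he2 : ∀ l ∈ lab A ρ, (γ l).1 = (e (fun l : lab A ρ => (γ l).1) l).1 :=
      fun l hl => (he1 (fun l : lab A ρ => (γ l).1) l hl).symm
    have hv0 : V.Val A ρ (e fun l => (γ l).1) := fun l hl => (hγ l hl).trans (by rw [← he2 l hl])
    rw [Finset.sum_eq_single (fun l : lab A ρ => (γ l).1)]
    · rw [hℓ2 _ hv0 γ hγ, if_pos he2, one_smul]
      exact Finset.prod_congr rfl fun l hl => by rw [← he2 l hl]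
    · intro v hv hne
      rw [hℓ2 v (Finset.mem_filter.1 hv).2 γ hγ, if_neg, zero_smul]
      intro h
      apply hne
      funext l
      rw [h l.1 l.2, he1 v l.1 l.2]
    · intro h
      exact (h (Finset.mem_filter.2 ⟨Finset.mem_univ _, hv0⟩)).elim
  | zero => simp
  | add f f' _ _ h1 h2 => simp only [map_add, add_smul, Finset.sum_add_distrib, h1, h2]
  | smul r f _ h1 =>
    conv_rhs => rw [← h1, Finset.smul_sum]
    exact Finset.sum_congr rfl fun v _ => by rw [map_smul, smul_eq_mul, mul_smul]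

/-- Monomials with a prescribed symbol. -/
lemma VData.span_lift (V : D.VData) {A : Finset Λ} {ρ : Λ → ℕ} {γ0 : ℕ → V.Gen × ℕ}
    (h0 : V.Val A ρ γ0) {ω : ℤ} {N : ℕ} (hN : (N : ℤ) = D.kk A ρ + ω - (lab A ρ).card)
    {Q : MvPolynomial ℕ ℂ}
    (hQ : ∀ β ∈ Q.support, β.degree + D.kk A ρ = N ∧ ∀ l ∈ β.support, l ∈ lab A ρ) :
    ∃ u ∈ Submodule.span ℂ {g | ∃ γ, V.Val A ρ γ ∧ (V.wt A ρ γ : ℤ) = ω ∧ g = V.mm A ρ γ},
      ∀ β : ℕ →₀ ℕ, β.degree = N →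
        coeff β (TT ρ u) - coeff β (D.Del A ρ * Q) • V.bb A ρ γ0 ∈ D.LL A ρ := by
  set c : (ℕ →₀ ℕ) → ℂ := fun β => ∏ l ∈ lab A ρ, ((blk A ρ l).card : ℂ) ^ β l with hc
  have hc0 : ∀ β, c β ≠ 0 := fun β => Finset.prod_ne_zero_iff.2 fun l hl =>
    pow_ne_zero _ (Nat.cast_ne_zero.2 (Finset.card_pos.2 (blk_nonempty.2 hl)).ne')
  set γ : (ℕ →₀ ℕ) → ℕ → V.Gen × ℕ := fun β l => ((γ0 l).1, β l) with hγ
  have hv : ∀ β, V.Val A ρ (γ β) := fun β l hl => h0 l hl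
  have hsum : ∀ β ∈ Q.support, ∑ l ∈ lab A ρ, (γ β l).2 = β.degree :=
    fun β hβ => span_degree (hQ β hβ).2
  refine ⟨∑ β ∈ Q.support, (coeff β Q / c β) • V.mm A ρ (γ β), Submodule.sum_mem _ fun β hβ =>
    Submodule.smul_mem _ _ (Submodule.subset_span ⟨γ β, hv β, ?_, rfl⟩), fun β hβ => ?_⟩
  · rw [V.wt_eq, hsum β hβ]
    have := (hQ β hβ).1
    push_cast
    omega
  · have e1 : D.Del A ρ * Q = ∑ β' ∈ Q.support, (coeff β' Q / c β') • V.sy A ρ (γ β') := by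
      conv_lhs => rw [Q.as_sum, Finset.mul_sum]
      refine Finset.sum_congr rfl fun β' hβ' => ?_
      have e2 : V.sy A ρ (γ β') = D.Del A ρ * monomial β' (c β') := by
        rw [← span_monomial (hQ β' hβ').2]
        rfl
      rw [e2, ← mul_smul_comm, smul_monomial, smul_eq_mul, div_mul_cancel₀ _ (hc0 β')]
    rw [e1, map_sum, coeff_sum, coeff_sum, Finset.sum_smul, ← Finset.sum_sub_distrib]
    refine Ideal.sum_mem _ fun β' hβ' => ?_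
    rw [map_smul, coeff_smul, coeff_smul, smul_eq_mul, mul_smul, ← smul_sub]
    refine Submodule.smul_of_tower_mem _ _ (V.mm_top (hv β') ?_)
    rw [hsum β' hβ', hβ, ← (hQ β' hβ').1, add_comm]

lemma VData.span_le (V : D.VData) (hS : D.Sym) {A : Finset Λ} {ρ : Λ → ℕ} {ω : ℤ} {u : Pl Λ}
    (hu : u ∈ Submodule.span ℂ
      {g | ∃ γ, V.Val A ρ γ ∧ (V.wt A ρ γ : ℤ) = ω ∧ g = V.mm A ρ γ}) :
    u ∈ sup A ∧ u ∈ D.FF A ω ∧ D.av A u ∈ V.MS A ω ∧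
      ∀ ρ0, D.Adm A ρ0 → ¬ Refines A ρ0 ρ →
        u ∈ Le (D.LL A ρ0) ρ0 (D.kk A ρ0 + ω - 1 - (lab A ρ0).card) := by
  induction hu using Submodule.span_induction with
  | mem f hf =>
    obtain ⟨γ, hγ, hw, rfl⟩ := hf
    refine ⟨V.mm_mem_sup hγ, hw ▸ V.mm_mem hS hγ,
      Submodule.subset_span ⟨ρ, γ, hγ, hw, rfl⟩, fun ρ0 h0 hn => hw ▸ V.mm_notref hS hγ h0 hn⟩
  | zero => exact ⟨zero_mem _, zero_mem _, by rw [map_zero]; exact zero_mem _,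
      fun _ _ _ => zero_mem _⟩
  | add f f' _ _ h1 h2 =>
    exact ⟨add_mem h1.1 h2.1, add_mem h1.2.1 h2.2.1,
      by rw [map_add]; exact add_mem h1.2.2.1 h2.2.2.1,
      fun ρ0 h0 hn => add_mem (h1.2.2.2 ρ0 h0 hn) (h2.2.2.2 ρ0 h0 hn)⟩
  | smul r f _ h1 =>
    exact ⟨Subalgebra.smul_mem _ h1.1 r, Submodule.smul_mem _ r h1.2.1,
      by rw [map_smul]; exact Submodule.smul_mem _ r h1.2.2.1,
      fun ρ0 h0 hn => Submodule.smul_mem _ r (h1.2.2.2 ρ0 h0 hn)⟩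

theorem VData.local_lift (V : D.VData) (hS : D.Sym) {A : Finset Λ} (hA : A.Nonempty) {ρ : Λ → ℕ}
    (hρ : D.Adm A ρ) {ω : ℤ} {f : Pl Λ} (hs : f ∈ sup A) (hi : D.Inv A f) (hF : f ∈ D.FF A ω)
    (hf : ∀ ρ2, D.Adm A ρ2 → (lab A ρ2).card < (lab A ρ).card →
      f ∈ Le (D.LL A ρ2) ρ2 (D.kk A ρ2 + ω - 1 - (lab A ρ2).card)) :
    ∃ u ∈ Submodule.span ℂ {g | ∃ γ, V.Val A ρ γ ∧ (V.wt A ρ γ : ℤ) = ω ∧ g = V.mm A ρ γ},
      f - u ∈ Le (D.LL A ρ) ρ (D.kk A ρ + ω - 1 - (lab A ρ).card) := by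
  have hf0 := (D.mem_FF.1 hF) ρ hρ
  by_cases hneg : (D.kk A ρ : ℤ) + ω - (lab A ρ).card < 0
  · refine ⟨0, zero_mem _, fun β _ => ?_⟩
    rw [sub_zero]
    exact hf0 β (by omega)
  obtain ⟨N, hN⟩ : ∃ N : ℕ, (N : ℤ) = D.kk A ρ + ω - (lab A ρ).card :=
    ⟨_, Int.toNat_of_nonneg (not_lt.1 hneg)⟩
  obtain ⟨G, e, ℓ, hG, hℓ, hsp⟩ := V.span_dual hA ρ
  have htop : ∀ β : ℕ →₀ ℕ, β.degree = N →
      coeff β (TT ρ f) - ∑ v ∈ G, ℓ v (coeff β (TT ρ f)) • V.bb A ρ (e v) ∈ D.LL A ρ := by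
    intro β hβ
    obtain ⟨u, hu1, hu2⟩ := V.mv hS hA hρ (coeff_TT_mem_sup ρ hs β) (g := coeff β (TT ρ f))
      (fun σ hσ hσρ => by
        have h1 : rename σ f ∈ sup A := by rw [hi σ hσ]; exact Subalgebra.smul_mem _ hs _
        rw [← coeff_TT_rename, TT_congr (A := A) (ρ' := ρ) _ h1, hi σ hσ, map_smul, coeff_smul]
        intro a ha
        have h2 : σ.symm a ∈ A := by rw [← D.Gam_mem hσ, Equiv.apply_symm_apply]; exact ha
        rw [Function.comp_apply, ← hσρ _ h2, Equiv.apply_symm_apply])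
      (fun ρ1 h1 hr => Le_mono le_rfl ρ1 (by omega)
        (Le_coeff hr hs ((D.mem_FF.1 hF) ρ1 h1) β))
    have e1 : ∀ v, ℓ v (coeff β (TT ρ f)) = ℓ v u := fun v => by
      have := hℓ v _ hu2
      rwa [map_sub, sub_eq_zero] at this
    simp only [e1]
    rw [hsp u hu1]
    exact hu2
  have hlift : ∀ v, ∃ u ∈ Submodule.span ℂ
      {g | ∃ γ, V.Val A ρ γ ∧ (V.wt A ρ γ : ℤ) = ω ∧ g = V.mm A ρ γ}, v ∈ G →
      ∀ β : ℕ →₀ ℕ, β.degree = N →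
        coeff β (TT ρ u) - ℓ v (coeff β (TT ρ f)) • V.bb A ρ (e v) ∈ D.LL A ρ := by
    intro v
    by_cases hv : v ∈ G
    swap
    · exact ⟨0, zero_mem _, fun h => absurd h hv⟩
    obtain ⟨Q, hQ⟩ := Del_dvd_tops hS hρ hN hf (hℓ v)
    have hQ' := quot_props (s := lab A ρ) (D.Del_ne_zero A ρ) hQ (D.Del_homog A ρ)
      (tops_homog ρ (ℓ v) N f) (fun β hβ l hl => by
        by_contra hn
        rw [mem_support_iff, coeff_tops, coeff_TT_eq_zero hs hl hn, map_zero, ite_self] at hβ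
        exact hβ rfl)
    obtain ⟨u, hu1, hu2⟩ := V.span_lift (hG v hv) hN hQ'
    refine ⟨u, hu1, fun _ β hβ => ?_⟩
    have := hu2 β hβ
    rwa [← hQ, coeff_tops, if_pos hβ] at this
  choose u hu1 hu2 using hlift
  have hmem := Submodule.sum_mem _ fun v (_ : v ∈ G) => hu1 v
  refine ⟨∑ v ∈ G, u v, hmem, fun β hβ => ?_⟩
  by_cases hb : β.degree = N
  · have e1 : coeff β (TT ρ (f - ∑ v ∈ G, u v)) =
        (coeff β (TT ρ f) - ∑ v ∈ G, ℓ v (coeff β (TT ρ f)) • V.bb A ρ (e v)) -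
          ∑ v ∈ G, (coeff β (TT ρ (u v)) - ℓ v (coeff β (TT ρ f)) • V.bb A ρ (e v)) := by
      rw [map_sub, coeff_sub, map_sum, coeff_sum, Finset.sum_sub_distrib]
      ring
    rw [e1]
    exact sub_mem (htop β hb) (Ideal.sum_mem _ fun v hv => hu2 v hv β hb)
  · exact sub_mem hf0 ((D.mem_FF.1 (V.span_le hS hmem).2.1) ρ hρ) β (by omega)

lemma VData.MS_props (V : D.VData) (hS : D.Sym) {A : Finset Λ} {ω : ℤ} {g : Pl Λ}
    (hg : g ∈ V.MS A ω) : g ∈ sup A ∧ D.Inv A g ∧ g ∈ D.FF A ω := by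
  induction hg using Submodule.span_induction with
  | mem f hf =>
    obtain ⟨ρ, γ, hγ, hw, rfl⟩ := hf
    exact ⟨D.av_mem_sup subset_rfl (V.mm_mem_sup hγ), D.av_inv A _,
      D.av_mem_FF (hw ▸ V.mm_mem hS hγ)⟩
  | zero => exact ⟨zero_mem _, fun σ _ => by simp, zero_mem _⟩
  | add f f' _ _ h1 h2 =>
    exact ⟨add_mem h1.1 h2.1, fun σ hσ => by rw [map_add, h1.2.1 σ hσ, h2.2.1 σ hσ, smul_add],
      add_mem h1.2.2 h2.2.2⟩
  | smul r f _ h1 =>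
    exact ⟨Subalgebra.smul_mem _ h1.1 r, fun σ hσ => by rw [map_smul, h1.2.1 σ hσ, smul_comm],
      Submodule.smul_mem _ r h1.2.2⟩

/-- The condition on all partitions with few blocks. -/
def spanU (D : Dat Λ I) (A : Finset Λ) (ω : ℤ) (r : ℕ) : Submodule ℂ (Pl Λ) :=
  ⨅ ρ : Λ → ℕ, ⨅ _ : D.Adm A ρ, ⨅ _ : (lab A ρ).card < r,
    Le (D.LL A ρ) ρ (D.kk A ρ + ω - 1 - (lab A ρ).card)

lemma mem_spanU {A : Finset Λ} {ω : ℤ} {r : ℕ} {f : Pl Λ} :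
    f ∈ D.spanU A ω r ↔ ∀ ρ, D.Adm A ρ → (lab A ρ).card < r →
      f ∈ Le (D.LL A ρ) ρ (D.kk A ρ + ω - 1 - (lab A ρ).card) := by
  simp [spanU, Submodule.mem_iInf]

lemma rename_mem_spanU {A : Finset Λ} {ω : ℤ} {r : ℕ} {σ : Perm Λ} (hσ : σ ∈ D.Gam A) {f : Pl Λ}
    (hf : f ∈ D.spanU A ω r) : rename σ f ∈ D.spanU A ω r := by
  rw [mem_spanU] at hf ⊢
  intro ρ' h1 h2 β hβ
  have hG := D.Gam_GG hσ
  have hA := D.Gam_image hσ
  have e : (ρ' ∘ σ) ∘ σ.symm = ρ' := by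
    funext a
    simp
  have e1 : lab A (ρ' ∘ σ) = lab A ρ' := by rw [← lab_image A (ρ' ∘ σ) σ, hA, e]
  have e2 : D.kk A (ρ' ∘ σ) = D.kk A ρ' := by rw [← D.kk_image hG A (ρ' ∘ σ), hA, e]
  have e3 : D.Adm A (ρ' ∘ σ) := by
    intro l
    have := h1 l
    rw [← hA, ← e, blk_image, D.ph_eq, D.typ_image hG, ← D.ph_eq] at this
    exact this
  have h3 := hf (ρ' ∘ σ) e3 (by rw [e1]; exact h2) β (by rw [e1, e2]; exact hβ)
  have h4 := D.rename_mem_LL hG h3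
  rw [hA, ← coeff_TT_rename, e] at h4
  exact h4

lemma VData.span_round (V : D.VData) (hS : D.Sym) {A : Finset Λ} (hA : A.Nonempty) {ω : ℤ}
    {r : ℕ} {f : Pl Λ} (hs : f ∈ sup A) (hi : D.Inv A f) (hF : f ∈ D.FF A ω)
    (hU : f ∈ D.spanU A ω r) : ∃ g ∈ V.MS A ω, f - g ∈ D.spanU A ω (r + 1) := by
  set rel : (Λ → ℕ) → Finset (Λ × Λ) := fun ρ => (A ×ˢ A).filter fun p => ρ p.1 = ρ p.2 with hrel
  have hrel1 : ∀ ρ ρ', rel ρ = rel ρ' → Refines A ρ ρ' := by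
    intro ρ ρ' h a ha b hb e
    have h1 : (a, b) ∈ rel ρ := Finset.mem_filter.2 ⟨Finset.mem_product.2 ⟨ha, hb⟩, e⟩
    rw [h] at h1
    exact (Finset.mem_filter.1 h1).2
  have hrel2 : ∀ ρ ρ', Refines A ρ ρ' → Refines A ρ' ρ → rel ρ = rel ρ' := by
    intro ρ ρ' h h'
    refine Finset.filter_congr fun p hp => ?_
    rw [Finset.mem_product] at hp
    exact ⟨h _ hp.1 _ hp.2, h' _ hp.1 _ hp.2⟩
  set T : Finset (Finset (Λ × Λ)) :=
    Finset.univ.filter fun R => ∃ ρ, D.Adm A ρ ∧ (lab A ρ).card = r ∧ rel ρ = R with hT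
  have hch : ∀ R : Finset (Λ × Λ), ∃ (ρ : Λ → ℕ) (u : Pl Λ), R ∈ T →
      D.Adm A ρ ∧ (lab A ρ).card = r ∧ rel ρ = R ∧
      u ∈ Submodule.span ℂ {g | ∃ γ, V.Val A ρ γ ∧ (V.wt A ρ γ : ℤ) = ω ∧ g = V.mm A ρ γ} ∧
      f - u ∈ Le (D.LL A ρ) ρ (D.kk A ρ + ω - 1 - (lab A ρ).card) := by
    intro R
    by_cases hR : R ∈ T
    · obtain ⟨ρ, h1, h2, h3⟩ := (Finset.mem_filter.1 hR).2
      obtain ⟨u, h4, h5⟩ := V.local_lift hS hA h1 hs hi hF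
        fun ρ2 h6 h7 => mem_spanU.1 hU ρ2 h6 (h2 ▸ h7)
      exact ⟨ρ, u, fun _ => ⟨h1, h2, h3, h4, h5⟩⟩
    · exact ⟨fun _ => 0, 0, fun h => absurd h hR⟩
  choose ρ u hu using hch
  have hother : ∀ ρ', D.Adm A ρ' → (lab A ρ').card < r + 1 → ∀ R ∈ T, R ≠ rel ρ' →
      u R ∈ Le (D.LL A ρ') ρ' (D.kk A ρ' + ω - 1 - (lab A ρ').card) := by
    intro ρ' h1 h2 R hR hne
    obtain ⟨-, h4, h5, h6, -⟩ := hu R hR
    refine (V.span_le hS h6).2.2.2 ρ' h1 fun hr => hne ?_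
    rw [← h5]
    exact hrel2 _ _ (hr.symm_of_card (by omega)) hr
  have hmain : f - ∑ R ∈ T, u R ∈ D.spanU A ω (r + 1) := by
    rw [mem_spanU]
    intro ρ' h1 h2
    by_cases hR : rel ρ' ∈ T
    · rw [← Finset.add_sum_erase T u hR, ← sub_sub]
      refine sub_mem ?_ (Submodule.sum_mem _ fun R hR' =>
        hother ρ' h1 h2 R (Finset.mem_of_mem_erase hR') (Finset.ne_of_mem_erase hR'))
      obtain ⟨h3, -, h5, h6, h7⟩ := hu _ hR
      have r1 := hrel1 _ _ h5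
      have r2 := hrel1 _ _ h5.symm
      refine Le_mono (D.LL_le_LL r2) ρ' (le_of_eq ?_)
        (Le_coarsen r1 (sub_mem hs (V.span_le hS h6).1) h7)
      rw [D.kk_congr hS h3 r1 r2, le_antisymm r1.card_le r2.card_le]
    · refine sub_mem (mem_spanU.1 hU ρ' h1 ?_) (Submodule.sum_mem _ fun R hR' =>
        hother ρ' h1 h2 R hR' fun e => hR (e ▸ hR'))
      by_contra h3
      exact hR (Finset.mem_filter.2 ⟨Finset.mem_univ _, ρ', h1, by omega, rfl⟩)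
  refine ⟨D.av A (∑ R ∈ T, u R), ?_, ?_⟩
  · rw [map_sum]
    exact Submodule.sum_mem _ fun R hR => (V.span_le hS (hu R hR).2.2.2.1).2.2.1
  · have := D.av_mem (fun σ hσ f hf => rename_mem_spanU hσ hf) hmain
    rwa [map_sub, D.av_of_inv hi] at this

theorem VData.span_step (V : D.VData) (hS : D.Sym) {A : Finset Λ} (hA : A.Nonempty) {ω : ℤ}
    {f : Pl Λ} (hs : f ∈ sup A) (hi : D.Inv A f) (hF : f ∈ D.FF A ω) :
    ∃ g ∈ V.MS A ω, f - g ∈ D.FF A (ω - 1) := by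
  have key : ∀ r, ∃ g ∈ V.MS A ω, f - g ∈ D.spanU A ω r := by
    intro r
    induction r with
    | zero => exact ⟨0, zero_mem _, mem_spanU.2 fun ρ _ h => absurd h (Nat.not_lt_zero _)⟩
    | succ r ih =>
      obtain ⟨g, hg1, hg2⟩ := ih
      obtain ⟨p1, p2, p3⟩ := V.MS_props hS hg1
      obtain ⟨g', h1, h2⟩ := V.span_round hS hA (sub_mem hs p1)
        (fun σ hσ => by rw [map_sub, hi σ hσ, p2 σ hσ, smul_sub]) (sub_mem hF p3) hg2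
      exact ⟨g + g', add_mem hg1 h1, by rwa [← sub_sub]⟩
  obtain ⟨g, hg1, hg2⟩ := key (A.card + 1)
  refine ⟨g, hg1, D.mem_FF.2 fun ρ hρ => ?_⟩
  exact Le_mono le_rfl ρ (le_of_eq (by ring))
    (mem_spanU.1 hg2 ρ hρ (Nat.lt_succ_of_le Finset.card_image_le))

end Dat

end Vale.Agent.P066
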