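import Vale.Agent.P066.FinDim

/-! Existence of homogeneous bases of the primitive parts. -/

set_option linter.unusedSectionVars false

noncomputable section
open scoped Classical
open MvPolynomial Equiv

namespace Vale.Agent.P066

variable {Λ I : Type} [Fintype Λ] [Fintype I]

/-- A representative subset of a type. -/
def Dat.vxRep (D : Dat Λ I) (d : I → ℕ) : Finset Λ :=
  if h : ∃ S, D.typ S = d then h.choose else ∅

lemma Dat.typ_vxRep (D : Dat Λ I) (S : Finset Λ) : D.typ (D.vxRep (D.typ S)) = D.typ S := by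
  have h : ∃ S', D.typ S' = D.typ S := ⟨S, rfl⟩
  rw [Dat.vxRep, dif_pos h, h.choose_spec]

lemma vx_image_inv {S B : Finset Λ} {τ : Perm Λ} (h : S.image τ = B) : B.image ⇑τ⁻¹ = S := by
  rw [← h, Finset.image_image]
  simp

lemma vx_rename_inv (τ : Perm Λ) (f : Pl Λ) : rename ⇑τ⁻¹ (rename τ f) = f := by
  rw [← rename_mul_perm, inv_mul_cancel]
  simp

lemma vx_rename_inv' (τ : Perm Λ) (f : Pl Λ) : rename τ (rename ⇑τ⁻¹ f) = f := by
  rw [← rename_mul_perm, mul_inv_cancel]
  simp

theorem Dat.exists_VData (D : Dat Λ I) : Nonempty D.VData := by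
  obtain ⟨M, hM⟩ := D.prim_bound
  have hfin : ∀ S m, Module.Finite ℂ ↥(D.W S m ⊓ D.FF S 1) := fun S m =>
    Submodule.finiteDimensional_inf_left _ _
  choose b0 h1 h2 h3 using fun S m => exists_HB (D.W S m ⊓ D.FF S 1) (D.KK S)
  choose! r hr using h2
  have hτ : ∀ B, ∃ τ ∈ D.GG, (D.vxRep (D.typ B)).image τ = B := fun B => by
    obtain ⟨σ, hσ, e⟩ := D.exists_perm (Finset.subset_univ _) (Finset.subset_univ B) (D.typ_vxRep B)
    exact ⟨σ, D.Gam_GG hσ, e⟩
  choose τ hτ1 hτ2 using hτ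
  let T := {S : Finset Λ // D.vxRep (D.typ S) = S ∧ S.Nonempty ∧ D.ph S = 0}
  have him : ∀ B (S : T), D.typ B = D.typ S.1 → S.1.image (τ B) = B := fun B S h => by
    have := hτ2 B
    rwa [h, S.2.1] at this
  refine ⟨{
    Gen := Σ S : T, Σ m : Fin M, Fin (Module.finrank ℂ
      ((D.W S.1 m ⊓ D.FF S.1 1).map (Ideal.Quotient.mkₐ ℂ (D.KK S.1)).toLinearMap))
    fin := inferInstance
    ty := fun v => D.typ v.1.1
    dg := fun v => v.2.1
    b := fun B v => rename (τ B) (b0 v.1.1 v.2.1 v.2.2)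
    ty_ne := fun v h => v.1.2.2.1.ne_empty (D.typ_eq_zero.1 h)
    ty_pd := fun v => (D.ph_eq _).symm.trans v.1.2.2.2
    memW := fun B v h => ?_
    memF := fun B v h => ?_
    span := fun B f hB hp hs hi hF => ?_
    dual := ?_
    act := fun σ hσ B v h => ?_ }⟩
  · have := D.rename_mem_W (h1 _ _ v.2.2).1 (hτ1 B)
    rwa [him B v.1 h] at this
  · have := D.rename_mem_FF (hτ1 B) (h1 _ _ v.2.2).2
    rwa [him B v.1 h] at this
  · let S : T := ⟨D.vxRep (D.typ B), by rw [D.typ_vxRep], by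
      rw [Finset.nonempty_iff_ne_empty, Ne, ← D.typ_eq_zero, D.typ_vxRep, D.typ_eq_zero]
      exact hB.ne_empty, by rw [D.ph_eq, D.typ_vxRep, ← D.ph_eq, hp]⟩
    have hS : D.typ B = D.typ S.1 := (D.typ_vxRep B).symm
    have e := vx_image_inv (him B S hS)
    have hi' := D.GG.inv_mem (hτ1 B)
    set g := rename ⇑(τ B)⁻¹ f with hg
    have g1 : g ∈ sup S.1 := e ▸ rename_mem_sup _ hs
    have g2 : D.Inv S.1 g := e ▸ Inv.rename D hi hi'
    have g3 : g ∈ D.FF S.1 1 := e ▸ D.rename_mem_FF hi' hF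
    refine ⟨fun v => r v.1.1 v.2.1 (homogeneousComponent v.2.1 g) v.2.2, ?_⟩
    rw [Finset.sum_filter, Fintype.sum_sigma, Finset.sum_eq_single S]
    · simp only [hS, if_true, Fintype.sum_sigma, ← map_smul, ← map_sum]
      rw [← vx_rename_inv' (τ B) f, ← map_sub, ← hg]
      conv_lhs => rw [← him B S hS]
      refine D.rename_mem_Id (hτ1 B) ?_
      have e1 : g = ∑ m ∈ Finset.range (M + (g.totalDegree + 1)), homogeneousComponent m g := by
        conv_lhs => rw [← sum_homogeneousComponent g]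
        refine Finset.sum_subset (by simp) fun m _ hm => homogeneousComponent_eq_zero _ _ ?_
        simpa using hm
      rw [Finset.sum_range_add, Finset.sum_range] at e1
      conv_rhs => enter [1]; rw [e1]
      rw [add_sub_right_comm, ← Finset.sum_sub_distrib]
      refine add_mem (sum_mem fun m _ => hr _ _ _ ⟨⟨hc_mem_sup _ g1,
        homogeneousComponent_isHomogeneous _ _, Inv.hc D g2 _⟩, D.hc_mem_FF _ g3⟩)
        (sum_mem fun m _ => hM _ _ S.2.2.2 (Nat.le_add_right M m) _ (hc_mem_sup _ g1)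
          (homogeneousComponent_isHomogeneous _ _) (D.hc_mem_FF _ g3))
    · intro S' _ hne
      refine Finset.sum_eq_zero fun _ _ => if_neg fun h => hne (Subtype.ext ?_)
      exact S'.2.1.symm.trans (congrArg D.vxRep h)
    · simp
  · rintro B ⟨S, m, i⟩ h
    obtain ⟨ℓ, k1, k2⟩ := h3 S.1 m i
    refine ⟨ℓ ∘ₗ homogeneousComponent m ∘ₗ (rename ⇑(τ B)⁻¹ : Pl Λ →ₐ[ℂ] Pl Λ).toLinearMap,
      fun f hf => k1 _ (D.hc_mem_Id _ ?_), ?_⟩
    · exact vx_image_inv (him B S h) ▸ D.rename_mem_Id (D.GG.inv_mem (hτ1 B)) hf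
    · rintro ⟨S', m', j⟩ h'
      obtain rfl : S' = S :=
        Subtype.ext (S'.2.1.symm.trans ((congrArg D.vxRep (h'.trans h)).trans S.2.1))
      simp only [LinearMap.comp_apply, AlgHom.toLinearMap_apply, vx_rename_inv]
      rw [homogeneousComponent_of_mem (h1 S'.1 m' j).1.2.1]
      by_cases hm : m' = m
      · subst hm
        simp [k2]
      · rw [if_neg (fun e => hm (Fin.ext e.symm)), map_zero, if_neg]
        intro e
        exact hm (congrArg (fun v => v.2.1) e)
  · have h' : D.typ (B.image σ) = D.typ v.1.1 := (D.typ_image hσ B).trans h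
    have hπ : (τ (B.image σ))⁻¹ * σ * τ B ∈ D.Gam Finset.univ :=
      D.mem_Gam.2 ⟨mul_mem (mul_mem (inv_mem (hτ1 _)) hσ) (hτ1 _), by simp⟩
    obtain ⟨π1, a1, π2, a2, e⟩ := D.Gam_split (S := v.1.1) hπ (by
      rw [Perm.coe_mul, Perm.coe_mul, ← Finset.image_image, ← Finset.image_image, him B _ h,
        vx_image_inv (him _ _ h')])
    have hb := (h1 _ _ v.2.2).1
    have e1 : σ * τ B = τ (B.image σ) * (π1 * π2) := by rw [← e]; group
    have e2 : rename π2 (b0 v.1.1 v.2.1 v.2.2) = b0 v.1.1 v.2.1 v.2.2 :=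
      rename_of_fix (fun a ha => (D.mem_Gam.1 a2).2 a (by simp [ha])) hb.1
    refine ⟨D.eta π1, D.eta_sign (D.Gam_GG a1), ?_⟩
    rw [← rename_mul_perm, e1, rename_mul_perm, rename_mul_perm π1]
    exact (congrArg _ ((congrArg _ e2).trans (hb.2.2 π1 a1))).trans (map_smul _ _ _)

/-- The data of a quiver without arrows and with trivial stability. -/
def Dat.triv (D : Dat Λ I) : Dat Λ I := ⟨D.c, fun _ _ => 0, D.fer, fun _ => 0⟩

lemma Dat.triv_KK (D : Dat Λ I) (A : Finset Λ) : D.triv.KK A = ⊥ := by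
  refine Ideal.span_eq_bot.2 ?_
  rintro _ ⟨S, -, h, -⟩
  simp [prK, Dat.sz, Dat.ph, Dat.triv] at h

lemma Dat.triv_LL (D : Dat Λ I) (A : Finset Λ) (ρ : Λ → ℕ) : D.triv.LL A ρ = ⊥ := by
  simp [Dat.LL, Dat.triv_KK]

lemma Dat.triv_adm (D : Dat Λ I) (A : Finset Λ) (ρ : Λ → ℕ) : D.triv.Adm A ρ := fun l => by
  simp [Dat.ph, Dat.triv]

lemma Dat.triv_kk (D : Dat Λ I) (A : Finset Λ) (ρ : Λ → ℕ) : D.triv.kk A ρ = 0 := by
  simp [Dat.kk, Dat.triv]

lemma Dat.vx_card (D : Dat Λ I) {B : Finset Λ} {i : I} (h : D.typ B = Pi.single i 1) :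
    B.card = 1 := by
  rw [D.card_eq, h]
  simp

lemma Dat.vx_typ_single (D : Dat Λ I) (a : Λ) : D.typ {a} = Pi.single (D.c a) 1 := by
  funext i
  simp only [Dat.typ, Finset.filter_singleton, Pi.single_apply, eq_comm]
  split_ifs <;> simp

lemma vx_single_inj {i j : I} (h : (Pi.single i 1 : I → ℕ) = Pi.single j 1) : i = j := by
  by_contra hne
  have := congrFun h i
  simp [hne] at this

/-- The primitive parts of the trivial quiver: one generator for each vertex. -/
def Dat.trivV (D : Dat Λ I) : D.triv.VData where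
  Gen := I
  fin := inferInstance
  ty := fun i => Pi.single i 1
  dg := fun _ => 0
  b := fun _ _ => 1
  ty_ne := fun v h => by simpa using congrFun h v
  ty_pd := fun v => by simp [Dat.pd, Dat.triv]
  memW := fun B v h => by
    refine ⟨one_mem _, isHomogeneous_one _ _, fun σ hσ => ?_⟩
    obtain ⟨a, rfl⟩ := Finset.card_eq_one.1 (D.triv.vx_card h)
    have : σ = 1 := Equiv.ext fun x => by
      by_cases hx : x = a
      · subst hx
        exact Finset.mem_singleton.1 ((D.triv.Gam_mem hσ).2 (Finset.mem_singleton_self x))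
      · exact (D.triv.mem_Gam.1 hσ).2 x (by simpa using hx)
    rw [this, D.triv.eta_one, one_smul, map_one]
  memF := fun B v h => D.triv.mem_FF.2 fun ρ _ => by
    have h1 : (lab B ρ).card ≤ B.card := Finset.card_image_le
    have h2 := D.triv.vx_card h
    exact Le_mono le_rfl ρ (by omega) (Le_one _ ρ)
  span := fun B f hB _ hs _ hF => by
    rw [D.triv_KK]
    by_cases h1 : B.card = 1
    · obtain ⟨a, rfl⟩ := Finset.card_eq_one.1 h1
      have h2 := D.triv.mem_FF.1 hF (fun _ => 0) (D.triv_adm _ _)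
      rw [D.triv_LL, D.triv_kk, mem_Le] at h2
      have h3 : TT (fun _ => 0) f = C f := by
        ext1 β
        rw [coeff_C]
        split_ifs with h
        · rw [← h, coeff_zero_TT]
        · refine h2 β ?_
          have := mt (Finsupp.degree_eq_zero_iff β).1 (Ne.symm h)
          simp only [lab, Finset.image_singleton, Finset.card_singleton]
          omega
      have h4 := algHom_eq_on_sup ((aevalTower (aeval fun _ => 0 : Pl Λ →ₐ[ℂ] Pl Λ)
        fun _ => X a).comp (TT fun _ => 0)) (AlgHom.id ℂ _)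
        (fun x hx => by simp [TT_X, Finset.mem_singleton.1 hx]) hs
      rw [AlgHom.comp_apply, h3, aevalTower_C, AlgHom.id_apply, aeval_zero'] at h4
      refine ⟨fun _ => constantCoeff f, ?_⟩
      rw [Finset.sum_eq_single (D.c a)]
      · rw [Ideal.mem_bot, sub_eq_zero, ← Algebra.algebraMap_eq_smul_one, h4]
      · intro i hi hne
        exact (hne (vx_single_inj ((Finset.mem_filter.1 hi).2.trans
          (D.triv.vx_typ_single a)))).elim
      · intro h
        exact (h (Finset.mem_filter.2 ⟨Finset.mem_univ _, (D.triv.vx_typ_single a).symm⟩)).elim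
    · obtain ⟨ρ, hρ⟩ := exists_injective_nat Λ
      have h2 := D.triv.mem_FF.1 hF ρ (D.triv_adm _ _)
      have h3 := hB.card_pos
      rw [D.triv_LL, D.triv_kk, lab, Finset.card_image_of_injective _ hρ] at h2
      exact ⟨0, by simpa using mem_of_Le_neg (by omega) h2⟩
  dual := fun B v h => ⟨lcoeff ℂ 0, fun f hf => by
    rw [D.triv_KK, Ideal.mem_bot] at hf
    rw [hf, map_zero], fun w hw => by simp [vx_single_inj (hw.trans h)]⟩
  act := fun σ _ B v _ => ⟨1, Or.inl rfl, by simp⟩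

lemma Dat.trivV_par (D : Dat Λ I) (i : I) : D.trivV.par i = D.fer i := by
  have : D.triv.nf (Pi.single i 1) = if D.fer i = true then 1 else 0 := by
    rw [Dat.nf, Finset.sum_eq_single i]
    · simp [Dat.triv]
    · intro j _ hj
      simp [hj]
    · simp
  have h2 : D.triv.kd (Pi.single i 1) (Pi.single i 1) = 0 := by simp [Dat.kd, Dat.triv]
  show decide (Odd (D.triv.nf (Pi.single i 1) + D.triv.kd (Pi.single i 1) (Pi.single i 1))) = _
  rw [this, h2]
  cases D.fer i <;> simp

lemma Dat.trivV_jj (D : Dat Λ I) (i : I) : D.trivV.jj i = 0 := by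
  simp [Dat.VData.jj, Dat.trivV, Dat.kd, Dat.triv]

lemma Dat.triv_sym (D : Dat Λ I) : D.triv.Sym := fun d d' _ _ => by
  simp [Dat.kd, Dat.triv]

lemma Dat.triv_hdim (D : Dat Λ I) (A : Finset Λ) (m : ℕ) :
    D.triv.hdim (D.triv.KK A) A m = D.hd prN (D.typ A) m := by
  have : D.Id prN A = ⊥ := Ideal.span_eq_bot.2 (by rintro _ ⟨S, -, h, -⟩; exact h.elim)
  rw [D.hd_typ, D.triv_KK, this]
  rfl

end Vale.Agent.P066
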