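import Vale.Agent.P066.Count
import Vale.Agent.P066.Pbw
import Vale.Agent.P066.VEx

/-! Generating series of the total and of the semistable parts. -/

set_option linter.unusedSectionVars false

noncomputable section
open scoped Classical
open Module

namespace Vale.Agent.P066

variable {Λ I : Type} [Fintype Λ] [Fintype I]

/-- The Laurent series `∑ h m t^(2m)`. -/
def hs (h : ℕ → ℕ) : R :=
  HahnSeries.ofPowerSeries ℤ ℚ (PowerSeries.mk fun k => if 2 ∣ k then (h (k / 2) : ℚ) else 0)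

lemma hs_coeff (h : ℕ → ℕ) (m : ℕ) : (hs h).coeff (2 * m) = h m := by
  have := HahnSeries.ofPowerSeries_apply_coeff (Γ := ℤ)
    (PowerSeries.mk fun k => if 2 ∣ k then (h (k / 2) : ℚ) else 0) (2 * m)
  push_cast at this
  rw [hs, this]
  simp

lemma hs_coeff_ne (h : ℕ → ℕ) {k : ℤ} (hk : ∀ m : ℕ, k ≠ 2 * m) : (hs h).coeff k = 0 := by
  rw [hs, PowerSeries.coeff_coe]
  split_ifs with h0
  · rfl
  · rw [PowerSeries.coeff_mk, if_neg]
    rintro ⟨m, hm⟩
    exact hk m (by omega)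

lemma eq_tp_mul_hs {a : R} {c : ℤ} {h : ℕ → ℕ} (h1 : ∀ m : ℕ, a.coeff (2 * m - c) = h m)
    (h2 : ∀ k, (∀ m : ℕ, k ≠ 2 * m - c) → a.coeff k = 0) : a = tp (-c) * hs h := by
  ext k
  have : (tp (-c) * hs h).coeff k = (hs h).coeff (k + c) := by
    have := HahnSeries.coeff_single_mul_add (r := (1 : ℚ)) (x := hs h) (a := k + c) (b := -c)
    rw [add_neg_cancel_right, one_mul] at this
    exact this
  rw [this]
  by_cases hk : ∃ m : ℕ, k = 2 * m - c
  · obtain ⟨m, rfl⟩ := hk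
    rw [h1, sub_add_cancel, hs_coeff]
  · push Not at hk
    rw [h2 k hk, hs_coeff_ne]
    intro m hm
    exact hk m (by omega)

lemma kz_zv (D : Dat Λ I) (d d' : I → ℕ) : kz D.arr (zv d) (zv d') = D.kd d d' := by
  simp [kz, zv, Dat.kd]

lemma hs_eq (h : ℕ → ℕ) : hs h = HahnSeries.ofPowerSeries ℤ ℚ
    (PowerSeries.expand 2 two_ne_zero (PowerSeries.mk fun k => (h k : ℚ))) := by
  rw [hs]
  congr 1
  ext n
  simp [PowerSeries.coeff_expand]

lemma hs_zero : hs (fun _ => 0) = 0 := by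
  rw [hs_eq, show (PowerSeries.mk fun _ => ((0 : ℕ) : ℚ)) = 0 by ext; simp, map_zero, map_zero]

lemma hs_one : hs (fun m => if m = 0 then 1 else 0) = 1 := by
  rw [hs_eq, show (PowerSeries.mk fun m => ((if m = 0 then 1 else 0 : ℕ) : ℚ)) = 1 by
    ext; simp [PowerSeries.coeff_one], map_one, map_one]

lemma hs_sum {α : Type*} (s : Finset α) (h : α → ℕ → ℕ) :
    hs (fun m => ∑ a ∈ s, h a m) = ∑ a ∈ s, hs (h a) := by
  simp only [hs_eq, ← map_sum]
  congr 2
  ext n
  simp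

lemma hs_conv (h1 h2 : ℕ → ℕ) (κ : ℕ) :
    hs (fun m => ∑ m1 ∈ Finset.range (m + 1), ∑ m2 ∈ Finset.range (m + 1),
      if m1 + m2 + κ = m then h1 m1 * h2 m2 else 0) = tp (2 * κ) * (hs h1 * hs h2) := by
  have ht : tp (2 * κ) = HahnSeries.ofPowerSeries ℤ ℚ
      (PowerSeries.expand 2 two_ne_zero (PowerSeries.X ^ κ)) := by
    rw [map_pow, PowerSeries.expand_X, ← pow_mul, HahnSeries.ofPowerSeries_X_pow, tp]
    push_cast
    rfl
  simp only [hs_eq, ht, ← map_mul]
  congr 2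
  ext m
  rw [PowerSeries.coeff_mk, PowerSeries.coeff_X_pow_mul', ← Finset.sum_product', ← Finset.sum_filter]
  split_ifs with hk
  · rw [PowerSeries.coeff_mul]
    push_cast
    refine Finset.sum_congr ?_ fun p _ => by simp
    ext p
    simp only [Finset.mem_filter, Finset.mem_product, Finset.mem_range,
      Finset.HasAntidiagonal.mem_antidiagonal]
    omega
  · rw [Finset.filter_false_of_mem (fun p _ => by omega)]
    simp

lemma zv_mem (d : I → ℕ) : zv d ∈ cone (e0 I) := fun i => by simp [zv]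

lemma zv_single (i : I) : zv (Pi.single i 1 : I → ℕ) = e0 I i := by
  funext j
  by_cases h : j = i
  · subst h; simp [zv]
  · simp [zv, h]

theorem tot_series (D : Dat Λ I) (A : Finset Λ) :
    ∏ i, Fc (D.fer i) (D.typ A i) = hs (D.hd prN (D.typ A)) := by
  have hB : ∀ x y, (qq fun (_ _ : I) => 0).B x y = 0 := fun x y => by simp [qq_B, kz]
  have h1 := FP_basis (qq fun (_ _ : I) => 0) D.fer Finset.univ (fun _ _ _ _ => hB _ _)
    (zv (D.typ A))
  rw [if_pos ⟨zv_mem _, by simp⟩] at h1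
  have h2 := fun k => count (qq fun (_ _ : I) => 0) (G := I) D.trivV.par D.trivV.ty_ne
    D.trivV.jj (fun _ _ => hB _ _) (D.typ A) k
  have h3 : (fun v : I => (⟨D.trivV.par v, D.trivV.jj v, zv (D.trivV.ty v)⟩ : Fac (I → ℤ))) =
      fun i => ⟨D.fer i, 0, e0 I i⟩ := by
    funext i
    rw [D.trivV_par, D.trivV_jj, ← zv_single]
    rfl
  rw [h3, h1] at h2
  simp only [zv, Int.toNat_natCast] at h2
  have h0 : D.triv.kd (D.triv.typ A) (D.triv.typ A) = 0 := by simp [Dat.kd, Dat.triv]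
  rw [← one_mul (hs _), ← tp_zero, ← neg_zero]
  refine eq_tp_mul_hs (fun m => ?_) fun k hk => ?_
  · rw [h2, ← D.triv_hdim, D.trivV.pbw D.triv_sym, h0]
    rfl
  · rw [h2]
    have := D.trivV.GM_empty D.triv_sym A (k := k) (by rw [h0]; exact hk)
    exact (congrArg (fun s => ((Set.ncard s : ℕ) : ℚ)) this).trans (by simp)

theorem sst_series (D : Dat Λ I) (hS : D.Sym) :
    ∃ l : List (Fac (I → ℤ)), OkL (e0 I) l ∧ (∀ f ∈ l, ∑ i, D.φ i * f.m i = 0) ∧
      ∀ A : Finset Λ, FP (qq D.arr) (e0 I) l (zv (D.typ A)) =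
        tp (-(D.kd (D.typ A) (D.typ A) : ℤ)) * hs (D.hd prK (D.typ A)) := by
  obtain ⟨V⟩ := D.exists_VData
  refine ⟨Finset.univ.toList.map fun v => ⟨V.par v, V.jj v, zv (V.ty v)⟩, ?_, ?_, fun A => ?_⟩
  · intro f hf
    obtain ⟨v, -, rfl⟩ := List.mem_map.1 hf
    refine ⟨zv_mem _, fun h => V.ty_ne v (funext fun i => ?_)⟩
    simpa [zv] using congrFun h i
  · intro f hf
    obtain ⟨v, -, rfl⟩ := List.mem_map.1 hf
    exact V.ty_pd v
  · have h2 := fun k => count (qq D.arr) V.par V.ty_ne V.jj (fun v w => by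
      rw [qq_B, kz_zv, kz_zv, hS _ _ (V.ty_pd v) (V.ty_pd w), sub_self]) (D.typ A) k
    refine eq_tp_mul_hs (fun m => ?_) fun k hk => ?_
    · rw [h2, D.hd_typ, V.pbw hS]
    · rw [h2, V.GM_empty hS A hk]
      simp

end Vale.Agent.P066
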