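import Mathlib

/-! Definitions used in the statement. -/

noncomputable section
open scoped Classical

namespace Vale.Agent.P066

/-- Edges `{a, b}` with `a < b ≤ h a` of the natural unit interval graph. -/
def Edge {n : ℕ} (h : Fin n → Fin n) (a b : Fin n) : Prop := a < b ∧ b ≤ h a

/-- Proper colourings. -/
def IsProper {n : ℕ} (h : Fin n → Fin n) (f : Fin n → ℕ) : Prop :=
  ∀ a b, Edge h a b → f a ≠ f b

/-- Number of ascents. -/
def asc {n : ℕ} (h : Fin n → Fin n) (f : Fin n → ℕ) : ℕ :=
  (Finset.univ.filter fun p : Fin n × Fin n => Edge h p.1 p.2 ∧ f p.1 < f p.2).card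

/-- Exponent vector of the monomial `∏ x_(f a)`. -/
def content {n : ℕ} (f : Fin n → ℕ) : ℕ →₀ ℕ := ∑ a, Finsupp.single (f a) 1

/-- The chromatic quasisymmetric function: the coefficient of `x^u` is the sum of `q^asc` over the
proper colourings with monomial `x^u`. -/
def chi {n : ℕ} (h : Fin n → Fin n) : MvPowerSeries ℕ (Polynomial ℤ) :=
  fun u => ∑ᶠ f ∈ {f : Fin n → ℕ | IsProper h f ∧ content f = u}, Polynomial.X ^ asc h f

/-- The elementary symmetric function: the sum of the squarefree monomials of degree `k`. -/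
def esym (A : Type) [CommSemiring A] (k : ℕ) : MvPowerSeries ℕ A :=
  fun u => if (∀ i, u i ≤ 1) ∧ u.degree = k then 1 else 0

/-- The product of the elementary symmetric functions of the parts. -/
def eP {n : ℕ} (p : Nat.Partition n) : MvPowerSeries ℕ (Polynomial ℤ) :=
  (p.parts.map (esym (Polynomial ℤ))).prod

end Vale.Agent.P066
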