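import Vale.Agent.P066.Stmt

/-! Unit interval representations and elementary symmetric functions. -/

noncomputable section
open scoped Classical

namespace Vale.Agent.P066

lemma sym_semi_aux {n : ℕ} (h : Fin n → Fin n) (hm : Monotone h) (k : ℕ) :
    ∃ (m : ℕ) (y : Fin n → ℕ), 2 ≤ m ∧ (∀ a b : Fin n, a < b → b.val < k → y a < y b) ∧
      ∀ a b : Fin n, a < b → b.val < k → (b ≤ h a ↔ y b < y a + m) := by
  induction k with
  | zero => exact ⟨2, fun _ => 0, le_rfl, fun _ _ _ h => by omega, fun _ _ _ h => by omega⟩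
  | succ k ih =>
    obtain ⟨m, y, h2, hy, hh⟩ := ih
    set F : Fin n → ℕ := fun b => if (h b).val < k then y b + m else y b with hF
    set T := (Finset.univ.filter fun b : Fin n => b.val < k).sup F with hT
    have hTle : ∀ b : Fin n, b.val < k → F b ≤ T := fun b hb =>
      Finset.le_sup (f := F) (Finset.mem_filter.2 ⟨Finset.mem_univ b, hb⟩)
    refine ⟨2 * m, fun a => if a.val < k then 2 * y a else 2 * T + 1, by omega,
      fun a b hab hb => ?_, fun a b hab hb => ?_⟩
    · have hab' : a.val < b.val := hab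
      have ha : a.val < k := by omega
      by_cases hb' : b.val < k
      · have := hy a b hab hb'
        simp only [ha, hb', if_true]; omega
      · have h1 := hTle a ha
        have h3 : y a ≤ F a := by simp only [hF]; split_ifs <;> omega
        simp only [ha, hb', if_true, if_false]; omega
    · have hab' : a.val < b.val := hab
      have ha : a.val < k := by omega
      by_cases hb' : b.val < k
      · rw [hh a b hab hb']
        simp only [ha, hb', if_true]; omega
      · have hbk : b.val = k := by omega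
        simp only [ha, hb', if_true, if_false]
        constructor
        · intro hle
          have hle' : b.val ≤ (h a).val := hle
          have h1 : T < y a + m := by
            rw [hT, Finset.sup_lt_iff (by simp only [bot_eq_zero']; omega)]
            intro c hc
            have hc' : c.val < k := (Finset.mem_filter.1 hc).2
            simp only [hF]
            split_ifs with h3
            · have h4 : c < a := by
                by_contra h5
                have h6 : (h a).val ≤ (h c).val := hm (not_lt.1 h5)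
                omega
              have := hy c a h4 ha
              omega
            · rcases lt_trichotomy c a with h4 | h4 | h4
              · have := hy c a h4 ha
                omega
              · rw [h4]; omega
              · exact (hh a c h4 hc').1 (by show c.val ≤ (h a).val; omega)
          omega
        · intro hlt
          by_contra h3
          have h4 : (h a).val < b.val := not_le.1 h3
          have h5 := hTle a ha
          simp only [hF, if_pos (show (h a).val < k by omega)] at h5
          omega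

theorem semiorder {n : ℕ} (h : Fin n → Fin n) (hm : Monotone h) (hl : ∀ i, i ≤ h i) :
    ∃ (m : ℕ) (y : Fin n → ℕ), 2 ≤ m ∧ StrictMono y ∧
      ∀ a b, a < b → (b ≤ h a ↔ y b < y a + m) := by
  have _ := hl
  obtain ⟨m, y, h2, hy, hh⟩ := sym_semi_aux h hm n
  exact ⟨m, y, h2, fun a b hab => hy a b hab b.2, fun a b hab => hh a b hab b.2⟩

/-- Coefficients of a product of elementary symmetric functions. -/
def cnt (μ : Multiset ℕ) (u : ℕ →₀ ℕ) : ℕ := MvPowerSeries.coeff u (μ.map (esym ℕ)).prod

lemma sym_coeff_esym (A : Type) [CommSemiring A] (k : ℕ) (u : ℕ →₀ ℕ) :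
    MvPowerSeries.coeff u (esym A k) = if (∀ i, u i ≤ 1) ∧ u.degree = k then 1 else 0 := rfl

lemma coeff_prod_esym (A : Type) [CommSemiring A] (μ : Multiset ℕ) (u : ℕ →₀ ℕ) :
    MvPowerSeries.coeff u (μ.map (esym A)).prod = (cnt μ u : A) := by
  have h1 : ∀ k, MvPowerSeries.map (Nat.castRingHom A) (esym ℕ k) = esym A k := by
    intro k; ext v
    rw [MvPowerSeries.coeff_map, sym_coeff_esym, sym_coeff_esym]
    split_ifs <;> simp
  have h2 : (μ.map (esym A)).prod =
      MvPowerSeries.map (Nat.castRingHom A) (μ.map (esym ℕ)).prod := by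
    rw [map_multiset_prod, Multiset.map_map]
    simp only [Function.comp_def, h1]
  rw [h2, MvPowerSeries.coeff_map]; rfl

lemma sym_cnt_zero (u : ℕ →₀ ℕ) : cnt 0 u = if u = 0 then 1 else 0 := by
  simp [cnt, MvPowerSeries.coeff_one]

lemma sym_cnt_cons (k : ℕ) (μ : Multiset ℕ) (u : ℕ →₀ ℕ) :
    cnt (k ::ₘ μ) u = ∑ p ∈ Finset.HasAntidiagonal.antidiagonal u,
      (if (∀ i, p.1 i ≤ 1) ∧ p.1.degree = k then 1 else 0) * cnt μ p.2 := by
  simp only [cnt, Multiset.map_cons, Multiset.prod_cons, MvPowerSeries.coeff_mul, sym_coeff_esym]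

lemma sym_cnt_cons_ne {k : ℕ} {μ : Multiset ℕ} {u : ℕ →₀ ℕ} (h : cnt (k ::ₘ μ) u ≠ 0) :
    ∃ a b : ℕ →₀ ℕ, a + b = u ∧ (∀ i, a i ≤ 1) ∧ a.degree = k ∧ cnt μ b ≠ 0 := by
  rw [sym_cnt_cons] at h
  obtain ⟨p, hp, h1⟩ := Finset.exists_ne_zero_of_sum_ne_zero h
  have h2 : (∀ i, p.1 i ≤ 1) ∧ p.1.degree = k := by
    by_contra h3; simp [h3] at h1
  exact ⟨p.1, p.2, Finset.HasAntidiagonal.mem_antidiagonal.1 hp, h2.1, h2.2, right_ne_zero_of_mul h1⟩

lemma cnt_eq_zero {μ : Multiset ℕ} {u : ℕ →₀ ℕ} (h : u.degree ≠ μ.sum) : cnt μ u = 0 := by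
  induction μ using Multiset.induction_on generalizing u with
  | empty =>
    rw [sym_cnt_zero, if_neg]
    rintro rfl; simp at h
  | cons k μ ih =>
    by_contra h1
    obtain ⟨a, b, rfl, -, h3, h4⟩ := sym_cnt_cons_ne h1
    apply h4
    apply ih
    intro h5
    apply h
    rw [map_add, h3, h5, Multiset.sum_cons]

lemma sym_esym_zero : esym ℕ 0 = 1 := by
  ext u
  rw [sym_coeff_esym, MvPowerSeries.coeff_one]
  by_cases h : u = 0
  · subst h; simp
  · simp [h, Finsupp.degree_eq_zero_iff]

lemma cnt_filter (μ : Multiset ℕ) (u : ℕ →₀ ℕ) : cnt (μ.filter (· ≠ 0)) u = cnt μ u := by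
  have h : ((μ.filter (· ≠ 0)).map (esym ℕ)).prod = (μ.map (esym ℕ)).prod := by
    induction μ using Multiset.induction_on with
    | empty => simp
    | cons k μ ih =>
      by_cases hk : k = 0
      · subst hk
        rw [Multiset.filter_cons_of_neg _ (by simp), ih, Multiset.map_cons, Multiset.prod_cons,
          sym_esym_zero, one_mul]
      · rw [Multiset.filter_cons_of_pos (p := (· ≠ 0)) _ hk, Multiset.map_cons, Multiset.prod_cons, ih,
          Multiset.map_cons, Multiset.prod_cons]
  unfold cnt; rw [h]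

/-- The row of a zero-one matrix given by its columns. -/
def symRow {J : Type} {N : ℕ} (S : Fin N → Finset J) (j : J) : ℕ →₀ ℕ :=
  ∑ c : Fin N, if j ∈ S c then Finsupp.single c.val 1 else 0

lemma symRow_fin {J : Type} {N : ℕ} (S : Fin N → Finset J) (j : J) (c : Fin N) :
    symRow S j c = if j ∈ S c then 1 else 0 := by
  unfold symRow
  rw [Finsupp.finsetSum_apply, Finset.sum_eq_single c]
  · split_ifs <;> simp
  · intro b _ hb
    have : b.val ≠ c.val := fun h => hb (Fin.ext h)
    split_ifs <;> simp [this]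
  · simp

lemma symRow_big {J : Type} {N : ℕ} (S : Fin N → Finset J) (j : J) {i : ℕ} (hi : N ≤ i) :
    symRow S j i = 0 := by
  unfold symRow
  rw [Finsupp.finsetSum_apply]
  refine Finset.sum_eq_zero fun b _ => ?_
  have : b.val ≠ i := by have := b.2; omega
  split_ifs <;> simp [this]

lemma symRow_le {J : Type} {N : ℕ} (S : Fin N → Finset J) (j : J) (i : ℕ) : symRow S j i ≤ 1 := by
  rcases lt_or_ge i N with h | h
  · rw [symRow_fin S j ⟨i, h⟩]; split_ifs <;> simp
  · rw [symRow_big S j h]; simp

lemma symRow_degree {J : Type} {N : ℕ} (S : Fin N → Finset J) (j : J) :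
    (symRow S j).degree = (Finset.univ.filter fun c => j ∈ S c).card := by
  unfold symRow
  rw [map_sum, Finset.card_filter]
  refine Finset.sum_congr rfl fun c _ => ?_
  split_ifs <;> simp

lemma symRow_sum {J : Type} [Fintype J] {N : ℕ} (S : Fin N → Finset J) {u : ℕ →₀ ℕ}
    (hN : ∀ i ∈ u.support, i < N) : ∑ j, symRow S j = u ↔ ∀ c, (S c).card = u c := by
  have h1 : ∀ c : Fin N, (∑ j, symRow S j) c = (S c).card := by
    intro c
    rw [Finsupp.finsetSum_apply]
    simp [symRow_fin]
  constructor
  · rintro rfl c; rw [h1]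
  · intro h
    ext i
    rcases lt_or_ge i N with hi | hi
    · rw [h1 ⟨i, hi⟩, h]
    · rw [Finsupp.finsetSum_apply, Finset.sum_eq_zero fun j _ => symRow_big S j hi]
      by_contra h2
      have := hN i (Finsupp.mem_support_iff.2 (Ne.symm h2))
      omega

/-- The coefficient counts zero-one matrices. -/
lemma cnt_eq_card {J : Type} [Fintype J] (μ : J → ℕ) (u : ℕ →₀ ℕ) {N : ℕ}
    (hN : ∀ i ∈ u.support, i < N) :
    cnt (Finset.univ.val.map μ) u =
      (Finset.univ.filter fun S : Fin N → Finset J => (∀ c, (S c).card = u c) ∧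
        ∀ j, (Finset.univ.filter fun c => j ∈ S c).card = μ j).card := by
  have e : ((Finset.univ.val.map μ).map (esym ℕ)).prod = ∏ j, esym ℕ (μ j) := by
    rw [Multiset.map_map]; rfl
  unfold cnt
  rw [e, MvPowerSeries.coeff_prod]
  simp only [sym_coeff_esym, Finset.prod_boole, Finset.mem_univ, true_imp_iff]
  rw [← Finset.card_filter]
  symm
  refine Finset.card_bij (fun S _ => Finsupp.equivFunOnFinite.symm (symRow S)) ?_ ?_ ?_
  · intro S hS
    obtain ⟨-, h1, h2⟩ := Finset.mem_filter.1 hS
    refine Finset.mem_filter.2 ⟨Finset.mem_finsuppAntidiag.2 ⟨?_, Finset.subset_univ _⟩,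
      fun j => ⟨symRow_le S j, ?_⟩⟩
    · exact (symRow_sum S hN).2 h1
    · exact (symRow_degree S j).trans (h2 j)
  · intro S _ S' _ h
    have h1 := Finsupp.equivFunOnFinite.symm.injective h
    funext c; ext j
    have h2 := symRow_fin S j c
    rw [h1, symRow_fin] at h2
    by_cases h3 : j ∈ S c <;> by_cases h4 : j ∈ S' c <;> simp_all
  · intro l hl
    obtain ⟨h1, h2⟩ := Finset.mem_filter.1 hl
    have h3 := (Finset.mem_finsuppAntidiag.1 h1).1
    set S : Fin N → Finset J := fun c => Finset.univ.filter fun j => l j c = 1 with hS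
    have h4 : ∀ j, symRow S j = l j := by
      intro j; ext i
      rcases lt_or_ge i N with hi | hi
      · rw [symRow_fin S j ⟨i, hi⟩]
        have := (h2 j).1 i
        simp only [hS, Finset.mem_filter, Finset.mem_univ, true_and]
        split_ifs <;> omega
      · rw [symRow_big S j hi]
        have h5 : u i = 0 := by
          by_contra h6
          have := hN i (Finsupp.mem_support_iff.2 h6)
          omega
        rw [← h3, Finsupp.finsetSum_apply, Finset.sum_eq_zero_iff] at h5
        exact (h5 j (Finset.mem_univ j)).symm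
    refine ⟨S, Finset.mem_filter.2 ⟨Finset.mem_univ _, (symRow_sum S hN).1 ?_, fun j => ?_⟩, ?_⟩
    · simp only [h4]; exact h3
    · rw [← symRow_degree, h4]; exact (h2 j).2
    · ext j i
      rw [← h4]; rfl

/-- The initial segment of length `k`. -/
def symIni (k : ℕ) : ℕ →₀ ℕ := ∑ i ∈ Finset.range k, Finsupp.single i 1

lemma symIni_apply (k i : ℕ) : symIni k i = if i < k then 1 else 0 := by
  unfold symIni
  rw [Finsupp.finsetSum_apply]
  simp [Finsupp.single_apply]

lemma symIni_degree (k : ℕ) : (symIni k).degree = k := by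
  unfold symIni
  rw [map_sum]; simp

lemma sym_lex_ini {a : ℕ →₀ ℕ} (h : ∀ i, a i ≤ 1) : toLex a ≤ toLex (symIni a.degree) := by
  by_contra h1
  obtain ⟨i, h2, h3⟩ := Finsupp.Lex.lt_iff.1 (not_le.1 h1)
  simp only [ofLex_toLex, symIni_apply] at h2 h3
  have h4 : a.degree ≤ i := by
    by_contra h5
    rw [if_pos (not_le.1 h5)] at h3
    have := h i
    omega
  have h5 : insert i (Finset.range a.degree) ⊆ a.support := by
    intro j hj
    rw [Finsupp.mem_support_iff]
    rcases Finset.mem_insert.1 hj with rfl | hj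
    · omega
    · have h6 := Finset.mem_range.1 hj
      have h7 := h2 j (by omega)
      rw [if_pos h6] at h7
      omega
  have h6 := Finset.card_le_card h5
  rw [Finset.card_insert_of_notMem (by simp; omega), Finset.card_range] at h6
  have h7 : a.support.card ≤ a.degree := by
    rw [Finsupp.degree_apply, Finset.card_eq_sum_ones]
    exact Finset.sum_le_sum fun j hj => Nat.one_le_iff_ne_zero.2 (Finsupp.mem_support_iff.1 hj)
  omega

/-- The conjugate exponent. -/
def symCj (μ : Multiset ℕ) : ℕ →₀ ℕ := (μ.map symIni).sum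

lemma sym_lex {μ : Multiset ℕ} {u : ℕ →₀ ℕ} (h : cnt μ u ≠ 0) : toLex u ≤ toLex (symCj μ) := by
  induction μ using Multiset.induction_on generalizing u with
  | empty =>
    rw [sym_cnt_zero] at h
    have : u = 0 := by by_contra h1; simp [h1] at h
    subst this; simp [symCj]
  | cons k μ ih =>
    obtain ⟨a, b, rfl, h2, rfl, h4⟩ := sym_cnt_cons_ne h
    unfold symCj
    rw [Multiset.map_cons, Multiset.sum_cons, toLex_add, toLex_add]
    exact add_le_add (sym_lex_ini h2) (ih h4)

lemma sym_cnt_cj (μ : Multiset ℕ) : cnt μ (symCj μ) ≠ 0 := by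
  induction μ using Multiset.induction_on with
  | empty => simp [sym_cnt_zero, symCj]
  | cons k μ ih =>
    rw [sym_cnt_cons]
    intro h
    have h1 := Finset.sum_eq_zero_iff.1 h (symIni k, symCj μ)
      (Finset.HasAntidiagonal.mem_antidiagonal.2 (by simp [symCj]))
    rw [if_pos ⟨fun i => by rw [symIni_apply]; split_ifs <;> simp, symIni_degree k⟩, one_mul] at h1
    exact ih h1

lemma symCj_succ (μ : Multiset ℕ) (i : ℕ) : symCj μ i = μ.count (i + 1) + symCj μ (i + 1) := by
  induction μ using Multiset.induction_on with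
  | empty => simp [symCj]
  | cons k μ ih =>
    have e : ∀ j, symCj (k ::ₘ μ) j = symIni k j + symCj μ j := fun j => by simp [symCj]
    rw [e, e, ih, Multiset.count_cons, symIni_apply, symIni_apply]
    split_ifs <;> omega

lemma symCj_inj {n : ℕ} {p p' : Nat.Partition n} (h : symCj p.parts = symCj p'.parts) :
    p = p' := by
  ext k
  rcases k with _ | k
  · rw [Multiset.count_eq_zero.2 fun h => (p.parts_pos h).ne rfl,
      Multiset.count_eq_zero.2 fun h => (p'.parts_pos h).ne rfl]
  · have h1 := symCj_succ p.parts k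
    have h2 := symCj_succ p'.parts k
    rw [h] at h1
    omega

theorem eP_indep {n : ℕ} (c : Nat.Partition n → Polynomial ℤ)
    (h : ∑ p, MvPowerSeries.C (c p) * eP p = 0) : c = 0 := by
  by_contra hc
  obtain ⟨p0, hp0⟩ := Function.ne_iff.1 hc
  obtain ⟨p, hp, hmax⟩ := Finset.exists_max_image (Finset.univ.filter fun p => c p ≠ 0)
    (fun p => toLex (symCj p.parts)) ⟨p0, Finset.mem_filter.2 ⟨Finset.mem_univ _, hp0⟩⟩
  have h1 := congrArg (MvPowerSeries.coeff (symCj p.parts)) h
  rw [map_sum, map_zero, Finset.sum_eq_single p] at h1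
  · rw [MvPowerSeries.coeff_C_mul, eP, coeff_prod_esym, mul_eq_zero] at h1
    rcases h1 with h1 | h1
    · exact (Finset.mem_filter.1 hp).2 h1
    · exact sym_cnt_cj _ (Nat.cast_eq_zero.1 h1)
  · intro p' _ hne
    rw [MvPowerSeries.coeff_C_mul, eP, coeff_prod_esym]
    by_contra h2
    have h3 := hmax p' (Finset.mem_filter.2 ⟨Finset.mem_univ _, left_ne_zero_of_mul h2⟩)
    have h4 := sym_lex (Nat.cast_ne_zero.1 (right_ne_zero_of_mul h2))
    exact hne (symCj_inj (toLex.injective (le_antisymm h3 h4)))
  · simp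

/-- The proper colourings with given monomial, as a finset. -/
def colS {n : ℕ} (h : Fin n → Fin n) (u : ℕ →₀ ℕ) : Finset (Fin n → ℕ) :=
  (Fintype.piFinset fun _ => u.support).filter fun f => IsProper h f ∧ content f = u

lemma sym_content_apply {n : ℕ} (f : Fin n → ℕ) (i : ℕ) :
    content f i = (Finset.univ.filter fun a => f a = i).card := by
  unfold content
  rw [Finsupp.finsetSum_apply, Finset.card_filter]
  simp [Finsupp.single_apply]

lemma mem_colS {n : ℕ} {h : Fin n → Fin n} {u : ℕ →₀ ℕ} {f : Fin n → ℕ} :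
    f ∈ colS h u ↔ IsProper h f ∧ content f = u := by
  unfold colS
  rw [Finset.mem_filter, and_iff_right_iff_imp]
  rintro ⟨-, rfl⟩
  rw [Fintype.mem_piFinset]
  intro a
  rw [Finsupp.mem_support_iff, sym_content_apply]
  exact Finset.card_ne_zero.2 ⟨a, by simp⟩

lemma coeff_chi {n : ℕ} (h : Fin n → Fin n) (u : ℕ →₀ ℕ) :
    MvPowerSeries.coeff u (chi h) = ∑ f ∈ colS h u, Polynomial.X ^ asc h f := by
  have e : {f : Fin n → ℕ | IsProper h f ∧ content f = u} = ↑(colS h u) := by
    ext f; rw [Finset.mem_coe, mem_colS]; rfl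
  rw [MvPowerSeries.coeff_apply, chi, e, finsum_mem_coe_finset]

lemma colS_eq_empty {n : ℕ} (h : Fin n → Fin n) {u : ℕ →₀ ℕ} (hu : u.degree ≠ n) :
    colS h u = ∅ := by
  refine Finset.eq_empty_of_forall_notMem fun f hf => hu ?_
  rw [← (mem_colS.1 hf).2, content, map_sum]; simp

/-- Number of edges. -/
def nE {n : ℕ} (h : Fin n → Fin n) : ℕ :=
  (Finset.univ.filter fun p : Fin n × Fin n => Edge h p.1 p.2).card

lemma asc_le {n : ℕ} (h : Fin n → Fin n) (f : Fin n → ℕ) : asc h f ≤ nE h :=
  Finset.card_le_card fun _ hp =>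
    Finset.mem_filter.2 ⟨Finset.mem_univ _, (Finset.mem_filter.1 hp).2.1⟩

end Vale.Agent.P066
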